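import Vale.Agent.H23.L1Pi

/-!
# The antipodal property for `ℓ¹`-sums of two arbitrary nontrivial normed spaces

Every surjective isometry `f` from the unit sphere of `X₁ ⊕₁ X₂` (`X₁`, `X₂` arbitrary nontrivial
real normed spaces) onto the unit sphere of a real normed space satisfies `f (-x) = - f x`.

The proof studies the isometric involution `Ψ = f⁻¹ ∘ (-·) ∘ f` of the unit sphere of the sum,
which moves every point by the distance `2`, and shows that it is `x ↦ -x`: it preserves each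
summand, acts coordinatewise through isometric involutions of the unit balls of the summands, and
such an involution of a ball moving every `c` by `2‖c‖` is `c ↦ -c` (a local Mazur-Ulam
argument).
-/

namespace Vale.Agent.H23

section Center

variable {M M' : Type*} [MetricSpace M] [MetricSpace M']

/-- Every self-isometry of a bounded metric space with a central symmetry `R` (that is,
`dist (R z) z = 2 * dist z m` for all `z`) fixes the centre `m`. -/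
theorem fixed_of_symmetry (m : M) (R : M ≃ᵢ M) (hR : ∀ z, dist (R z) z = 2 * dist z m)
    (C : ℝ) (hC : ∀ z, dist z m ≤ C) (e : M ≃ᵢ M) : e m = m := by
  have hRm : R m = m := by
    have := hR m
    rw [dist_self, mul_zero] at this
    exact dist_eq_zero.mp this
  have h_bdd : BddAbove (Set.range fun e : M ≃ᵢ M => dist (e m) m) :=
    ⟨C, Set.forall_mem_range.2 fun e => hC (e m)⟩
  set f : M ≃ᵢ M → M ≃ᵢ M := fun e => ((e.trans R).trans e.symm).trans R with hf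
  have hf_dist : ∀ e : M ≃ᵢ M, dist (f e m) m = 2 * dist (e m) m := by
    intro e
    show dist (R (e.symm (R (e m)))) m = 2 * dist (e m) m
    calc dist (R (e.symm (R (e m)))) m = dist (R (e.symm (R (e m)))) (R m) := by rw [hRm]
      _ = dist (e.symm (R (e m))) m := R.dist_eq _ _
      _ = dist (e (e.symm (R (e m)))) (e m) := (e.dist_eq _ _).symm
      _ = dist (R (e m)) (e m) := by rw [e.apply_symm_apply]
      _ = 2 * dist (e m) m := hR _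
  set c := ⨆ e : M ≃ᵢ M, dist (e m) m with hc
  have h1 : c ≤ c / 2 := by
    apply ciSup_le
    intro e
    rw [le_div_iff₀' (zero_lt_two' ℝ), ← hf_dist]
    exact le_ciSup h_bdd (f e)
  have h2 : c ≤ 0 := by linarith
  exact dist_le_zero.1 (le_trans (le_ciSup h_bdd e) h2)

/-- An isometric bijection between two bounded metric spaces with central symmetries maps the
centre to the centre. -/
theorem map_center {m : M} {R : M ≃ᵢ M} (hR : ∀ z, dist (R z) z = 2 * dist z m) {C : ℝ}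
    (hC : ∀ z, dist z m ≤ C) {m' : M'} {R' : M' ≃ᵢ M'}
    (hR' : ∀ z, dist (R' z) z = 2 * dist z m') (h : M ≃ᵢ M') : h m = m' := by
  have hRm : R m = m := by
    have := hR m
    rw [dist_self, mul_zero] at this
    exact dist_eq_zero.mp this
  have he := fixed_of_symmetry m R hR C hC (((h.trans R').trans h.symm).trans R)
  have h1 : R (h.symm (R' (h m))) = m := he
  have h2 : h.symm (R' (h m)) = m := R.injective (by rw [h1, hRm])
  have h3 : R' (h m) = h m := by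
    have := congrArg h h2
    rwa [h.apply_symm_apply] at this
  have h4 := hR' (h m)
  rw [h3, dist_self] at h4
  exact dist_eq_zero.mp (by linarith)

end Center

section Ball

variable {V : Type*} [NormedAddCommGroup V] [NormedSpace ℝ V]

/-- The set of metric midpoints of `p` and `q`. -/
def midSet (p q : V) : Set V := {z | ‖z - p‖ = ‖p - q‖ / 2 ∧ ‖z - q‖ = ‖p - q‖ / 2}

lemma half_add_mem_midSet (p q : V) : (1 / 2 : ℝ) • (p + q) ∈ midSet p q := by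
  constructor
  · have : (1 / 2 : ℝ) • (p + q) - p = (-(1 / 2 : ℝ)) • (p - q) := by module
    rw [this, norm_smul]; norm_num; ring
  · have : (1 / 2 : ℝ) • (p + q) - q = (1 / 2 : ℝ) • (p - q) := by module
    rw [this, norm_smul]; norm_num; ring

omit [NormedSpace ℝ V] in
lemma sub_mem_midSet {p q z : V} (hz : z ∈ midSet p q) : p + q - z ∈ midSet p q := by
  constructor
  · have : p + q - z - p = -(z - q) := by abel
    rw [this, norm_neg]; exact hz.2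
  · have : p + q - z - q = -(z - p) := by abel
    rw [this, norm_neg]; exact hz.1

/-- The point reflection of the set of metric midpoints. -/
noncomputable def midRefl (p q : V) : midSet p q ≃ᵢ midSet p q :=
  IsometryEquiv.mk' (fun z => ⟨p + q - z, sub_mem_midSet z.2⟩)
    (fun z => ⟨p + q - z, sub_mem_midSet z.2⟩)
    (fun z => Subtype.ext (by simp))
    (Isometry.of_dist_eq fun z z' => by
      rw [Subtype.dist_eq, Subtype.dist_eq, dist_eq_norm, dist_eq_norm]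
      have : p + q - (z : V) - (p + q - (z' : V)) = -((z : V) - z') := by abel
      rw [this, norm_neg])

lemma dist_midRefl (p q : V) (z : midSet p q) :
    dist (midRefl p q z) z = 2 * dist z ⟨(1 / 2 : ℝ) • (p + q), half_add_mem_midSet p q⟩ := by
  rw [Subtype.dist_eq, Subtype.dist_eq, dist_eq_norm, dist_eq_norm]
  show ‖p + q - (z : V) - z‖ = 2 * ‖(z : V) - (1 / 2 : ℝ) • (p + q)‖
  have : p + q - (z : V) - z = (-2 : ℝ) • ((z : V) - (1 / 2 : ℝ) • (p + q)) := by module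
  rw [this, norm_smul]; norm_num

lemma dist_le_midSet (p q : V) (z : midSet p q) :
    dist z ⟨(1 / 2 : ℝ) • (p + q), half_add_mem_midSet p q⟩ ≤ ‖p - q‖ := by
  rw [Subtype.dist_eq, dist_eq_norm]
  show ‖(z : V) - (1 / 2 : ℝ) • (p + q)‖ ≤ ‖p - q‖
  have e : (z : V) - (1 / 2 : ℝ) • (p + q) = ((z : V) - p) + (1 / 2 : ℝ) • (p - q) := by module
  have h1 : ‖(z : V) - p‖ = ‖p - q‖ / 2 := z.2.1
  have h2 : ‖(1 / 2 : ℝ) • (p - q)‖ = ‖p - q‖ / 2 := by rw [norm_smul]; norm_num; ring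
  calc ‖(z : V) - (1 / 2 : ℝ) • (p + q)‖ ≤ ‖(z : V) - p‖ + ‖(1 / 2 : ℝ) • (p - q)‖ := by
        rw [e]; exact norm_add_le _ _
    _ = ‖p - q‖ := by rw [h1, h2]; ring

/-- A norm-preserving isometric involution of the unit ball preserves the midpoint of `p, q`
whenever the metric midpoints of `p, q` and of their images lie in the ball. -/
theorem map_half_add {κ : V → V} (hnorm : ∀ c, ‖c‖ ≤ 1 → ‖κ c‖ = ‖c‖)
    (hdist : ∀ c c', ‖c‖ ≤ 1 → ‖c'‖ ≤ 1 → ‖κ c - κ c'‖ = ‖c - c'‖)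
    (hinv : ∀ c, ‖c‖ ≤ 1 → κ (κ c) = c) {p q : V} (hp : ‖p‖ ≤ 1) (hq : ‖q‖ ≤ 1)
    (hS : ∀ z ∈ midSet p q, ‖z‖ ≤ 1) (hS' : ∀ z ∈ midSet (κ p) (κ q), ‖z‖ ≤ 1) :
    κ ((1 / 2 : ℝ) • (p + q)) = (1 / 2 : ℝ) • (κ p + κ q) := by
  have hκp : ‖κ p‖ ≤ 1 := by rw [hnorm p hp]; exact hp
  have hκq : ‖κ q‖ ≤ 1 := by rw [hnorm q hq]; exact hq
  have hpq : ‖κ p - κ q‖ = ‖p - q‖ := hdist p q hp hq
  have hmaps : ∀ z ∈ midSet p q, κ z ∈ midSet (κ p) (κ q) := by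
    intro z hz
    have hz1 := hS z hz
    exact ⟨by rw [hdist z p hz1 hp, hpq]; exact hz.1, by rw [hdist z q hz1 hq, hpq]; exact hz.2⟩
  have hmaps' : ∀ y ∈ midSet (κ p) (κ q), κ y ∈ midSet p q := by
    intro y hy
    have hy1 := hS' y hy
    constructor
    · have h1 := hdist y (κ p) hy1 hκp
      rw [hinv p hp] at h1
      rw [h1, ← hpq]; exact hy.1
    · have h1 := hdist y (κ q) hy1 hκq
      rw [hinv q hq] at h1
      rw [h1, ← hpq]; exact hy.2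
  let h : midSet p q ≃ᵢ midSet (κ p) (κ q) :=
    IsometryEquiv.mk' (fun z => ⟨κ z, hmaps z z.2⟩) (fun y => ⟨κ y, hmaps' y y.2⟩)
      (fun y => Subtype.ext (hinv y (hS' y y.2)))
      (Isometry.of_dist_eq fun z z' => by
        rw [Subtype.dist_eq, Subtype.dist_eq, dist_eq_norm, dist_eq_norm]
        exact hdist z z' (hS z z.2) (hS z' z'.2))
  have := map_center (dist_midRefl p q) (dist_le_midSet p q) (dist_midRefl (κ p) (κ q)) h
  exact congrArg Subtype.val this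

/-- A norm-preserving isometric involution `κ` of the closed unit ball with
`‖κ c - c‖ = 2 * ‖c‖` for all `c` is `c ↦ -c`. -/
theorem eq_neg_of_ball_involution {κ : V → V} (hnorm : ∀ c, ‖c‖ ≤ 1 → ‖κ c‖ = ‖c‖)
    (hdist : ∀ c c', ‖c‖ ≤ 1 → ‖c'‖ ≤ 1 → ‖κ c - κ c'‖ = ‖c - c'‖)
    (hinv : ∀ c, ‖c‖ ≤ 1 → κ (κ c) = c)
    (htwo : ∀ c, ‖c‖ ≤ 1 → ‖κ c - c‖ = 2 * ‖c‖) : ∀ c, ‖c‖ ≤ 1 → κ c = -c := by
  have hκ0 : κ 0 = 0 := norm_eq_zero.mp (by rw [hnorm 0 (by simp)]; simp)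
  have hhalf : ∀ p : V, ‖p‖ ≤ 1 / 2 → κ p = -p := by
    intro p hp
    have hp1 : ‖p‖ ≤ 1 := by linarith
    have hκp : ‖κ p‖ = ‖p‖ := hnorm p hp1
    have hS : ∀ z ∈ midSet p (κ p), ‖z‖ ≤ 1 := by
      intro z hz
      have h1 : ‖z‖ ≤ ‖z - p‖ + ‖p‖ := by
        have := norm_add_le (z - p) p
        rwa [sub_add_cancel] at this
      have h2 : ‖p - κ p‖ ≤ ‖p‖ + ‖κ p‖ := norm_sub_le _ _
      rw [hz.1] at h1
      linarith
    have hS' : ∀ z ∈ midSet (κ p) (κ (κ p)), ‖z‖ ≤ 1 := by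
      rw [hinv p hp1]
      intro z hz
      have h1 : ‖z‖ ≤ ‖z - p‖ + ‖p‖ := by
        have := norm_add_le (z - p) p
        rwa [sub_add_cancel] at this
      have h2 : ‖κ p - p‖ ≤ ‖κ p‖ + ‖p‖ := norm_sub_le _ _
      rw [hz.2] at h1
      linarith
    have hmid := map_half_add hnorm hdist hinv hp1 (by rw [hκp]; exact hp1) hS hS'
    rw [hinv p hp1] at hmid
    obtain ⟨c, hc⟩ : ∃ c : V, c = (1 / 2 : ℝ) • (p + κ p) := ⟨_, rfl⟩
    have hcc : κ c = c := by rw [hc, hmid, add_comm]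
    have hc1 : ‖c‖ ≤ 1 := by
      have h3 := norm_add_le p (κ p)
      rw [hc, norm_smul]
      norm_num
      linarith
    have h0 := htwo c hc1
    rw [hcc, sub_self, norm_zero] at h0
    have hc0 : c = 0 := norm_eq_zero.mp (by linarith)
    have h5 : p + κ p = 0 := by
      rw [hc] at hc0
      exact (smul_eq_zero.mp hc0).resolve_left (by norm_num)
    exact eq_neg_of_add_eq_zero_right h5
  intro c hc
  have hS : ∀ z ∈ midSet (0 : V) c, ‖z‖ ≤ 1 := by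
    intro z hz
    have := hz.1
    rw [sub_zero, zero_sub, norm_neg] at this
    linarith
  have hS' : ∀ z ∈ midSet (κ 0) (κ c), ‖z‖ ≤ 1 := by
    rw [hκ0]
    intro z hz
    have := hz.1
    rw [sub_zero, zero_sub, norm_neg, hnorm c hc] at this
    linarith
  have hmid := map_half_add hnorm hdist hinv (by simp) hc hS hS'
  rw [hκ0, zero_add, zero_add] at hmid
  have h2 := hhalf ((1 / 2 : ℝ) • c) (by rw [norm_smul]; norm_num; linarith)
  rw [h2] at hmid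
  have h3 : (1 / 2 : ℝ) • κ c = (1 / 2 : ℝ) • (-c) := by rw [← hmid]; module
  exact smul_right_injective V (by norm_num : (1 / 2 : ℝ) ≠ 0) h3

/-- A point of the closed unit ball is determined by its distances to the unit vectors. -/
lemma eq_of_dist_sphere_eq {c' c'' : V} (h' : ‖c'‖ ≤ 1)
    (h : ∀ a : V, ‖a‖ = 1 → ‖c' - a‖ = ‖c'' - a‖) : c' = c'' := by
  by_contra hne
  obtain ⟨e, he⟩ : ∃ e : V, e = c' - c'' := ⟨_, rfl⟩
  have he0 : e ≠ 0 := by rw [he]; exact sub_ne_zero.mpr hne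
  have hepos : 0 < ‖e‖ := norm_pos_iff.mpr he0
  have hcont : Continuous (fun t : ℝ => ‖c' + t • e‖) := by fun_prop
  have h0 : (fun t : ℝ => ‖c' + t • e‖) 0 ≤ 1 := by simpa using h'
  have hT : 1 ≤ (fun t : ℝ => ‖c' + t • e‖) (2 / ‖e‖) := by
    show 1 ≤ ‖c' + (2 / ‖e‖) • e‖
    have h1 : ‖(2 / ‖e‖) • e‖ = 2 := by
      rw [norm_smul, Real.norm_eq_abs, abs_of_pos (by positivity)]
      field_simp
    have h2 := norm_sub_norm_le ((2 / ‖e‖) • e) (-c')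
    rw [sub_neg_eq_add, norm_neg, h1, add_comm] at h2
    linarith
  obtain ⟨t, ⟨ht0, -⟩, ht⟩ :=
    intermediate_value_Icc (by positivity : (0 : ℝ) ≤ 2 / ‖e‖) hcont.continuousOn ⟨h0, hT⟩
  have ht' : ‖c' + t • e‖ = 1 := ht
  have h1 := h (c' + t • e) ht'
  have e1 : c' - (c' + t • e) = (-t) • e := by module
  have e2 : c'' - (c' + t • e) = (-(1 + t)) • e := by rw [he]; module
  rw [e1, e2, norm_smul, norm_smul, Real.norm_eq_abs, Real.norm_eq_abs, abs_neg, abs_neg,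
    abs_of_nonneg ht0, abs_of_nonneg (by linarith)] at h1
  nlinarith

end Ball

section L1Anti

variable {X₁ X₂ : Type*} [NormedAddCommGroup X₁] [NormedSpace ℝ X₁]
  [NormedAddCommGroup X₂] [NormedSpace ℝ X₂]

/-- An isometric involution of the unit sphere of `X₁ ⊕₁ X₂` which moves every point by the
distance `2`, written in coordinates. -/
structure AntiSys (Ψ₁ : X₁ → X₂ → X₁) (Ψ₂ : X₁ → X₂ → X₂) : Prop where
  norm : ∀ c d, ‖c‖ + ‖d‖ = 1 → ‖Ψ₁ c d‖ + ‖Ψ₂ c d‖ = 1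
  dist : ∀ c d c' d', ‖c‖ + ‖d‖ = 1 → ‖c'‖ + ‖d'‖ = 1 →
    ‖Ψ₁ c d - Ψ₁ c' d'‖ + ‖Ψ₂ c d - Ψ₂ c' d'‖ = ‖c - c'‖ + ‖d - d'‖
  invol₁ : ∀ c d, ‖c‖ + ‖d‖ = 1 → Ψ₁ (Ψ₁ c d) (Ψ₂ c d) = c
  invol₂ : ∀ c d, ‖c‖ + ‖d‖ = 1 → Ψ₂ (Ψ₁ c d) (Ψ₂ c d) = d
  two : ∀ c d, ‖c‖ + ‖d‖ = 1 → ‖Ψ₁ c d - c‖ + ‖Ψ₂ c d - d‖ = 2

omit [NormedSpace ℝ X₁] [NormedSpace ℝ X₂] in
lemma AntiSys.swap {Ψ₁ : X₁ → X₂ → X₁} {Ψ₂ : X₁ → X₂ → X₂} (h : AntiSys Ψ₁ Ψ₂) :
    AntiSys (fun d c => Ψ₂ c d) (fun d c => Ψ₁ c d) where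
  norm d c hcd := by
    have := h.norm c d (by linarith)
    linarith
  dist d c d' c' hcd hcd' := by
    have := h.dist c d c' d' (by linarith) (by linarith)
    linarith
  invol₁ d c hcd := h.invol₂ c d (by linarith)
  invol₂ d c hcd := h.invol₁ c d (by linarith)
  two d c hcd := by
    have := h.two c d (by linarith)
    linarith

/-- The involution maps the first summand into itself. -/
lemma AntiSys.snd_pole {Ψ₁ : X₁ → X₂ → X₁} {Ψ₂ : X₁ → X₂ → X₂} (h : AntiSys Ψ₁ Ψ₂) {a : X₁}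
    (ha : ‖a‖ = 1) : Ψ₂ a 0 = 0 := by
  by_contra hne
  have ha0 : ‖a‖ + ‖(0 : X₂)‖ = 1 := by simp [ha]
  obtain ⟨d₀, hd₀⟩ : ∃ d₀ : X₂, d₀ = Ψ₂ a 0 := ⟨_, rfl⟩
  obtain ⟨c₀, hc₀⟩ : ∃ c₀ : X₁, c₀ = Ψ₁ a 0 := ⟨_, rfl⟩
  rw [← hd₀] at hne
  have hd₀pos : 0 < ‖d₀‖ := norm_pos_iff.mpr hne
  have hd₀le : ‖d₀‖ ≤ 1 := by
    have := h.norm a 0 ha0
    rw [← hd₀, ← hc₀] at this
    linarith [norm_nonneg c₀]
  obtain ⟨s, hs⟩ : ∃ s : ℝ, s = ‖d₀‖ / 4 := ⟨_, rfl⟩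
  have hs0 : 0 < s := by rw [hs]; linarith
  have hs1 : s < 1 := by rw [hs]; linarith
  obtain ⟨b, hb⟩ : ∃ b : X₂, b = ‖d₀‖⁻¹ • d₀ := ⟨_, rfl⟩
  have hb1 : ‖b‖ = 1 := by rw [hb]; exact norm_inv_smul_self hne
  have hdb : ‖d₀‖ • b = d₀ := by rw [hb, norm_smul_inv_smul_self]
  have hz : ‖(1 - s) • a‖ + ‖s • b‖ = 1 := by
    rw [norm_smul, norm_smul, ha, hb1, Real.norm_eq_abs, Real.norm_eq_abs,
      abs_of_pos (by linarith), abs_of_pos hs0]; ring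
  have htwo := h.two _ _ hz
  have hn := h.norm _ _ hz
  have hd := h.dist _ _ a 0 hz ha0
  rw [← hd₀, ← hc₀] at hd
  obtain ⟨c', hc'⟩ : ∃ c' : X₁, c' = Ψ₁ ((1 - s) • a) (s • b) := ⟨_, rfl⟩
  obtain ⟨d', hd'⟩ : ∃ d' : X₂, d' = Ψ₂ ((1 - s) • a) (s • b) := ⟨_, rfl⟩
  rw [← hc', ← hd'] at htwo hn hd
  have e1 : ‖c' - (1 - s) • a‖ ≤ ‖c'‖ + (1 - s) := by
    have := norm_sub_le c' ((1 - s) • a)
    rwa [norm_smul, ha, mul_one, Real.norm_eq_abs, abs_of_pos (by linarith)] at this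
  have e2 : ‖d' - s • b‖ ≤ ‖d'‖ + s := by
    have := norm_sub_le d' (s • b)
    rwa [norm_smul, hb1, mul_one, Real.norm_eq_abs, abs_of_pos hs0] at this
  have e3 : ‖d' - s • b‖ = ‖d'‖ + s := by linarith
  have hsb : ‖-(s • b)‖ = s := by
    rw [norm_neg, norm_smul, hb1, mul_one, Real.norm_eq_abs, abs_of_pos hs0]
  have hadd : ‖d' + -(s • b)‖ = ‖d'‖ + ‖-(s • b)‖ := by
    rw [← sub_eq_add_neg, hsb]; exact e3
  have h3 := norm_add_smul_ge hadd (t := ‖d₀‖ / s) (by positivity)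
  have e4 : d' + (‖d₀‖ / s) • -(s • b) = d' - d₀ := by
    have : (‖d₀‖ / s) • -(s • b) = -(‖d₀‖ • b) := by
      rw [smul_neg, smul_smul]
      congr 2
      field_simp
    rw [this, hdb]; abel
  rw [e4, hsb] at h3
  have e5 : ‖(1 - s) • a - a‖ = s := by
    have : (1 - s) • a - a = (-s) • a := by module
    rw [this, norm_smul, ha, mul_one, Real.norm_eq_abs, abs_neg, abs_of_pos hs0]
  have e6 : ‖s • b - 0‖ = s := by
    rw [sub_zero, norm_smul, hb1, mul_one, Real.norm_eq_abs, abs_of_pos hs0]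
  rw [e5, e6] at hd
  have e7 : ‖d₀‖ / s * s = ‖d₀‖ := by field_simp
  rw [e7] at h3
  linarith [norm_nonneg (c' - c₀), norm_nonneg d']

lemma AntiSys.norm_snd_le {Ψ₁ : X₁ → X₂ → X₁} {Ψ₂ : X₁ → X₂ → X₂} (h : AntiSys Ψ₁ Ψ₂)
    {c : X₁} {d : X₂} (hcd : ‖c‖ + ‖d‖ = 1) : ‖Ψ₂ c d‖ ≤ ‖d‖ := by
  have hn := h.norm c d hcd
  by_cases hc : c = 0
  · subst hc
    have : ‖d‖ = 1 := by simpa using hcd
    linarith [norm_nonneg (Ψ₁ 0 d)]
  · obtain ⟨a, hadef⟩ : ∃ a : X₁, a = ‖c‖⁻¹ • c := ⟨_, rfl⟩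
    have ha : ‖a‖ = 1 := by rw [hadef]; exact norm_inv_smul_self hc
    have ha0 : ‖a‖ + ‖(0 : X₂)‖ = 1 := by simp [ha]
    have hca : c = ‖c‖ • a := by rw [hadef, norm_smul_inv_smul_self]
    have hd := h.dist c d a 0 hcd ha0
    rw [h.snd_pole ha, sub_zero, sub_zero] at hd
    have hpole : ‖Ψ₁ a 0‖ = 1 := by
      have := h.norm a 0 ha0
      rw [h.snd_pole ha, norm_zero, add_zero] at this
      exact this
    have e1 : ‖c - a‖ = 1 - ‖c‖ := by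
      have : c - a = (‖c‖ - 1) • a := by
        nth_rewrite 1 [hca]; module
      rw [this, norm_smul, ha, mul_one, Real.norm_eq_abs, abs_sub_comm,
        abs_of_nonneg (by linarith [norm_nonneg d])]
    have e2 : 1 - ‖Ψ₁ c d‖ ≤ ‖Ψ₁ c d - Ψ₁ a 0‖ := by
      have := norm_sub_norm_le (Ψ₁ a 0) (Ψ₁ c d)
      rw [hpole, norm_sub_rev] at this
      exact this
    linarith

lemma AntiSys.norm_snd {Ψ₁ : X₁ → X₂ → X₁} {Ψ₂ : X₁ → X₂ → X₂} (h : AntiSys Ψ₁ Ψ₂)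
    {c : X₁} {d : X₂} (hcd : ‖c‖ + ‖d‖ = 1) : ‖Ψ₂ c d‖ = ‖d‖ := by
  have h1 := h.norm_snd_le hcd
  have h2 : ‖Ψ₁ c d‖ ≤ ‖c‖ := h.swap.norm_snd_le (c := d) (d := c) (by linarith)
  have hn := h.norm c d hcd
  linarith

lemma AntiSys.norm_fst {Ψ₁ : X₁ → X₂ → X₁} {Ψ₂ : X₁ → X₂ → X₂} (h : AntiSys Ψ₁ Ψ₂)
    {c : X₁} {d : X₂} (hcd : ‖c‖ + ‖d‖ = 1) : ‖Ψ₁ c d‖ = ‖c‖ := by
  have h1 := h.norm_snd hcd
  have hn := h.norm c d hcd
  linarith

/-- The first coordinate of the involution only depends on the first coordinate. -/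
lemma AntiSys.fst_eq_of {Ψ₁ : X₁ → X₂ → X₁} {Ψ₂ : X₁ → X₂ → X₂} (h : AntiSys Ψ₁ Ψ₂)
    {c : X₁} {d d' : X₂} (hcd : ‖c‖ + ‖d‖ = 1) (hcd' : ‖c‖ + ‖d'‖ = 1) :
    Ψ₁ c d = Ψ₁ c d' := by
  apply eq_of_dist_sphere_eq (by rw [h.norm_fst hcd]; linarith [norm_nonneg d])
  intro a'' ha''
  have ha0'' : ‖a''‖ + ‖(0 : X₂)‖ = 1 := by simp [ha'']
  obtain ⟨a', hadef⟩ : ∃ a' : X₁, a' = Ψ₁ a'' 0 := ⟨_, rfl⟩
  have hpole : Ψ₂ a'' 0 = 0 := h.snd_pole ha''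
  have ha' : ‖a'‖ = 1 := by
    have := h.norm a'' 0 ha0''
    rw [hpole, norm_zero, add_zero] at this
    rw [hadef]; exact this
  have ha0' : ‖a'‖ + ‖(0 : X₂)‖ = 1 := by simp [ha']
  have hinv : Ψ₁ a' 0 = a'' := by
    have := h.invol₁ a'' 0 ha0''
    rw [hpole] at this
    rw [hadef]; exact this
  have hd1 := h.dist c d a' 0 hcd ha0'
  have hd2 := h.dist c d' a' 0 hcd' ha0'
  rw [hinv, h.snd_pole ha', sub_zero, sub_zero, h.norm_snd hcd] at hd1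
  rw [hinv, h.snd_pole ha', sub_zero, sub_zero, h.norm_snd hcd'] at hd2
  linarith

/-- The involution is `x ↦ -x` in the first coordinate. -/
theorem AntiSys.fst_eq_neg [Nontrivial X₂] {Ψ₁ : X₁ → X₂ → X₁} {Ψ₂ : X₁ → X₂ → X₂}
    (h : AntiSys Ψ₁ Ψ₂) {c : X₁} {d : X₂} (hcd : ‖c‖ + ‖d‖ = 1) : Ψ₁ c d = -c := by
  obtain ⟨x₀, hx₀⟩ := exists_ne (0 : X₂)
  obtain ⟨b₀, hb₀def⟩ : ∃ b₀ : X₂, b₀ = ‖x₀‖⁻¹ • x₀ := ⟨_, rfl⟩
  have hb₀ : ‖b₀‖ = 1 := by rw [hb₀def]; exact norm_inv_smul_self hx₀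
  obtain ⟨κ, hκ⟩ : ∃ κ : X₁ → X₁, κ = fun c => Ψ₁ c ((1 - ‖c‖) • b₀) := ⟨_, rfl⟩
  have hκc : ∀ c, κ c = Ψ₁ c ((1 - ‖c‖) • b₀) := fun c => by rw [hκ]
  have hsph : ∀ c : X₁, ‖c‖ ≤ 1 → ‖c‖ + ‖(1 - ‖c‖) • b₀‖ = 1 := by
    intro c hc
    rw [norm_smul, hb₀, mul_one, Real.norm_eq_abs, abs_of_nonneg (by linarith)]; ring
  have hκeq : ∀ (c : X₁) (d : X₂), ‖c‖ + ‖d‖ = 1 → Ψ₁ c d = κ c := fun c d hcd => by
    rw [hκc]
    exact h.fst_eq_of hcd (hsph c (by linarith [norm_nonneg d]))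
  have hnorm : ∀ c, ‖c‖ ≤ 1 → ‖κ c‖ = ‖c‖ := fun c hc => by
    rw [hκc]; exact h.norm_fst (hsph c hc)
  have hlip : ∀ c c', ‖c‖ ≤ 1 → ‖c'‖ ≤ 1 → ‖κ c - κ c'‖ ≤ ‖c - c'‖ := by
    intro c c' hc hc'
    have hd := h.dist c ((1 - ‖c‖) • b₀) c' ((1 - ‖c'‖) • b₀) (hsph c hc) (hsph c' hc')
    rw [← hκc, ← hκc] at hd
    have e1 : ‖(1 - ‖c‖) • b₀ - (1 - ‖c'‖) • b₀‖ = |‖c'‖ - ‖c‖| := by
      have : (1 - ‖c‖) • b₀ - (1 - ‖c'‖) • b₀ = (‖c'‖ - ‖c‖) • b₀ := by module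
      rw [this, norm_smul, hb₀, mul_one, Real.norm_eq_abs]
    have e2 : |‖c'‖ - ‖c‖|
        ≤ ‖Ψ₂ c ((1 - ‖c‖) • b₀) - Ψ₂ c' ((1 - ‖c'‖) • b₀)‖ := by
      have n1 : ‖Ψ₂ c ((1 - ‖c‖) • b₀)‖ = 1 - ‖c‖ := by
        rw [h.norm_snd (hsph c hc), norm_smul, hb₀, mul_one, Real.norm_eq_abs,
          abs_of_nonneg (by linarith)]
      have n2 : ‖Ψ₂ c' ((1 - ‖c'‖) • b₀)‖ = 1 - ‖c'‖ := by
        rw [h.norm_snd (hsph c' hc'), norm_smul, hb₀, mul_one, Real.norm_eq_abs,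
          abs_of_nonneg (by linarith)]
      have h3 := abs_norm_sub_norm_le (Ψ₂ c ((1 - ‖c‖) • b₀)) (Ψ₂ c' ((1 - ‖c'‖) • b₀))
      rw [n1, n2] at h3
      have : (1 - ‖c‖) - (1 - ‖c'‖) = ‖c'‖ - ‖c‖ := by ring
      rw [this] at h3
      exact h3
    rw [e1] at hd
    linarith
  have hinv : ∀ c, ‖c‖ ≤ 1 → κ (κ c) = c := by
    intro c hc
    have h1 := h.invol₁ c _ (hsph c hc)
    rw [hκeq _ _ (h.norm c _ (hsph c hc)), ← hκc] at h1
    exact h1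
  have hdist : ∀ c c', ‖c‖ ≤ 1 → ‖c'‖ ≤ 1 → ‖κ c - κ c'‖ = ‖c - c'‖ := by
    intro c c' hc hc'
    apply le_antisymm (hlip c c' hc hc')
    have := hlip (κ c) (κ c') (by rw [hnorm c hc]; exact hc) (by rw [hnorm c' hc']; exact hc')
    rwa [hinv c hc, hinv c' hc'] at this
  have htwo : ∀ c, ‖c‖ ≤ 1 → ‖κ c - c‖ = 2 * ‖c‖ := by
    intro c hc
    have h2 := h.two c _ (hsph c hc)
    rw [← hκc] at h2
    have e1 : ‖κ c - c‖ ≤ ‖κ c‖ + ‖c‖ := norm_sub_le _ _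
    have e2 : ‖Ψ₂ c ((1 - ‖c‖) • b₀) - (1 - ‖c‖) • b₀‖
        ≤ ‖Ψ₂ c ((1 - ‖c‖) • b₀)‖ + ‖(1 - ‖c‖) • b₀‖ := norm_sub_le _ _
    rw [hnorm c hc] at e1
    rw [h.norm_snd (hsph c hc)] at e2
    have := hsph c hc
    linarith
  rw [hκeq c d hcd]
  exact eq_neg_of_ball_involution hnorm hdist hinv htwo c (by linarith [norm_nonneg d])

end L1Anti

section L1AntiMain

variable {X₁ X₂ Y : Type*} [NormedAddCommGroup X₁] [NormedSpace ℝ X₁]
  [NormedAddCommGroup X₂] [NormedSpace ℝ X₂] [NormedAddCommGroup Y] [NormedSpace ℝ Y]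

/-- A sphere isometry on the `ℓ¹`-sum of two nontrivial normed spaces is odd (function
version). -/
theorem L1Iso.map_neg_neg [Nontrivial X₁] [Nontrivial X₂] {g : X₁ → X₂ → Y} (hg : L1Iso g)
    {c : X₁} {d : X₂} (hcd : ‖c‖ + ‖d‖ = 1) : g (-c) (-d) = - g c d := by
  have hex : ∀ (c : X₁) (d : X₂), ‖c‖ + ‖d‖ = 1 →
      ∃ (c' : X₁) (d' : X₂), ‖c'‖ + ‖d'‖ = 1 ∧ g c' d' = - g c d := fun c d hcd =>
    hg.surj _ (by rw [norm_neg]; exact hg.norm_map c d hcd)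
  choose! Ψ₁ Ψ₂ hΨ using hex
  have hinj : ∀ (c : X₁) (d : X₂) (c' : X₁) (d' : X₂), ‖c‖ + ‖d‖ = 1 → ‖c'‖ + ‖d'‖ = 1 →
      g c d = g c' d' → c = c' ∧ d = d' := by
    intro c d c' d' h1 h2 he
    have := hg.dist_map c d c' d' h1 h2
    rw [he, sub_self, norm_zero] at this
    have hc : ‖c - c'‖ = 0 := by linarith [norm_nonneg (c - c'), norm_nonneg (d - d')]
    have hd : ‖d - d'‖ = 0 := by linarith [norm_nonneg (c - c'), norm_nonneg (d - d')]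
    exact ⟨sub_eq_zero.mp (norm_eq_zero.mp hc), sub_eq_zero.mp (norm_eq_zero.mp hd)⟩
  have hA : AntiSys Ψ₁ Ψ₂ := by
    refine ⟨fun c d h => (hΨ c d h).1, ?_, ?_, ?_, ?_⟩
    · intro c d c' d' h h'
      rw [← hg.dist_map _ _ _ _ (hΨ c d h).1 (hΨ c' d' h').1, (hΨ c d h).2, (hΨ c' d' h').2,
        ← hg.dist_map c d c' d' h h']
      have : - g c d - - g c' d' = -(g c d - g c' d') := by abel
      rw [this, norm_neg]
    · intro c d h
      have h1 := hΨ c d h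
      have h2 := hΨ _ _ h1.1
      exact (hinj _ _ _ _ h2.1 h (by rw [h2.2, h1.2, neg_neg])).1
    · intro c d h
      have h1 := hΨ c d h
      have h2 := hΨ _ _ h1.1
      exact (hinj _ _ _ _ h2.1 h (by rw [h2.2, h1.2, neg_neg])).2
    · intro c d h
      rw [← hg.dist_map _ _ c d (hΨ c d h).1 h, (hΨ c d h).2]
      have : - g c d - g c d = (-2 : ℝ) • g c d := by module
      rw [this, norm_smul, hg.norm_map c d h]; norm_num
  have h1 := hA.fst_eq_neg hcd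
  have h2 : Ψ₂ c d = -d := hA.swap.fst_eq_neg (c := d) (d := c) (by linarith)
  rw [← h1, ← h2]
  exact (hΨ c d hcd).2

end L1AntiMain

end Vale.Agent.H23
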