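import Vale.Agent.H23.BCBase

/-!
# Sphere isometries of modules of bounded continuous vector-valued functions: bands

Let `E` be a subspace of the bounded continuous functions `L → X` closed under multiplication
by bounded continuous scalar functions, and let `h` be a continuous scalar function on `L`. The
members of `E` vanishing on the band `{s : 0 ≤ h s ≤ 1}` form a subspace which is the direct
sum, with the maximum norm, of the functions living where `h < 0` and the functions living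
where `h > 1`. If both parts are nonzero, the theorem on spaces with a maximum-norm
decomposition shows that a sphere isometry `G` is linear on this subspace.
-/

namespace Vale.Agent.H23

open scoped BoundedContinuousFunction

section BCBand

variable {L X Y : Type*} [TopologicalSpace L] [NormedAddCommGroup X] [NormedSpace ℝ X]
  [NormedAddCommGroup Y] [NormedSpace ℝ Y]

/-- The band of a scalar function: the set where it takes values in `[0, 1]`. -/
def bandSetB (h : C(L, ℝ)) : Set L := {s | 0 ≤ h s ∧ h s ≤ 1}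

/-- A scalar function cuts `E` if it is negative at some point where some member of `E` does
not vanish, and larger than `1` at some point where some member of `E` does not vanish. -/
def IsCutterB (E : Submodule ℝ (L →ᵇ X)) (h : C(L, ℝ)) : Prop :=
  (∃ s, h s < 0 ∧ ∃ u ∈ E, u s ≠ 0) ∧ ∃ s, 1 < h s ∧ ∃ u ∈ E, u s ≠ 0

lemma clampB_of_notMem {h : C(L, ℝ)} {s : L} (hs : s ∉ bandSetB h) :
    clampB h s = 0 ∨ clampB h s = 1 := by
  rcases lt_or_ge (h s) 0 with h0 | h0
  · exact Or.inl (clampB_of_nonpos h0.le)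
  · rcases lt_or_ge 1 (h s) with h1 | h1
    · exact Or.inr (clampB_of_one_le h1.le)
    · exact absurd ⟨h0, h1⟩ hs

/-- The members of `E` vanishing on the band of `h`. -/
def bandIdeal (E : Submodule ℝ (L →ᵇ X)) (h : C(L, ℝ)) : Submodule ℝ (L →ᵇ X) where
  carrier := {u | u ∈ E ∧ ∀ s ∈ bandSetB h, u s = 0}
  add_mem' := by
    intro u v hu hv
    refine ⟨E.add_mem hu.1 hv.1, fun s hs => ?_⟩
    show u s + v s = 0
    rw [hu.2 s hs, hv.2 s hs, add_zero]
  zero_mem' := ⟨E.zero_mem, fun _ _ => rfl⟩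
  smul_mem' := by
    intro c u hu
    refine ⟨E.smul_mem c hu.1, fun s hs => ?_⟩
    show c • u s = 0
    rw [hu.2 s hs, smul_zero]

lemma mem_bandIdeal {E : Submodule ℝ (L →ᵇ X)} {h : C(L, ℝ)} {u : L →ᵇ X} :
    u ∈ bandIdeal E h ↔ u ∈ E ∧ ∀ s ∈ bandSetB h, u s = 0 := Iff.rfl

/-- The subspace of `Y` attached to a band: the common kernel of the height functionals of all
caps at points of the band. -/
def bandSubB (E : Submodule ℝ (L →ᵇ X)) (G : (L →ᵇ X) → Y) (h : C(L, ℝ)) : Submodule ℝ Y where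
  carrier := {y | ∀ (t : L) (b : X) (ψ : Y →L[ℝ] ℝ), t ∈ bandSetB h → b ∈ fiber E t → ‖b‖ = 1 →
    IsHeightB E G t b ψ → ψ y = 0}
  add_mem' := by
    intro y y' hy hy' t b ψ ht hbE hb hψ
    rw [map_add, hy t b ψ ht hbE hb hψ, hy' t b ψ ht hbE hb hψ, add_zero]
  zero_mem' := by
    intro t b ψ _ _ _ _
    exact map_zero ψ
  smul_mem' := by
    intro c y hy t b ψ ht hbE hb hψ
    rw [map_smul, hy t b ψ ht hbE hb hψ, smul_zero]

lemma isClosed_bandSubB (E : Submodule ℝ (L →ᵇ X)) (G : (L →ᵇ X) → Y) (h : C(L, ℝ)) :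
    IsClosed (bandSubB E G h : Set Y) := by
  have e : (bandSubB E G h : Set Y) = ⋂ (t : L) (b : X) (ψ : Y →L[ℝ] ℝ) (_ : t ∈ bandSetB h)
      (_ : b ∈ fiber E t) (_ : ‖b‖ = 1) (_ : IsHeightB E G t b ψ), {y | ψ y = 0} := by
    ext y
    simp only [Set.mem_iInter, Set.mem_ofPred_eq]
    exact Iff.rfl
  rw [e]
  refine isClosed_iInter fun t => isClosed_iInter fun b => isClosed_iInter fun ψ =>
    isClosed_iInter fun _ => isClosed_iInter fun _ => isClosed_iInter fun _ =>
    isClosed_iInter fun _ => ?_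
  exact isClosed_eq ψ.continuous continuous_const

variable {E : Submodule ℝ (L →ᵇ X)}

/-- Multiplication by the truncation of `h`, as a linear map of the band ideal. -/
noncomputable def bandProjB (hE : IsFunModule E) (h : C(L, ℝ)) :
    bandIdeal E h →ₗ[ℝ] bandIdeal E h :=
  LinearMap.codRestrict _ ((mulB (clampB h)).comp (Submodule.subtype _)) (by
    intro u
    refine ⟨hE _ _ u.2.1, fun s hs => ?_⟩
    show clampB h s • (u : L →ᵇ X) s = 0
    rw [u.2.2 s hs, smul_zero])

lemma bandProjB_apply (hE : IsFunModule E) (h : C(L, ℝ)) (u : bandIdeal E h) (s : L) :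
    (bandProjB hE h u : L →ᵇ X) s = clampB h s • (u : L →ᵇ X) s := rfl

lemma bandProjB_idem (hE : IsFunModule E) (h : C(L, ℝ)) (u : bandIdeal E h) :
    bandProjB hE h (bandProjB hE h u) = bandProjB hE h u := by
  apply Subtype.ext
  ext s
  rw [bandProjB_apply, bandProjB_apply]
  by_cases hs : s ∈ bandSetB h
  · rw [u.2.2 s hs, smul_zero, smul_zero]
  · rcases clampB_of_notMem hs with h0 | h1
    · rw [h0, zero_smul, zero_smul]
    · rw [h1, one_smul, one_smul]

lemma bandProjB_norm (hE : IsFunModule E) (h : C(L, ℝ)) (u : bandIdeal E h) :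
    ‖u‖ = max ‖bandProjB hE h u‖ ‖u - bandProjB hE h u‖ := by
  rw [Submodule.coe_norm, Submodule.coe_norm, Submodule.coe_norm, Submodule.coe_sub]
  apply le_antisymm
  · rw [BoundedContinuousFunction.norm_le (le_max_of_le_left (norm_nonneg _))]
    intro s
    by_cases hs : s ∈ bandSetB h
    · rw [u.2.2 s hs, norm_zero]
      exact le_max_of_le_left (norm_nonneg _)
    · rcases clampB_of_notMem hs with h0 | h1
      · apply le_max_of_le_right
        have h2 := ((u : L →ᵇ X) - (bandProjB hE h u : L →ᵇ X)).norm_coe_le_norm s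
        rw [BoundedContinuousFunction.sub_apply, bandProjB_apply, h0, zero_smul, sub_zero] at h2
        exact h2
      · apply le_max_of_le_left
        have h2 := (bandProjB hE h u : L →ᵇ X).norm_coe_le_norm s
        rw [bandProjB_apply, h1, one_smul] at h2
        exact h2
  · apply max_le
    · rw [BoundedContinuousFunction.norm_le (norm_nonneg _)]
      intro s
      rw [bandProjB_apply, norm_smul, Real.norm_eq_abs, abs_of_nonneg (clampB_nonneg h s)]
      calc clampB h s * ‖(u : L →ᵇ X) s‖ ≤ 1 * ‖(u : L →ᵇ X) s‖ :=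
            mul_le_mul_of_nonneg_right (clampB_le_one h s) (norm_nonneg _)
        _ = ‖(u : L →ᵇ X) s‖ := one_mul _
        _ ≤ ‖(u : L →ᵇ X)‖ := (u : L →ᵇ X).norm_coe_le_norm s
    · rw [BoundedContinuousFunction.norm_le (norm_nonneg _)]
      intro s
      have e : ((u : L →ᵇ X) - (bandProjB hE h u : L →ᵇ X)) s =
          (1 - clampB h s) • (u : L →ᵇ X) s := by
        rw [BoundedContinuousFunction.sub_apply, bandProjB_apply, sub_smul, one_smul]
      rw [e, norm_smul, Real.norm_eq_abs, abs_of_nonneg (sub_nonneg.mpr (clampB_le_one h s))]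
      calc (1 - clampB h s) * ‖(u : L →ᵇ X) s‖ ≤ 1 * ‖(u : L →ᵇ X) s‖ :=
            mul_le_mul_of_nonneg_right (by linarith [clampB_nonneg h s]) (norm_nonneg _)
        _ = ‖(u : L →ᵇ X) s‖ := one_mul _
        _ ≤ ‖(u : L →ᵇ X)‖ := (u : L →ᵇ X).norm_coe_le_norm s

/-- The projection attached to a cutting function is not zero. -/
lemma bandProjB_ne_zero (hE : IsFunModule E) {h : C(L, ℝ)} {s₂ : L} (hs₂ : 1 < h s₂)
    {u₂ : L →ᵇ X} (hu₂ : u₂ ∈ E) (hne : u₂ s₂ ≠ 0) :
    ∃ u : bandIdeal E h, bandProjB hE h u ≠ 0 := by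
  obtain ⟨κ, hκdef⟩ : ∃ κ : L →ᵇ ℝ, κ = clampB ⟨fun s => h s - 1,
    h.continuous.sub continuous_const⟩ := ⟨_, rfl⟩
  have hmem : mulB κ u₂ ∈ bandIdeal E h := by
    refine ⟨hE κ u₂ hu₂, fun s hs => ?_⟩
    have h0 : κ s = 0 := by
      rw [hκdef]
      apply clampB_of_nonpos
      show h s - 1 ≤ 0
      linarith [hs.2]
    rw [mulB_apply, h0, zero_smul]
  have hκpos : 0 < κ s₂ := by
    rw [hκdef]
    apply clampB_pos
    show 0 < h s₂ - 1
    linarith
  refine ⟨⟨mulB κ u₂, hmem⟩, fun hcon => ?_⟩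
  have h2 : (bandProjB hE h ⟨mulB κ u₂, hmem⟩ : L →ᵇ X) s₂ = 0 := by
    rw [hcon]
    rfl
  rw [bandProjB_apply, clampB_of_one_le hs₂.le, one_smul] at h2
  have h3 : κ s₂ • u₂ s₂ = 0 := h2
  rcases smul_eq_zero.mp h3 with h4 | h4
  · exact hκpos.ne' h4
  · exact hne h4

/-- The projection attached to a cutting function is not the identity. -/
lemma bandProjB_ne_id (hE : IsFunModule E) {h : C(L, ℝ)} {s₁ : L} (hs₁ : h s₁ < 0)
    {u₁ : L →ᵇ X} (hu₁ : u₁ ∈ E) (hne : u₁ s₁ ≠ 0) :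
    ∃ u : bandIdeal E h, bandProjB hE h u ≠ u := by
  obtain ⟨κ, hκdef⟩ : ∃ κ : L →ᵇ ℝ, κ = clampB ⟨fun s => -h s, h.continuous.neg⟩ := ⟨_, rfl⟩
  have hmem : mulB κ u₁ ∈ bandIdeal E h := by
    refine ⟨hE κ u₁ hu₁, fun s hs => ?_⟩
    have h0 : κ s = 0 := by
      rw [hκdef]
      apply clampB_of_nonpos
      show -h s ≤ 0
      linarith [hs.1]
    rw [mulB_apply, h0, zero_smul]
  have hκpos : 0 < κ s₁ := by
    rw [hκdef]
    apply clampB_pos
    show 0 < -h s₁
    linarith
  refine ⟨⟨mulB κ u₁, hmem⟩, fun hcon => ?_⟩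
  have h2 : (bandProjB hE h ⟨mulB κ u₁, hmem⟩ : L →ᵇ X) s₁ = (mulB κ u₁ : L →ᵇ X) s₁ := by
    rw [hcon]
  rw [bandProjB_apply, clampB_of_nonpos hs₁.le, zero_smul] at h2
  have h3 : κ s₁ • u₁ s₁ = 0 := h2.symm
  rcases smul_eq_zero.mp h3 with h4 | h4
  · exact hκpos.ne' h4
  · exact hne h4

namespace BIso

variable {G : (L →ᵇ X) → Y}

/-- Images of unit functions vanishing on a band lie in the band subspace. -/
lemma band_mem (hG : BIso E G) (hE : IsFunModule E) {h : C(L, ℝ)} {u : L →ᵇ X}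
    (hu : u ∈ bandIdeal E h) (hu1 : ‖u‖ = 1) : G u ∈ bandSubB E G h := by
  intro t b ψ ht hbE hb hψ
  exact hG.height_zero hE hbE hb hψ hu.1 hu1 (hu.2 t ht)

/-- Unit vectors of the band subspace are images of unit functions vanishing on the band. -/
lemma exists_of_band_mem (hG : BIso E G) (hE : IsFunModule E) {h : C(L, ℝ)} {y : Y}
    (hy : y ∈ bandSubB E G h) (hy1 : ‖y‖ = 1) :
    ∃ u : L →ᵇ X, u ∈ bandIdeal E h ∧ ‖u‖ = 1 ∧ G u = y := by
  obtain ⟨u, huE, hu1, hGu⟩ := hG.surj y hy1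
  refine ⟨u, ⟨huE, fun s hs => ?_⟩, hu1, hGu⟩
  by_contra hne
  have hbE : ‖u s‖⁻¹ • u s ∈ fiber E s := (fiber E s).smul_mem _ (apply_mem_fiber huE s)
  obtain ⟨ψ, hψ⟩ := hG.exists_isHeight hE hbE (norm_inv_smul_self hne)
  have h1 := hG.height_ge hE huE hu1 hne hψ
  rw [hGu, hy s _ ψ hs hbE (norm_inv_smul_self hne) hψ] at h1
  exact absurd (norm_pos_iff.mpr hne) (not_lt.mpr h1)

/-- The restriction of `G` to the unit sphere of the band ideal, as a surjective isometry onto
the unit sphere of the band subspace. -/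
lemma exists_band_sphere_map (hG : BIso E G) (hE : IsFunModule E) (h : C(L, ℝ)) :
    ∃ f : Metric.sphere (0 : bandIdeal E h) 1 → Metric.sphere (0 : bandSubB E G h) 1,
      Isometry f ∧ Function.Surjective f ∧
      ∀ p, ((f p : bandSubB E G h) : Y) = G ((p : bandIdeal E h) : L →ᵇ X) := by
  have hmemf : ∀ p : Metric.sphere (0 : bandIdeal E h) 1,
      G ((p : bandIdeal E h) : L →ᵇ X) ∈ bandSubB E G h := fun p =>
    hG.band_mem hE (p : bandIdeal E h).2 (mem_sphere_zero_iff_norm.mp p.2)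
  have hnormf : ∀ p : Metric.sphere (0 : bandIdeal E h) 1,
      (⟨_, hmemf p⟩ : bandSubB E G h) ∈ Metric.sphere (0 : bandSubB E G h) 1 := by
    intro p
    rw [mem_sphere_zero_iff_norm, Submodule.coe_norm]
    exact hG.norm_map _ (p : bandIdeal E h).2.1 (mem_sphere_zero_iff_norm.mp p.2)
  refine ⟨fun p => ⟨⟨_, hmemf p⟩, hnormf p⟩, ?_, ?_, fun p => rfl⟩
  · refine Isometry.of_dist_eq fun p q => ?_
    have e1 : dist p q = ‖((p : bandIdeal E h) : L →ᵇ X) - ((q : bandIdeal E h) : L →ᵇ X)‖ := by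
      rw [Subtype.dist_eq, dist_eq_norm]
      rfl
    rw [e1, Subtype.dist_eq, dist_eq_norm]
    exact hG.dist_map _ (p : bandIdeal E h).2.1 _ (q : bandIdeal E h).2.1
      (mem_sphere_zero_iff_norm.mp p.2) (mem_sphere_zero_iff_norm.mp q.2)
  · intro w
    have hw1 : ‖((w : bandSubB E G h) : Y)‖ = 1 := by
      rw [← Submodule.coe_norm]
      exact mem_sphere_zero_iff_norm.mp w.2
    obtain ⟨u, hu, hu1, hGu⟩ := hG.exists_of_band_mem hE (w : bandSubB E G h).2 hw1
    refine ⟨⟨⟨u, hu⟩, by rw [mem_sphere_zero_iff_norm, Submodule.coe_norm]; exact hu1⟩, ?_⟩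
    apply Subtype.ext
    apply Subtype.ext
    exact hGu

/-- On the band ideal of a cutting function, `G` agrees on the unit sphere with a linear
isometry. -/
lemma exists_band_linear [CompleteSpace Y] (hG : BIso E G) (hE : IsFunModule E)
    {h : C(L, ℝ)} (hh : IsCutterB E h) :
    ∃ Λ : bandIdeal E h →ₗ[ℝ] Y, (∀ u, ‖Λ u‖ = ‖u‖) ∧
      ∀ u, ‖u‖ = 1 → Λ u = G (u : L →ᵇ X) := by
  obtain ⟨⟨s₁, hs₁, u₁, hu₁, hne₁⟩, ⟨s₂, hs₂, u₂, hu₂, hne₂⟩⟩ := hh
  have hc : CompleteSpace (bandSubB E G h) := (isClosed_bandSubB E G h).completeSpace_coe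
  obtain ⟨f, hf, hsurj, hfval⟩ := hG.exists_band_sphere_map hE h
  obtain ⟨T, hT⟩ := exists_linearIsometryEquiv_of_mProjection
    (X := bandIdeal E h) (Y := bandSubB E G h) (bandProjB hE h)
    (bandProjB_idem hE h) (bandProjB_norm hE h) (bandProjB_ne_zero hE hs₂ hu₂ hne₂)
    (bandProjB_ne_id hE hs₁ hu₁ hne₁) f hf hsurj
  refine ⟨(bandSubB E G h).subtype.comp T.toLinearEquiv.toLinearMap, fun u => ?_, fun u hu => ?_⟩
  · show ‖((T u : bandSubB E G h) : Y)‖ = ‖u‖
    rw [← Submodule.coe_norm, LinearIsometryEquiv.norm_map]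
  · show ((T u : bandSubB E G h) : Y) = G (u : L →ᵇ X)
    have h2 := hT ⟨u, mem_sphere_zero_iff_norm.mpr hu⟩
    rw [← hfval ⟨u, mem_sphere_zero_iff_norm.mpr hu⟩, ← h2]

end BIso

end BCBand

end Vale.Agent.H23
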