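import Vale.Agent.H23.Day

/-!
# Extension of isometries from the unit sphere of an inner product space

Core argument, phrased for a total function `g : X → Y` which restricts to a surjective
isometry between the unit spheres.
-/

namespace Vale.Agent.H23

open Real

section StrictConvex

variable {X Y : Type*} [NormedAddCommGroup X] [NormedSpace ℝ X] [StrictConvexSpace ℝ X]
  [NormedAddCommGroup Y] [NormedSpace ℝ Y]

/-- A surjective isometry between unit spheres whose source is strictly convex preserves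
antipodal points. -/
lemma map_neg_of_strictConvex {g : X → Y} (hg1 : ∀ x, ‖x‖ = 1 → ‖g x‖ = 1)
    (hg2 : ∀ x y, ‖x‖ = 1 → ‖y‖ = 1 → ‖g x - g y‖ = ‖x - y‖)
    (hg3 : ∀ w : Y, ‖w‖ = 1 → ∃ x, ‖x‖ = 1 ∧ g x = w) {x : X} (hx : ‖x‖ = 1) :
    g (-x) = - g x := by
  obtain ⟨c, hc, hgc⟩ := hg3 (- g x) (by rw [norm_neg]; exact hg1 x hx)
  have h2 : ‖c - x‖ = 2 := by
    rw [← hg2 c x hc hx, hgc]
    have : - g x - g x = (-2 : ℝ) • g x := by module
    rw [this, norm_smul, hg1 x hx]; norm_num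
  have hray : SameRay ℝ c (-x) := by
    rw [sameRay_iff_norm_add, ← sub_eq_add_neg, h2, hc, norm_neg, hx]; norm_num
  have : c = -x := (sameRay_iff_of_norm_eq (by rw [hc, norm_neg, hx])).mp hray
  rw [← this, hgc]

lemma norm_map_add_of_strictConvex {g : X → Y} (hg1 : ∀ x, ‖x‖ = 1 → ‖g x‖ = 1)
    (hg2 : ∀ x y, ‖x‖ = 1 → ‖y‖ = 1 → ‖g x - g y‖ = ‖x - y‖)
    (hg3 : ∀ w : Y, ‖w‖ = 1 → ∃ x, ‖x‖ = 1 ∧ g x = w) {x y : X} (hx : ‖x‖ = 1)
    (hy : ‖y‖ = 1) : ‖g x + g y‖ = ‖x + y‖ := by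
  have h := hg2 x (-y) hx (by rw [norm_neg]; exact hy)
  rw [map_neg_of_strictConvex hg1 hg2 hg3 hy, sub_neg_eq_add, sub_neg_eq_add] at h
  exact h

end StrictConvex

section Inner

variable {X Y : Type*} [NormedAddCommGroup X] [InnerProductSpace ℝ X]
  [NormedAddCommGroup Y] [NormedSpace ℝ Y]

/-- If the unit sphere of an inner product space maps isometrically onto the unit sphere
of `Y`, then the unit vectors of `Y` satisfy the rhombus law. -/
lemma rhombusLaw_of_sphere_isometry {g : X → Y} (hg1 : ∀ x, ‖x‖ = 1 → ‖g x‖ = 1)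
    (hg2 : ∀ x y, ‖x‖ = 1 → ‖y‖ = 1 → ‖g x - g y‖ = ‖x - y‖)
    (hg3 : ∀ w : Y, ‖w‖ = 1 → ∃ x, ‖x‖ = 1 ∧ g x = w) : RhombusLaw Y := by
  intro p q hp hq
  obtain ⟨a, ha, rfl⟩ := hg3 p hp
  obtain ⟨b, hb, rfl⟩ := hg3 q hq
  rw [norm_map_add_of_strictConvex hg1 hg2 hg3 ha hb, hg2 a b ha hb]
  have h := parallelogram_law_with_norm ℝ a b
  rw [ha, hb] at h
  nlinarith

/-- Norm of a combination of orthonormal vectors. -/
lemma norm_orthocombo_sq {x y : X} (hx : ‖x‖ = 1) (hy : ‖y‖ = 1) (hxy : inner ℝ x y = 0)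
    (a b : ℝ) : ‖a • x + b • y‖ ^ 2 = a ^ 2 + b ^ 2 := by
  rw [norm_add_sq_real, inner_smul_left, inner_smul_right, hxy, norm_smul, norm_smul, hx, hy]
  simp [sq_abs]

lemma orthonormal_images {g : X → Y} (hg1 : ∀ x, ‖x‖ = 1 → ‖g x‖ = 1)
    (hg2 : ∀ x y, ‖x‖ = 1 → ‖y‖ = 1 → ‖g x - g y‖ = ‖x - y‖)
    (hg3 : ∀ w : Y, ‖w‖ = 1 → ∃ x, ‖x‖ = 1 ∧ g x = w) {x y : X} (hx : ‖x‖ = 1)
    (hy : ‖y‖ = 1) (hxy : inner ℝ x y = 0) : ‖g x + g y‖ = ‖g x - g y‖ := by
  rw [norm_map_add_of_strictConvex hg1 hg2 hg3 hx hy, hg2 x y hx hy]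
  have h1 := norm_add_sq_real x y
  have h2 := norm_sub_sq_real x y
  rw [hxy] at h1 h2
  have h3 : ‖x + y‖ ^ 2 = ‖x - y‖ ^ 2 := by rw [h1, h2]; ring
  have := norm_nonneg (x + y)
  have := norm_nonneg (x - y)
  nlinarith

/-- The image of a unit combination of orthonormal vectors. -/
lemma map_orthocombo {g : X → Y} (hg1 : ∀ x, ‖x‖ = 1 → ‖g x‖ = 1)
    (hg2 : ∀ x y, ‖x‖ = 1 → ‖y‖ = 1 → ‖g x - g y‖ = ‖x - y‖)
    (hg3 : ∀ w : Y, ‖w‖ = 1 → ∃ x, ‖x‖ = 1 ∧ g x = w) {x y : X} (hx : ‖x‖ = 1)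
    (hy : ‖y‖ = 1) (hxy : inner ℝ x y = 0) {a b : ℝ} (hab : a ^ 2 + b ^ 2 = 1) :
    g (a • x + b • y) = a • g x + b • g y := by
  have hR := rhombusLaw_of_sphere_isometry hg1 hg2 hg3
  have hu := hg1 x hx
  have hv := hg1 y hy
  have huv := orthonormal_images hg1 hg2 hg3 hx hy hxy
  have hw : ‖a • g x + b • g y‖ = 1 := norm_combo_eq_one hR hu hv huv hab
  obtain ⟨z, hz, hgz⟩ := hg3 _ hw
  -- inner product of z with x
  have hzx : inner ℝ z x = a := by
    have h1 : ‖z - x‖ ^ 2 = (a - 1) ^ 2 + b ^ 2 := by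
      rw [← hg2 z x hz hx, hgz]
      have e : a • g x + b • g y - g x = (a - 1) • g x + b • g y := by module
      rw [e, norm_combo_sq hR hu hv huv]
    have h2 := norm_sub_sq_real z x
    rw [hz, hx] at h2
    nlinarith
  have hzy : inner ℝ z y = b := by
    have h1 : ‖z - y‖ ^ 2 = a ^ 2 + (b - 1) ^ 2 := by
      rw [← hg2 z y hz hy, hgz]
      have e : a • g x + b • g y - g y = a • g x + (b - 1) • g y := by module
      rw [e, norm_combo_sq hR hu hv huv]
    have h2 := norm_sub_sq_real z y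
    rw [hz, hy] at h2
    nlinarith
  have hzero : ‖z - (a • x + b • y)‖ ^ 2 = 0 := by
    rw [norm_sub_sq_real, norm_orthocombo_sq hx hy hxy, inner_add_right, inner_smul_right,
      inner_smul_right, hzx, hzy, hz]
    nlinarith
  have hz' : z = a • x + b • y := by
    have : ‖z - (a • x + b • y)‖ = 0 := by simpa using hzero
    exact sub_eq_zero.mp (norm_eq_zero.mp this)
  rw [← hz', hgz]

/-- The positively homogeneous extension of `g`. -/
noncomputable def homExt (g : X → Y) (x : X) : Y := ‖x‖ • g (‖x‖⁻¹ • x)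

lemma homExt_zero (g : X → Y) : homExt g 0 = 0 := by
  simp [homExt]

lemma homExt_of_norm_one (g : X → Y) {x : X} (hx : ‖x‖ = 1) : homExt g x = g x := by
  simp [homExt, hx]

lemma homExt_smul_of_nonneg (g : X → Y) {x : X} (hx : ‖x‖ = 1) {t : ℝ} (ht : 0 ≤ t) :
    homExt g (t • x) = t • g x := by
  rcases eq_or_lt_of_le ht with rfl | hpos
  · simp [homExt]
  · unfold homExt
    rw [norm_smul, hx, mul_one, Real.norm_eq_abs, abs_of_pos hpos, smul_smul,
      inv_mul_cancel₀ hpos.ne', one_smul]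

lemma homExt_smul {g : X → Y} (hg1 : ∀ x, ‖x‖ = 1 → ‖g x‖ = 1)
    (hg2 : ∀ x y, ‖x‖ = 1 → ‖y‖ = 1 → ‖g x - g y‖ = ‖x - y‖)
    (hg3 : ∀ w : Y, ‖w‖ = 1 → ∃ x, ‖x‖ = 1 ∧ g x = w) {x : X} (hx : ‖x‖ = 1) (t : ℝ) :
    homExt g (t • x) = t • g x := by
  rcases le_total 0 t with ht | ht
  · exact homExt_smul_of_nonneg g hx ht
  · have e : t • x = (-t) • (-x) := by simp
    rw [e, homExt_smul_of_nonneg g (by rw [norm_neg]; exact hx) (by linarith),
      map_neg_of_strictConvex hg1 hg2 hg3 hx]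
    simp

lemma homExt_orthocombo {g : X → Y} (hg1 : ∀ x, ‖x‖ = 1 → ‖g x‖ = 1)
    (hg2 : ∀ x y, ‖x‖ = 1 → ‖y‖ = 1 → ‖g x - g y‖ = ‖x - y‖)
    (hg3 : ∀ w : Y, ‖w‖ = 1 → ∃ x, ‖x‖ = 1 ∧ g x = w) {x y : X} (hx : ‖x‖ = 1)
    (hy : ‖y‖ = 1) (hxy : inner ℝ x y = 0) (s t : ℝ) :
    homExt g (s • x + t • y) = s • g x + t • g y := by
  rcases eq_or_lt_of_le (add_nonneg (sq_nonneg s) (sq_nonneg t)) with h0 | hpos
  · have hs : s = 0 := by nlinarith [sq_nonneg s, sq_nonneg t]
    have ht : t = 0 := by nlinarith [sq_nonneg s, sq_nonneg t]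
    subst hs; subst ht
    simp [homExt]
  · set r := Real.sqrt (s ^ 2 + t ^ 2) with hr
    have hr0 : 0 < r := Real.sqrt_pos.mpr hpos
    have hr2 : r ^ 2 = s ^ 2 + t ^ 2 := Real.sq_sqrt hpos.le
    have hnorm : ‖s • x + t • y‖ = r := by
      have h := norm_orthocombo_sq hx hy hxy s t
      have h0 := norm_nonneg (s • x + t • y)
      nlinarith
    have h1 : (s / r) ^ 2 + (t / r) ^ 2 = 1 := by
      field_simp
      linarith
    have e : r⁻¹ • (s • x + t • y) = (s / r) • x + (t / r) • y := by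
      rw [smul_add, smul_smul, smul_smul]
      congr 2 <;> field_simp
    unfold homExt
    rw [hnorm, e, map_orthocombo hg1 hg2 hg3 hx hy hxy h1, smul_add, smul_smul, smul_smul]
    congr 2 <;> field_simp

lemma homExt_isometry {g : X → Y} (hg1 : ∀ x, ‖x‖ = 1 → ‖g x‖ = 1)
    (hg2 : ∀ x y, ‖x‖ = 1 → ‖y‖ = 1 → ‖g x - g y‖ = ‖x - y‖)
    (hg3 : ∀ w : Y, ‖w‖ = 1 → ∃ x, ‖x‖ = 1 ∧ g x = w) (a b : X) :
    ‖homExt g a - homExt g b‖ = ‖a - b‖ := by
  have hR := rhombusLaw_of_sphere_isometry hg1 hg2 hg3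
  by_cases ha : a = 0
  · subst ha
    rw [homExt_zero, zero_sub, zero_sub, norm_neg, norm_neg]
    by_cases hb : b = 0
    · subst hb; simp [homExt]
    · have hb' : ‖b‖ ≠ 0 := norm_ne_zero_iff.mpr hb
      have hunit : ‖‖b‖⁻¹ • b‖ = 1 := by
        rw [norm_smul, norm_inv, norm_norm, inv_mul_cancel₀ hb']
      unfold homExt
      rw [norm_smul, norm_norm, hg1 _ hunit, mul_one]
  · have ha' : ‖a‖ ≠ 0 := norm_ne_zero_iff.mpr ha
    set x : X := ‖a‖⁻¹ • a with hxdef
    have hx : ‖x‖ = 1 := by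
      rw [hxdef, norm_smul, norm_inv, norm_norm, inv_mul_cancel₀ ha']
    have hax : a = ‖a‖ • x := by
      rw [hxdef, smul_smul, mul_inv_cancel₀ ha', one_smul]
    set β := inner ℝ x b with hβ
    set r : X := b - β • x with hrdef
    have hxr : inner ℝ x r = 0 := by
      rw [hrdef, inner_sub_right, inner_smul_right, real_inner_self_eq_norm_sq, hx]
      simp [hβ]
    have hb : b = β • x + r := by rw [hrdef]; abel
    by_cases hr : r = 0
    · rw [hr, add_zero] at hb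
      have e1 : homExt g a = ‖a‖ • g x := by
        conv_lhs => rw [hax]
        exact homExt_smul hg1 hg2 hg3 hx _
      have e2 : homExt g b = β • g x := by
        conv_lhs => rw [hb]
        exact homExt_smul hg1 hg2 hg3 hx _
      rw [e1, e2, ← sub_smul, norm_smul, hg1 x hx, mul_one]
      conv_rhs => rw [hax, hb]
      rw [← sub_smul, norm_smul, hx, mul_one]
    · have hr' : ‖r‖ ≠ 0 := norm_ne_zero_iff.mpr hr
      set y : X := ‖r‖⁻¹ • r with hydef
      have hy : ‖y‖ = 1 := by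
        rw [hydef, norm_smul, norm_inv, norm_norm, inv_mul_cancel₀ hr']
      have hry : r = ‖r‖ • y := by
        rw [hydef, smul_smul, mul_inv_cancel₀ hr', one_smul]
      have hxy : inner ℝ x y = 0 := by
        rw [hydef, inner_smul_right, hxr, mul_zero]
      have hb2 : b = β • x + ‖r‖ • y := by rw [← hry]; exact hb
      have ha2 : a = ‖a‖ • x + (0 : ℝ) • y := by rw [zero_smul, add_zero]; exact hax
      have e1 : homExt g a = ‖a‖ • g x + (0 : ℝ) • g y := by
        conv_lhs => rw [ha2]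
        exact homExt_orthocombo hg1 hg2 hg3 hx hy hxy _ _
      have e2 : homExt g b = β • g x + ‖r‖ • g y := by
        conv_lhs => rw [hb2]
        exact homExt_orthocombo hg1 hg2 hg3 hx hy hxy _ _
      have hu := hg1 x hx
      have hv := hg1 y hy
      have huv := orthonormal_images hg1 hg2 hg3 hx hy hxy
      have e3 : homExt g a - homExt g b = (‖a‖ - β) • g x + (0 - ‖r‖) • g y := by
        rw [e1, e2]; module
      have e4 : a - b = (‖a‖ - β) • x + (0 - ‖r‖) • y := by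
        conv_lhs => rw [ha2, hb2]
        module
      have h1 : ‖homExt g a - homExt g b‖ ^ 2 = ‖a - b‖ ^ 2 := by
        rw [e3, norm_combo_sq hR hu hv huv, e4, norm_orthocombo_sq hx hy hxy]
      have := norm_nonneg (homExt g a - homExt g b)
      have := norm_nonneg (a - b)
      nlinarith

lemma homExt_surjective {g : X → Y} (hg3 : ∀ w : Y, ‖w‖ = 1 → ∃ x, ‖x‖ = 1 ∧ g x = w) :
    Function.Surjective (homExt g) := by
  intro w
  by_cases hw : w = 0
  · exact ⟨0, by rw [homExt_zero, hw]⟩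
  · have hw' : ‖w‖ ≠ 0 := norm_ne_zero_iff.mpr hw
    have hunit : ‖‖w‖⁻¹ • w‖ = 1 := by
      rw [norm_smul, norm_inv, norm_norm, inv_mul_cancel₀ hw']
    obtain ⟨z, hz, hgz⟩ := hg3 _ hunit
    refine ⟨‖w‖ • z, ?_⟩
    rw [homExt_smul_of_nonneg g hz (norm_nonneg w), hgz, smul_smul, mul_inv_cancel₀ hw',
      one_smul]

/-- Core theorem: a map which restricts to a surjective isometry from the unit sphere of a real
inner product space onto the unit sphere of a real normed space agrees on the sphere with a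
linear isometric equivalence. -/
theorem exists_linearIsometryEquiv_of_sphere_isometry {g : X → Y}
    (hg1 : ∀ x, ‖x‖ = 1 → ‖g x‖ = 1)
    (hg2 : ∀ x y, ‖x‖ = 1 → ‖y‖ = 1 → ‖g x - g y‖ = ‖x - y‖)
    (hg3 : ∀ w : Y, ‖w‖ = 1 → ∃ x, ‖x‖ = 1 ∧ g x = w) :
    ∃ T : X ≃ₗᵢ[ℝ] Y, ∀ x, ‖x‖ = 1 → T x = g x := by
  have hiso : Isometry (homExt g) :=
    Isometry.of_dist_eq fun a b => by
      rw [dist_eq_norm, dist_eq_norm]; exact homExt_isometry hg1 hg2 hg3 a b
  have hsurj := homExt_surjective (X := X) hg3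
  let e : X ≃ᵢ Y := IsometryEquiv.mk' (homExt g) (Function.surjInv hsurj)
    (Function.surjInv_eq hsurj) hiso
  have he0 : e 0 = 0 := homExt_zero g
  refine ⟨e.toRealLinearIsometryEquivOfMapZero he0, fun x hx => ?_⟩
  rw [IsometryEquiv.coe_toRealLinearIsometryEquivOfMapZero]
  exact homExt_of_norm_one g hx

/-- Subtype version: every surjective isometry from the unit sphere of a real inner product
space onto the unit sphere of a real normed space extends to a linear isometric equivalence. -/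
theorem sphere_extension_of_inner_source
    (f : Metric.sphere (0 : X) 1 → Metric.sphere (0 : Y) 1)
    (hf : Isometry f) (hsurj : Function.Surjective f) :
    ∃ T : X ≃ₗᵢ[ℝ] Y, ∀ x : Metric.sphere (0 : X) 1, T (x : X) = (f x : Y) := by
  classical
  -- a total function extending `f`
  let g : X → Y := fun x =>
    if h : ‖x‖ = 1 then (f ⟨x, mem_sphere_zero_iff_norm.mpr h⟩ : Y) else 0
  have hg : ∀ (x : X) (h : ‖x‖ = 1), g x = (f ⟨x, mem_sphere_zero_iff_norm.mpr h⟩ : Y) := by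
    intro x h
    simp only [g, dif_pos h]
  have hg1 : ∀ x, ‖x‖ = 1 → ‖g x‖ = 1 := by
    intro x hx
    rw [hg x hx]
    exact mem_sphere_zero_iff_norm.mp (f ⟨x, mem_sphere_zero_iff_norm.mpr hx⟩).2
  have hg2 : ∀ x y, ‖x‖ = 1 → ‖y‖ = 1 → ‖g x - g y‖ = ‖x - y‖ := by
    intro x y hx hy
    rw [hg x hx, hg y hy]
    have h := hf.dist_eq ⟨x, mem_sphere_zero_iff_norm.mpr hx⟩ ⟨y, mem_sphere_zero_iff_norm.mpr hy⟩
    rw [Subtype.dist_eq, Subtype.dist_eq, dist_eq_norm, dist_eq_norm] at h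
    exact h
  have hg3 : ∀ w : Y, ‖w‖ = 1 → ∃ x, ‖x‖ = 1 ∧ g x = w := by
    intro w hw
    obtain ⟨x, hx⟩ := hsurj ⟨w, mem_sphere_zero_iff_norm.mpr hw⟩
    have hx1 : ‖(x : X)‖ = 1 := mem_sphere_zero_iff_norm.mp x.2
    refine ⟨x, hx1, ?_⟩
    rw [hg _ hx1]
    have : (⟨(x : X), mem_sphere_zero_iff_norm.mpr hx1⟩ : Metric.sphere (0 : X) 1) = x :=
      Subtype.ext rfl
    rw [this, hx]
  obtain ⟨T, hT⟩ := exists_linearIsometryEquiv_of_sphere_isometry hg1 hg2 hg3
  refine ⟨T, fun x => ?_⟩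
  have hx1 : ‖(x : X)‖ = 1 := mem_sphere_zero_iff_norm.mp x.2
  rw [hT _ hx1, hg _ hx1]

end Inner

section InnerTarget

variable {X Y : Type*} [NormedAddCommGroup X] [NormedSpace ℝ X]
  [NormedAddCommGroup Y] [InnerProductSpace ℝ Y]

/-- Every surjective isometry from the unit sphere of a real normed space onto the unit sphere
of a real inner product space extends to a linear isometric equivalence. -/
theorem sphere_extension_of_inner_target
    (f : Metric.sphere (0 : X) 1 → Metric.sphere (0 : Y) 1)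
    (hf : Isometry f) (hsurj : Function.Surjective f) :
    ∃ T : X ≃ₗᵢ[ℝ] Y, ∀ x : Metric.sphere (0 : X) 1, T (x : X) = (f x : Y) := by
  have hbij : Function.Bijective f := ⟨hf.injective, hsurj⟩
  let e := Equiv.ofBijective f hbij
  have hinv : Isometry e.symm := by
    apply Isometry.of_dist_eq
    intro a b
    have h := hf.dist_eq (e.symm a) (e.symm b)
    have ha : f (e.symm a) = a := e.apply_symm_apply a
    have hb : f (e.symm b) = b := e.apply_symm_apply b
    rw [ha, hb] at h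
    exact h.symm
  obtain ⟨T, hT⟩ := sphere_extension_of_inner_source (⇑e.symm) hinv e.symm.surjective
  refine ⟨T.symm, fun x => ?_⟩
  have h := hT (f x)
  have hx : e.symm (f x) = x := e.symm_apply_apply x
  rw [hx] at h
  rw [← h, LinearIsometryEquiv.symm_apply_apply]

end InnerTarget

end Vale.Agent.H23
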