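import Mathlib

/-!
# The Mazur-Ulam property
-/

namespace Vale.Agent.H23

universe u v

/-- A real normed space `X` has the Mazur-Ulam property (with respect to target spaces in the
universe `v`) if for every real Banach space `Y`, every surjective isometry from the unit sphere
of `X` onto the unit sphere of `Y` is the restriction of a surjective real-linear isometry
`X ≃ₗᵢ[ℝ] Y`. -/
def MazurUlamProperty (X : Type u) [NormedAddCommGroup X] [NormedSpace ℝ X] : Prop :=
  ∀ (Y : Type v) [NormedAddCommGroup Y] [NormedSpace ℝ Y] [CompleteSpace Y]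
    (f : Metric.sphere (0 : X) 1 → Metric.sphere (0 : Y) 1),
    Isometry f → Function.Surjective f →
      ∃ T : X ≃ₗᵢ[ℝ] Y, ∀ x : Metric.sphere (0 : X) 1, T (x : X) = (f x : Y)

end Vale.Agent.H23
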