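import Vale.Agent.H23.L1Sum
import Vale.Agent.H23.HilbertMU
import Vale.Agent.H23.MUDef

/-!
# `ℓ¹`-sums and the Mazur-Ulam property: sphere-subtype versions
-/

namespace Vale.Agent.H23

universe u₁ u₂ v

section Convert

variable {X : Type*} {Z : Type*} [NormedAddCommGroup X] [NormedSpace ℝ X]
  [NormedAddCommGroup Z] [NormedSpace ℝ Z]

/-- From a map of spheres to a total function. -/
lemma exists_fun_of_sphere_map (f : Metric.sphere (0 : X) 1 → Metric.sphere (0 : Z) 1)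
    (hf : Isometry f) (hsurj : Function.Surjective f) :
    ∃ g : X → Z, (∀ x, ‖x‖ = 1 → ‖g x‖ = 1) ∧
      (∀ x y, ‖x‖ = 1 → ‖y‖ = 1 → ‖g x - g y‖ = ‖x - y‖) ∧
      (∀ w : Z, ‖w‖ = 1 → ∃ x, ‖x‖ = 1 ∧ g x = w) ∧
      ∀ x : Metric.sphere (0 : X) 1, g (x : X) = (f x : Z) := by
  classical
  let g : X → Z := fun x =>
    if h : ‖x‖ = 1 then (f ⟨x, mem_sphere_zero_iff_norm.mpr h⟩ : Z) else 0
  have hg : ∀ (x : X) (h : ‖x‖ = 1), g x = (f ⟨x, mem_sphere_zero_iff_norm.mpr h⟩ : Z) := by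
    intro x h
    simp only [g, dif_pos h]
  refine ⟨g, ?_, ?_, ?_, ?_⟩
  · intro x hx
    rw [hg x hx]
    exact mem_sphere_zero_iff_norm.mp (f ⟨x, mem_sphere_zero_iff_norm.mpr hx⟩).2
  · intro x y hx hy
    rw [hg x hx, hg y hy]
    have h := hf.dist_eq ⟨x, mem_sphere_zero_iff_norm.mpr hx⟩ ⟨y, mem_sphere_zero_iff_norm.mpr hy⟩
    rw [Subtype.dist_eq, Subtype.dist_eq, dist_eq_norm, dist_eq_norm] at h
    exact h
  · intro w hw
    obtain ⟨x, hx⟩ := hsurj ⟨w, mem_sphere_zero_iff_norm.mpr hw⟩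
    have hx1 : ‖(x : X)‖ = 1 := mem_sphere_zero_iff_norm.mp x.2
    refine ⟨x, hx1, ?_⟩
    rw [hg _ hx1]
    have : (⟨(x : X), mem_sphere_zero_iff_norm.mpr hx1⟩ : Metric.sphere (0 : X) 1) = x :=
      Subtype.ext rfl
    rw [this, hx]
  · intro x
    have hx1 : ‖(x : X)‖ = 1 := mem_sphere_zero_iff_norm.mp x.2
    rw [hg _ hx1]

/-- From a total function to a map of spheres. -/
lemma exists_sphere_map_of_fun (k : X → Z) (hk1 : ∀ a, ‖a‖ = 1 → ‖k a‖ = 1)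
    (hk2 : ∀ a b, ‖a‖ = 1 → ‖b‖ = 1 → ‖k a - k b‖ = ‖a - b‖)
    (hk3 : ∀ w : Z, ‖w‖ = 1 → ∃ a, ‖a‖ = 1 ∧ k a = w) :
    ∃ f : Metric.sphere (0 : X) 1 → Metric.sphere (0 : Z) 1, Isometry f ∧
      Function.Surjective f ∧ ∀ x : Metric.sphere (0 : X) 1, (f x : Z) = k (x : X) := by
  let f : Metric.sphere (0 : X) 1 → Metric.sphere (0 : Z) 1 := fun x =>
    ⟨k (x : X), mem_sphere_zero_iff_norm.mpr (hk1 _ (mem_sphere_zero_iff_norm.mp x.2))⟩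
  refine ⟨f, ?_, ?_, fun x => rfl⟩
  · apply Isometry.of_dist_eq
    intro x y
    rw [Subtype.dist_eq, Subtype.dist_eq, dist_eq_norm, dist_eq_norm]
    exact hk2 _ _ (mem_sphere_zero_iff_norm.mp x.2) (mem_sphere_zero_iff_norm.mp y.2)
  · intro w
    obtain ⟨a, ha, hka⟩ := hk3 (w : Z) (mem_sphere_zero_iff_norm.mp w.2)
    exact ⟨⟨a, mem_sphere_zero_iff_norm.mpr ha⟩, Subtype.ext hka⟩

end Convert

section Sum

variable {X₁ : Type u₁} {X₂ : Type u₂} {Y : Type v}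
  [NormedAddCommGroup X₁] [NormedSpace ℝ X₁] [StrictConvexSpace ℝ X₁]
  [NormedAddCommGroup X₂] [NormedSpace ℝ X₂] [StrictConvexSpace ℝ X₂]
  [NormedAddCommGroup Y] [NormedSpace ℝ Y]

/-- Sphere-subtype version of the core theorem for `ℓ¹`-sums. -/
theorem l1_sphere_extension
    (hM₁ : ∀ (Z : Submodule ℝ Y), IsClosed (Z : Set Y) → ∀ k : X₁ → Z,
      (∀ a, ‖a‖ = 1 → ‖k a‖ = 1) → (∀ a b, ‖a‖ = 1 → ‖b‖ = 1 → ‖k a - k b‖ = ‖a - b‖) →
      (∀ w : Z, ‖w‖ = 1 → ∃ a, ‖a‖ = 1 ∧ k a = w) →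
      ∃ T : X₁ ≃ₗᵢ[ℝ] Z, ∀ a, ‖a‖ = 1 → T a = k a)
    (hM₂ : ∀ (Z : Submodule ℝ Y), IsClosed (Z : Set Y) → ∀ k : X₂ → Z,
      (∀ a, ‖a‖ = 1 → ‖k a‖ = 1) → (∀ a b, ‖a‖ = 1 → ‖b‖ = 1 → ‖k a - k b‖ = ‖a - b‖) →
      (∀ w : Z, ‖w‖ = 1 → ∃ a, ‖a‖ = 1 ∧ k a = w) →
      ∃ T : X₂ ≃ₗᵢ[ℝ] Z, ∀ a, ‖a‖ = 1 → T a = k a)
    (f : Metric.sphere (0 : WithLp 1 (X₁ × X₂)) 1 → Metric.sphere (0 : Y) 1)
    (hf : Isometry f) (hsurj : Function.Surjective f) :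
    ∃ T : WithLp 1 (X₁ × X₂) ≃ₗᵢ[ℝ] Y,
      ∀ x : Metric.sphere (0 : WithLp 1 (X₁ × X₂)) 1, T (x : WithLp 1 (X₁ × X₂)) = (f x : Y) := by
  obtain ⟨g₀, h1, h2, h3, h4⟩ := exists_fun_of_sphere_map f hf hsurj
  let g : X₁ → X₂ → Y := fun a b => g₀ (WithLp.toLp 1 (a, b))
  have hnorm : ∀ (a : X₁) (b : X₂), ‖(WithLp.toLp 1 (a, b) : WithLp 1 (X₁ × X₂))‖ = ‖a‖ + ‖b‖ := by
    intro a b
    rw [WithLp.prod_norm_eq_of_L1]
    rfl
  have hg : L1Iso g := by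
    refine ⟨?_, ?_, ?_⟩
    · intro a b hab
      exact h1 _ (by rw [hnorm, hab])
    · intro a b a' b' hab hab'
      show ‖g₀ _ - g₀ _‖ = _
      rw [h2 _ _ (by rw [hnorm, hab]) (by rw [hnorm, hab']), WithLp.prod_norm_eq_of_L1]
      rfl
    · intro w hw
      obtain ⟨x, hx, hgx⟩ := h3 w hw
      refine ⟨x.fst, x.snd, ?_, hgx⟩
      rw [← WithLp.prod_norm_eq_of_L1]; exact hx
  obtain ⟨T, hT⟩ := hg.exists_linearIsometryEquiv hM₁ hM₂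
  refine ⟨T, fun x => ?_⟩
  have hx1 : ‖(x : WithLp 1 (X₁ × X₂))‖ = 1 := mem_sphere_zero_iff_norm.mp x.2
  rw [hT _ hx1, ← h4 x]
  rfl

/-- Stability of the Mazur-Ulam property under `ℓ¹`-sums of two strictly convex spaces. -/
theorem mazurUlamProperty_l1_sum
    (h₁ : MazurUlamProperty.{u₁, v} X₁) (h₂ : MazurUlamProperty.{u₂, v} X₂) :
    MazurUlamProperty.{max u₁ u₂, v} (WithLp 1 (X₁ × X₂)) := by
  intro Y _ _ _ f hf hsurj
  refine l1_sphere_extension ?_ ?_ f hf hsurj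
  · intro Z hZ k hk1 hk2 hk3
    haveI : CompleteSpace Z := hZ.completeSpace_coe
    obtain ⟨f', hf', hs', hfk⟩ := exists_sphere_map_of_fun k hk1 hk2 hk3
    obtain ⟨T, hT⟩ := h₁ Z f' hf' hs'
    refine ⟨T, fun a ha => ?_⟩
    have := hT ⟨a, mem_sphere_zero_iff_norm.mpr ha⟩
    rw [hfk] at this
    exact this
  · intro Z hZ k hk1 hk2 hk3
    haveI : CompleteSpace Z := hZ.completeSpace_coe
    obtain ⟨f', hf', hs', hfk⟩ := exists_sphere_map_of_fun k hk1 hk2 hk3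
    obtain ⟨T, hT⟩ := h₂ Z f' hf' hs'
    refine ⟨T, fun a ha => ?_⟩
    have := hT ⟨a, mem_sphere_zero_iff_norm.mpr ha⟩
    rw [hfk] at this
    exact this

end Sum

section InnerSum

variable {H₁ H₂ Y : Type*} [NormedAddCommGroup H₁] [InnerProductSpace ℝ H₁]
  [NormedAddCommGroup H₂] [InnerProductSpace ℝ H₂] [NormedAddCommGroup Y] [NormedSpace ℝ Y]

/-- Every surjective isometry from the unit sphere of the `ℓ¹`-sum of two real inner product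
spaces onto the unit sphere of a real normed space extends to a linear isometric equivalence. -/
theorem l1_inner_sphere_extension
    (f : Metric.sphere (0 : WithLp 1 (H₁ × H₂)) 1 → Metric.sphere (0 : Y) 1)
    (hf : Isometry f) (hsurj : Function.Surjective f) :
    ∃ T : WithLp 1 (H₁ × H₂) ≃ₗᵢ[ℝ] Y,
      ∀ x : Metric.sphere (0 : WithLp 1 (H₁ × H₂)) 1, T (x : WithLp 1 (H₁ × H₂)) = (f x : Y) := by
  refine l1_sphere_extension ?_ ?_ f hf hsurj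
  · intro Z _ k hk1 hk2 hk3
    exact exists_linearIsometryEquiv_of_sphere_isometry hk1 hk2 hk3
  · intro Z _ k hk1 hk2 hk3
    exact exists_linearIsometryEquiv_of_sphere_isometry hk1 hk2 hk3

end InnerSum

end Vale.Agent.H23
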