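import Vale.Agent.H23.Weak
import Vale.Agent.H23.L1Main

/-!
# The Mazur-Ulam property is stable under `ℓ¹`-sums of two spaces

If two nonzero real normed spaces have the Mazur-Ulam property, then so does their `ℓ¹`-sum.
-/

namespace Vale.Agent.H23

universe u

section Main

/-- Conversion of the Mazur-Ulam property into the function form used by the core theorems. -/
lemma MazurUlamProperty.conv {X : Type u} [NormedAddCommGroup X] [NormedSpace ℝ X]
    (h : MazurUlamProperty.{u, u} X)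
    (Z : Type u) [NormedAddCommGroup Z] [NormedSpace ℝ Z] [CompleteSpace Z]
    (k : X → Z) (hk1 : ∀ a, ‖a‖ = 1 → ‖k a‖ = 1)
    (hk2 : ∀ a b, ‖a‖ = 1 → ‖b‖ = 1 → ‖k a - k b‖ = ‖a - b‖)
    (hk3 : ∀ w : Z, ‖w‖ = 1 → ∃ a, ‖a‖ = 1 ∧ k a = w) :
    ∃ T : X ≃ₗᵢ[ℝ] Z, ∀ a, ‖a‖ = 1 → T a = k a := by
  obtain ⟨f', hf', hs', hfk⟩ := exists_sphere_map_of_fun k hk1 hk2 hk3
  obtain ⟨T, hT⟩ := h Z f' hf' hs'
  refine ⟨T, fun a ha => ?_⟩
  have := hT ⟨a, mem_sphere_zero_iff_norm.mpr ha⟩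
  rw [hfk] at this
  exact this

end Main

section Convert

variable {X₁ X₂ Y : Type*} [NormedAddCommGroup X₁] [NormedSpace ℝ X₁]
  [NormedAddCommGroup X₂] [NormedSpace ℝ X₂] [NormedAddCommGroup Y] [NormedSpace ℝ Y]

/-- A surjective isometry from the unit sphere of `X₁ ⊕₁ X₂` onto the unit sphere of a real
normed space `Y` yields a function `g` with `L1Iso g`. -/
lemma exists_l1Iso_of_sphere_map
    (f : Metric.sphere (0 : WithLp 1 (X₁ × X₂)) 1 → Metric.sphere (0 : Y) 1)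
    (hf : Isometry f) (hsurj : Function.Surjective f) :
    ∃ g : X₁ → X₂ → Y, L1Iso g ∧
      ∀ x : Metric.sphere (0 : WithLp 1 (X₁ × X₂)) 1,
        g (x : WithLp 1 (X₁ × X₂)).fst (x : WithLp 1 (X₁ × X₂)).snd = (f x : Y) := by
  obtain ⟨g₀, h1, h2, h3, h4⟩ := exists_fun_of_sphere_map f hf hsurj
  have hnorm : ∀ (a : X₁) (b : X₂),
      ‖(WithLp.toLp 1 (a, b) : WithLp 1 (X₁ × X₂))‖ = ‖a‖ + ‖b‖ := by
    intro a b
    rw [WithLp.prod_norm_eq_of_L1]
    rfl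
  refine ⟨fun a b => g₀ (WithLp.toLp 1 (a, b)), ⟨?_, ?_, ?_⟩, fun x => ?_⟩
  · intro a b hab
    exact h1 _ (by rw [hnorm, hab])
  · intro a b a' b' hab hab'
    show ‖g₀ _ - g₀ _‖ = _
    rw [h2 _ _ (by rw [hnorm, hab]) (by rw [hnorm, hab']), WithLp.prod_norm_eq_of_L1]
    rfl
  · intro w hw
    obtain ⟨x, hx, hgx⟩ := h3 w hw
    refine ⟨x.fst, x.snd, ?_, hgx⟩
    rw [← WithLp.prod_norm_eq_of_L1]; exact hx
  · rw [← h4 x]
    rfl

end Convert

section Main2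

variable {X₁ X₂ : Type u} [NormedAddCommGroup X₁] [NormedSpace ℝ X₁] [Nontrivial X₁]
  [NormedAddCommGroup X₂] [NormedSpace ℝ X₂] [Nontrivial X₂]

/-- If two nonzero real normed spaces have the Mazur-Ulam property, then so does their
`ℓ¹`-sum. -/
theorem mazurUlamProperty_l1_gen
    (h₁ : MazurUlamProperty.{u, u} X₁) (h₂ : MazurUlamProperty.{u, u} X₂) :
    MazurUlamProperty.{u, u} (WithLp 1 (X₁ × X₂)) := by
  intro Y _ _ _ f hf hsurj
  obtain ⟨g, hg, hgf⟩ := exists_l1Iso_of_sphere_map f hf hsurj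
  obtain ⟨T, hT⟩ := hg.exists_linearIsometryEquiv_gen
    (fun Z hZ k hk1 hk2 hk3 => by
      have : CompleteSpace Z := hZ.completeSpace_coe
      exact h₁.conv Z k hk1 hk2 hk3)
    (fun Z hZ k hk1 hk2 hk3 => by
      have : CompleteSpace Z := hZ.completeSpace_coe
      exact h₂.conv Z k hk1 hk2 hk3)
  refine ⟨T, fun x => ?_⟩
  have hx1 : ‖(x : WithLp 1 (X₁ × X₂))‖ = 1 := mem_sphere_zero_iff_norm.mp x.2
  rw [hT _ hx1, hgf x]

end Main2

end Vale.Agent.H23
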