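import Vale.Agent.H23.ConePole
import Vale.Agent.H23.GenMain

/-!
# The `ℓ¹`-sum of two arbitrary nonzero normed spaces has the Mazur-Ulam property

Let `g : X₁ → X₂ → Y` restrict to a surjective isometry from the unit sphere of `X₁ ⊕₁ X₂` onto
the unit sphere of `Y` (`X₁`, `X₂` arbitrary nontrivial real normed spaces, `Y` any real normed
space). The key new step is the *join lemma*: for every point `(u, v)` of the unit sphere with
`u ≠ 0` and `v ≠ 0` there are unit vectors `A`, `B` with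
`g u v = ‖u‖ • g A 0 + ‖v‖ • g 0 B`. Hence the unit sphere of `Y` is the join of the images of the
unit spheres of the two summands, the cones over these images are filled by straight segments,
and `g` is the restriction of a linear isometry.
-/

namespace Vale.Agent.H23

section Join

variable {X₁ X₂ Y : Type*} [NormedAddCommGroup X₁] [NormedSpace ℝ X₁]
  [NormedAddCommGroup X₂] [NormedSpace ℝ X₂] [NormedAddCommGroup Y] [NormedSpace ℝ Y]

/-- If `y`, `y'` are unit vectors with `‖y - y'‖ = 2 t` and `r • W` is their midpoint, where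
`r + t = 1`, then `y` and `W` are aligned. -/
lemma two_le_norm_add_mid {y y' W : Y} {r t : ℝ} (hr : 0 < r) (hrt : r + t = 1)
    (hy : ‖y‖ = 1) (hsub : ‖y - y'‖ = 2 * t) (hW : r • W = (1 / 2 : ℝ) • (y + y')) :
    2 ≤ ‖y + W‖ := by
  have e : (1 + r) • y = r • (y + W) + (1 / 2 : ℝ) • (y - y') := by
    rw [smul_add, hW]; module
  have h1 : ‖(1 + r) • y‖ ≤ ‖r • (y + W)‖ + ‖(1 / 2 : ℝ) • (y - y')‖ := by
    rw [e]; exact norm_add_le _ _
  rw [norm_smul, norm_smul, norm_smul, hy, hsub, Real.norm_eq_abs, Real.norm_eq_abs,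
    Real.norm_eq_abs, abs_of_pos hr, abs_of_pos (by linarith : (0 : ℝ) < 1 + r),
    abs_of_pos (by norm_num : (0 : ℝ) < 1 / 2)] at h1
  have h2 : 2 * r ≤ r * ‖y + W‖ := by linarith
  exact le_of_mul_le_mul_left (by linarith) hr

variable [Nontrivial X₁] [Nontrivial X₂] {g : X₁ → X₂ → Y}

/-- The midpoint of `g u v` and `g u (-v)` is `‖u‖` times the image of a unit vector of the first
summand. -/
lemma L1Iso.join_aux (hg : L1Iso g) {u : X₁} {v : X₂} (hu : u ≠ 0) (hv : v ≠ 0)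
    (huv : ‖u‖ + ‖v‖ = 1) :
    ∃ A : X₁, ‖A‖ = 1 ∧ g u v + g u (-v) = (2 * ‖u‖) • g A 0 := by
  have hr : 0 < ‖u‖ := norm_pos_iff.mpr hu
  have ht : 0 < ‖v‖ := norm_pos_iff.mpr hv
  have huv' : ‖u‖ + ‖-v‖ = 1 := by rw [norm_neg]; exact huv
  have hnuv : ‖-u‖ + ‖v‖ = 1 := by rw [norm_neg]; exact huv
  obtain ⟨y, hydef⟩ : ∃ y : Y, y = g u v := ⟨_, rfl⟩
  obtain ⟨y', hy'def⟩ : ∃ y' : Y, y' = g u (-v) := ⟨_, rfl⟩
  have hy : ‖y‖ = 1 := by rw [hydef]; exact hg.norm_map u v huv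
  have hy' : ‖y'‖ = 1 := by rw [hy'def]; exact hg.norm_map u (-v) huv'
  have hsub : ‖y - y'‖ = 2 * ‖v‖ := by
    rw [hydef, hy'def, hg.dist_map u v u (-v) huv huv', sub_self, norm_zero, zero_add,
      sub_neg_eq_add]
    have e : v + v = (2 : ℝ) • v := by module
    rw [e, norm_smul]; norm_num
  have hsub' : ‖y' - y‖ = 2 * ‖v‖ := by rw [norm_sub_rev]; exact hsub
  have hneg : y' = - g (-u) v := by
    rw [hy'def]
    have := hg.map_neg_neg hnuv
    rw [neg_neg] at this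
    rw [this]
  have hadd : ‖y + y'‖ = 2 * ‖u‖ := by
    rw [hneg, ← sub_eq_add_neg, hydef, hg.dist_map u v (-u) v huv hnuv, sub_self, norm_zero,
      add_zero, sub_neg_eq_add]
    have e : u + u = (2 : ℝ) • u := by module
    rw [e, norm_smul]; norm_num
  obtain ⟨W, hWdef⟩ : ∃ W : Y, W = (2 * ‖u‖)⁻¹ • (y + y') := ⟨_, rfl⟩
  have h2r : (0 : ℝ) < 2 * ‖u‖ := by linarith
  have hW1 : ‖W‖ = 1 := by
    rw [hWdef, norm_smul, hadd, Real.norm_eq_abs, abs_of_pos (inv_pos.mpr h2r),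
      inv_mul_cancel₀ h2r.ne']
  have hrW : ‖u‖ • W = (1 / 2 : ℝ) • (y + y') := by
    rw [hWdef, smul_smul]
    congr 1
    field_simp
  have hrW' : ‖u‖ • W = (1 / 2 : ℝ) • (y' + y) := by rw [hrW, add_comm]
  obtain ⟨c₂, d₂, hcd, hgcd⟩ := hg.surj W hW1
  have hd : d₂ = 0 := by
    by_contra hd0
    have hdpos : 0 < ‖d₂‖ := norm_pos_iff.mpr hd0
    have hdle : ‖d₂‖ ≤ 1 := by linarith [norm_nonneg c₂]
    -- `y'` and `W` are aligned
    have h1 : 2 ≤ ‖y' + W‖ := two_le_norm_add_mid hr huv hy' hsub' hrW'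
    have hncd : ‖-c₂‖ + ‖-d₂‖ = 1 := by rw [norm_neg, norm_neg]; exact hcd
    have h2 : ‖y' + W‖ = ‖u + c₂‖ + ‖d₂ - v‖ := by
      have e1 : W = - g (-c₂) (-d₂) := by
        rw [hg.map_neg_neg hcd, neg_neg, hgcd]
      rw [e1, ← sub_eq_add_neg, hy'def, hg.dist_map u (-v) (-c₂) (-d₂) huv' hncd,
        sub_neg_eq_add, sub_neg_eq_add, neg_add_eq_sub]
    have h3 : ‖u + c₂‖ ≤ ‖u‖ + ‖c₂‖ := norm_add_le _ _
    have h4 : ‖v‖ + ‖d₂‖ ≤ ‖d₂ - v‖ := by linarith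
    -- the pole in the direction of `d₂`
    obtain ⟨b', hb'def⟩ : ∃ b' : X₂, b' = ‖d₂‖⁻¹ • d₂ := ⟨_, rfl⟩
    have hb'1 : ‖b'‖ = 1 := by rw [hb'def]; exact norm_inv_smul_self hd0
    have h0b : ‖(0 : X₁)‖ + ‖b'‖ = 1 := by simp [hb'1]
    have hinv : 1 ≤ ‖d₂‖⁻¹ := (one_le_inv₀ hdpos).mpr hdle
    have h5 : ‖v‖ + 1 ≤ ‖b' - v‖ := by
      have e : ‖d₂‖⁻¹ • (d₂ - v) = (b' - v) + (-(‖d₂‖⁻¹ - 1)) • v := by
        rw [hb'def]; module
      have h6 : ‖‖d₂‖⁻¹ • (d₂ - v)‖ ≤ ‖b' - v‖ + ‖(-(‖d₂‖⁻¹ - 1)) • v‖ := by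
        rw [e]; exact norm_add_le _ _
      rw [norm_smul, norm_smul, Real.norm_eq_abs, Real.norm_eq_abs, abs_neg,
        abs_of_pos (inv_pos.mpr hdpos), abs_of_nonneg (by linarith : (0 : ℝ) ≤ ‖d₂‖⁻¹ - 1)] at h6
      have h7 : ‖d₂‖⁻¹ * (‖v‖ + ‖d₂‖) ≤ ‖d₂‖⁻¹ * ‖d₂ - v‖ :=
        mul_le_mul_of_nonneg_left h4 (inv_pos.mpr hdpos).le
      have h8 : ‖d₂‖⁻¹ * ‖d₂‖ = 1 := inv_mul_cancel₀ hdpos.ne'
      nlinarith
    have h9 : ‖y - g 0 b'‖ = ‖u‖ + ‖v - b'‖ := by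
      rw [hydef, hg.dist_map u v 0 b' huv h0b, sub_zero]
    have h10 : ‖W - g 0 b'‖ = ‖c₂‖ + (1 - ‖d₂‖) := by
      rw [← hgcd, hg.dist_map c₂ d₂ 0 b' hcd h0b, sub_zero]
      congr 1
      have e : d₂ - b' = (1 - ‖d₂‖⁻¹) • d₂ := by rw [hb'def]; module
      rw [e, norm_smul, Real.norm_eq_abs, abs_of_nonpos (by linarith : 1 - ‖d₂‖⁻¹ ≤ 0)]
      field_simp
      ring
    have hz1 : ‖g 0 b'‖ = 1 := hg.norm_map 0 b' h0b
    have e11 : y - g 0 b' = ‖u‖ • (W - g 0 b') + ((1 / 2 : ℝ) • (y - y') - ‖v‖ • g 0 b') := by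
      have e12 : g 0 b' = (‖u‖ + ‖v‖) • g 0 b' := by rw [huv, one_smul]
      rw [smul_sub, hrW]
      nth_rewrite 1 [e12]
      module
    have h12 : ‖y - g 0 b'‖ ≤ ‖u‖ * ‖W - g 0 b'‖ + (‖v‖ + ‖v‖) := by
      have h13 : ‖y - g 0 b'‖ ≤ ‖‖u‖ • (W - g 0 b')‖ +
          ‖(1 / 2 : ℝ) • (y - y') - ‖v‖ • g 0 b'‖ := by
        nth_rewrite 1 [e11]; exact norm_add_le _ _
      have h14 : ‖(1 / 2 : ℝ) • (y - y') - ‖v‖ • g 0 b'‖ ≤ ‖v‖ + ‖v‖ := by
        refine (norm_sub_le _ _).trans ?_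
        rw [norm_smul, norm_smul, hsub, hz1, norm_norm, Real.norm_eq_abs,
          abs_of_pos (by norm_num : (0 : ℝ) < 1 / 2)]
        linarith
      rw [norm_smul, norm_norm] at h13
      linarith
    rw [h9, h10, norm_sub_rev v b'] at h12
    nlinarith
  subst hd
  have hc1 : ‖c₂‖ = 1 := by simpa using hcd
  refine ⟨c₂, hc1, ?_⟩
  rw [← hydef, ← hy'def, hgcd, hWdef, smul_smul, mul_inv_cancel₀ h2r.ne', one_smul]

/-- The join lemma: the image of every point of the unit sphere of `X₁ ⊕₁ X₂` outside the two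
summands lies on a straight segment joining the images of a pole of the first summand and a pole
of the second summand. -/
theorem L1Iso.join (hg : L1Iso g) {u : X₁} {v : X₂} (hu : u ≠ 0) (hv : v ≠ 0)
    (huv : ‖u‖ + ‖v‖ = 1) :
    ∃ (A : X₁) (B : X₂), ‖A‖ = 1 ∧ ‖B‖ = 1 ∧ g u v = ‖u‖ • g A 0 + ‖v‖ • g 0 B := by
  obtain ⟨A, hA, hA2⟩ := hg.join_aux hu hv huv
  obtain ⟨B, hB, hB2⟩ := hg.flip.join_aux hv hu (by linarith)
  refine ⟨A, B, hA, hB, ?_⟩
  have hnuv : ‖-u‖ + ‖v‖ = 1 := by rw [norm_neg]; exact huv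
  have hneg : g u (-v) = - g (-u) v := by
    have := hg.map_neg_neg hnuv
    rw [neg_neg] at this
    rw [this]
  have hB3 : g u v + g (-u) v = (2 * ‖v‖) • g 0 B := hB2
  have e : (2 : ℝ) • g u v = (2 : ℝ) • (‖u‖ • g A 0 + ‖v‖ • g 0 B) := by
    have e1 : (2 : ℝ) • g u v = (g u v + g u (-v)) + (g u v + g (-u) v) := by
      rw [hneg]; module
    rw [e1, hA2, hB3]; module
  exact smul_right_injective Y (two_ne_zero) e

/-- For every pole `(0, b)` of the second summand, the cone over the unit sphere of the first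
summand is filled by straight segments. -/
lemma L1Iso.cone_all (hg : L1Iso g) {b : X₂} (hb : ‖b‖ = 1) {t : ℝ} (ht0 : 0 < t)
    (ht1 : t < 1) :
    ∃ d : X₂, ‖d‖ = t ∧ ‖d - b‖ = 1 - t ∧
      (∀ a : X₁, ‖a‖ = 1 → ∃ c : X₁, ‖c‖ = 1 - t ∧ g c d = (1 - t) • g a 0 + t • g 0 b) ∧
      (∀ w : X₁, ‖w‖ = 1 → ∃ a : X₁, ‖a‖ = 1 ∧
        g ((1 - t) • w) d = (1 - t) • g a 0 + t • g 0 b) := by
  have h1t : 0 < 1 - t := by linarith
  obtain ⟨d, hd1, hd2, hd⟩ := hg.wpole hb ht0 ht1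
  have hd0 : d ≠ 0 := by
    intro h
    rw [h, norm_zero] at hd1
    linarith
  refine ⟨d, hd1, hd2, fun a ha => ?_, fun w hw => ?_⟩
  · obtain ⟨c, hc1, -, hc⟩ := hd a ha
    exact ⟨c, hc1, hc⟩
  · -- decompose the image of `(-(1 - t) • w, d)`
    have hwn : ‖(1 - t) • w‖ = 1 - t := by
      rw [norm_smul, hw, mul_one, Real.norm_eq_abs, abs_of_pos h1t]
    have hw0 : -((1 - t) • w) ≠ 0 := by
      intro h
      have := congrArg norm h
      rw [norm_neg, hwn, norm_zero] at this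
      linarith
    have hsph : ‖-((1 - t) • w)‖ + ‖d‖ = 1 := by rw [norm_neg, hwn, hd1]; ring
    obtain ⟨a₁, b₁, ha₁, hb₁, hjoin⟩ := hg.join hw0 hd0 hsph
    rw [norm_neg, hwn, hd1] at hjoin
    have hna₁ : ‖-a₁‖ = 1 := by rw [norm_neg]; exact ha₁
    obtain ⟨c, hc1, -, hc⟩ := hd (-a₁) hna₁
    have hcd : ‖c‖ + ‖d‖ = 1 := by rw [hc1, hd1]; ring
    have hsph' : ‖(1 - t) • w‖ + ‖-d‖ = 1 := by rw [norm_neg, hwn, hd1]; ring
    -- the sum of the two images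
    have hsum : g c d + g (-((1 - t) • w)) d = t • (g 0 b + g 0 b₁) := by
      rw [hc, hjoin, hg.neg_fst ha₁]; module
    have hn1 : ‖g c d + g (-((1 - t) • w)) d‖ = ‖c - (1 - t) • w‖ + (t + t) := by
      have e1 : g (-((1 - t) • w)) d = - g ((1 - t) • w) (-d) := by
        have := hg.map_neg_neg hsph'
        rw [neg_neg] at this
        rw [this]
      rw [e1, ← sub_eq_add_neg, hg.dist_map c d ((1 - t) • w) (-d) hcd hsph', sub_neg_eq_add]
      congr 1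
      have e2 : d + d = (2 : ℝ) • d := by module
      rw [e2, norm_smul, hd1]; norm_num; ring
    have hn2 : ‖t • (g 0 b + g 0 b₁)‖ ≤ t + t := by
      rw [norm_smul, Real.norm_eq_abs, abs_of_pos ht0]
      have h1 : ‖g 0 b‖ = 1 := hg.norm_map 0 b (by simp [hb])
      have h2 : ‖g 0 b₁‖ = 1 := hg.norm_map 0 b₁ (by simp [hb₁])
      have h3 : ‖g 0 b + g 0 b₁‖ ≤ 1 + 1 := by
        refine (norm_add_le _ _).trans ?_
        rw [h1, h2]
      nlinarith
    rw [hsum] at hn1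
    have hzero : ‖c - (1 - t) • w‖ = 0 :=
      le_antisymm (by linarith) (norm_nonneg _)
    have hcw : c = (1 - t) • w := sub_eq_zero.mp (norm_eq_zero.mp hzero)
    exact ⟨-a₁, hna₁, by rw [← hcw]; exact hc⟩

/-- The homogeneous extension of `g` on the first summand is additive: no assumption on the
summands. -/
theorem L1Iso.G₁_add_all (hg : L1Iso g) (a a' : X₁) : G₁ g (a + a') = G₁ g a + G₁ g a' := by
  obtain ⟨b, hb⟩ : ∃ b : X₂, ‖b‖ = 1 := by
    obtain ⟨e, he⟩ := exists_ne (0 : X₂)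
    exact ⟨‖e‖⁻¹ • e, norm_inv_smul_self he⟩
  exact hg.G₁_add_of_cone hb (fun t ht0 ht1 => hg.cone_all hb ht0 ht1) a a'

/-- Core theorem: a surjective isometry from the unit sphere of the `ℓ¹`-sum of two arbitrary
nontrivial real normed spaces onto the unit sphere of a real normed space is the restriction of a
linear isometry. -/
theorem L1Iso.exists_linearIsometryEquiv_all (hg : L1Iso g) :
    ∃ T : WithLp 1 (X₁ × X₂) ≃ₗᵢ[ℝ] Y,
      ∀ x : WithLp 1 (X₁ × X₂), ‖x‖ = 1 → T x = g x.fst x.snd :=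
  hg.exists_linearIsometryEquiv_of_add hg.G₁_add_all hg.flip.G₁_add_all

/-- Every surjective isometry from the unit sphere of the `ℓ¹`-sum of two arbitrary nontrivial
real normed spaces onto the unit sphere of a real normed space is the restriction of a surjective
real-linear isometry. -/
theorem exists_linearIsometryEquiv_l1_sum
    (f : Metric.sphere (0 : WithLp 1 (X₁ × X₂)) 1 → Metric.sphere (0 : Y) 1)
    (hf : Isometry f) (hsurj : Function.Surjective f) :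
    ∃ T : WithLp 1 (X₁ × X₂) ≃ₗᵢ[ℝ] Y,
      ∀ x : Metric.sphere (0 : WithLp 1 (X₁ × X₂)) 1, T (x : WithLp 1 (X₁ × X₂)) = (f x : Y) := by
  obtain ⟨g, hg, hgf⟩ := exists_l1Iso_of_sphere_map f hf hsurj
  obtain ⟨T, hT⟩ := hg.exists_linearIsometryEquiv_all
  refine ⟨T, fun x => ?_⟩
  have hx1 : ‖(x : WithLp 1 (X₁ × X₂))‖ = 1 := mem_sphere_zero_iff_norm.mp x.2
  rw [hT _ hx1, hgf x]

end Join

end Vale.Agent.H23
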