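import Vale.Agent.H23.Join

/-!
# Spaces with a nontrivial L-projection have the Mazur-Ulam property

A linear projection `P` on a real normed space `X` is an L-projection if
`‖x‖ = ‖P x‖ + ‖x - P x‖` for all `x`. If `P` is neither `0` nor the identity, then `X` is
linearly isometric to the `ℓ¹`-sum of the range and the kernel of `P`, so every surjective isometry
from the unit sphere of `X` onto the unit sphere of a real normed space is the restriction of a
linear isometry.
-/

namespace Vale.Agent.H23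

section Transport

variable {X X' Y : Type*} [NormedAddCommGroup X] [NormedSpace ℝ X]
  [NormedAddCommGroup X'] [NormedSpace ℝ X'] [NormedAddCommGroup Y] [NormedSpace ℝ Y]

/-- The extension property for sphere isometries is invariant under linear isometric
isomorphisms of the source. -/
theorem exists_linearIsometryEquiv_of_equiv (e : X ≃ₗᵢ[ℝ] X')
    (h : ∀ f' : Metric.sphere (0 : X') 1 → Metric.sphere (0 : Y) 1, Isometry f' →
      Function.Surjective f' →
      ∃ T' : X' ≃ₗᵢ[ℝ] Y, ∀ z : Metric.sphere (0 : X') 1, T' (z : X') = (f' z : Y))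
    (f : Metric.sphere (0 : X) 1 → Metric.sphere (0 : Y) 1) (hf : Isometry f)
    (hsurj : Function.Surjective f) :
    ∃ T : X ≃ₗᵢ[ℝ] Y, ∀ x : Metric.sphere (0 : X) 1, T (x : X) = (f x : Y) := by
  have hmem : ∀ z : Metric.sphere (0 : X') 1, e.symm (z : X') ∈ Metric.sphere (0 : X) 1 := by
    intro z
    rw [mem_sphere_zero_iff_norm, LinearIsometryEquiv.norm_map]
    exact mem_sphere_zero_iff_norm.mp z.2
  have hmem' : ∀ x : Metric.sphere (0 : X) 1, e (x : X) ∈ Metric.sphere (0 : X') 1 := by
    intro x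
    rw [mem_sphere_zero_iff_norm, LinearIsometryEquiv.norm_map]
    exact mem_sphere_zero_iff_norm.mp x.2
  obtain ⟨f', hf'def⟩ : ∃ f' : Metric.sphere (0 : X') 1 → Metric.sphere (0 : Y) 1,
      f' = fun z : Metric.sphere (0 : X') 1 => f ⟨e.symm (z : X'), hmem z⟩ := ⟨_, rfl⟩
  have hf'iso : Isometry f' := by
    rw [hf'def]
    refine Isometry.of_dist_eq fun z z' => ?_
    rw [hf.dist_eq, Subtype.dist_eq, Subtype.dist_eq]
    exact e.symm.dist_map _ _
  have hf'surj : Function.Surjective f' := by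
    intro w
    obtain ⟨x, hx⟩ := hsurj w
    refine ⟨⟨e (x : X), hmem' x⟩, ?_⟩
    rw [hf'def]
    show f ⟨e.symm (e (x : X)), _⟩ = w
    rw [← hx]
    congr 1
    exact Subtype.ext (e.symm_apply_apply _)
  obtain ⟨T', hT'⟩ := h f' hf'iso hf'surj
  refine ⟨e.trans T', fun x => ?_⟩
  have h1 := hT' ⟨e (x : X), hmem' x⟩
  rw [LinearIsometryEquiv.trans_apply]
  rw [h1, hf'def]
  show (f ⟨e.symm (e (x : X)), _⟩ : Y) = (f x : Y)
  congr 2
  exact Subtype.ext (e.symm_apply_apply _)

end Transport

section LProj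

variable {X Y : Type*} [NormedAddCommGroup X] [NormedSpace ℝ X]
  [NormedAddCommGroup Y] [NormedSpace ℝ Y]

/-- A space with an L-projection `P` is linearly isometric to the `ℓ¹`-sum of the range and the
kernel of `P`. -/
noncomputable def lsumEquiv (P : X →ₗ[ℝ] X) (hP : ∀ x, P (P x) = P x)
    (hL : ∀ x, ‖x‖ = ‖P x‖ + ‖x - P x‖) :
    X ≃ₗᵢ[ℝ] WithLp 1 (LinearMap.range P × LinearMap.ker P) where
  toFun x := WithLp.toLp 1 (⟨P x, LinearMap.mem_range_self P x⟩,
    ⟨x - P x, by rw [LinearMap.mem_ker, map_sub, hP, sub_self]⟩)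
  map_add' x y := by
    rw [← WithLp.toLp_add]
    congr 1
    refine Prod.ext (Subtype.ext ?_) (Subtype.ext ?_)
    · simp
    · simp only [map_add, Prod.mk_add_mk, AddMemClass.mk_add_mk]
      abel
  map_smul' c x := by
    rw [← WithLp.toLp_smul]
    congr 1
    refine Prod.ext (Subtype.ext ?_) (Subtype.ext ?_)
    · simp
    · simp [smul_sub]
  invFun z := (z.fst : X) + (z.snd : X)
  left_inv x := by simp
  right_inv z := by
    obtain ⟨a', ha'⟩ := z.fst.2
    have h1 : P (z.fst : X) = z.fst := by rw [← ha', hP]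
    have h2 : P (z.snd : X) = 0 := z.snd.2
    have h3 : P ((z.fst : X) + (z.snd : X)) = z.fst := by rw [map_add, h1, h2, add_zero]
    apply WithLp.ofLp_injective 1
    refine Prod.ext (Subtype.ext ?_) (Subtype.ext ?_)
    · exact h3
    · show (z.fst : X) + (z.snd : X) - P ((z.fst : X) + (z.snd : X)) = z.snd
      rw [h3, add_sub_cancel_left]
  norm_map' x := by
    rw [LinearEquiv.coe_mk, LinearMap.coe_mk, AddHom.coe_mk, WithLp.prod_norm_eq_of_L1]
    exact (hL x).symm

/-- Every surjective isometry from the unit sphere of a real normed space with a nontrivial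
L-projection onto the unit sphere of a real normed space is the restriction of a surjective
real-linear isometry. -/
theorem exists_linearIsometryEquiv_of_lProjection (P : X →ₗ[ℝ] X) (hP : ∀ x, P (P x) = P x)
    (hL : ∀ x, ‖x‖ = ‖P x‖ + ‖x - P x‖) (h0 : ∃ x, P x ≠ 0) (h1 : ∃ x, P x ≠ x)
    (f : Metric.sphere (0 : X) 1 → Metric.sphere (0 : Y) 1) (hf : Isometry f)
    (hsurj : Function.Surjective f) :
    ∃ T : X ≃ₗᵢ[ℝ] Y, ∀ x : Metric.sphere (0 : X) 1, T (x : X) = (f x : Y) := by
  have hn1 : Nontrivial (LinearMap.range P) := by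
    obtain ⟨x, hx⟩ := h0
    refine ⟨⟨⟨P x, LinearMap.mem_range_self P x⟩, 0, fun h => hx ?_⟩⟩
    exact congrArg Subtype.val h
  have hn2 : Nontrivial (LinearMap.ker P) := by
    obtain ⟨x, hx⟩ := h1
    refine ⟨⟨⟨x - P x, by rw [LinearMap.mem_ker, map_sub, hP, sub_self]⟩, 0, fun h => hx ?_⟩⟩
    have h2 : x - P x = 0 := congrArg Subtype.val h
    exact (sub_eq_zero.mp h2).symm
  exact exists_linearIsometryEquiv_of_equiv (lsumEquiv P hP hL)
    (fun f' hf' hs' => exists_linearIsometryEquiv_l1_sum f' hf' hs') f hf hsurj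

end LProj

end Vale.Agent.H23
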