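import Vale.Agent.H23.MGenMain
import Vale.Agent.H23.LSummand
import Vale.Agent.H23.Join

/-!
# Spaces with a nontrivial L-projection or M-projection

A real normed space with a linear projection `P` such that `‖x‖ = max ‖P x‖ ‖x - P x‖` for all
`x` (an M-projection) is linearly isometric to the `ℓ^∞`-sum of the range and the kernel of
`P`. Hence, if `P` is neither `0` nor the identity, every surjective isometry from its unit
sphere onto the unit sphere of a real Banach space is the restriction of a surjective
real-linear isometry. Together with the corresponding statement for L-projections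
(`‖x‖ = ‖P x‖ + ‖x - P x‖`) this gives the extension property for every space with a nontrivial
L-summand or M-summand.
-/

namespace Vale.Agent.H23

open scoped ENNReal

section MProj

variable {X Y : Type*} [NormedAddCommGroup X] [NormedSpace ℝ X]
  [NormedAddCommGroup Y] [NormedSpace ℝ Y]

/-- A space with an M-projection `P` is linearly isometric to the `ℓ^∞`-sum of the range and
the kernel of `P`. -/
noncomputable def msumEquiv (P : X →ₗ[ℝ] X) (hP : ∀ x, P (P x) = P x)
    (hM : ∀ x, ‖x‖ = max ‖P x‖ ‖x - P x‖) :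
    X ≃ₗᵢ[ℝ] WithLp ∞ (LinearMap.range P × LinearMap.ker P) where
  toFun x := WithLp.toLp ∞ (⟨P x, LinearMap.mem_range_self P x⟩,
    ⟨x - P x, by rw [LinearMap.mem_ker, map_sub, hP, sub_self]⟩)
  map_add' x y := by
    rw [← WithLp.toLp_add]
    congr 1
    refine Prod.ext (Subtype.ext ?_) (Subtype.ext ?_)
    · simp
    · simp only [map_add, Prod.mk_add_mk, AddMemClass.mk_add_mk]
      abel
  map_smul' c x := by
    rw [← WithLp.toLp_smul]
    congr 1
    refine Prod.ext (Subtype.ext ?_) (Subtype.ext ?_)
    · simp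
    · simp [smul_sub]
  invFun z := (z.fst : X) + (z.snd : X)
  left_inv x := by simp
  right_inv z := by
    obtain ⟨a', ha'⟩ := z.fst.2
    have h1 : P (z.fst : X) = z.fst := by rw [← ha', hP]
    have h2 : P (z.snd : X) = 0 := z.snd.2
    have h3 : P ((z.fst : X) + (z.snd : X)) = z.fst := by rw [map_add, h1, h2, add_zero]
    apply WithLp.ofLp_injective ∞
    refine Prod.ext (Subtype.ext ?_) (Subtype.ext ?_)
    · exact h3
    · show (z.fst : X) + (z.snd : X) - P ((z.fst : X) + (z.snd : X)) = z.snd
      rw [h3, add_sub_cancel_left]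
  norm_map' x := by
    rw [LinearEquiv.coe_mk, LinearMap.coe_mk, AddHom.coe_mk, WithLp.prod_norm_eq_sup, hM x]
    rfl

/-- Every surjective isometry from the unit sphere of a real normed space with a nontrivial
M-projection onto the unit sphere of a real Banach space is the restriction of a surjective
real-linear isometry. -/
theorem exists_linearIsometryEquiv_of_mProjection [CompleteSpace Y] (P : X →ₗ[ℝ] X)
    (hP : ∀ x, P (P x) = P x) (hM : ∀ x, ‖x‖ = max ‖P x‖ ‖x - P x‖) (h0 : ∃ x, P x ≠ 0)
    (h1 : ∃ x, P x ≠ x)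
    (f : Metric.sphere (0 : X) 1 → Metric.sphere (0 : Y) 1) (hf : Isometry f)
    (hsurj : Function.Surjective f) :
    ∃ T : X ≃ₗᵢ[ℝ] Y, ∀ x : Metric.sphere (0 : X) 1, T (x : X) = (f x : Y) := by
  have hn1 : Nontrivial (LinearMap.range P) := by
    obtain ⟨x, hx⟩ := h0
    refine ⟨⟨⟨P x, LinearMap.mem_range_self P x⟩, 0, fun h => hx ?_⟩⟩
    exact congrArg Subtype.val h
  have hn2 : Nontrivial (LinearMap.ker P) := by
    obtain ⟨x, hx⟩ := h1
    refine ⟨⟨⟨x - P x, by rw [LinearMap.mem_ker, map_sub, hP, sub_self]⟩, 0, fun h => hx ?_⟩⟩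
    have h2 : x - P x = 0 := congrArg Subtype.val h
    exact (sub_eq_zero.mp h2).symm
  exact exists_linearIsometryEquiv_of_equiv (msumEquiv P hP hM)
    (fun f' hf' hs' => exists_linearIsometryEquiv_msum_gen f' hf' hs') f hf hsurj

/-- Every surjective isometry from the unit sphere of a real normed space with a nontrivial
L-projection or M-projection onto the unit sphere of a real Banach space is the restriction of
a surjective real-linear isometry. -/
theorem exists_linearIsometryEquiv_of_lm_projection [CompleteSpace Y] (P : X →ₗ[ℝ] X)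
    (hP : ∀ x, P (P x) = P x)
    (hLM : (∀ x, ‖x‖ = ‖P x‖ + ‖x - P x‖) ∨ (∀ x, ‖x‖ = max ‖P x‖ ‖x - P x‖))
    (h0 : ∃ x, P x ≠ 0) (h1 : ∃ x, P x ≠ x)
    (f : Metric.sphere (0 : X) 1 → Metric.sphere (0 : Y) 1) (hf : Isometry f)
    (hsurj : Function.Surjective f) :
    ∃ T : X ≃ₗᵢ[ℝ] Y, ∀ x : Metric.sphere (0 : X) 1, T (x : X) = (f x : Y) := by
  rcases hLM with hL | hM
  · exact exists_linearIsometryEquiv_of_lProjection P hP hL h0 h1 f hf hsurj
  · exact exists_linearIsometryEquiv_of_mProjection P hP hM h0 h1 f hf hsurj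

end MProj

end Vale.Agent.H23
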