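import Vale.Agent.H23.Height
import Vale.Agent.H23.MSummand
import Mathlib.Topology.ContinuousMap.Bounded.Normed

/-!
# Sphere isometries of modules of bounded continuous vector-valued functions: caps and heights

Let `L` be a topological space, `X` a real normed space and `E` a linear subspace of the space
of bounded continuous functions `L → X` (supremum norm) which is closed under multiplication by
bounded continuous scalar functions. This file studies a map `G` restricting to a surjective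
isometry from the unit sphere of `E` onto the unit sphere of a real normed space `Y`. For a
point `t` and a unit vector `b` of the fiber `{u t : u ∈ E}`, the cap `{u ∈ E : ‖u‖ = 1, u t = b}`
is a convex subset of the sphere; its height functionals `ψ` satisfy
`1 - ‖u t - b‖ ≤ ψ (G u) ≤ ‖u t + b‖ - 1`.
-/

namespace Vale.Agent.H23

open scoped BoundedContinuousFunction

section BCBase

variable {L X Y : Type*} [TopologicalSpace L] [NormedAddCommGroup X] [NormedSpace ℝ X]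
  [NormedAddCommGroup Y] [NormedSpace ℝ Y]

/-- Pointwise multiplication by a bounded continuous scalar function, as a linear map. -/
noncomputable def mulB (φ : L →ᵇ ℝ) : (L →ᵇ X) →ₗ[ℝ] (L →ᵇ X) where
  toFun u := BoundedContinuousFunction.ofNormedAddCommGroup (fun s => φ s • u s)
    (φ.continuous.smul u.continuous) (‖φ‖ * ‖u‖) (fun s => by
      rw [norm_smul]
      exact mul_le_mul (φ.norm_coe_le_norm s) (u.norm_coe_le_norm s) (norm_nonneg _)
        (norm_nonneg _))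
  map_add' u v := by
    ext s
    show φ s • (u s + v s) = φ s • u s + φ s • v s
    exact smul_add _ _ _
  map_smul' c u := by
    ext s
    show φ s • (c • u s) = c • (φ s • u s)
    exact smul_comm _ _ _

lemma mulB_apply (φ : L →ᵇ ℝ) (u : L →ᵇ X) (s : L) : mulB φ u s = φ s • u s := rfl

/-- Truncation of a continuous scalar function to `[0, 1]`, as a bounded continuous function. -/
def clampB (h : C(L, ℝ)) : L →ᵇ ℝ :=
  BoundedContinuousFunction.ofNormedAddCommGroup (fun s => max 0 (min 1 (h s)))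
    (continuous_const.max (continuous_const.min h.continuous)) 1 (fun s => by
      rw [Real.norm_eq_abs, abs_of_nonneg (le_max_left _ _)]
      exact max_le zero_le_one (min_le_left _ _))

lemma clampB_apply (h : C(L, ℝ)) (s : L) : clampB h s = max 0 (min 1 (h s)) := rfl

lemma clampB_nonneg (h : C(L, ℝ)) (s : L) : 0 ≤ clampB h s := le_max_left _ _

lemma clampB_le_one (h : C(L, ℝ)) (s : L) : clampB h s ≤ 1 :=
  max_le zero_le_one (min_le_left _ _)

lemma clampB_of_nonpos {h : C(L, ℝ)} {s : L} (hs : h s ≤ 0) : clampB h s = 0 := by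
  rw [clampB_apply, min_eq_right (hs.trans zero_le_one), max_eq_left hs]

lemma clampB_of_one_le {h : C(L, ℝ)} {s : L} (hs : 1 ≤ h s) : clampB h s = 1 := by
  rw [clampB_apply, min_eq_left hs, max_eq_right zero_le_one]

lemma clampB_pos {h : C(L, ℝ)} {s : L} (hs : 0 < h s) : 0 < clampB h s := by
  rw [clampB_apply]
  exact lt_max_of_lt_right (lt_min zero_lt_one hs)

lemma clampB_mono {h h' : C(L, ℝ)} {s : L} (hs : h s ≤ h' s) : clampB h s ≤ clampB h' s := by
  rw [clampB_apply, clampB_apply]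
  exact max_le_max le_rfl (min_le_min le_rfl hs)

/-- A bump at `t`: a scalar function with values in `[0, 1]`, equal to `1` at `t` and vanishing
where the nonnegative continuous function `g`, which vanishes at `t`, is at least `1`. -/
lemma exists_bumpB (g : C(L, ℝ)) {t : L} (hgt : g t = 0) :
    ∃ κ : L →ᵇ ℝ, κ t = 1 ∧ (∀ s, 0 ≤ κ s) ∧ (∀ s, κ s ≤ 1) ∧ ∀ s, 1 ≤ g s → κ s = 0 := by
  refine ⟨clampB ⟨fun s => 1 - g s, continuous_const.sub g.continuous⟩, ?_,
    fun s => clampB_nonneg _ s, fun s => clampB_le_one _ s, fun s hs => ?_⟩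
  · apply clampB_of_one_le
    show 1 ≤ 1 - g t
    rw [hgt, sub_zero]
  · apply clampB_of_nonpos
    show 1 - g s ≤ 0
    linarith

/-- The subspace is closed under multiplication by bounded continuous scalar functions. -/
def IsFunModule (E : Submodule ℝ (L →ᵇ X)) : Prop :=
  ∀ (φ : L →ᵇ ℝ) (u : L →ᵇ X), u ∈ E → mulB φ u ∈ E

/-- The fiber at `t`: the subspace of the values at `t` of the members of `E`. -/
def fiber (E : Submodule ℝ (L →ᵇ X)) (t : L) : Submodule ℝ X where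
  carrier := {x | ∃ u ∈ E, u t = x}
  add_mem' := by
    rintro _ _ ⟨u, hu, rfl⟩ ⟨v, hv, rfl⟩
    exact ⟨u + v, E.add_mem hu hv, rfl⟩
  zero_mem' := ⟨0, E.zero_mem, rfl⟩
  smul_mem' := by
    rintro c _ ⟨u, hu, rfl⟩
    exact ⟨c • u, E.smul_mem c hu, rfl⟩

lemma mem_fiber {E : Submodule ℝ (L →ᵇ X)} {t : L} {x : X} :
    x ∈ fiber E t ↔ ∃ u ∈ E, u t = x := Iff.rfl

lemma apply_mem_fiber {E : Submodule ℝ (L →ᵇ X)} {u : L →ᵇ X} (hu : u ∈ E) (t : L) :
    u t ∈ fiber E t := ⟨u, hu, rfl⟩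

variable {E : Submodule ℝ (L →ᵇ X)}

/-- Every vector of norm at most `1` of the fiber at `t` is the value at `t` of a member of `E`
of norm at most `1`. -/
lemma exists_section (hE : IsFunModule E) {t : L} {a : X} (ha : a ∈ fiber E t) (ha1 : ‖a‖ ≤ 1) :
    ∃ A ∈ E, ‖A‖ ≤ 1 ∧ A t = a := by
  obtain ⟨u₀, hu₀, hu₀t⟩ := ha
  have hpos : ∀ s, 0 < max 1 ‖u₀ s‖ := fun s => lt_of_lt_of_le one_pos (le_max_left _ _)
  obtain ⟨ν, hν⟩ : ∃ ν : L →ᵇ ℝ, ∀ s, ν s = (max 1 ‖u₀ s‖)⁻¹ := by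
    refine ⟨BoundedContinuousFunction.ofNormedAddCommGroup (fun s => (max 1 ‖u₀ s‖)⁻¹)
      (Continuous.inv₀ (continuous_const.max (continuous_norm.comp u₀.continuous))
        (fun s => (hpos s).ne')) 1 (fun s => ?_), fun s => rfl⟩
    rw [Real.norm_eq_abs, abs_of_nonneg (inv_nonneg.mpr (hpos s).le)]
    exact inv_le_one_of_one_le₀ (le_max_left _ _)
  refine ⟨mulB ν u₀, hE ν u₀ hu₀, ?_, ?_⟩
  · rw [BoundedContinuousFunction.norm_le zero_le_one]
    intro s
    rw [mulB_apply, norm_smul, hν, Real.norm_eq_abs, abs_of_nonneg (inv_nonneg.mpr (hpos s).le)]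
    calc (max 1 ‖u₀ s‖)⁻¹ * ‖u₀ s‖ ≤ (max 1 ‖u₀ s‖)⁻¹ * max 1 ‖u₀ s‖ :=
          mul_le_mul_of_nonneg_left (le_max_right _ _) (inv_nonneg.mpr (hpos s).le)
      _ = 1 := inv_mul_cancel₀ (hpos s).ne'
  · rw [mulB_apply, hν, hu₀t, max_eq_left ha1, inv_one, one_smul]

/-- `G` restricts to a surjective isometry from the unit sphere of `E` onto the unit sphere of
`Y`. -/
structure BIso (E : Submodule ℝ (L →ᵇ X)) (G : (L →ᵇ X) → Y) : Prop where
  norm_map : ∀ u ∈ E, ‖u‖ = 1 → ‖G u‖ = 1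
  dist_map : ∀ u ∈ E, ∀ v ∈ E, ‖u‖ = 1 → ‖v‖ = 1 → ‖G u - G v‖ = ‖u - v‖
  surj : ∀ w : Y, ‖w‖ = 1 → ∃ u ∈ E, ‖u‖ = 1 ∧ G u = w

/-- `ψ` is a height functional of the cap `{u ∈ E : ‖u‖ = 1, u t = b}`. -/
def IsHeightB (E : Submodule ℝ (L →ᵇ X)) (G : (L →ᵇ X) → Y) (t : L) (b : X)
    (ψ : Y →L[ℝ] ℝ) : Prop :=
  (∀ y, ψ y ≤ ‖y‖) ∧ (∀ u ∈ E, ‖u‖ = 1 → u t = b → ψ (G u) = 1) ∧
    ∀ u ∈ E, ‖u‖ = 1 → u t = -b → ψ (G u) = -1

namespace BIso

variable {G : (L →ᵇ X) → Y}

omit [NormedSpace ℝ Y] in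
/-- The restriction to the subspace is a surjective isometry between unit spheres. -/
lemma sIso (hG : BIso E G) : SIso (fun u : E => G (u : L →ᵇ X)) := by
  refine ⟨fun u hu => hG.norm_map _ u.2 hu, fun u v hu hv => hG.dist_map _ u.2 _ v.2 hu hv,
    fun w hw => ?_⟩
  obtain ⟨u, huE, hu, hGu⟩ := hG.surj w hw
  exact ⟨⟨u, huE⟩, hu, hGu⟩

/-- Height functionals of nonempty convex subsets of the unit sphere of the subspace. -/
lemma exists_height (hG : BIso E G) {C : Set (L →ᵇ X)} (hC : Convex ℝ C)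
    (hCE : ∀ u ∈ C, u ∈ E) (hC1 : ∀ u ∈ C, ‖u‖ = 1) (hne : C.Nonempty) :
    ∃ ψ : Y →L[ℝ] ℝ, (∀ y, ψ y ≤ ‖y‖) ∧ (∀ u ∈ C, ψ (G u) = 1) ∧
      ∀ u ∈ C, ψ (G (-u)) = -1 := by
  obtain ⟨u₀, hu₀⟩ := hne
  obtain ⟨ψ, hle, h1, h2⟩ := hG.sIso.exists_height_of_convex
    (C := E.subtype ⁻¹' C) (hC.linear_preimage _)
    (fun u hu => hC1 _ hu) ⟨⟨u₀, hCE u₀ hu₀⟩, hu₀⟩
  exact ⟨ψ, hle, fun u hu => h1 ⟨u, hCE u hu⟩ hu, fun u hu => h2 ⟨u, hCE u hu⟩ hu⟩

/-- Height functionals of caps exist. -/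
lemma exists_isHeight (hG : BIso E G) (hE : IsFunModule E) {t : L} {b : X}
    (hbE : b ∈ fiber E t) (hb : ‖b‖ = 1) : ∃ ψ : Y →L[ℝ] ℝ, IsHeightB E G t b ψ := by
  obtain ⟨C, hCdef⟩ : ∃ C : Set (L →ᵇ X), C = {u | u ∈ E ∧ ‖u‖ = 1 ∧ u t = b} :=
    ⟨_, rfl⟩
  have hC : Convex ℝ C := by
    intro u hu v hv α β hα hβ hαβ
    rw [hCdef] at hu hv ⊢
    obtain ⟨huE, hu1, hut⟩ := hu
    obtain ⟨hvE, hv1, hvt⟩ := hv
    have hval : (α • u + β • v) t = b := by
      show α • u t + β • v t = b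
      rw [hut, hvt, ← add_smul, hαβ, one_smul]
    refine ⟨E.add_mem (E.smul_mem α huE) (E.smul_mem β hvE), ?_, hval⟩
    apply le_antisymm
    · calc ‖α • u + β • v‖ ≤ ‖α • u‖ + ‖β • v‖ := norm_add_le _ _
        _ = α + β := by
          rw [norm_smul, norm_smul, hu1, hv1, Real.norm_eq_abs, Real.norm_eq_abs,
            abs_of_nonneg hα, abs_of_nonneg hβ, mul_one, mul_one]
        _ = 1 := hαβ
    · have h1 := (α • u + β • v).norm_coe_le_norm t
      rw [hval, hb] at h1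
      exact h1
  have hne : C.Nonempty := by
    obtain ⟨A, hAE, hA1, hAt⟩ := exists_section hE hbE hb.le
    refine ⟨A, ?_⟩
    rw [hCdef]
    refine ⟨hAE, le_antisymm hA1 ?_, hAt⟩
    have h1 := A.norm_coe_le_norm t
    rw [hAt, hb] at h1
    exact h1
  obtain ⟨ψ, hle, h1, h2⟩ := hG.exists_height hC
    (fun u hu => by rw [hCdef] at hu; exact hu.1) (fun u hu => by rw [hCdef] at hu; exact hu.2.1)
    hne
  refine ⟨ψ, hle, fun u huE hu1 hut => h1 u (by rw [hCdef]; exact ⟨huE, hu1, hut⟩),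
    fun u huE hu1 hut => ?_⟩
  have h3 := h2 (-u) (by
    rw [hCdef]
    refine ⟨E.neg_mem huE, by rw [norm_neg]; exact hu1, ?_⟩
    show -(u t) = b
    rw [hut, neg_neg])
  rwa [neg_neg] at h3

/-- A unit function can be moved into a cap at a cost close to `‖u t - c‖`. -/
lemma exists_cap_near (hE : IsFunModule E) {t : L} {c : X} (hcE : c ∈ fiber E t)
    (hc : ‖c‖ = 1) {u : L →ᵇ X} (hu : u ∈ E) (hu1 : ‖u‖ = 1) {ε : ℝ} (hε : 0 < ε) :
    ∃ v : L →ᵇ X, v ∈ E ∧ ‖v‖ = 1 ∧ v t = c ∧ ‖u - v‖ ≤ ‖u t - c‖ + ε := by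
  obtain ⟨w, hwE, hw1, hwt⟩ := exists_section hE hcE hc.le
  obtain ⟨g, hgdef⟩ : ∃ g : C(L, ℝ), ∀ s, g s = (2 / ε) * max ‖u s - u t‖ ‖w s - c‖ :=
    ⟨⟨fun s => (2 / ε) * max ‖u s - u t‖ ‖w s - c‖, continuous_const.mul
      ((continuous_norm.comp (u.continuous.sub continuous_const)).max
        (continuous_norm.comp (w.continuous.sub continuous_const)))⟩, fun s => rfl⟩
  have hgt : g t = 0 := by
    rw [hgdef, sub_self, norm_zero, hwt, sub_self, norm_zero, max_self, mul_zero]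
  obtain ⟨κ, hκt, hκ0, hκ1, hκg⟩ := exists_bumpB g hgt
  have hnear : ∀ s, κ s ≠ 0 → ‖u s - u t‖ < ε / 2 ∧ ‖w s - c‖ < ε / 2 := by
    intro s hs
    have h1 : g s < 1 := by
      by_contra hge
      exact hs (hκg s (not_lt.mp hge))
    rw [hgdef] at h1
    have h2 : max ‖u s - u t‖ ‖w s - c‖ < ε / 2 := by
      have h3 : (2 / ε) * max ‖u s - u t‖ ‖w s - c‖ < (2 / ε) * (ε / 2) := by
        have e : (2 / ε) * (ε / 2) = 1 := by field_simp
        rw [e]
        exact h1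
      exact lt_of_mul_lt_mul_left h3 (by positivity)
    exact ⟨lt_of_le_of_lt (le_max_left _ _) h2, lt_of_le_of_lt (le_max_right _ _) h2⟩
  obtain ⟨v, hvdef⟩ : ∃ v : L →ᵇ X, v = u - mulB κ u + mulB κ w := ⟨_, rfl⟩
  have hvs : ∀ s, v s = (1 - κ s) • u s + κ s • w s := by
    intro s
    rw [hvdef]
    show u s - κ s • u s + κ s • w s = (1 - κ s) • u s + κ s • w s
    rw [sub_smul, one_smul]
  have hvt : v t = c := by
    rw [hvs, hκt, sub_self, zero_smul, zero_add, one_smul, hwt]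
  have hvE : v ∈ E := by
    rw [hvdef]
    exact E.add_mem (E.sub_mem hu (hE κ u hu)) (hE κ w hwE)
  refine ⟨v, hvE, ?_, hvt, ?_⟩
  · apply le_antisymm
    · rw [BoundedContinuousFunction.norm_le zero_le_one]
      intro s
      rw [hvs]
      have h1 := u.norm_coe_le_norm s
      rw [hu1] at h1
      have h2 := (w.norm_coe_le_norm s).trans hw1
      calc ‖(1 - κ s) • u s + κ s • w s‖ ≤ ‖(1 - κ s) • u s‖ + ‖κ s • w s‖ := norm_add_le _ _
        _ = (1 - κ s) * ‖u s‖ + κ s * ‖w s‖ := by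
          rw [norm_smul, norm_smul, Real.norm_eq_abs, Real.norm_eq_abs,
            abs_of_nonneg (hκ0 s), abs_of_nonneg (sub_nonneg.mpr (hκ1 s))]
        _ ≤ (1 - κ s) * 1 + κ s * 1 :=
          add_le_add (mul_le_mul_of_nonneg_left h1 (sub_nonneg.mpr (hκ1 s)))
            (mul_le_mul_of_nonneg_left h2 (hκ0 s))
        _ = 1 := by ring
    · have h1 := v.norm_coe_le_norm t
      rw [hvt, hc] at h1
      exact h1
  · rw [BoundedContinuousFunction.norm_le (by positivity)]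
    intro s
    have e : (u - v) s = κ s • (u s - w s) := by
      show u s - v s = κ s • (u s - w s)
      rw [hvs]
      module
    rw [e, norm_smul, Real.norm_eq_abs, abs_of_nonneg (hκ0 s)]
    by_cases hs : κ s = 0
    · rw [hs, zero_mul]
      positivity
    · obtain ⟨h2, h3⟩ := hnear s hs
      have h4 : ‖u s - w s‖ ≤ ‖u s - u t‖ + ‖u t - c‖ + ‖w s - c‖ := by
        have e2 : u s - w s = (u s - u t) + (u t - c) - (w s - c) := by abel
        rw [e2]
        exact (norm_sub_le _ _).trans (add_le_add_left (norm_add_le _ _) _)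
      have h5 : κ s * ‖u s - w s‖ ≤ 1 * ‖u s - w s‖ :=
        mul_le_mul_of_nonneg_right (hκ1 s) (norm_nonneg _)
      linarith

/-- Bounds for the height functionals of a cap. -/
lemma height_bounds (hG : BIso E G) (hE : IsFunModule E) {t : L} {b : X}
    (hbE : b ∈ fiber E t) (hb : ‖b‖ = 1) {ψ : Y →L[ℝ] ℝ} (hψ : IsHeightB E G t b ψ)
    {u : L →ᵇ X} (hu : u ∈ E) (hu1 : ‖u‖ = 1) :
    1 - ‖u t - b‖ ≤ ψ (G u) ∧ ψ (G u) ≤ ‖u t + b‖ - 1 := by
  obtain ⟨hle, htop, hbot⟩ := hψ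
  constructor
  · have key : ∀ ε : ℝ, 0 < ε → 1 - ‖u t - b‖ ≤ ψ (G u) + ε := by
      intro ε hε
      obtain ⟨v, hvE, hv1, hvt, hd⟩ := exists_cap_near hE hbE hb hu hu1 hε
      have h1 := hle (G v - G u)
      rw [hG.dist_map v hvE u hu hv1 hu1, map_sub, htop v hvE hv1 hvt, norm_sub_rev] at h1
      linarith
    exact le_of_forall_pos_le_add key
  · have key : ∀ ε : ℝ, 0 < ε → ψ (G u) ≤ ‖u t + b‖ - 1 + ε := by
      intro ε hε
      obtain ⟨v, hvE, hv1, hvt, hd⟩ := exists_cap_near hE (c := -b)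
        ((fiber E t).neg_mem hbE) (by rw [norm_neg]; exact hb) hu hu1 hε
      have h1 := hle (G u - G v)
      rw [hG.dist_map u hu v hvE hu1 hv1, map_sub, hbot v hvE hv1 hvt] at h1
      rw [sub_neg_eq_add] at hd
      linarith
    exact le_of_forall_pos_le_add key

/-- Height functionals at `t` vanish on the images of unit functions vanishing at `t`. -/
lemma height_zero (hG : BIso E G) (hE : IsFunModule E) {t : L} {b : X}
    (hbE : b ∈ fiber E t) (hb : ‖b‖ = 1) {ψ : Y →L[ℝ] ℝ} (hψ : IsHeightB E G t b ψ)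
    {u : L →ᵇ X} (hu : u ∈ E) (hu1 : ‖u‖ = 1) (hut : u t = 0) : ψ (G u) = 0 := by
  have h := hG.height_bounds hE hbE hb hψ hu hu1
  rw [hut, zero_sub, norm_neg, zero_add, hb] at h
  linarith [h.1, h.2]

/-- The height functional in the direction of `u t` is at least `‖u t‖` at `G u`. -/
lemma height_ge (hG : BIso E G) (hE : IsFunModule E) {t : L} {u : L →ᵇ X}
    (hu : u ∈ E) (hu1 : ‖u‖ = 1) (hut : u t ≠ 0) {ψ : Y →L[ℝ] ℝ}
    (hψ : IsHeightB E G t (‖u t‖⁻¹ • u t) ψ) : ‖u t‖ ≤ ψ (G u) := by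
  have hpos : 0 < ‖u t‖ := norm_pos_iff.mpr hut
  have hb : ‖‖u t‖⁻¹ • u t‖ = 1 := norm_inv_smul_self hut
  have hbE : ‖u t‖⁻¹ • u t ∈ fiber E t := (fiber E t).smul_mem _ (apply_mem_fiber hu t)
  have h1 := (hG.height_bounds hE hbE hb hψ hu hu1).1
  have e : u t - ‖u t‖⁻¹ • u t = (1 - ‖u t‖⁻¹) • u t := by rw [sub_smul, one_smul]
  have hz1 : ‖u t‖ ≤ 1 := by
    have := u.norm_coe_le_norm t
    rwa [hu1] at this
  have hinv : 1 ≤ ‖u t‖⁻¹ := (one_le_inv₀ hpos).mpr hz1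
  rw [e, norm_smul, Real.norm_eq_abs, abs_of_nonpos (by linarith)] at h1
  have e2 : -(1 - ‖u t‖⁻¹) * ‖u t‖ = 1 - ‖u t‖ := by field_simp; ring
  linarith

/-- The positively homogeneous extension of `G` is killed at functions vanishing at `t` by the
height functionals at `t`. -/
lemma height_hext_zero (hG : BIso E G) (hE : IsFunModule E) {t : L} {b : X}
    (hbE : b ∈ fiber E t) (hb : ‖b‖ = 1) {ψ : Y →L[ℝ] ℝ} (hψ : IsHeightB E G t b ψ)
    {v : L →ᵇ X} (hv : v ∈ E) (hvt : v t = 0) : ψ (hext G v) = 0 := by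
  unfold hext
  rcases eq_or_ne v 0 with rfl | hne
  · rw [norm_zero, zero_smul, map_zero]
  · rw [map_smul, hG.height_zero hE hbE hb hψ (E.smul_mem _ hv)
      (norm_inv_smul_self hne) (by
        show ‖v‖⁻¹ • v t = 0
        rw [hvt, smul_zero]), smul_zero]

end BIso

end BCBase

end Vale.Agent.H23
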