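import Vale.Agent.H23.CKBand

/-!
# Continuous vector-valued functions are determined by their distances to cut functions

Let `u`, `u''` be unit vectors of the space of continuous functions `K → X` vanishing on a closed
set `Z` whose complement has at least two points. If `u` and `u''` have the same distance to
every unit function vanishing on `Z` and on the band of some cutting scalar function, then
`u'' = u`.
-/

namespace Vale.Agent.H23

section Ball

variable {X : Type*} [NormedAddCommGroup X] [NormedSpace ℝ X]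

/-- One half of the comparison of two vectors of the unit ball with the same truncated distances
to all vectors of the unit ball. -/
lemma norm_sub_dir_le {z z'' : X} (hz : ‖z‖ ≤ 1) (hz'' : ‖z''‖ ≤ 1) (hne : z'' ≠ z)
    (h : ∀ a : X, ‖a‖ ≤ 1 → max ‖z - a‖ 1 = max ‖z'' - a‖ 1) :
    ‖z - ‖z'' - z‖⁻¹ • (z'' - z)‖ ≤ 1 := by
  obtain ⟨η, hηdef⟩ : ∃ η : ℝ, η = ‖z'' - z‖ := ⟨_, rfl⟩
  have hη : 0 < η := by rw [hηdef]; exact norm_pos_iff.mpr (sub_ne_zero.mpr hne)
  obtain ⟨d, hd⟩ : ∃ d : X, d = η⁻¹ • (z'' - z) := ⟨_, rfl⟩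
  have hd1 : ‖d‖ = 1 := by
    rw [hd, norm_smul, norm_inv, Real.norm_eq_abs, abs_of_pos hη, ← hηdef,
      inv_mul_cancel₀ hη.ne']
  have hz''eq : z'' = z + η • d := by
    rw [hd, smul_smul, mul_inv_cancel₀ hη.ne', one_smul]; abel
  have key : ∀ k : ℕ, ∀ μ : ℝ, -1 ≤ μ → μ ≤ η → -(k : ℝ) * η ≤ μ → ‖z + μ • d‖ ≤ 1 := by
    intro k
    induction k with
    | zero =>
      intro μ _ hμη hμ0
      rw [Nat.cast_zero, neg_zero, zero_mul] at hμ0
      have e : z + μ • d = (1 - μ / η) • z + (μ / η) • z'' := by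
        rw [hz''eq, smul_add, smul_smul, div_mul_cancel₀ _ hη.ne']
        module
      have h1 : 0 ≤ μ / η := div_nonneg hμ0 hη.le
      have h2 : μ / η ≤ 1 := (div_le_one hη).mpr hμη
      rw [e]
      calc ‖(1 - μ / η) • z + (μ / η) • z''‖ ≤ ‖(1 - μ / η) • z‖ + ‖(μ / η) • z''‖ :=
            norm_add_le _ _
        _ = (1 - μ / η) * ‖z‖ + (μ / η) * ‖z''‖ := by
          rw [norm_smul, norm_smul, Real.norm_eq_abs, Real.norm_eq_abs, abs_of_nonneg h1,
            abs_of_nonneg (sub_nonneg.mpr h2)]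
        _ ≤ (1 - μ / η) * 1 + (μ / η) * 1 :=
          add_le_add (mul_le_mul_of_nonneg_left hz (sub_nonneg.mpr h2))
            (mul_le_mul_of_nonneg_left hz'' h1)
        _ = 1 := by ring
    | succ k ih =>
      intro μ hμ1 hμη hμk
      by_cases hc : -(k : ℝ) * η ≤ μ
      · exact ih μ hμ1 hμη hc
      · rw [not_le] at hc
        have hk0 : (0 : ℝ) ≤ (k : ℝ) := Nat.cast_nonneg k
        have hμneg : μ < 0 := by nlinarith
        have h1 := ih (μ + η) (by linarith) (by linarith) (by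
          rw [Nat.cast_succ] at hμk
          nlinarith)
        have ha : ‖(-μ) • d‖ ≤ 1 := by
          rw [norm_smul, hd1, mul_one, Real.norm_eq_abs, abs_of_nonneg (by linarith)]
          linarith
        have h2 := h ((-μ) • d) ha
        have e1 : z - (-μ) • d = z + μ • d := by module
        have e2 : z'' - (-μ) • d = z + (μ + η) • d := by rw [hz''eq]; module
        rw [e1, e2, max_eq_right h1] at h2
        rw [← h2]
        exact le_max_left _ _
  obtain ⟨k, hk⟩ := exists_nat_gt (1 / η)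
  have hk1 : 1 < (k : ℝ) * η := by
    rw [div_lt_iff₀ hη] at hk
    exact hk
  have h3 := key k (-1) le_rfl (by linarith) (by linarith)
  have e3 : z - ‖z'' - z‖⁻¹ • (z'' - z) = z + (-1 : ℝ) • d := by
    rw [hd, ← hηdef]; module
  rw [e3]
  exact h3

/-- Two vectors of the unit ball with the same truncated distances to all vectors of the unit
ball coincide. -/
lemma eq_of_trunc_dist_ball {z z'' : X} (hz : ‖z‖ ≤ 1) (hz'' : ‖z''‖ ≤ 1)
    (h : ∀ a : X, ‖a‖ ≤ 1 → max ‖z - a‖ 1 = max ‖z'' - a‖ 1) : z'' = z := by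
  by_contra hne
  have h1 := norm_sub_dir_le hz hz'' hne h
  have h2 := norm_sub_dir_le hz'' hz (Ne.symm hne) (fun a ha => (h a ha).symm)
  obtain ⟨η, hηdef⟩ : ∃ η : ℝ, η = ‖z'' - z‖ := ⟨_, rfl⟩
  have hη : 0 < η := by rw [hηdef]; exact norm_pos_iff.mpr (sub_ne_zero.mpr hne)
  have hη' : ‖z - z''‖ = η := by rw [hηdef, norm_sub_rev]
  rw [← hηdef] at h1
  rw [hη'] at h2
  have e : (z'' - η⁻¹ • (z - z'')) - (z - η⁻¹ • (z'' - z)) = (1 + 2 * η⁻¹) • (z'' - z) := by
    module
  have h3 : ‖(z'' - η⁻¹ • (z - z'')) - (z - η⁻¹ • (z'' - z))‖ ≤ 1 + 1 :=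
    (norm_sub_le _ _).trans (add_le_add h2 h1)
  rw [e, norm_smul, ← hηdef, Real.norm_eq_abs, abs_of_pos (by positivity)] at h3
  have e2 : (1 + 2 * η⁻¹) * η = η + 2 := by field_simp
  rw [e2] at h3
  linarith

end Ball

section Det

variable {K X : Type*} [TopologicalSpace K] [CompactSpace K] [T2Space K]
  [NormedAddCommGroup X] [NormedSpace ℝ X]

/-- Distance from a function `v` of norm at most `1` to a test function made of two bumps. -/
lemma dist_test_bounds {v : C(K, X)} (hv : ‖v‖ ≤ 1) {η κ : C(K, ℝ)} {t : K} {a e : X} {ε : ℝ}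
    (hε : 0 ≤ ε) (hηt : η t = 1) (hη0 : ∀ s, 0 ≤ η s) (hη1 : ∀ s, η s ≤ 1)
    (hV : ∀ s, η s ≠ 0 → κ s = 0 ∧ ‖v s - v t‖ ≤ ε) (hW : ∀ s, ‖v s - κ s • e‖ ≤ 1 + ε) :
    max ‖v t - a‖ 1 ≤ max ‖v - (bumpVec η a + bumpVec κ e)‖ 1 ∧
      max ‖v - (bumpVec η a + bumpVec κ e)‖ 1 ≤ max ‖v t - a‖ 1 + ε := by
  have hval : ∀ s, (v - (bumpVec η a + bumpVec κ e)) s = v s - (η s • a + κ s • e) := fun s => rfl
  constructor
  · apply max_le_max _ le_rfl
    have h1 := (v - (bumpVec η a + bumpVec κ e)).norm_coe_le_norm t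
    rw [hval, hηt, (hV t (by rw [hηt]; exact one_ne_zero)).1, zero_smul, add_zero, one_smul] at h1
    exact h1
  · apply max_le
    · rw [ContinuousMap.norm_le _ (by positivity)]
      intro s
      rw [hval]
      by_cases hs : η s = 0
      · rw [hs, zero_smul, zero_add]
        exact (hW s).trans (add_le_add_left (le_max_right _ _) _)
      · obtain ⟨hκs, hvs⟩ := hV s hs
        rw [hκs, zero_smul, add_zero]
        have e1 : v s - η s • a = (v s - v t) + ((1 - η s) • v t + η s • (v t - a)) := by module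
        have hvt : ‖v t‖ ≤ max ‖v t - a‖ 1 :=
          ((v.norm_coe_le_norm t).trans hv).trans (le_max_right _ _)
        have h2 : ‖(1 - η s) • v t + η s • (v t - a)‖ ≤ max ‖v t - a‖ 1 := by
          calc ‖(1 - η s) • v t + η s • (v t - a)‖
              ≤ ‖(1 - η s) • v t‖ + ‖η s • (v t - a)‖ := norm_add_le _ _
            _ = (1 - η s) * ‖v t‖ + η s * ‖v t - a‖ := by
              rw [norm_smul, norm_smul, Real.norm_eq_abs, Real.norm_eq_abs,
                abs_of_nonneg (hη0 s), abs_of_nonneg (sub_nonneg.mpr (hη1 s))]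
            _ ≤ (1 - η s) * max ‖v t - a‖ 1 + η s * max ‖v t - a‖ 1 :=
              add_le_add (mul_le_mul_of_nonneg_left hvt (sub_nonneg.mpr (hη1 s)))
                (mul_le_mul_of_nonneg_left (le_max_left _ _) (hη0 s))
            _ = max ‖v t - a‖ 1 := by ring
        rw [e1]
        calc ‖(v s - v t) + ((1 - η s) • v t + η s • (v t - a))‖
            ≤ ‖v s - v t‖ + ‖(1 - η s) • v t + η s • (v t - a)‖ := norm_add_le _ _
          _ ≤ ε + max ‖v t - a‖ 1 := add_le_add hvs h2
          _ = max ‖v t - a‖ 1 + ε := add_comm _ _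
    · have := le_max_right ‖v t - a‖ 1
      linarith

/-- A scalar function cutting between two points outside `Z`. -/
lemma exists_cutter_at {Z : Set K} {t t' : K} (ht : t ∉ Z) (ht' : t' ∉ Z) (hne : t ≠ t') :
    ∃ h₀ h : C(K, ℝ), h₀ t = 0 ∧ h₀ t' = 1 ∧ IsCutter Z h ∧
      ∀ s ∈ bandSet h, 1 / 3 ≤ h₀ s ∧ h₀ s ≤ 2 / 3 := by
  obtain ⟨h₀, h0t, h0t', -⟩ := exists_sep hne
  refine ⟨h₀, ⟨fun s => 3 * h₀ s - 1, (continuous_const.mul h₀.continuous).sub continuous_const⟩,
    h0t, h0t', ⟨⟨t, ht, ?_⟩, ⟨t', ht', ?_⟩⟩, ?_⟩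
  · show 3 * h₀ t - 1 < 0
    rw [h0t]; norm_num
  · show 1 < 3 * h₀ t' - 1
    rw [h0t']; norm_num
  · intro s hs
    have h1 : 0 ≤ 3 * h₀ s - 1 := hs.1
    have h2 : 3 * h₀ s - 1 ≤ 1 := hs.2
    constructor <;> linarith

/-- Local comparison: two unit functions with the same distances to all unit cut functions have
values at `t` with the same truncated distances to the vector `a`. -/
lemma local_max_eq {Z : Set K} (hZ : IsClosed Z) {u u'' : C(K, X)} (hu1 : ‖u‖ = 1)
    (hu''1 : ‖u''‖ = 1)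
    (hdist : ∀ (h : C(K, ℝ)) (w : C(K, X)), IsCutter Z h → w ∈ idealOf (Z ∪ bandSet h) →
      ‖w‖ = 1 → ‖u - w‖ = ‖u'' - w‖)
    {t t' : K} (ht : t ∉ Z) (ht' : t' ∉ Z) (htt' : t ≠ t') {e a : X}
    (he : e = 0 ∨ (‖e‖ = 1 ∧ u t' = e ∧ u'' t' = e)) (ha : ‖a‖ ≤ 1)
    (hae : ‖a‖ = 1 ∨ ‖e‖ = 1) : max ‖u t - a‖ 1 = max ‖u'' t - a‖ 1 := by
  have he1 : ‖e‖ ≤ 1 := by
    rcases he with rfl | ⟨h1, -, -⟩
    · rw [norm_zero]; exact zero_le_one
    · exact h1.le
  have key : ∀ ε : ℝ, 0 < ε → max ‖u t - a‖ 1 ≤ max ‖u'' t - a‖ 1 + ε ∧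
      max ‖u'' t - a‖ 1 ≤ max ‖u t - a‖ 1 + ε := by
    intro ε hε
    obtain ⟨h₀, h, h0t, h0t', hcut, hband⟩ := exists_cutter_at ht ht' htt'
    obtain ⟨V, hVdef⟩ : ∃ V : Set K, V = (({s | h₀ s < 1 / 3} ∩ Zᶜ) ∩
        {s | ‖u s - u t‖ < ε}) ∩ {s | ‖u'' s - u'' t‖ < ε} := ⟨_, rfl⟩
    obtain ⟨W, hWdef⟩ : ∃ W : Set K, W = (({s | 2 / 3 < h₀ s} ∩ Zᶜ) ∩
        {s | ‖u s - u t'‖ < ε}) ∩ {s | ‖u'' s - u'' t'‖ < ε} := ⟨_, rfl⟩
    have hVo : IsOpen V := by
      rw [hVdef]
      refine (((isOpen_lt h₀.continuous continuous_const).inter hZ.isOpen_compl).inter ?_).inter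
        ?_
      · exact isOpen_lt (continuous_norm.comp (u.continuous.sub continuous_const))
          continuous_const
      · exact isOpen_lt (continuous_norm.comp (u''.continuous.sub continuous_const))
          continuous_const
    have hWo : IsOpen W := by
      rw [hWdef]
      refine (((isOpen_lt continuous_const h₀.continuous).inter hZ.isOpen_compl).inter ?_).inter
        ?_
      · exact isOpen_lt (continuous_norm.comp (u.continuous.sub continuous_const))
          continuous_const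
      · exact isOpen_lt (continuous_norm.comp (u''.continuous.sub continuous_const))
          continuous_const
    have htV : t ∈ V := by
      rw [hVdef]
      refine ⟨⟨⟨?_, ht⟩, ?_⟩, ?_⟩
      · show h₀ t < 1 / 3
        rw [h0t]; norm_num
      · show ‖u t - u t‖ < ε
        rw [sub_self, norm_zero]; exact hε
      · show ‖u'' t - u'' t‖ < ε
        rw [sub_self, norm_zero]; exact hε
    have ht'W : t' ∈ W := by
      rw [hWdef]
      refine ⟨⟨⟨?_, ht'⟩, ?_⟩, ?_⟩
      · show 2 / 3 < h₀ t'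
        rw [h0t']; norm_num
      · show ‖u t' - u t'‖ < ε
        rw [sub_self, norm_zero]; exact hε
      · show ‖u'' t' - u'' t'‖ < ε
        rw [sub_self, norm_zero]; exact hε
    obtain ⟨η, hηt, hη0, hη1, hηV⟩ := exists_bump hVo htV
    obtain ⟨κ, hκt', hκ0, hκ1, hκW⟩ := exists_bump hWo ht'W
    have hVW : ∀ s, s ∈ V → s ∉ W := by
      intro s hsV hsW
      rw [hVdef] at hsV
      rw [hWdef] at hsW
      have h1 : h₀ s < 1 / 3 := hsV.1.1.1
      have h2 : 2 / 3 < h₀ s := hsW.1.1.1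
      linarith
    have hηV' : ∀ s, η s ≠ 0 → s ∈ V := by
      intro s hs
      by_contra hsV
      exact hs (hηV s hsV)
    have hκW' : ∀ s, κ s ≠ 0 → s ∈ W := by
      intro s hs
      by_contra hsW
      exact hs (hκW s hsW)
    have hηκ : ∀ s, η s ≠ 0 → κ s = 0 := fun s hs => hκW s (hVW s (hηV' s hs))
    obtain ⟨w, hwdef⟩ : ∃ w : C(K, X), w = bumpVec η a + bumpVec κ e := ⟨_, rfl⟩
    have hws : ∀ s, w s = η s • a + κ s • e := by
      intro s
      rw [hwdef]
      rfl
    have hwmem : w ∈ idealOf (Z ∪ bandSet h) := by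
      intro s hs
      have hsV : s ∉ V := by
        intro hsV
        rw [hVdef] at hsV
        rcases hs with hs | hs
        · exact hsV.1.1.2 hs
        · have h1 : h₀ s < 1 / 3 := hsV.1.1.1
          linarith [(hband s hs).1]
      have hsW : s ∉ W := by
        intro hsW
        rw [hWdef] at hsW
        rcases hs with hs | hs
        · exact hsW.1.1.2 hs
        · have h1 : 2 / 3 < h₀ s := hsW.1.1.1
          linarith [(hband s hs).2]
      rw [hws, hηV s hsV, hκW s hsW, zero_smul, zero_smul, add_zero]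
    have hw1 : ‖w‖ = 1 := by
      apply le_antisymm
      · rw [ContinuousMap.norm_le _ zero_le_one]
        intro s
        rw [hws]
        by_cases hs : η s = 0
        · rw [hs, zero_smul, zero_add, norm_smul, Real.norm_eq_abs, abs_of_nonneg (hκ0 s)]
          calc κ s * ‖e‖ ≤ 1 * 1 := mul_le_mul (hκ1 s) he1 (norm_nonneg _) zero_le_one
            _ = 1 := one_mul 1
        · rw [hηκ s hs, zero_smul, add_zero, norm_smul, Real.norm_eq_abs, abs_of_nonneg (hη0 s)]
          calc η s * ‖a‖ ≤ 1 * 1 := mul_le_mul (hη1 s) ha (norm_nonneg _) zero_le_one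
            _ = 1 := one_mul 1
      · rcases hae with ha1 | he1'
        · have h1 := w.norm_coe_le_norm t
          rw [hws, hηt, hηκ t (by rw [hηt]; exact one_ne_zero), zero_smul, add_zero, one_smul,
            ha1] at h1
          exact h1
        · have h1 := w.norm_coe_le_norm t'
          rw [hws, hηV t' (fun h => hVW t' h ht'W), hκt', zero_smul, zero_add, one_smul,
            he1'] at h1
          exact h1
    have hb : ∀ v : C(K, X), ‖v‖ = 1 → (∀ s ∈ V, ‖v s - v t‖ < ε) →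
        (∀ s ∈ W, ‖v s - v t'‖ < ε) → (e = 0 ∨ v t' = e) →
        max ‖v t - a‖ 1 ≤ max ‖v - w‖ 1 ∧ max ‖v - w‖ 1 ≤ max ‖v t - a‖ 1 + ε := by
      intro v hv1 hvV hvW hve
      rw [hwdef]
      refine dist_test_bounds hv1.le hε.le hηt hη0 hη1
        (fun s hs => ⟨hηκ s hs, (hvV s (hηV' s hs)).le⟩) (fun s => ?_)
      have hvs : ‖v s‖ ≤ 1 := by
        have := v.norm_coe_le_norm s
        rwa [hv1] at this
      by_cases hs : κ s = 0
      · rw [hs, zero_smul, sub_zero]; linarith
      · rcases hve with rfl | hve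
        · rw [smul_zero, sub_zero]; linarith
        · have h1 := hvW s (hκW' s hs)
          rw [hve] at h1
          have e1 : v s - κ s • e = (v s - e) + (1 - κ s) • e := by module
          rw [e1]
          have h2 : ‖(1 - κ s) • e‖ ≤ 1 := by
            rw [norm_smul, Real.norm_eq_abs, abs_of_nonneg (sub_nonneg.mpr (hκ1 s))]
            calc (1 - κ s) * ‖e‖ ≤ 1 * 1 :=
                  mul_le_mul (by linarith [hκ0 s]) he1 (norm_nonneg _) zero_le_one
              _ = 1 := one_mul 1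
          have h3 := norm_add_le (v s - e) ((1 - κ s) • e)
          linarith
    have hbu := hb u hu1 (fun s hs => by rw [hVdef] at hs; exact hs.1.2)
      (fun s hs => by rw [hWdef] at hs; exact hs.1.2) (by
        rcases he with h0 | ⟨-, h1, -⟩
        · exact Or.inl h0
        · exact Or.inr h1)
    have hbu'' := hb u'' hu''1 (fun s hs => by rw [hVdef] at hs; exact hs.2)
      (fun s hs => by rw [hWdef] at hs; exact hs.2) (by
        rcases he with h0 | ⟨-, -, h1⟩
        · exact Or.inl h0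
        · exact Or.inr h1)
    have hd := hdist h w hcut hwmem hw1
    rw [hd] at hbu
    constructor
    · linarith [hbu.1, hbu''.2]
    · linarith [hbu''.1, hbu.2]
  apply le_antisymm
  · exact le_of_forall_pos_le_add fun ε hε => (key ε hε).1
  · exact le_of_forall_pos_le_add fun ε hε => (key ε hε).2

/-- Two unit functions vanishing on `Z` with the same distances to all unit cut functions
coincide. -/
lemma eq_of_dist_cut {Z : Set K} (hZ : IsClosed Z) (hK : ∀ t, t ∉ Z → ∃ t', t' ∉ Z ∧ t' ≠ t)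
    {u u'' : C(K, X)} (hu : u ∈ idealOf Z) (hu'' : u'' ∈ idealOf Z) (hu1 : ‖u‖ = 1)
    (hu''1 : ‖u''‖ = 1)
    (hdist : ∀ (h : C(K, ℝ)) (w : C(K, X)), IsCutter Z h → w ∈ idealOf (Z ∪ bandSet h) →
      ‖w‖ = 1 → ‖u - w‖ = ‖u'' - w‖) : u'' = u := by
  have hstep1 : ∀ t, t ∉ Z → ‖u t‖ = 1 → u'' t = u t := by
    intro t ht hut
    obtain ⟨t', ht', hne⟩ := hK t ht
    have hmax : ∀ a : X, ‖a‖ = 1 → max ‖u t - a‖ 1 = max ‖u'' t - a‖ 1 := fun a ha =>
      local_max_eq hZ hu1 hu''1 hdist ht ht' (Ne.symm hne) (e := 0) (Or.inl rfl) ha.le (Or.inl ha)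
    have hu''t : ‖u'' t‖ = 1 := by
      apply le_antisymm
      · have := u''.norm_coe_le_norm t
        rwa [hu''1] at this
      · have h1 := hmax (-u t) (by rw [norm_neg]; exact hut)
        rw [norm_sub_neg_self hut, sub_neg_eq_add, max_eq_left (by norm_num : (1 : ℝ) ≤ 2)] at h1
        have h2 : ‖u'' t + u t‖ = 2 := by
          rcases max_choice ‖u'' t + u t‖ 1 with h3 | h3
          · rw [h3] at h1
            exact h1.symm
          · rw [h3] at h1
            norm_num at h1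
        have h4 := norm_add_le (u'' t) (u t)
        linarith
    exact eq_of_max_dist_sphere hut hu''t zero_le_one le_rfl fun x hx => (hmax x hx).symm
  ext t
  by_cases ht : t ∈ Z
  · rw [hu t ht, hu'' t ht]
  by_cases hut : ‖u t‖ = 1
  · exact hstep1 t ht hut
  have hK' : Nonempty K := ⟨t⟩
  obtain ⟨ts, hts⟩ := exists_norm_apply_eq u
  rw [hu1] at hts
  have htsZ : ts ∉ Z := by
    intro h
    rw [hu ts h, norm_zero] at hts
    exact zero_ne_one hts
  have hne : t ≠ ts := by
    intro h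
    rw [h] at hut
    exact hut hts
  have hz : ‖u t‖ ≤ 1 := by
    have := u.norm_coe_le_norm t
    rwa [hu1] at this
  have hz'' : ‖u'' t‖ ≤ 1 := by
    have := u''.norm_coe_le_norm t
    rwa [hu''1] at this
  exact eq_of_trunc_dist_ball hz hz'' fun a ha =>
    local_max_eq hZ hu1 hu''1 hdist ht htsZ hne (e := u ts)
      (Or.inr ⟨hts, rfl, hstep1 ts htsZ hts⟩) ha (Or.inr hts)

end Det

end Vale.Agent.H23
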