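import Vale.Agent.H23.BCBand
import Vale.Agent.H23.CKDet

/-!
# Bounded continuous vector-valued functions are determined by their distances to cut functions

Let `E` be a subspace of the bounded continuous functions `L → X` closed under multiplication
by bounded continuous scalar functions, such that every point can be separated by a continuous
scalar function from a point where some member of `E` does not vanish. If two unit vectors `u`,
`u''` of `E` have the same distance to every unit vector of `E` vanishing on the band of some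
cutting scalar function, then `u'' = u`.
-/

namespace Vale.Agent.H23

open scoped BoundedContinuousFunction

section BCDet

variable {L X : Type*} [TopologicalSpace L] [NormedAddCommGroup X] [NormedSpace ℝ X]
  {E : Submodule ℝ (L →ᵇ X)}

omit [NormedSpace ℝ X] in
/-- The supremum norm is approached from below by the pointwise norms. -/
lemma exists_lt_norm_apply {u : L →ᵇ X} {c : ℝ} (hc0 : 0 ≤ c) (hc : c < ‖u‖) :
    ∃ t, c < ‖u t‖ := by
  by_contra hcon
  have h1 : ∀ t, ‖u t‖ ≤ c := fun t => not_lt.mp fun h => hcon ⟨t, h⟩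
  exact absurd ((BoundedContinuousFunction.norm_le hc0).mpr h1) (not_le.mpr hc)

/-- A cutting function adapted to a point `t` and a continuous scalar function `g₀` vanishing
at `t`, together with two scalar functions `η ≤ β` with values in `[0, 1]`, equal to `1` at
`t` and living where `g₀ < 1`; on the band, `β = 1` and `η = 0`. -/
lemma exists_cut_package
    (hK : ∀ t : L, ∃ d : C(L, ℝ), d t = 0 ∧ ∃ t', 1 ≤ d t' ∧ ∃ u ∈ E, u t' ≠ 0)
    {t : L} (ht : ∃ v ∈ E, v t ≠ 0) (g₀ : C(L, ℝ)) (hg₀t : g₀ t = 0) :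
    ∃ (h : C(L, ℝ)) (β η : L →ᵇ ℝ), IsCutterB E h ∧ β t = 1 ∧ η t = 1 ∧ (∀ s, 0 ≤ η s) ∧
      (∀ s, η s ≤ β s) ∧ (∀ s, β s ≤ 1) ∧ (∀ s ∈ bandSetB h, β s = 1 ∧ η s = 0) ∧
      (∀ s, β s = 1 ∨ η s = 0) ∧ ∀ s, β s ≠ 0 → g₀ s < 1 := by
  obtain ⟨d, hdt, t', hdt', u', hu'E, hu't'⟩ := hK t
  obtain ⟨g, hgdef⟩ : ∃ g : C(L, ℝ), ∀ s, g s = max (d s) (g₀ s) :=
    ⟨⟨fun s => max (d s) (g₀ s), d.continuous.max g₀.continuous⟩, fun s => rfl⟩
  have hgt : g t = 0 := by rw [hgdef, hdt, hg₀t, max_self]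
  have hgt' : 1 ≤ g t' := by
    rw [hgdef]
    exact le_max_of_le_left hdt'
  obtain ⟨h, hhdef⟩ : ∃ h : C(L, ℝ), ∀ s, h s = 2 - 3 * g s :=
    ⟨⟨fun s => 2 - 3 * g s, continuous_const.sub (continuous_const.mul g.continuous)⟩,
      fun s => rfl⟩
  obtain ⟨hβ, hhβdef⟩ : ∃ hβ : C(L, ℝ), ∀ s, hβ s = 3 - 3 * g s :=
    ⟨⟨fun s => 3 - 3 * g s, continuous_const.sub (continuous_const.mul g.continuous)⟩,
      fun s => rfl⟩
  obtain ⟨hη, hhηdef⟩ : ∃ hη : C(L, ℝ), ∀ s, hη s = 1 - 3 * g s :=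
    ⟨⟨fun s => 1 - 3 * g s, continuous_const.sub (continuous_const.mul g.continuous)⟩,
      fun s => rfl⟩
  have hβ1 : ∀ s, g s ≤ 2 / 3 → clampB hβ s = 1 := by
    intro s hs
    apply clampB_of_one_le
    rw [hhβdef]
    linarith
  have hη0 : ∀ s, 1 / 3 ≤ g s → clampB hη s = 0 := by
    intro s hs
    apply clampB_of_nonpos
    rw [hhηdef]
    linarith
  refine ⟨h, clampB hβ, clampB hη, ⟨⟨t', ?_, u', hu'E, hu't'⟩, ⟨t, ?_, ht⟩⟩, ?_, ?_,
    fun s => clampB_nonneg _ s, fun s => ?_, fun s => clampB_le_one _ s, fun s hs => ?_,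
    fun s => ?_, fun s hs => ?_⟩
  · rw [hhdef]
    linarith
  · rw [hhdef, hgt]
    norm_num
  · apply hβ1
    rw [hgt]
    norm_num
  · apply clampB_of_one_le
    rw [hhηdef, hgt]
    norm_num
  · apply clampB_mono
    rw [hhηdef, hhβdef]
    linarith
  · have h1 : 0 ≤ h s := hs.1
    have h2 : h s ≤ 1 := hs.2
    rw [hhdef] at h1 h2
    exact ⟨hβ1 s (by linarith), hη0 s (by linarith)⟩
  · rcases le_or_gt (g s) (2 / 3) with h1 | h1
    · exact Or.inl (hβ1 s h1)
    · exact Or.inr (hη0 s (by linarith))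
  · by_contra hge
    have h1 : 1 ≤ g s := by
      rw [hgdef]
      exact le_max_of_le_right (not_lt.mp hge)
    apply hs
    apply clampB_of_nonpos
    rw [hhβdef]
    linarith

/-- Comparison of the values at `t` of two unit functions with the same distances to all cut
unit functions. -/
lemma local_le (hE : IsFunModule E)
    (hK : ∀ t : L, ∃ d : C(L, ℝ), d t = 0 ∧ ∃ t', 1 ≤ d t' ∧ ∃ u ∈ E, u t' ≠ 0)
    {u u'' : L →ᵇ X} (hu : u ∈ E) (hu1 : ‖u‖ = 1)
    (hdist : ∀ (h : C(L, ℝ)) (w : L →ᵇ X), IsCutterB E h → w ∈ bandIdeal E h →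
      ‖w‖ = 1 → ‖u - w‖ = ‖u'' - w‖)
    {t : L} (ht : ∃ v ∈ E, v t ≠ 0) {a : X} (haE : a ∈ fiber E t) (ha : ‖a‖ ≤ 1)
    (hcase : ‖a‖ = 1 ∨ ‖u t‖ < 1) : ‖u'' t - a‖ ≤ max ‖u t‖ ‖u t - a‖ := by
  have key : ∀ ε : ℝ, 0 < ε → (‖a‖ = 1 ∨ ‖u t‖ + ε < 1) →
      ‖u'' t - a‖ ≤ max ‖u t‖ ‖u t - a‖ + 2 * ε := by
    intro ε hε hcase'
    obtain ⟨A, hAE, hA1, hAt⟩ := exists_section hE haE ha
    obtain ⟨g₀, hg₀def⟩ : ∃ g₀ : C(L, ℝ), ∀ s, g₀ s = max (‖u s - u t‖ / ε) (‖A s - a‖ / ε) :=
      ⟨⟨fun s => max (‖u s - u t‖ / ε) (‖A s - a‖ / ε),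
        ((continuous_norm.comp (u.continuous.sub continuous_const)).div_const ε).max
          ((continuous_norm.comp (A.continuous.sub continuous_const)).div_const ε)⟩,
        fun s => rfl⟩
    have hg₀t : g₀ t = 0 := by
      rw [hg₀def, sub_self, norm_zero, hAt, sub_self, norm_zero, zero_div, max_self]
    obtain ⟨h, β, η, hcut, hβt, hηt, hη0, hηβ, hβ1, hband, hor, hnear⟩ :=
      exists_cut_package hK ht g₀ hg₀t
    have hβ0 : ∀ s, 0 ≤ β s := fun s => (hη0 s).trans (hηβ s)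
    have hnear' : ∀ s, β s ≠ 0 → ‖u s - u t‖ < ε ∧ ‖A s - a‖ < ε := by
      intro s hs
      have h1 := hnear s hs
      rw [hg₀def] at h1
      exact ⟨(div_lt_one hε).mp (lt_of_le_of_lt (le_max_left _ _) h1),
        (div_lt_one hε).mp (lt_of_le_of_lt (le_max_right _ _) h1)⟩
    obtain ⟨w, hwdef⟩ : ∃ w : L →ᵇ X, w = u - mulB β u + mulB η A := ⟨_, rfl⟩
    have hws : ∀ s, w s = u s - β s • u s + η s • A s := by
      intro s
      rw [hwdef]
      rfl
    have hwE : w ∈ E := by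
      rw [hwdef]
      exact E.add_mem (E.sub_mem hu (hE β u hu)) (hE η A hAE)
    have hwt : w t = a := by
      rw [hws, hβt, hηt, one_smul, one_smul, sub_self, zero_add, hAt]
    have hwband : w ∈ bandIdeal E h := by
      refine ⟨hwE, fun s hs => ?_⟩
      rw [hws, (hband s hs).1, (hband s hs).2, one_smul, zero_smul, sub_self, add_zero]
    have hus : ∀ s, ‖u s‖ ≤ 1 := fun s => by
      have := u.norm_coe_le_norm s
      rwa [hu1] at this
    have hAs : ∀ s, ‖A s‖ ≤ 1 := fun s => (A.norm_coe_le_norm s).trans hA1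
    have hwle : ‖w‖ ≤ 1 := by
      rw [BoundedContinuousFunction.norm_le zero_le_one]
      intro s
      rw [hws]
      rcases hor s with h1 | h1
      · rw [h1, one_smul, sub_self, zero_add, norm_smul, Real.norm_eq_abs,
          abs_of_nonneg (hη0 s)]
        calc η s * ‖A s‖ ≤ 1 * 1 :=
              mul_le_mul ((hηβ s).trans (hβ1 s)) (hAs s) (norm_nonneg _) zero_le_one
          _ = 1 := one_mul 1
      · rw [h1, zero_smul, add_zero]
        have e : u s - β s • u s = (1 - β s) • u s := by rw [sub_smul, one_smul]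
        rw [e, norm_smul, Real.norm_eq_abs, abs_of_nonneg (sub_nonneg.mpr (hβ1 s))]
        calc (1 - β s) * ‖u s‖ ≤ 1 * 1 :=
              mul_le_mul (by linarith [hβ0 s]) (hus s) (norm_nonneg _) zero_le_one
          _ = 1 := one_mul 1
    have hw1 : ‖w‖ = 1 := by
      apply le_antisymm hwle
      rcases hcase' with hc | hc
      · have h1 := w.norm_coe_le_norm t
        rw [hwt, hc] at h1
        exact h1
      · by_contra hlt
        have hlt' : ‖w‖ < 1 := not_le.mp hlt
        have hc1 : max ‖w‖ (‖u t‖ + ε) < 1 := max_lt hlt' hc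
        have hc0 : 0 ≤ max ‖w‖ (‖u t‖ + ε) := le_max_of_le_left (norm_nonneg _)
        have h2 : ‖u‖ ≤ max ‖w‖ (‖u t‖ + ε) := by
          rw [BoundedContinuousFunction.norm_le hc0]
          intro s
          by_cases hs : β s = 0
          · have hη : η s = 0 := le_antisymm (by rw [← hs]; exact hηβ s) (hη0 s)
            have h3 := w.norm_coe_le_norm s
            rw [hws, hs, hη, zero_smul, zero_smul, sub_zero, add_zero] at h3
            exact h3.trans (le_max_left _ _)
          · have h3 := (hnear' s hs).1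
            have h4 : ‖u s‖ ≤ ‖u s - u t‖ + ‖u t‖ := by
              have e : u s = (u s - u t) + u t := by abel
              conv_lhs => rw [e]
              exact norm_add_le _ _
            exact le_trans (by linarith) (le_max_right _ _)
        rw [hu1] at h2
        exact absurd h2 (not_le.mpr hc1)
    have hD1 : ‖u'' t - a‖ ≤ ‖u'' - w‖ := by
      have h1 := (u'' - w).norm_coe_le_norm t
      rw [BoundedContinuousFunction.sub_apply, hwt] at h1
      exact h1
    have hM0 : 0 ≤ max ‖u t‖ ‖u t - a‖ := le_max_of_le_left (norm_nonneg _)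
    have hD2 : ‖u - w‖ ≤ max ‖u t‖ ‖u t - a‖ + 2 * ε := by
      rw [BoundedContinuousFunction.norm_le (by positivity)]
      intro s
      have e : (u - w) s = β s • u s - η s • A s := by
        rw [BoundedContinuousFunction.sub_apply, hws]
        abel
      rw [e]
      by_cases hs : β s = 0
      · have hη : η s = 0 := le_antisymm (by rw [← hs]; exact hηβ s) (hη0 s)
        rw [hs, hη, zero_smul, zero_smul, sub_zero, norm_zero]
        positivity
      · obtain ⟨h3, h4⟩ := hnear' s hs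
        have e2 : β s • u s - η s • A s = (β s - η s) • u t + η s • (u t - a) +
            β s • (u s - u t) - η s • (A s - a) := by module
        rw [e2]
        have n1 : ‖(β s - η s) • u t‖ = (β s - η s) * ‖u t‖ := by
          rw [norm_smul, Real.norm_eq_abs, abs_of_nonneg (sub_nonneg.mpr (hηβ s))]
        have n2 : ‖η s • (u t - a)‖ = η s * ‖u t - a‖ := by
          rw [norm_smul, Real.norm_eq_abs, abs_of_nonneg (hη0 s)]
        have n3 : ‖β s • (u s - u t)‖ = β s * ‖u s - u t‖ := by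
          rw [norm_smul, Real.norm_eq_abs, abs_of_nonneg (hβ0 s)]
        have n4 : ‖η s • (A s - a)‖ = η s * ‖A s - a‖ := by
          rw [norm_smul, Real.norm_eq_abs, abs_of_nonneg (hη0 s)]
        have t1 : ‖(β s - η s) • u t + η s • (u t - a) + β s • (u s - u t) - η s • (A s - a)‖ ≤
            (β s - η s) * ‖u t‖ + η s * ‖u t - a‖ + β s * ‖u s - u t‖ + η s * ‖A s - a‖ := by
          rw [← n1, ← n2, ← n3, ← n4]
          exact (norm_sub_le _ _).trans (add_le_add_left ((norm_add_le _ _).trans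
            (add_le_add_left (norm_add_le _ _) _)) _)
        have b1 : (β s - η s) * ‖u t‖ ≤ (β s - η s) * max ‖u t‖ ‖u t - a‖ :=
          mul_le_mul_of_nonneg_left (le_max_left _ _) (sub_nonneg.mpr (hηβ s))
        have b2 : η s * ‖u t - a‖ ≤ η s * max ‖u t‖ ‖u t - a‖ :=
          mul_le_mul_of_nonneg_left (le_max_right _ _) (hη0 s)
        have b3 : β s * ‖u s - u t‖ ≤ 1 * ε :=
          mul_le_mul (hβ1 s) h3.le (norm_nonneg _) zero_le_one
        have b4 : η s * ‖A s - a‖ ≤ 1 * ε :=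
          mul_le_mul ((hηβ s).trans (hβ1 s)) h4.le (norm_nonneg _) zero_le_one
        have b5 : β s * max ‖u t‖ ‖u t - a‖ ≤ 1 * max ‖u t‖ ‖u t - a‖ :=
          mul_le_mul_of_nonneg_right (hβ1 s) hM0
        nlinarith [t1, b1, b2, b3, b4, b5]
    calc ‖u'' t - a‖ ≤ ‖u'' - w‖ := hD1
      _ = ‖u - w‖ := (hdist h w hcut hwband hw1).symm
      _ ≤ max ‖u t‖ ‖u t - a‖ + 2 * ε := hD2
  apply le_of_forall_pos_le_add
  intro δ hδ
  rcases hcase with hc | hc
  · have h1 := key (δ / 2) (by positivity) (Or.inl hc)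
    linarith
  · have hpos : 0 < min (δ / 2) ((1 - ‖u t‖) / 2) := lt_min (by positivity) (by linarith)
    have h1 := key (min (δ / 2) ((1 - ‖u t‖) / 2)) hpos (Or.inr (by
      have := min_le_right (δ / 2) ((1 - ‖u t‖) / 2)
      linarith))
    have h2 := min_le_left (δ / 2) ((1 - ‖u t‖) / 2)
    linarith

/-- Two unit vectors of `E` with the same distances to all cut unit functions coincide. -/
lemma eq_of_dist_cutB (hE : IsFunModule E)
    (hK : ∀ t : L, ∃ d : C(L, ℝ), d t = 0 ∧ ∃ t', 1 ≤ d t' ∧ ∃ u ∈ E, u t' ≠ 0)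
    {u u'' : L →ᵇ X} (hu : u ∈ E) (hu'' : u'' ∈ E) (hu1 : ‖u‖ = 1) (hu''1 : ‖u''‖ = 1)
    (hdist : ∀ (h : C(L, ℝ)) (w : L →ᵇ X), IsCutterB E h → w ∈ bandIdeal E h →
      ‖w‖ = 1 → ‖u - w‖ = ‖u'' - w‖) : u'' = u := by
  ext t
  by_cases ht : ∃ v ∈ E, v t ≠ 0
  swap
  · have h0 : ∀ v ∈ E, v t = 0 := fun v hv => by
      by_contra hne
      exact ht ⟨v, hv, hne⟩
    rw [h0 u hu, h0 u'' hu'']
  have hdist' : ∀ (h : C(L, ℝ)) (w : L →ᵇ X), IsCutterB E h → w ∈ bandIdeal E h →
      ‖w‖ = 1 → ‖u'' - w‖ = ‖u - w‖ := fun h w hc hw hw1 => (hdist h w hc hw hw1).symm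
  have hL1 : ∀ a : X, a ∈ fiber E t → ‖a‖ ≤ 1 → (‖a‖ = 1 ∨ ‖u t‖ < 1) →
      ‖u'' t - a‖ ≤ max ‖u t‖ ‖u t - a‖ := fun a haE ha hc =>
    local_le hE hK hu hu1 hdist ht haE ha hc
  have hL2 : ∀ a : X, a ∈ fiber E t → ‖a‖ ≤ 1 → (‖a‖ = 1 ∨ ‖u'' t‖ < 1) →
      ‖u t - a‖ ≤ max ‖u'' t‖ ‖u'' t - a‖ := fun a haE ha hc =>
    local_le hE hK hu'' hu''1 hdist' ht haE ha hc
  have hz : ‖u t‖ ≤ 1 := by
    have := u.norm_coe_le_norm t
    rwa [hu1] at this
  have hz'' : ‖u'' t‖ ≤ 1 := by
    have := u''.norm_coe_le_norm t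
    rwa [hu''1] at this
  have hsph : ∀ a : X, a ∈ fiber E t → ‖a‖ = 1 → max ‖u t - a‖ 1 = max ‖u'' t - a‖ 1 := by
    intro a haE ha
    apply le_antisymm
    · apply max_le _ (le_max_right _ _)
      exact (hL2 a haE ha.le (Or.inl ha)).trans (max_le (hz''.trans (le_max_right _ _))
        (le_max_left _ _))
    · apply max_le _ (le_max_right _ _)
      exact (hL1 a haE ha.le (Or.inl ha)).trans (max_le (hz.trans (le_max_right _ _))
        (le_max_left _ _))
  have hzE : u t ∈ fiber E t := apply_mem_fiber hu t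
  have hz''E : u'' t ∈ fiber E t := apply_mem_fiber hu'' t
  -- the case of a unit value
  have hunit : ∀ {z z'' : X}, z ∈ fiber E t → z'' ∈ fiber E t → ‖z‖ = 1 → ‖z''‖ ≤ 1 →
      (∀ a : X, a ∈ fiber E t → ‖a‖ = 1 → max ‖z - a‖ 1 = max ‖z'' - a‖ 1) → z'' = z := by
    intro z z'' hzF hz''F hz1 hz''le hmax
    have hz''1 : ‖z''‖ = 1 := by
      apply le_antisymm hz''le
      have h1 := hmax (-z) ((fiber E t).neg_mem hzF) (by rw [norm_neg]; exact hz1)
      rw [norm_sub_neg_self hz1, sub_neg_eq_add, max_eq_left (by norm_num : (1 : ℝ) ≤ 2)] at h1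
      have h2 : ‖z'' + z‖ = 2 := by
        rcases max_choice ‖z'' + z‖ 1 with h3 | h3
        · rw [h3] at h1
          exact h1.symm
        · rw [h3] at h1
          norm_num at h1
      have h4 := norm_add_le z'' z
      linarith
    have h5 : (⟨z'', hz''F⟩ : fiber E t) = ⟨z, hzF⟩ :=
      eq_of_max_dist_sphere (X := fiber E t) (a := ⟨z, hzF⟩) (a' := ⟨z'', hz''F⟩)
        (by rw [Submodule.coe_norm]; exact hz1) (by rw [Submodule.coe_norm]; exact hz''1)
        zero_le_one le_rfl (fun x hx => by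
          rw [Submodule.coe_norm, Submodule.coe_norm]
          exact (hmax x x.2 (by rw [← Submodule.coe_norm]; exact hx)).symm)
    exact congrArg Subtype.val h5
  by_cases hut : ‖u t‖ = 1
  · exact hunit hzE hz''E hut hz'' hsph
  by_cases hut'' : ‖u'' t‖ = 1
  · exact (hunit hz''E hzE hut'' hz (fun a haE ha => (hsph a haE ha).symm)).symm
  have hlt : ‖u t‖ < 1 := lt_of_le_of_ne hz hut
  have hlt'' : ‖u'' t‖ < 1 := lt_of_le_of_ne hz'' hut''
  have h6 : (⟨u'' t, hz''E⟩ : fiber E t) = ⟨u t, hzE⟩ :=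
    eq_of_trunc_dist_ball (X := fiber E t) (z := ⟨u t, hzE⟩) (z'' := ⟨u'' t, hz''E⟩)
      (by rw [Submodule.coe_norm]; exact hz) (by rw [Submodule.coe_norm]; exact hz'')
      (fun a ha => by
        rw [Submodule.coe_norm, Submodule.coe_norm]
        have ha' : ‖(a : X)‖ ≤ 1 := by rw [← Submodule.coe_norm]; exact ha
        show max ‖u t - (a : X)‖ 1 = max ‖u'' t - (a : X)‖ 1
        apply le_antisymm
        · apply max_le _ (le_max_right _ _)
          exact (hL2 a a.2 ha' (Or.inr hlt'')).trans (max_le (hz''.trans (le_max_right _ _))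
            (le_max_left _ _))
        · apply max_le _ (le_max_right _ _)
          exact (hL1 a a.2 ha' (Or.inr hlt)).trans (max_le (hz.trans (le_max_right _ _))
            (le_max_left _ _)))
  exact congrArg Subtype.val h6

end BCDet

end Vale.Agent.H23
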