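import Vale.Agent.H23.BCDet
import Vale.Agent.H23.L1Main

/-!
# Tingley's problem for modules of bounded continuous vector-valued functions

Let `L` be a topological space, `X` a real normed space and `E` a linear subspace of the space
of bounded continuous functions `L → X` (supremum norm) which is closed under multiplication by
bounded continuous scalar functions. Assume that there are two points, separated by a continuous
scalar function, at each of which some member of `E` does not vanish. Then for every real Banach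
space `Y`, every surjective isometry from the unit sphere of `E` onto the unit sphere of `Y` is
the restriction of a surjective real-linear isometry.
-/

namespace Vale.Agent.H23

open scoped BoundedContinuousFunction

section BCMain

variable {L X Y : Type*} [TopologicalSpace L] [NormedAddCommGroup X] [NormedSpace ℝ X]
  [NormedAddCommGroup Y] [NormedSpace ℝ Y]

/-- A linear map on a subspace agreeing with `G` on unit vectors is the positively homogeneous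
extension of `G`. -/
lemma linear_eq_hext_sub {V : Type*} [NormedAddCommGroup V] [NormedSpace ℝ V]
    {W : Submodule ℝ V} {G : V → Y} (Λ : W →ₗ[ℝ] Y)
    (hΛ : ∀ u, ‖u‖ = 1 → Λ u = G (u : V)) (u : W) : Λ u = hext G (u : V) := by
  rcases eq_or_ne u 0 with rfl | hne
  · rw [map_zero, Submodule.coe_zero, hext_zero]
  · have h1 : ‖‖u‖⁻¹ • u‖ = 1 := norm_inv_smul_self hne
    have h2 := hΛ _ h1
    rw [map_smul, Submodule.coe_smul] at h2
    unfold hext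
    rw [← Submodule.coe_norm, ← h2, smul_smul, mul_inv_cancel₀ (norm_ne_zero_iff.mpr hne),
      one_smul]

variable {E : Submodule ℝ (L →ᵇ X)}

/-- Two cutting functions with disjoint bands and a scalar function equal to `0` on the first
band and to `1` on the second. -/
lemma exists_two_cuttersB {h₀ : C(L, ℝ)} {t₁ t₂ : L} (h0t₁ : h₀ t₁ = 0) (h0t₂ : h₀ t₂ = 1)
    (ht₁ : ∃ u ∈ E, u t₁ ≠ 0) (ht₂ : ∃ u ∈ E, u t₂ ≠ 0) :
    ∃ (h₁ h₂ : C(L, ℝ)) (φ : L →ᵇ ℝ), IsCutterB E h₁ ∧ IsCutterB E h₂ ∧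
      (∀ s ∈ bandSetB h₁, φ s = 0) ∧ ∀ s ∈ bandSetB h₂, φ s = 1 := by
  refine ⟨⟨fun s => 5 * h₀ s - 1, (continuous_const.mul h₀.continuous).sub continuous_const⟩,
    ⟨fun s => 5 * h₀ s - 3, (continuous_const.mul h₀.continuous).sub continuous_const⟩,
    clampB ⟨fun s => 5 * h₀ s - 2, (continuous_const.mul h₀.continuous).sub continuous_const⟩,
    ⟨⟨t₁, ?_, ht₁⟩, ⟨t₂, ?_, ht₂⟩⟩, ⟨⟨t₁, ?_, ht₁⟩, ⟨t₂, ?_, ht₂⟩⟩, ?_, ?_⟩
  · show 5 * h₀ t₁ - 1 < 0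
    rw [h0t₁]; norm_num
  · show 1 < 5 * h₀ t₂ - 1
    rw [h0t₂]; norm_num
  · show 5 * h₀ t₁ - 3 < 0
    rw [h0t₁]; norm_num
  · show 1 < 5 * h₀ t₂ - 3
    rw [h0t₂]; norm_num
  · intro s hs
    have h2 : 5 * h₀ s - 1 ≤ 1 := hs.2
    apply clampB_of_nonpos
    show 5 * h₀ s - 2 ≤ 0
    linarith
  · intro s hs
    have h1 : 0 ≤ 5 * h₀ s - 3 := hs.1
    apply clampB_of_one_le
    show 1 ≤ 5 * h₀ s - 2
    linarith

/-- Every point is separated by a continuous scalar function from a point where some member of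
`E` does not vanish. -/
lemma exists_far {h₀ : C(L, ℝ)} {t₁ t₂ : L} (h0t₁ : h₀ t₁ = 0) (h0t₂ : h₀ t₂ = 1)
    (ht₁ : ∃ u ∈ E, u t₁ ≠ 0) (ht₂ : ∃ u ∈ E, u t₂ ≠ 0) (t : L) :
    ∃ d : C(L, ℝ), d t = 0 ∧ ∃ t', 1 ≤ d t' ∧ ∃ u ∈ E, u t' ≠ 0 := by
  refine ⟨⟨fun s => 2 * |h₀ s - h₀ t|,
    continuous_const.mul (continuous_abs.comp (h₀.continuous.sub continuous_const))⟩, ?_, ?_⟩
  · show 2 * |h₀ t - h₀ t| = 0
    rw [sub_self, abs_zero, mul_zero]
  · rcases le_or_gt (h₀ t) (1 / 2) with h1 | h1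
    · refine ⟨t₂, ?_, ht₂⟩
      show 1 ≤ 2 * |h₀ t₂ - h₀ t|
      rw [h0t₂, abs_of_nonneg (by linarith)]
      linarith
    · refine ⟨t₁, ?_, ht₁⟩
      show 1 ≤ 2 * |h₀ t₁ - h₀ t|
      rw [h0t₁, zero_sub, abs_neg, abs_of_nonneg (by linarith)]
      linarith

namespace BIso

variable {G : (L →ᵇ X) → Y}

/-- Gluing: a linear map on `E` which agrees with the homogeneous extension of `G` on all cut
functions, and which is killed at functions vanishing at `t` by the height functionals at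
`t`. -/
lemma exists_glue [CompleteSpace Y] (hG : BIso E G) (hE : IsFunModule E)
    {h₀ : C(L, ℝ)} {t₁ t₂ : L} (h0t₁ : h₀ t₁ = 0) (h0t₂ : h₀ t₂ = 1)
    (ht₁ : ∃ u ∈ E, u t₁ ≠ 0) (ht₂ : ∃ u ∈ E, u t₂ ≠ 0) :
    ∃ Lm : E →ₗ[ℝ] Y,
      (∀ (h : C(L, ℝ)) (u : E), IsCutterB E h → (u : L →ᵇ X) ∈ bandIdeal E h →
        Lm u = hext G (u : L →ᵇ X)) ∧
      ∀ (t : L) (b : X) (ψ : Y →L[ℝ] ℝ) (u : E), b ∈ fiber E t → ‖b‖ = 1 →
        IsHeightB E G t b ψ → (u : L →ᵇ X) t = 0 → ψ (Lm u) = 0 := by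
  obtain ⟨h₁, h₂, φ, hc₁, hc₂, hφ₁, hφ₂⟩ := exists_two_cuttersB h0t₁ h0t₂ ht₁ ht₂
  obtain ⟨Λ₁, -, hΛ₁⟩ := hG.exists_band_linear hE hc₁
  obtain ⟨Λ₂, -, hΛ₂⟩ := hG.exists_band_linear hE hc₂
  have hm₁ : ∀ u : E, ((mulB φ).comp E.subtype) u ∈ bandIdeal E h₁ := by
    intro u
    refine ⟨hE φ _ u.2, fun s hs => ?_⟩
    show φ s • (u : L →ᵇ X) s = 0
    rw [hφ₁ s hs, zero_smul]
  have hm₂ : ∀ u : E, (E.subtype - (mulB φ).comp E.subtype) u ∈ bandIdeal E h₂ := by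
    intro u
    refine ⟨E.sub_mem u.2 (hE φ _ u.2), fun s hs => ?_⟩
    show (u : L →ᵇ X) s - φ s • (u : L →ᵇ X) s = 0
    rw [hφ₂ s hs, one_smul, sub_self]
  obtain ⟨Lm, hLdef⟩ : ∃ Lm : E →ₗ[ℝ] Y,
      Lm = Λ₁.comp (LinearMap.codRestrict _ _ hm₁) + Λ₂.comp (LinearMap.codRestrict _ _ hm₂) :=
    ⟨_, rfl⟩
  have hLval : ∀ u : E, Lm u = hext G (mulB φ (u : L →ᵇ X)) +
      hext G ((u : L →ᵇ X) - mulB φ (u : L →ᵇ X)) := by
    intro u
    rw [hLdef, LinearMap.add_apply, LinearMap.comp_apply, LinearMap.comp_apply,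
      linear_eq_hext_sub Λ₁ hΛ₁, linear_eq_hext_sub Λ₂ hΛ₂]
    rfl
  refine ⟨Lm, ?_, ?_⟩
  · intro h u hcut hu
    obtain ⟨Λ, -, hΛ⟩ := hG.exists_band_linear hE hcut
    have hv : mulB φ (u : L →ᵇ X) ∈ bandIdeal E h := by
      refine ⟨hE φ _ u.2, fun s hs => ?_⟩
      rw [mulB_apply, hu.2 s hs, smul_zero]
    have hw : (u : L →ᵇ X) - mulB φ (u : L →ᵇ X) ∈ bandIdeal E h :=
      (bandIdeal E h).sub_mem hu hv
    have e1 := linear_eq_hext_sub Λ hΛ ⟨_, hv⟩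
    have e2 := linear_eq_hext_sub Λ hΛ ⟨_, hw⟩
    have e3 := linear_eq_hext_sub Λ hΛ ⟨_, hu⟩
    have e4 : (⟨_, hv⟩ : bandIdeal E h) + ⟨_, hw⟩ = ⟨_, hu⟩ := by
      apply Subtype.ext
      show mulB φ (u : L →ᵇ X) + ((u : L →ᵇ X) - mulB φ (u : L →ᵇ X)) = (u : L →ᵇ X)
      abel
    rw [hLval, ← e1, ← e2, ← map_add, e4, e3]
  · intro t b ψ u hbE hb hψ hut
    rw [hLval, map_add,
      hG.height_hext_zero hE hbE hb hψ (v := mulB φ (u : L →ᵇ X)) (hE φ _ u.2)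
        (by rw [mulB_apply, hut, smul_zero]),
      hG.height_hext_zero hE hbE hb hψ (v := (u : L →ᵇ X) - mulB φ (u : L →ᵇ X))
        (E.sub_mem u.2 (hE φ _ u.2))
        (by rw [BoundedContinuousFunction.sub_apply, mulB_apply, hut, smul_zero, sub_zero]),
      add_zero]

/-- The height functionals are at most the norm on the homogeneous extension of `G`. -/
lemma height_hext_le (hG : BIso E G) {ψ : Y →L[ℝ] ℝ} (hle : ∀ y, ψ y ≤ ‖y‖) {v : L →ᵇ X}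
    (hv : v ∈ E) : ψ (hext G v) ≤ ‖v‖ := by
  rcases eq_or_ne v 0 with h0 | hne0
  · rw [h0, hext_zero, map_zero, norm_zero]
  · unfold hext
    rw [map_smul, smul_eq_mul]
    have h1 := hle (G (‖v‖⁻¹ • v))
    rw [hG.norm_map _ (E.smul_mem _ hv) (norm_inv_smul_self hne0)] at h1
    calc ‖v‖ * ψ (G (‖v‖⁻¹ • v)) ≤ ‖v‖ * 1 := mul_le_mul_of_nonneg_left h1 (norm_nonneg _)
      _ = ‖v‖ := mul_one _

/-- Values of the height functionals at `t` on the glued linear map: they only depend on the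
value of the function at `t`. -/
lemma glue_height (hG : BIso E G) (hE : IsFunModule E)
    (hK : ∀ t : L, ∃ d : C(L, ℝ), d t = 0 ∧ ∃ t', 1 ≤ d t' ∧ ∃ u ∈ E, u t' ≠ 0)
    {Lm : E →ₗ[ℝ] Y}
    (hL1 : ∀ (h : C(L, ℝ)) (u : E), IsCutterB E h → (u : L →ᵇ X) ∈ bandIdeal E h →
      Lm u = hext G (u : L →ᵇ X))
    (hL2 : ∀ (t : L) (b : X) (ψ : Y →L[ℝ] ℝ) (u : E), b ∈ fiber E t → ‖b‖ = 1 →
      IsHeightB E G t b ψ → (u : L →ᵇ X) t = 0 → ψ (Lm u) = 0)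
    {t : L} {b : X} (hbE : b ∈ fiber E t) (hb : ‖b‖ = 1) {ψ : Y →L[ℝ] ℝ}
    (hψ : IsHeightB E G t b ψ) (u : E) :
    ψ (Lm u) ≤ ‖(u : L →ᵇ X) t‖ ∧
      ∀ ρ : ℝ, 0 ≤ ρ → (u : L →ᵇ X) t = ρ • b → ψ (Lm u) = ρ := by
  have ht : ∃ v ∈ E, v t ≠ 0 := by
    obtain ⟨v, hvE, hvt⟩ := hbE
    refine ⟨v, hvE, fun h0 => ?_⟩
    rw [hvt] at h0
    rw [h0, norm_zero] at hb
    exact zero_ne_one hb
  -- a cut bump at `t` on whose support `u` is almost as small as at `t`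
  have hpack : ∀ ε : ℝ, 0 < ε → ∃ (h : C(L, ℝ)) (η : L →ᵇ ℝ), IsCutterB E h ∧ η t = 1 ∧
      mulB η (u : L →ᵇ X) ∈ bandIdeal E h ∧ ‖mulB η (u : L →ᵇ X)‖ ≤ ‖(u : L →ᵇ X) t‖ + ε := by
    intro ε hε
    obtain ⟨g₀, hg₀def⟩ : ∃ g₀ : C(L, ℝ),
        ∀ s, g₀ s = ‖(u : L →ᵇ X) s - (u : L →ᵇ X) t‖ / ε :=
      ⟨⟨fun s => ‖(u : L →ᵇ X) s - (u : L →ᵇ X) t‖ / ε,
        (continuous_norm.comp ((u : L →ᵇ X).continuous.sub continuous_const)).div_const ε⟩,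
        fun s => rfl⟩
    have hg₀t : g₀ t = 0 := by rw [hg₀def, sub_self, norm_zero, zero_div]
    obtain ⟨h, β, η, hcut, -, hηt, hη0, hηβ, hβ1, hband, -, hnear⟩ :=
      exists_cut_package hK ht g₀ hg₀t
    refine ⟨h, η, hcut, hηt, ⟨hE η _ u.2, fun s hs => ?_⟩, ?_⟩
    · rw [mulB_apply, (hband s hs).2, zero_smul]
    · rw [BoundedContinuousFunction.norm_le (by positivity)]
      intro s
      rw [mulB_apply, norm_smul, Real.norm_eq_abs, abs_of_nonneg (hη0 s)]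
      by_cases hs : η s = 0
      · rw [hs, zero_mul]
        positivity
      · have hβs : β s ≠ 0 := by
          intro h0
          exact hs (le_antisymm (by rw [← h0]; exact hηβ s) (hη0 s))
        have h1 := hnear s hβs
        rw [hg₀def] at h1
        have h2 : ‖(u : L →ᵇ X) s - (u : L →ᵇ X) t‖ < ε := (div_lt_one hε).mp h1
        have h3 : ‖(u : L →ᵇ X) s‖ ≤ ‖(u : L →ᵇ X) s - (u : L →ᵇ X) t‖ + ‖(u : L →ᵇ X) t‖ := by
          have e : (u : L →ᵇ X) s = ((u : L →ᵇ X) s - (u : L →ᵇ X) t) + (u : L →ᵇ X) t := by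
            abel
          conv_lhs => rw [e]
          exact norm_add_le _ _
        have h4 : η s * ‖(u : L →ᵇ X) s‖ ≤ 1 * ‖(u : L →ᵇ X) s‖ :=
          mul_le_mul_of_nonneg_right ((hηβ s).trans (hβ1 s)) (norm_nonneg _)
        linarith
  -- reduction to the bump
  have hred : ∀ (η : L →ᵇ ℝ), η t = 1 →
      ψ (Lm u) = ψ (Lm ⟨mulB η (u : L →ᵇ X), hE η _ u.2⟩) := by
    intro η hηt
    have e : u = (u - ⟨mulB η (u : L →ᵇ X), hE η _ u.2⟩) +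
        ⟨mulB η (u : L →ᵇ X), hE η _ u.2⟩ := by
      rw [sub_add_cancel]
    have h0 : ψ (Lm (u - ⟨mulB η (u : L →ᵇ X), hE η _ u.2⟩)) = 0 := by
      apply hL2 t b ψ _ hbE hb hψ
      show (u : L →ᵇ X) t - η t • (u : L →ᵇ X) t = 0
      rw [hηt, one_smul, sub_self]
    conv_lhs => rw [e]
    rw [map_add, map_add, h0, zero_add]
  have hle : ∀ y, ψ y ≤ ‖y‖ := hψ.1
  have hfirst : ψ (Lm u) ≤ ‖(u : L →ᵇ X) t‖ := by
    apply le_of_forall_pos_le_add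
    intro ε hε
    obtain ⟨h, η, hcut, hηt, hmem, hnorm⟩ := hpack ε hε
    rw [hred η hηt, hL1 h _ hcut hmem]
    exact (hG.height_hext_le hle (hE η _ u.2)).trans hnorm
  refine ⟨hfirst, fun ρ hρ hut => ?_⟩
  have hnormt : ‖(u : L →ᵇ X) t‖ = ρ := by
    rw [hut, norm_smul, hb, mul_one, Real.norm_eq_abs, abs_of_nonneg hρ]
  apply le_antisymm
  · rw [← hnormt]
    exact hfirst
  · rcases eq_or_lt_of_le hρ with h0 | hpos
    · rw [← h0]
      rw [← h0, zero_smul] at hut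
      exact (hL2 t b ψ u hbE hb hψ hut).ge
    · obtain ⟨h, η, hcut, hηt, hmem, -⟩ := hpack 1 one_pos
      obtain ⟨v, hvdef⟩ : ∃ v : L →ᵇ X, v = mulB η (u : L →ᵇ X) := ⟨_, rfl⟩
      have hvE : v ∈ E := by rw [hvdef]; exact hE η _ u.2
      have hvt : v t = ρ • b := by
        rw [hvdef, mulB_apply, hηt, one_smul, hut]
      have hNρ : ρ ≤ ‖v‖ := by
        have h1 := v.norm_coe_le_norm t
        rw [hvt, norm_smul, hb, mul_one, Real.norm_eq_abs, abs_of_nonneg hρ] at h1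
        exact h1
      have hNpos : 0 < ‖v‖ := lt_of_lt_of_le hpos hNρ
      have hvne : v ≠ 0 := norm_pos_iff.mp hNpos
      rw [hred η hηt, hL1 h _ hcut hmem]
      show ρ ≤ ψ (hext G (mulB η (u : L →ᵇ X)))
      rw [← hvdef]
      unfold hext
      rw [map_smul, smul_eq_mul]
      have h2 := (hG.height_bounds hE hbE hb hψ (E.smul_mem ‖v‖⁻¹ hvE)
        (norm_inv_smul_self hvne)).1
      have e : (‖v‖⁻¹ • v) t - b = (‖v‖⁻¹ * ρ - 1) • b := by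
        show ‖v‖⁻¹ • v t - b = (‖v‖⁻¹ * ρ - 1) • b
        rw [hvt, smul_smul, sub_smul, one_smul]
      have hle1 : ‖v‖⁻¹ * ρ ≤ 1 := by
        rw [inv_mul_le_iff₀ hNpos, mul_one]
        exact hNρ
      rw [e, norm_smul, hb, mul_one, Real.norm_eq_abs, abs_of_nonpos (by linarith)] at h2
      have h3 : ‖v‖⁻¹ * ρ ≤ ψ (G (‖v‖⁻¹ • v)) := by linarith
      calc ρ = ‖v‖ * (‖v‖⁻¹ * ρ) := by
            rw [← mul_assoc, mul_inv_cancel₀ hNpos.ne', one_mul]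
        _ ≤ ‖v‖ * ψ (G (‖v‖⁻¹ • v)) := mul_le_mul_of_nonneg_left h3 hNpos.le

/-- The glued linear map is an isometry. -/
lemma glue_norm (hG : BIso E G) (hE : IsFunModule E)
    (hK : ∀ t : L, ∃ d : C(L, ℝ), d t = 0 ∧ ∃ t', 1 ≤ d t' ∧ ∃ u ∈ E, u t' ≠ 0)
    {Lm : E →ₗ[ℝ] Y}
    (hL1 : ∀ (h : C(L, ℝ)) (u : E), IsCutterB E h → (u : L →ᵇ X) ∈ bandIdeal E h →
      Lm u = hext G (u : L →ᵇ X))
    (hL2 : ∀ (t : L) (b : X) (ψ : Y →L[ℝ] ℝ) (u : E), b ∈ fiber E t → ‖b‖ = 1 →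
      IsHeightB E G t b ψ → (u : L →ᵇ X) t = 0 → ψ (Lm u) = 0)
    (u : E) : ‖Lm u‖ = ‖u‖ := by
  apply le_antisymm
  · rcases eq_or_ne (Lm u) 0 with h0 | hne0
    · rw [h0, norm_zero]
      exact norm_nonneg _
    · obtain ⟨v, hvE, hv1, hGv⟩ := hG.surj _ (norm_inv_smul_self hne0)
      have hpos : 0 < ‖Lm u‖ := norm_pos_iff.mpr hne0
      -- for every `c < 1`, `c * ‖Lm u‖ ≤ ‖u‖`
      have key : ∀ c : ℝ, 0 < c → c < 1 → c * ‖Lm u‖ ≤ ‖u‖ := by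
        intro c hc0 hc1
        obtain ⟨t, ht⟩ := exists_lt_norm_apply hc0.le (by rw [hv1]; exact hc1)
        have hvt : v t ≠ 0 := by
          intro h0
          rw [h0, norm_zero] at ht
          exact absurd ht (not_lt.mpr hc0.le)
        have hbE : ‖v t‖⁻¹ • v t ∈ fiber E t := (fiber E t).smul_mem _ (apply_mem_fiber hvE t)
        obtain ⟨ψ, hψ⟩ := hG.exists_isHeight hE hbE (norm_inv_smul_self hvt)
        have h1 := hG.height_ge hE hvE hv1 hvt hψ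
        have h2 : ψ (Lm u) = ‖Lm u‖ * ψ (G v) := by
          have e : ψ (Lm u) = ψ (‖Lm u‖ • (‖Lm u‖⁻¹ • Lm u)) := by
            rw [norm_smul_inv_smul_self]
          rw [e, map_smul, ← hGv, smul_eq_mul]
        have h3 := (hG.glue_height hE hK hL1 hL2 hbE (norm_inv_smul_self hvt) hψ u).1
        have h4 : ‖(u : L →ᵇ X) t‖ ≤ ‖u‖ := by
          rw [Submodule.coe_norm]
          exact (u : L →ᵇ X).norm_coe_le_norm t
        have h5 : ‖Lm u‖ * c ≤ ‖Lm u‖ * ψ (G v) :=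
          mul_le_mul_of_nonneg_left (ht.le.trans h1) hpos.le
        rw [h2] at h3
        linarith
      by_contra hcon
      have hlt : ‖u‖ < ‖Lm u‖ := not_le.mp hcon
      have hu0 : 0 ≤ ‖u‖ := norm_nonneg _
      obtain ⟨c, hcdef⟩ : ∃ c : ℝ, c = (‖u‖ / ‖Lm u‖ + 1) / 2 := ⟨_, rfl⟩
      have hq1 : ‖u‖ / ‖Lm u‖ < 1 := (div_lt_one hpos).mpr hlt
      have hq0 : 0 ≤ ‖u‖ / ‖Lm u‖ := div_nonneg hu0 hpos.le
      have h6 := key c (by rw [hcdef]; linarith) (by rw [hcdef]; linarith)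
      have h7 : ‖u‖ / ‖Lm u‖ * ‖Lm u‖ = ‖u‖ := div_mul_cancel₀ _ hpos.ne'
      have h8 : ‖u‖ / ‖Lm u‖ < c := by rw [hcdef]; linarith
      have h9 : ‖u‖ / ‖Lm u‖ * ‖Lm u‖ < c * ‖Lm u‖ := mul_lt_mul_of_pos_right h8 hpos
      linarith
  · rcases eq_or_ne u 0 with rfl | hne0
    · rw [norm_zero]
      exact norm_nonneg _
    · have hpos : 0 < ‖(u : L →ᵇ X)‖ := by
        rw [← Submodule.coe_norm]
        exact norm_pos_iff.mpr hne0
      rw [Submodule.coe_norm]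
      apply le_of_forall_lt
      intro c hc
      have hc' : max c 0 < ‖(u : L →ᵇ X)‖ := max_lt hc hpos
      obtain ⟨t, ht⟩ := exists_lt_norm_apply (le_max_right c 0) hc'
      have hut : (u : L →ᵇ X) t ≠ 0 := by
        intro h0
        rw [h0, norm_zero] at ht
        exact absurd ht (not_lt.mpr (le_max_right c 0))
      have hbE : ‖(u : L →ᵇ X) t‖⁻¹ • (u : L →ᵇ X) t ∈ fiber E t :=
        (fiber E t).smul_mem _ (apply_mem_fiber u.2 t)
      obtain ⟨ψ, hψ⟩ := hG.exists_isHeight hE hbE (norm_inv_smul_self hut)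
      have h3 := (hG.glue_height hE hK hL1 hL2 hbE (norm_inv_smul_self hut) hψ u).2
        ‖(u : L →ᵇ X) t‖ (norm_nonneg _) (norm_smul_inv_smul_self _).symm
      have h4 := hψ.1 (Lm u)
      rw [h3] at h4
      exact lt_of_lt_of_le (lt_of_le_of_lt (le_max_left c 0) ht) h4

/-- Main theorem in function form: `G` agrees on the unit sphere of `E` with a linear
isometry. -/
theorem exists_linear [CompleteSpace Y] (hG : BIso E G) (hE : IsFunModule E)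
    {h₀ : C(L, ℝ)} {t₁ t₂ : L} (h0t₁ : h₀ t₁ = 0) (h0t₂ : h₀ t₂ = 1)
    (ht₁ : ∃ u ∈ E, u t₁ ≠ 0) (ht₂ : ∃ u ∈ E, u t₂ ≠ 0) :
    ∃ Lm : E →ₗ[ℝ] Y, (∀ u, ‖Lm u‖ = ‖u‖) ∧
      ∀ u : E, ‖u‖ = 1 → Lm u = G (u : L →ᵇ X) := by
  have hK : ∀ t : L, ∃ d : C(L, ℝ), d t = 0 ∧ ∃ t', 1 ≤ d t' ∧ ∃ u ∈ E, u t' ≠ 0 :=
    exists_far h0t₁ h0t₂ ht₁ ht₂
  obtain ⟨Lm, hL1, hL2⟩ := hG.exists_glue hE h0t₁ h0t₂ ht₁ ht₂
  have hnorm : ∀ u, ‖Lm u‖ = ‖u‖ := fun u => hG.glue_norm hE hK hL1 hL2 u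
  refine ⟨Lm, hnorm, fun u hu => ?_⟩
  have hu1 : ‖(u : L →ᵇ X)‖ = 1 := by rw [← Submodule.coe_norm]; exact hu
  obtain ⟨u'', hu''E, hu''1, hGu''⟩ := hG.surj (Lm u) (by rw [hnorm, hu])
  have hdist : ∀ (h : C(L, ℝ)) (w : L →ᵇ X), IsCutterB E h → w ∈ bandIdeal E h →
      ‖w‖ = 1 → ‖(u : L →ᵇ X) - w‖ = ‖u'' - w‖ := by
    intro h w hcut hw hw1
    have hwE : w ∈ E := hw.1
    have e1 : Lm ⟨w, hwE⟩ = G w := by
      rw [hL1 h ⟨w, hwE⟩ hcut hw]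
      exact hext_of_norm_one G hw1
    have e2 : ‖(u : L →ᵇ X) - w‖ = ‖Lm (u - ⟨w, hwE⟩)‖ := by
      rw [hnorm, Submodule.coe_norm, Submodule.coe_sub]
    rw [e2, map_sub, e1, ← hGu'']
    exact hG.dist_map u'' hu''E w hwE hu''1 hw1
  have hfin := eq_of_dist_cutB hE hK u.2 hu''E hu1 hu''1 hdist
  rw [← hGu'', hfin]

end BIso

/-- Let `L` be a topological space, `X` a real normed space, and `E` a linear subspace of the
space of bounded continuous functions `L → X` (supremum norm) which is closed under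
multiplication by bounded continuous scalar functions. Assume that there are a continuous
scalar function `h₀` and two points `t₁`, `t₂` with `h₀ t₁ ≠ h₀ t₂` at each of which some member
of `E` does not vanish. Then for every real Banach space `Y`, every surjective isometry from the
unit sphere of `E` onto the unit sphere of `Y` is the restriction of a surjective real-linear
isometry. -/
theorem exists_linearIsometryEquiv_bcModule [CompleteSpace Y] (E : Submodule ℝ (L →ᵇ X))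
    (hmod : ∀ (φ : L →ᵇ ℝ) (u : L →ᵇ X), u ∈ E → ∃ v ∈ E, ∀ s, v s = φ s • u s)
    (hsep : ∃ (h₀ : L → ℝ) (t₁ t₂ : L), Continuous h₀ ∧ h₀ t₁ ≠ h₀ t₂ ∧
      (∃ u ∈ E, u t₁ ≠ 0) ∧ ∃ u ∈ E, u t₂ ≠ 0)
    (f : Metric.sphere (0 : E) 1 → Metric.sphere (0 : Y) 1) (hf : Isometry f)
    (hsurj : Function.Surjective f) :
    ∃ T : E ≃ₗᵢ[ℝ] Y, ∀ p : Metric.sphere (0 : E) 1, T (p : E) = (f p : Y) := by
  classical
  have hE : IsFunModule E := by
    intro φ u hu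
    obtain ⟨v, hvE, hv⟩ := hmod φ u hu
    have e : mulB φ u = v := by
      ext s
      rw [mulB_apply, hv]
    rw [e]
    exact hvE
  obtain ⟨h₀, t₁, t₂, hh₀, hne, ht₁, ht₂⟩ := hsep
  have hden : h₀ t₂ - h₀ t₁ ≠ 0 := sub_ne_zero.mpr (Ne.symm hne)
  obtain ⟨hn, hndef⟩ : ∃ hn : C(L, ℝ), ∀ s, hn s = (h₀ s - h₀ t₁) / (h₀ t₂ - h₀ t₁) :=
    ⟨⟨fun s => (h₀ s - h₀ t₁) / (h₀ t₂ - h₀ t₁), (hh₀.sub continuous_const).div_const _⟩,
      fun s => rfl⟩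
  have hn1 : hn t₁ = 0 := by rw [hndef, sub_self, zero_div]
  have hn2 : hn t₂ = 1 := by rw [hndef, div_self hden]
  obtain ⟨g₀, h1, h2, h3, h4⟩ := exists_fun_of_sphere_map f hf hsurj
  obtain ⟨G, hGdef⟩ : ∃ G : (L →ᵇ X) → Y,
      G = fun u => if h : u ∈ E then g₀ ⟨u, h⟩ else 0 := ⟨_, rfl⟩
  have hGval : ∀ u : E, G (u : L →ᵇ X) = g₀ u := by
    intro u
    rw [hGdef]
    simp only [dif_pos u.2]
  have hG : BIso E G := by
    refine ⟨fun u hu hu1 => ?_, fun u hu v hv hu1 hv1 => ?_, fun w hw => ?_⟩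
    · rw [hGval ⟨u, hu⟩]
      exact h1 _ hu1
    · rw [hGval ⟨u, hu⟩, hGval ⟨v, hv⟩]
      exact h2 ⟨u, hu⟩ ⟨v, hv⟩ hu1 hv1
    · obtain ⟨u, hu1, hgu⟩ := h3 w hw
      exact ⟨u, u.2, hu1, by rw [hGval, hgu]⟩
  obtain ⟨Lm, hnorm, hLG⟩ := hG.exists_linear hE hn1 hn2 ht₁ ht₂
  let T₀ : E →ₗᵢ[ℝ] Y := ⟨Lm, hnorm⟩
  have hT₀ : Function.Surjective T₀ := by
    intro y
    rcases eq_or_ne y 0 with rfl | hy
    · exact ⟨0, map_zero _⟩
    · obtain ⟨u, hu1, hgu⟩ := h3 _ (norm_inv_smul_self hy)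
      refine ⟨‖y‖ • u, ?_⟩
      show Lm (‖y‖ • u) = y
      rw [map_smul, hLG u hu1, hGval, hgu, norm_smul_inv_smul_self]
  refine ⟨LinearIsometryEquiv.ofSurjective T₀ hT₀, fun p => ?_⟩
  show Lm (p : E) = (f p : Y)
  rw [hLG _ (mem_sphere_zero_iff_norm.mp p.2), hGval, h4]

end BCMain

end Vale.Agent.H23
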