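import Vale.Agent.H23.Antipodal

/-!
# Isometries between closed unit balls

A map `h` from the closed unit ball of a real normed space `E` onto the closed unit ball of a
real normed space `F` which preserves distances and fixes `0` is the restriction of a surjective
linear isometry (the case of unit balls of a theorem of Mankiewicz). The proof shows that `h`
commutes with halving, by the central symmetry of the sets of metric midpoints, extends `h` to a
surjective isometry of `E` onto `F` and applies the Mazur-Ulam theorem.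
-/

namespace Vale.Agent.H23

section BallIso

variable {E F : Type*} [NormedAddCommGroup E] [NormedSpace ℝ E]
  [NormedAddCommGroup F] [NormedSpace ℝ F]

/-- An isometry of the closed unit ball of `E` onto the closed unit ball of `F` fixing `0`
commutes with halving. -/
theorem ball_iso_half {h : E → F}
    (hdist : ∀ c c', ‖c‖ ≤ 1 → ‖c'‖ ≤ 1 → ‖h c - h c'‖ = ‖c - c'‖) (h0 : h 0 = 0)
    (hsurj : ∀ w : F, ‖w‖ ≤ 1 → ∃ c, ‖c‖ ≤ 1 ∧ h c = w) {y : E} (hy : ‖y‖ ≤ 1) :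
    h ((1 / 2 : ℝ) • y) = (1 / 2 : ℝ) • h y := by
  have hnorm : ∀ c, ‖c‖ ≤ 1 → ‖h c‖ = ‖c‖ := by
    intro c hc
    have := hdist c 0 hc (by simp)
    rwa [h0, sub_zero, sub_zero] at this
  have hS : ∀ z ∈ midSet (0 : E) y, ‖z‖ ≤ 1 := by
    intro z hz
    have := hz.1
    rw [sub_zero, zero_sub, norm_neg] at this
    linarith
  have hS' : ∀ w ∈ midSet (0 : F) (h y), ‖w‖ ≤ 1 := by
    intro w hw
    have := hw.1
    rw [sub_zero, zero_sub, norm_neg, hnorm y hy] at this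
    linarith
  have hmaps : ∀ z ∈ midSet (0 : E) y, h z ∈ midSet (0 : F) (h y) := by
    intro z hz
    have hz1 := hS z hz
    have hz0 := hz.1
    have hzy := hz.2
    rw [sub_zero, zero_sub, norm_neg] at hz0
    rw [zero_sub, norm_neg] at hzy
    constructor
    · rw [sub_zero, zero_sub, norm_neg, hnorm z hz1, hnorm y hy]; exact hz0
    · rw [hdist z y hz1 hy, zero_sub, norm_neg, hnorm y hy]; exact hzy
  have hpre : ∀ w : midSet (0 : F) (h y), ∃ z : midSet (0 : E) y, h z = w := by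
    rintro ⟨w, hw⟩
    obtain ⟨c, hc, hcw⟩ := hsurj w (hS' w hw)
    have hw0 := hw.1
    have hwy := hw.2
    rw [sub_zero, zero_sub, norm_neg, hnorm y hy] at hw0
    rw [zero_sub, norm_neg, hnorm y hy] at hwy
    refine ⟨⟨c, ?_, ?_⟩, hcw⟩
    · rw [sub_zero, zero_sub, norm_neg, ← hnorm c hc, hcw]; exact hw0
    · rw [← hdist c y hc hy, hcw, zero_sub, norm_neg]; exact hwy
  choose inv hinv using hpre
  let H : midSet (0 : E) y ≃ᵢ midSet (0 : F) (h y) :=
    IsometryEquiv.mk' (fun z => ⟨h z, hmaps z z.2⟩) inv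
      (fun w => Subtype.ext (hinv w))
      (Isometry.of_dist_eq fun z z' => by
        rw [Subtype.dist_eq, Subtype.dist_eq, dist_eq_norm, dist_eq_norm]
        exact hdist z z' (hS z z.2) (hS z' z'.2))
  have hc := map_center (dist_midRefl (0 : E) y) (dist_le_midSet (0 : E) y)
    (dist_midRefl (0 : F) (h y)) H
  have h3 : h ((1 / 2 : ℝ) • ((0 : E) + y)) = (1 / 2 : ℝ) • ((0 : F) + h y) :=
    congrArg Subtype.val hc
  rwa [zero_add, zero_add] at h3

/-- An isometry of the closed unit ball of `E` onto the closed unit ball of `F` fixing `0` is the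
restriction of a surjective linear isometry. -/
theorem exists_linearIsometryEquiv_of_ball_isometry {h : E → F}
    (hdist : ∀ c c', ‖c‖ ≤ 1 → ‖c'‖ ≤ 1 → ‖h c - h c'‖ = ‖c - c'‖) (h0 : h 0 = 0)
    (hsurj : ∀ w : F, ‖w‖ ≤ 1 → ∃ c, ‖c‖ ≤ 1 ∧ h c = w) :
    ∃ T : E ≃ₗᵢ[ℝ] F, ∀ c, ‖c‖ ≤ 1 → T c = h c := by
  have hhalf : ∀ y : E, ‖y‖ ≤ 1 → h ((1 / 2 : ℝ) • y) = (1 / 2 : ℝ) • h y :=
    fun y hy => ball_iso_half hdist h0 hsurj hy
  obtain ⟨Lk, hLk⟩ : ∃ Lk : ℕ → E → F,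
      Lk = fun (k : ℕ) (x : E) => (2 : ℝ) ^ k • h (((2 : ℝ) ^ k)⁻¹ • x) := ⟨_, rfl⟩
  have hLk' : ∀ (k : ℕ) (x : E), Lk k x = (2 : ℝ) ^ k • h (((2 : ℝ) ^ k)⁻¹ • x) := by
    intro k x; rw [hLk]
  have hpow : ∀ k : ℕ, (0 : ℝ) < 2 ^ k := fun k => by positivity
  have hin : ∀ (k : ℕ) (x : E), ‖x‖ ≤ 2 ^ k → ‖((2 : ℝ) ^ k)⁻¹ • x‖ ≤ 1 := by
    intro k x hx
    rw [norm_smul, norm_inv, Real.norm_eq_abs, abs_of_pos (hpow k),
      inv_mul_le_iff₀ (hpow k), mul_one]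
    exact hx
  have hstep : ∀ (k : ℕ) (x : E), ‖x‖ ≤ 2 ^ k → Lk (k + 1) x = Lk k x := by
    intro k x hx
    rw [hLk', hLk']
    have e : ((2 : ℝ) ^ (k + 1))⁻¹ • x = (1 / 2 : ℝ) • (((2 : ℝ) ^ k)⁻¹ • x) := by
      rw [smul_smul]; congr 1; rw [pow_succ]; field_simp
    rw [e, hhalf _ (hin k x hx), smul_smul]
    congr 1
    rw [pow_succ]; ring
  have hmono : ∀ (k : ℕ) (x : E), ‖x‖ ≤ 2 ^ k → ∀ j, k ≤ j → Lk j x = Lk k x := by
    intro k x hx j hj
    induction j, hj using Nat.le_induction with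
    | base => rfl
    | succ j hkj ih =>
      rw [hstep j x (hx.trans (pow_le_pow_right₀ (by norm_num) hkj)), ih]
  have hiso : ∀ (k : ℕ) (x x' : E), ‖x‖ ≤ 2 ^ k → ‖x'‖ ≤ 2 ^ k →
      ‖Lk k x - Lk k x'‖ = ‖x - x'‖ := by
    intro k x x' hx hx'
    rw [hLk', hLk', ← smul_sub, norm_smul, hdist _ _ (hin k x hx) (hin k x' hx'), ← smul_sub,
      norm_smul, ← mul_assoc, norm_inv, mul_inv_cancel₀ (norm_ne_zero_iff.mpr (hpow k).ne'),
      one_mul]
  have hk : ∀ x : E, ∃ k : ℕ, ‖x‖ ≤ 2 ^ k := by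
    intro x
    obtain ⟨k, hk⟩ := pow_unbounded_of_one_lt ‖x‖ (by norm_num : (1 : ℝ) < 2)
    exact ⟨k, hk.le⟩
  choose n hn using hk
  obtain ⟨L, hLdef⟩ : ∃ L : E → F, L = fun x => Lk (n x) x := ⟨_, rfl⟩
  have hL : ∀ (x : E) (k : ℕ), ‖x‖ ≤ 2 ^ k → L x = Lk k x := by
    intro x k hx
    rw [hLdef]
    show Lk (n x) x = Lk k x
    rw [← hmono (n x) x (hn x) (max (n x) k) (le_max_left _ _),
      hmono k x hx (max (n x) k) (le_max_right _ _)]
  have hLiso : Isometry L := by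
    apply Isometry.of_dist_eq
    intro x x'
    rw [dist_eq_norm, dist_eq_norm]
    have hx : ‖x‖ ≤ 2 ^ (max (n x) (n x')) :=
      (hn x).trans (pow_le_pow_right₀ (by norm_num) (le_max_left _ _))
    have hx' : ‖x'‖ ≤ 2 ^ (max (n x) (n x')) :=
      (hn x').trans (pow_le_pow_right₀ (by norm_num) (le_max_right _ _))
    rw [hL x _ hx, hL x' _ hx']
    exact hiso _ x x' hx hx'
  have hLsurj : Function.Surjective L := by
    intro w
    obtain ⟨k, hk⟩ := pow_unbounded_of_one_lt ‖w‖ (by norm_num : (1 : ℝ) < 2)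
    have hw1 : ‖((2 : ℝ) ^ k)⁻¹ • w‖ ≤ 1 := by
      rw [norm_smul, norm_inv, Real.norm_eq_abs, abs_of_pos (hpow k),
        inv_mul_le_iff₀ (hpow k), mul_one]
      exact hk.le
    obtain ⟨c, hc, hcw⟩ := hsurj _ hw1
    refine ⟨(2 : ℝ) ^ k • c, ?_⟩
    have hx : ‖(2 : ℝ) ^ k • c‖ ≤ 2 ^ k := by
      rw [norm_smul, Real.norm_eq_abs, abs_of_pos (hpow k)]
      calc (2 : ℝ) ^ k * ‖c‖ ≤ 2 ^ k * 1 := by gcongr
        _ = 2 ^ k := mul_one _
    rw [hL _ k hx, hLk', smul_smul, inv_mul_cancel₀ (hpow k).ne', one_smul, hcw, smul_smul,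
      mul_inv_cancel₀ (hpow k).ne', one_smul]
  have hL0 : L 0 = 0 := by
    rw [hL 0 0 (by simp), hLk']
    simp [h0]
  let e : E ≃ᵢ F := IsometryEquiv.mk' L (Function.surjInv hLsurj)
    (Function.surjInv_eq hLsurj) hLiso
  have he0 : e 0 = 0 := hL0
  refine ⟨e.toRealLinearIsometryEquivOfMapZero he0, fun c hc => ?_⟩
  rw [IsometryEquiv.coe_toRealLinearIsometryEquivOfMapZero]
  show L c = h c
  rw [hL c 0 (by simpa using hc), hLk']
  simp

end BallIso

end Vale.Agent.H23
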