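import Mathlib

/-!
# A bisection lemma

A closed set `U` of unit vectors of a real normed space which is closed under normalized sums
contains every normalized nonnegative combination of two of its members.
-/

namespace Vale.Agent.H23

variable {Y : Type*} [NormedAddCommGroup Y] [NormedSpace ℝ Y]

/-- A closed subset `T` of `[0, 1]` containing `0` and `1`, such that between any two of its
points there is a third one, is all of `[0, 1]`. -/
lemma no_gap {T : Set ℝ} (hTc : IsClosed T) (h0 : (0 : ℝ) ∈ T) (h1 : (1 : ℝ) ∈ T)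
    (hbis : ∀ a ∈ T, ∀ b ∈ T, a < b → ∃ c ∈ T, a < c ∧ c < b) {τ : ℝ} (hτ0 : 0 ≤ τ)
    (hτ1 : τ ≤ 1) : τ ∈ T := by
  by_contra hτ
  -- the largest point of `T` below `τ`
  have hA : (T ∩ Set.Iic τ).Nonempty := ⟨0, h0, hτ0⟩
  have hAb : BddAbove (T ∩ Set.Iic τ) := ⟨τ, fun x hx => hx.2⟩
  have hAc : IsClosed (T ∩ Set.Iic τ) := hTc.inter isClosed_Iic
  have h1mem := hAc.csSup_mem hA hAb
  -- the smallest point of `T` above `τ`
  have hB : (T ∩ Set.Ici τ).Nonempty := ⟨1, h1, hτ1⟩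
  have hBb : BddBelow (T ∩ Set.Ici τ) := ⟨τ, fun x hx => hx.2⟩
  have hBc : IsClosed (T ∩ Set.Ici τ) := hTc.inter isClosed_Ici
  have h2mem := hBc.csInf_mem hB hBb
  set τ₁ := sSup (T ∩ Set.Iic τ) with hτ₁
  set τ₂ := sInf (T ∩ Set.Ici τ) with hτ₂
  have hlt1 : τ₁ < τ := lt_of_le_of_ne h1mem.2 (fun h => hτ (h ▸ h1mem.1))
  have hlt2 : τ < τ₂ := lt_of_le_of_ne h2mem.2 (fun h => hτ (h ▸ h2mem.1))
  obtain ⟨c, hcT, hc1, hc2⟩ := hbis τ₁ h1mem.1 τ₂ h2mem.1 (hlt1.trans hlt2)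
  rcases le_total c τ with hc | hc
  · have : c ≤ τ₁ := le_csSup hAb ⟨hcT, hc⟩
    linarith
  · have : τ₂ ≤ c := csInf_le hBb ⟨hcT, hc⟩
    linarith

/-- The bisection lemma. -/
theorem normalized_combo_mem {U : Set Y} (hU1 : ∀ p ∈ U, ‖p‖ = 1) (hUc : IsClosed U)
    (hUsum : ∀ p ∈ U, ∀ q ∈ U, p + q ≠ 0 → ‖p + q‖⁻¹ • (p + q) ∈ U)
    {p q : Y} (hp : p ∈ U) (hq : q ∈ U) (hpq : p + q ≠ 0) {s t : ℝ} (hs : 0 ≤ s) (ht : 0 ≤ t)
    (hst : 0 < s + t) : ‖s • p + t • q‖⁻¹ • (s • p + t • q) ∈ U := by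
  have hp1 := hU1 p hp
  have hq1 := hU1 q hq
  -- the segment from `p` to `q` avoids the origin
  have he : ∀ τ : ℝ, (1 - τ) • p + τ • q ≠ 0 := by
    intro τ h0
    have h1 : (1 - τ) • p = -(τ • q) := eq_neg_of_add_eq_zero_left h0
    have h2 : |1 - τ| = |τ| := by
      have := congrArg norm h1
      rwa [norm_neg, norm_smul, norm_smul, hp1, hq1, mul_one, mul_one, Real.norm_eq_abs,
        Real.norm_eq_abs] at this
    rcases abs_eq_abs.mp h2 with h3 | h3
    · have hτ : τ = 1 / 2 := by linarith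
      rw [hτ] at h0
      apply hpq
      have : p + q = (2 : ℝ) • ((1 - 1 / 2 : ℝ) • p + (1 / 2 : ℝ) • q) := by
        rw [smul_add, smul_smul, smul_smul]; norm_num
      rw [this, h0, smul_zero]
    · linarith
  set e : ℝ → Y := fun τ => (1 - τ) • p + τ • q with he_def
  set γ : ℝ → Y := fun τ => ‖e τ‖⁻¹ • e τ with hγ_def
  have hec : Continuous e := by
    rw [he_def]; fun_prop
  have hγc : Continuous γ := by
    rw [hγ_def]
    exact (hec.norm.inv₀ (fun τ => norm_ne_zero_iff.mpr (he τ))).smul hec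
  set T : Set ℝ := γ ⁻¹' U with hT
  have hTc : IsClosed T := hUc.preimage hγc
  have h0 : (0 : ℝ) ∈ T := by
    change γ 0 ∈ U
    have : γ 0 = p := by simp [hγ_def, he_def, hp1]
    rw [this]; exact hp
  have h1 : (1 : ℝ) ∈ T := by
    change γ 1 ∈ U
    have : γ 1 = q := by simp [hγ_def, he_def, hq1]
    rw [this]; exact hq
  have hbis : ∀ a ∈ T, ∀ b ∈ T, a < b → ∃ c ∈ T, a < c ∧ c < b := by
    intro a ha b hb hab
    have hna : 0 < ‖e a‖ := norm_pos_iff.mpr (he a)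
    have hnb : 0 < ‖e b‖ := norm_pos_iff.mpr (he b)
    set W : ℝ := ‖e a‖⁻¹ + ‖e b‖⁻¹ with hW
    have hWpos : 0 < W := by positivity
    set c : ℝ := (‖e a‖⁻¹ * a + ‖e b‖⁻¹ * b) / W with hc
    have hsum : γ a + γ b = W • e c := by
      have hWc : W * c = ‖e a‖⁻¹ * a + ‖e b‖⁻¹ * b := by
        rw [hc]; field_simp
      have h1 : W • e c = (W - W * c) • p + (W * c) • q := by
        simp only [he_def]; module
      rw [h1, hWc]
      simp only [hγ_def, he_def, hW]
      module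
    have hac : a < c := by
      rw [hc, lt_div_iff₀ hWpos, hW]
      have : 0 < ‖e b‖⁻¹ := inv_pos.mpr hnb
      nlinarith
    have hcb : c < b := by
      rw [hc, div_lt_iff₀ hWpos, hW]
      have : 0 < ‖e a‖⁻¹ := inv_pos.mpr hna
      nlinarith
    refine ⟨c, ?_, hac, hcb⟩
    have hne : γ a + γ b ≠ 0 := by
      rw [hsum]; exact smul_ne_zero hWpos.ne' (he c)
    have hmem := hUsum (γ a) ha (γ b) hb hne
    have hγc' : ‖γ a + γ b‖⁻¹ • (γ a + γ b) = γ c := by
      rw [hsum, norm_smul, Real.norm_eq_abs, abs_of_pos hWpos, smul_smul]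
      simp only [hγ_def]
      congr 1
      field_simp
    change γ c ∈ U
    rw [← hγc']; exact hmem
  -- conclusion
  have hτ0 : 0 ≤ t / (s + t) := by positivity
  have hτ1 : t / (s + t) ≤ 1 := by
    rw [div_le_one hst]; linarith
  have hmem : γ (t / (s + t)) ∈ U := no_gap hTc h0 h1 hbis hτ0 hτ1
  have hcombo : s • p + t • q = (s + t) • e (t / (s + t)) := by
    have h1 : (s + t) * (t / (s + t)) = t := by field_simp
    have h2 : (s + t) • e (t / (s + t)) = ((s + t) - (s + t) * (t / (s + t))) • p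
        + ((s + t) * (t / (s + t))) • q := by
      simp only [he_def]; module
    rw [h2, h1]; module
  have : ‖s • p + t • q‖⁻¹ • (s • p + t • q) = γ (t / (s + t)) := by
    rw [hcombo, norm_smul, Real.norm_eq_abs, abs_of_pos hst, smul_smul]
    simp only [hγ_def]
    congr 1
    have hn : ‖e (t / (s + t))‖ ≠ 0 := norm_ne_zero_iff.mpr (he _)
    field_simp
  rw [this]; exact hmem

end Vale.Agent.H23
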