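import Vale.Agent.H23.CKBase

/-!
# Sphere isometries of spaces of continuous vector-valued functions: bands

A continuous scalar function `h` on `K` determines the band `{s : 0 ≤ h s ≤ 1}`. The continuous
functions vanishing on `Z` and on the band form the `ℓ^∞`-sum of the functions living on
`{h < 0}` and of those living on `{1 < h}`. A surjective isometry `G` between the unit sphere of
the functions vanishing on `Z` and the unit sphere of a Banach space `Y` maps the unit sphere of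
this band subspace onto the unit sphere of a closed subspace of `Y`, so by the extension theorem
for spaces with an M-projection it is linear there.
-/

namespace Vale.Agent.H23

section CKBand

variable {K X Y : Type*} [TopologicalSpace K] [CompactSpace K] [T2Space K]
  [NormedAddCommGroup X] [NormedSpace ℝ X] [NormedAddCommGroup Y] [NormedSpace ℝ Y]

/-- The band of a scalar function. -/
def bandSet (h : C(K, ℝ)) : Set K := {s | 0 ≤ h s ∧ h s ≤ 1}

/-- A scalar function cuts the complement of `Z` if it is negative at some point outside `Z`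
and larger than `1` at some point outside `Z`. -/
def IsCutter (Z : Set K) (h : C(K, ℝ)) : Prop :=
  (∃ s, s ∉ Z ∧ h s < 0) ∧ ∃ s, s ∉ Z ∧ 1 < h s

/-- Truncation of a scalar function to `[0, 1]`. -/
def clampFn (h : C(K, ℝ)) : C(K, ℝ) :=
  ⟨fun s => max 0 (min 1 (h s)), continuous_const.max (continuous_const.min h.continuous)⟩

lemma clampFn_apply (h : C(K, ℝ)) (s : K) : clampFn h s = max 0 (min 1 (h s)) := rfl

lemma clampFn_nonneg (h : C(K, ℝ)) (s : K) : 0 ≤ clampFn h s := le_max_left _ _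

lemma clampFn_le_one (h : C(K, ℝ)) (s : K) : clampFn h s ≤ 1 :=
  max_le zero_le_one (min_le_left _ _)

lemma clampFn_of_nonpos {h : C(K, ℝ)} {s : K} (hs : h s ≤ 0) : clampFn h s = 0 := by
  rw [clampFn_apply, min_eq_right (hs.trans zero_le_one), max_eq_left hs]

lemma clampFn_of_one_le {h : C(K, ℝ)} {s : K} (hs : 1 ≤ h s) : clampFn h s = 1 := by
  rw [clampFn_apply, min_eq_left hs, max_eq_right zero_le_one]

lemma clampFn_of_notMem {h : C(K, ℝ)} {s : K} (hs : s ∉ bandSet h) :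
    clampFn h s = 0 ∨ clampFn h s = 1 := by
  rcases lt_or_ge (h s) 0 with h0 | h0
  · exact Or.inl (clampFn_of_nonpos h0.le)
  · rcases lt_or_ge 1 (h s) with h1 | h1
    · exact Or.inr (clampFn_of_one_le h1.le)
    · exact absurd ⟨h0, h1⟩ hs

/-- The subspace of `Y` attached to a band: the common kernel of the height functionals of all
caps at points of the band. -/
def bandSub (Z : Set K) (G : C(K, X) → Y) (h : C(K, ℝ)) : Submodule ℝ Y where
  carrier := {y | ∀ (t : K) (b : X) (ψ : Y →L[ℝ] ℝ), t ∈ bandSet h → t ∉ Z → ‖b‖ = 1 →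
    IsHeight Z G t b ψ → ψ y = 0}
  add_mem' := by
    intro y y' hy hy' t b ψ ht htZ hb hψ
    rw [map_add, hy t b ψ ht htZ hb hψ, hy' t b ψ ht htZ hb hψ, add_zero]
  zero_mem' := by
    intro t b ψ _ _ _ _
    exact map_zero ψ
  smul_mem' := by
    intro c y hy t b ψ ht htZ hb hψ
    rw [map_smul, hy t b ψ ht htZ hb hψ, smul_zero]

lemma isClosed_bandSub (Z : Set K) (G : C(K, X) → Y) (h : C(K, ℝ)) :
    IsClosed (bandSub Z G h : Set Y) := by
  have e : (bandSub Z G h : Set Y) = ⋂ (t : K) (b : X) (ψ : Y →L[ℝ] ℝ) (_ : t ∈ bandSet h)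
      (_ : t ∉ Z) (_ : ‖b‖ = 1) (_ : IsHeight Z G t b ψ), {y | ψ y = 0} := by
    ext y
    simp only [Set.mem_iInter, Set.mem_ofPred_eq]
    exact Iff.rfl
  rw [e]
  refine isClosed_iInter fun t => isClosed_iInter fun b => isClosed_iInter fun ψ =>
    isClosed_iInter fun _ => isClosed_iInter fun _ => isClosed_iInter fun _ =>
    isClosed_iInter fun _ => ?_
  exact isClosed_eq ψ.continuous continuous_const

/-- Multiplication by the truncation of `h` on the functions vanishing on `Z` and on the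
band. -/
def bandProj (Z : Set K) (h : C(K, ℝ)) :
    idealOf (X := X) (Z ∪ bandSet h) →ₗ[ℝ] idealOf (X := X) (Z ∪ bandSet h) :=
  LinearMap.codRestrict _ ((smulMap (clampFn h)).comp (Submodule.subtype _)) (by
    intro u s hs
    show clampFn h s • (u : C(K, X)) s = 0
    rw [u.2 s hs, smul_zero])

lemma bandProj_apply (Z : Set K) (h : C(K, ℝ)) (u : idealOf (X := X) (Z ∪ bandSet h)) (s : K) :
    (bandProj Z h u : C(K, X)) s = clampFn h s • (u : C(K, X)) s := rfl

lemma bandProj_idem (Z : Set K) (h : C(K, ℝ)) (u : idealOf (X := X) (Z ∪ bandSet h)) :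
    bandProj Z h (bandProj Z h u) = bandProj Z h u := by
  apply Subtype.ext
  ext s
  rw [bandProj_apply, bandProj_apply]
  by_cases hs : s ∈ Z ∪ bandSet h
  · rw [u.2 s hs, smul_zero, smul_zero]
  · rcases clampFn_of_notMem (fun hb => hs (Or.inr hb)) with h0 | h1
    · rw [h0, zero_smul, zero_smul]
    · rw [h1, one_smul, one_smul]

lemma bandProj_norm (Z : Set K) (h : C(K, ℝ)) (u : idealOf (X := X) (Z ∪ bandSet h)) :
    ‖u‖ = max ‖bandProj Z h u‖ ‖u - bandProj Z h u‖ := by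
  rw [Submodule.coe_norm, Submodule.coe_norm, Submodule.coe_norm, Submodule.coe_sub]
  apply le_antisymm
  · rw [ContinuousMap.norm_le _ (le_max_of_le_left (norm_nonneg _))]
    intro s
    by_cases hs : s ∈ Z ∪ bandSet h
    · rw [u.2 s hs, norm_zero]
      exact le_max_of_le_left (norm_nonneg _)
    · rcases clampFn_of_notMem (fun hb => hs (Or.inr hb)) with h0 | h1
      · apply le_max_of_le_right
        have h2 := ((u : C(K, X)) - (bandProj Z h u : C(K, X))).norm_coe_le_norm s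
        rw [ContinuousMap.sub_apply, bandProj_apply, h0, zero_smul, sub_zero] at h2
        exact h2
      · apply le_max_of_le_left
        have h2 := (bandProj Z h u : C(K, X)).norm_coe_le_norm s
        rw [bandProj_apply, h1, one_smul] at h2
        exact h2
  · apply max_le
    · rw [ContinuousMap.norm_le _ (norm_nonneg _)]
      intro s
      rw [bandProj_apply, norm_smul, Real.norm_eq_abs, abs_of_nonneg (clampFn_nonneg h s)]
      calc clampFn h s * ‖(u : C(K, X)) s‖ ≤ 1 * ‖(u : C(K, X)) s‖ :=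
            mul_le_mul_of_nonneg_right (clampFn_le_one h s) (norm_nonneg _)
        _ = ‖(u : C(K, X)) s‖ := one_mul _
        _ ≤ ‖(u : C(K, X))‖ := (u : C(K, X)).norm_coe_le_norm s
    · rw [ContinuousMap.norm_le _ (norm_nonneg _)]
      intro s
      have e : ((u : C(K, X)) - (bandProj Z h u : C(K, X))) s =
          (1 - clampFn h s) • (u : C(K, X)) s := by
        rw [ContinuousMap.sub_apply, bandProj_apply, sub_smul, one_smul]
      rw [e, norm_smul, Real.norm_eq_abs, abs_of_nonneg (sub_nonneg.mpr (clampFn_le_one h s))]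
      calc (1 - clampFn h s) * ‖(u : C(K, X)) s‖ ≤ 1 * ‖(u : C(K, X)) s‖ :=
            mul_le_mul_of_nonneg_right (by linarith [clampFn_nonneg h s]) (norm_nonneg _)
        _ = ‖(u : C(K, X)) s‖ := one_mul _
        _ ≤ ‖(u : C(K, X))‖ := (u : C(K, X)).norm_coe_le_norm s

/-- A unit function vanishing on `Z` and living in the open set `U` disjoint from `Z`. -/
lemma exists_unit_bump (Z : Set K) {U : Set K} (hU : IsOpen U) {t : K} (ht : t ∈ U) {x : X}
    (hx : ‖x‖ = 1) (hUZ : ∀ s ∈ Z, s ∉ U) :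
    ∃ κ : C(K, ℝ), κ t = 1 ∧ (∀ s, 0 ≤ κ s) ∧ (∀ s, κ s ≤ 1) ∧ (∀ s, s ∉ U → κ s = 0) ∧
      bumpVec κ x ∈ idealOf Z ∧ ‖bumpVec κ x‖ = 1 := by
  obtain ⟨κ, hκt, hκ0, hκ1, hκU⟩ := exists_bump hU ht
  refine ⟨κ, hκt, hκ0, hκ1, hκU, fun s hs => ?_, ?_⟩
  · rw [bumpVec_apply, hκU s (hUZ s hs), zero_smul]
  · apply le_antisymm
    · rw [ContinuousMap.norm_le _ zero_le_one]
      intro s
      rw [bumpVec_apply, norm_smul, hx, mul_one, Real.norm_eq_abs, abs_of_nonneg (hκ0 s)]
      exact hκ1 s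
    · have h1 := (bumpVec κ x).norm_coe_le_norm t
      rw [bumpVec_apply, hκt, one_smul, hx] at h1
      exact h1

namespace CIso

variable {Z : Set K} {G : C(K, X) → Y}

/-- Images of unit functions vanishing on the band lie in the band subspace. -/
lemma band_mem (hG : CIso Z G) (hZ : IsClosed Z) {h : C(K, ℝ)} {u : C(K, X)}
    (hu : u ∈ idealOf (Z ∪ bandSet h)) (hu1 : ‖u‖ = 1) : G u ∈ bandSub Z G h := by
  intro t b ψ ht htZ hb hψ
  exact hG.height_zero hZ htZ hb hψ (idealOf_anti Set.subset_union_left hu) hu1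
    (hu t (Or.inr ht))

/-- Unit vectors of the band subspace are images of unit functions vanishing on the band. -/
lemma exists_of_band_mem (hG : CIso Z G) (hZ : IsClosed Z) {h : C(K, ℝ)} {y : Y}
    (hy : y ∈ bandSub Z G h) (hy1 : ‖y‖ = 1) :
    ∃ u : C(K, X), u ∈ idealOf (Z ∪ bandSet h) ∧ ‖u‖ = 1 ∧ G u = y := by
  obtain ⟨u, huZ, hu1, hGu⟩ := hG.surj y hy1
  refine ⟨u, fun s hs => ?_, hu1, hGu⟩
  by_contra hne
  have hsZ : s ∉ Z := fun hsZ => hne (huZ s hsZ)
  have hsb : s ∈ bandSet h := by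
    rcases hs with hs | hs
    · exact absurd hs hsZ
    · exact hs
  obtain ⟨ψ, hψ⟩ := hG.exists_isHeight hZ hsZ (norm_inv_smul_self hne)
  have h1 := hG.height_ge hZ hsZ huZ hu1 hne hψ
  rw [hGu, hy s _ ψ hsb hsZ (norm_inv_smul_self hne) hψ] at h1
  exact absurd (norm_pos_iff.mpr hne) (not_lt.mpr h1)

/-- The projection attached to a cutting function is not zero. -/
lemma bandProj_ne_zero [Nontrivial X] (hZ : IsClosed Z) {h : C(K, ℝ)} {s₂ : K} (hs₂Z : s₂ ∉ Z)
    (hs₂ : 1 < h s₂) : ∃ u : idealOf (X := X) (Z ∪ bandSet h), bandProj Z h u ≠ 0 := by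
  obtain ⟨x₀, hx₀⟩ : ∃ x₀ : X, ‖x₀‖ = 1 := by
    obtain ⟨v, hv⟩ := exists_ne (0 : X)
    exact ⟨‖v‖⁻¹ • v, norm_inv_smul_self hv⟩
  have hx₀ne : x₀ ≠ 0 := by
    intro h0
    rw [h0, norm_zero] at hx₀
    exact zero_ne_one hx₀
  obtain ⟨κ, hκt, hκ0, hκ1, hκU, hmem, -⟩ := exists_unit_bump (Z ∪ bandSet h)
    (U := {s | 1 < h s} ∩ Zᶜ) ((isOpen_lt continuous_const h.continuous).inter hZ.isOpen_compl)
    (t := s₂) ⟨hs₂, hs₂Z⟩ hx₀ (by
      rintro s (hs | hs) hsU
      · exact hsU.2 hs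
      · exact absurd hsU.1 (not_lt.mpr hs.2))
  refine ⟨⟨bumpVec κ x₀, hmem⟩, fun hcon => hx₀ne ?_⟩
  have h2 : (bandProj Z h ⟨bumpVec κ x₀, hmem⟩ : C(K, X)) s₂ = 0 := by
    rw [hcon]
    rfl
  rw [bandProj_apply] at h2
  have h3 : (bumpVec κ x₀ : C(K, X)) s₂ = x₀ := by rw [bumpVec_apply, hκt, one_smul]
  rw [clampFn_of_one_le hs₂.le, one_smul] at h2
  rw [← h3]
  exact h2

/-- The projection attached to a cutting function is not the identity. -/
lemma bandProj_ne_id [Nontrivial X] (hZ : IsClosed Z) {h : C(K, ℝ)} {s₁ : K} (hs₁Z : s₁ ∉ Z)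
    (hs₁ : h s₁ < 0) : ∃ u : idealOf (X := X) (Z ∪ bandSet h), bandProj Z h u ≠ u := by
  obtain ⟨x₀, hx₀⟩ : ∃ x₀ : X, ‖x₀‖ = 1 := by
    obtain ⟨v, hv⟩ := exists_ne (0 : X)
    exact ⟨‖v‖⁻¹ • v, norm_inv_smul_self hv⟩
  have hx₀ne : x₀ ≠ 0 := by
    intro h0
    rw [h0, norm_zero] at hx₀
    exact zero_ne_one hx₀
  obtain ⟨κ, hκt, hκ0, hκ1, hκU, hmem, -⟩ := exists_unit_bump (Z ∪ bandSet h)
    (U := {s | h s < 0} ∩ Zᶜ) ((isOpen_lt h.continuous continuous_const).inter hZ.isOpen_compl)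
    (t := s₁) ⟨hs₁, hs₁Z⟩ hx₀ (by
      rintro s (hs | hs) hsU
      · exact hsU.2 hs
      · exact absurd hsU.1 (not_lt.mpr hs.1))
  refine ⟨⟨bumpVec κ x₀, hmem⟩, fun hcon => hx₀ne ?_⟩
  have h2 : (bandProj Z h ⟨bumpVec κ x₀, hmem⟩ : C(K, X)) s₁ = (bumpVec κ x₀ : C(K, X)) s₁ := by
    rw [hcon]
  rw [bandProj_apply, clampFn_of_nonpos hs₁.le, zero_smul] at h2
  have h3 : (bumpVec κ x₀ : C(K, X)) s₁ = x₀ := by rw [bumpVec_apply, hκt, one_smul]
  rw [← h3]
  exact h2.symm

/-- The restriction of `G` to the unit sphere of the functions vanishing on `Z` and on a band,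
as a surjective isometry onto the unit sphere of the band subspace. -/
lemma exists_band_sphere_map (hG : CIso Z G) (hZ : IsClosed Z) (h : C(K, ℝ)) :
    ∃ f : Metric.sphere (0 : idealOf (X := X) (Z ∪ bandSet h)) 1 →
      Metric.sphere (0 : bandSub Z G h) 1, Isometry f ∧ Function.Surjective f ∧
      ∀ p, ((f p : bandSub Z G h) : Y) =
        G ((p : idealOf (X := X) (Z ∪ bandSet h)) : C(K, X)) := by
  have hmemf : ∀ p : Metric.sphere (0 : idealOf (X := X) (Z ∪ bandSet h)) 1,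
      G ((p : idealOf (X := X) (Z ∪ bandSet h)) : C(K, X)) ∈ bandSub Z G h := fun p =>
    hG.band_mem hZ (p : idealOf (X := X) (Z ∪ bandSet h)).2 (mem_sphere_zero_iff_norm.mp p.2)
  have hnormf : ∀ p : Metric.sphere (0 : idealOf (X := X) (Z ∪ bandSet h)) 1,
      (⟨_, hmemf p⟩ : bandSub Z G h) ∈ Metric.sphere (0 : bandSub Z G h) 1 := by
    intro p
    rw [mem_sphere_zero_iff_norm, Submodule.coe_norm]
    exact hG.norm_map _ (idealOf_anti Set.subset_union_left
      (p : idealOf (X := X) (Z ∪ bandSet h)).2) (mem_sphere_zero_iff_norm.mp p.2)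
  refine ⟨fun p => ⟨⟨_, hmemf p⟩, hnormf p⟩, ?_, ?_, fun p => rfl⟩
  · refine Isometry.of_dist_eq fun p q => ?_
    have e1 : dist p q = ‖((p : idealOf (X := X) (Z ∪ bandSet h)) : C(K, X)) -
        ((q : idealOf (X := X) (Z ∪ bandSet h)) : C(K, X))‖ := by
      rw [Subtype.dist_eq, dist_eq_norm]
      rfl
    rw [e1, Subtype.dist_eq, dist_eq_norm]
    exact hG.dist_map _ (idealOf_anti Set.subset_union_left
      (p : idealOf (X := X) (Z ∪ bandSet h)).2) _ (idealOf_anti Set.subset_union_left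
      (q : idealOf (X := X) (Z ∪ bandSet h)).2) (mem_sphere_zero_iff_norm.mp p.2)
      (mem_sphere_zero_iff_norm.mp q.2)
  · intro w
    have hw1 : ‖((w : bandSub Z G h) : Y)‖ = 1 := by
      rw [← Submodule.coe_norm]
      exact mem_sphere_zero_iff_norm.mp w.2
    obtain ⟨u, hu, hu1, hGu⟩ := hG.exists_of_band_mem hZ (w : bandSub Z G h).2 hw1
    refine ⟨⟨⟨u, hu⟩, by rw [mem_sphere_zero_iff_norm, Submodule.coe_norm]; exact hu1⟩, ?_⟩
    apply Subtype.ext
    apply Subtype.ext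
    exact hGu

/-- On the functions vanishing on `Z` and on the band of a cutting function, `G` agrees on the
unit sphere with a linear isometry. -/
lemma exists_band_linear [CompleteSpace Y] [Nontrivial X] (hG : CIso Z G) (hZ : IsClosed Z)
    {h : C(K, ℝ)} (hh : IsCutter Z h) :
    ∃ Λ : idealOf (X := X) (Z ∪ bandSet h) →ₗ[ℝ] Y, (∀ u, ‖Λ u‖ = ‖u‖) ∧
      ∀ u, ‖u‖ = 1 → Λ u = G (u : C(K, X)) := by
  obtain ⟨⟨s₁, hs₁Z, hs₁⟩, ⟨s₂, hs₂Z, hs₂⟩⟩ := hh
  have hc : CompleteSpace (bandSub Z G h) := (isClosed_bandSub Z G h).completeSpace_coe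
  obtain ⟨f, hf, hsurj, hfval⟩ := hG.exists_band_sphere_map hZ h
  obtain ⟨T, hT⟩ := exists_linearIsometryEquiv_of_mProjection
    (X := idealOf (X := X) (Z ∪ bandSet h)) (Y := bandSub Z G h) (bandProj Z h)
    (bandProj_idem Z h) (bandProj_norm Z h) (bandProj_ne_zero hZ hs₂Z hs₂)
    (bandProj_ne_id hZ hs₁Z hs₁) f hf hsurj
  refine ⟨(bandSub Z G h).subtype.comp T.toLinearEquiv.toLinearMap, fun u => ?_, fun u hu => ?_⟩
  · show ‖((T u : bandSub Z G h) : Y)‖ = ‖u‖
    rw [← Submodule.coe_norm, LinearIsometryEquiv.norm_map]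
  · show ((T u : bandSub Z G h) : Y) = G (u : C(K, X))
    have h2 := hT ⟨u, mem_sphere_zero_iff_norm.mpr hu⟩
    rw [← hfval ⟨u, mem_sphere_zero_iff_norm.mpr hu⟩, ← h2]

end CIso

end CKBand

end Vale.Agent.H23
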