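import Vale.Agent.H23.Height
import Vale.Agent.H23.MSummand

/-!
# Sphere isometries of spaces of continuous vector-valued functions: caps and heights

Let `K` be a compact Hausdorff space, `X` a real normed space and `Z` a closed subset of `K`.
The space of continuous functions `K → X` vanishing on `Z` carries the supremum norm. This file
studies a map `G` restricting to a surjective isometry from the unit sphere of this space onto
the unit sphere of a real normed space `Y`. For a point `t` outside `Z` and a unit vector `b`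
of `X`, the cap `{u : ‖u‖ = 1, u t = b}` is a convex subset of the sphere; its height
functionals `ψ` satisfy `1 - ‖u t - b‖ ≤ ψ (G u) ≤ ‖u t + b‖ - 1`.
-/

namespace Vale.Agent.H23

section CKBase

variable {K X Y : Type*} [TopologicalSpace K] [CompactSpace K] [T2Space K]
  [NormedAddCommGroup X] [NormedSpace ℝ X] [NormedAddCommGroup Y] [NormedSpace ℝ Y]

/-- Pointwise multiplication by a continuous scalar function, as a linear map. -/
def smulMap (φ : C(K, ℝ)) : C(K, X) →ₗ[ℝ] C(K, X) where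
  toFun u := ⟨fun t => φ t • u t, φ.continuous.smul u.continuous⟩
  map_add' u v := by
    ext t
    simp [smul_add]
  map_smul' c u := by
    ext t
    show φ t • (c • u t) = c • (φ t • u t)
    exact smul_comm _ _ _

lemma smulMap_apply (φ : C(K, ℝ)) (u : C(K, X)) (t : K) : smulMap φ u t = φ t • u t := rfl

/-- The product of a scalar function and a constant vector. -/
def bumpVec (κ : C(K, ℝ)) (x : X) : C(K, X) := smulMap κ (ContinuousMap.const K x)

lemma bumpVec_apply (κ : C(K, ℝ)) (x : X) (t : K) : bumpVec κ x t = κ t • x := rfl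

/-- The subspace of the continuous functions vanishing on a set `W`. -/
def idealOf (W : Set K) : Submodule ℝ C(K, X) where
  carrier := {u | ∀ t ∈ W, u t = 0}
  add_mem' := by
    intro u v hu hv t ht
    rw [ContinuousMap.add_apply, hu t ht, hv t ht, add_zero]
  zero_mem' := by
    intro t _
    rfl
  smul_mem' := by
    intro c u hu t ht
    rw [ContinuousMap.smul_apply, hu t ht, smul_zero]

lemma mem_idealOf {W : Set K} {u : C(K, X)} : u ∈ idealOf W ↔ ∀ t ∈ W, u t = 0 := Iff.rfl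

lemma idealOf_anti {W W' : Set K} (h : W ⊆ W') {u : C(K, X)} (hu : u ∈ idealOf W') :
    u ∈ idealOf W := fun t ht => hu t (h ht)

/-- Urysohn bump: a continuous function with values in `[0, 1]`, equal to `1` at `t` and
vanishing outside the open neighbourhood `U` of `t`. -/
lemma exists_bump {U : Set K} (hU : IsOpen U) {t : K} (ht : t ∈ U) :
    ∃ κ : C(K, ℝ), κ t = 1 ∧ (∀ s, 0 ≤ κ s) ∧ (∀ s, κ s ≤ 1) ∧ ∀ s, s ∉ U → κ s = 0 := by
  obtain ⟨f, hf0, hf1, hf01⟩ := exists_continuous_zero_one_of_isClosed hU.isClosed_compl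
    (isClosed_singleton (x := t)) (by
      rw [Set.disjoint_singleton_right]
      exact fun h => h ht)
  refine ⟨f, ?_, fun s => (hf01 s).1, fun s => (hf01 s).2, fun s hs => ?_⟩
  · simpa using hf1 (Set.mem_singleton t)
  · simpa using hf0 (Set.mem_compl hs)

/-- A continuous function with values in `[0, 1]` separating two points. -/
lemma exists_sep {t t' : K} (h : t ≠ t') :
    ∃ h₀ : C(K, ℝ), h₀ t = 0 ∧ h₀ t' = 1 ∧ ∀ s, 0 ≤ h₀ s ∧ h₀ s ≤ 1 := by
  obtain ⟨f, hf0, hf1, hf01⟩ := exists_continuous_zero_one_of_isClosed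
    (isClosed_singleton (x := t)) (isClosed_singleton (x := t')) (by
      rw [Set.disjoint_singleton]
      exact h)
  refine ⟨f, ?_, ?_, fun s => hf01 s⟩
  · simpa using hf0 (Set.mem_singleton t)
  · simpa using hf1 (Set.mem_singleton t')

/-- The supremum norm of a continuous function on a nonempty compact space is attained. -/
lemma exists_norm_apply_eq [Nonempty K] (u : C(K, X)) : ∃ t, ‖u t‖ = ‖u‖ := by
  obtain ⟨t, -, ht⟩ := isCompact_univ.exists_isMaxOn Set.univ_nonempty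
    (continuous_norm.comp u.continuous).continuousOn
  refine ⟨t, le_antisymm (u.norm_coe_le_norm t) ?_⟩
  rw [ContinuousMap.norm_le _ (norm_nonneg _)]
  intro s
  exact ht (Set.mem_univ s)

/-- `G` restricts to a surjective isometry from the unit sphere of the space of continuous
functions vanishing on `Z` onto the unit sphere of `Y`. -/
structure CIso (Z : Set K) (G : C(K, X) → Y) : Prop where
  norm_map : ∀ u ∈ idealOf Z, ‖u‖ = 1 → ‖G u‖ = 1
  dist_map : ∀ u ∈ idealOf Z, ∀ v ∈ idealOf Z, ‖u‖ = 1 → ‖v‖ = 1 → ‖G u - G v‖ = ‖u - v‖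
  surj : ∀ w : Y, ‖w‖ = 1 → ∃ u ∈ idealOf Z, ‖u‖ = 1 ∧ G u = w

/-- `ψ` is a height functional of the cap `{u : ‖u‖ = 1, u t = b}`. -/
def IsHeight (Z : Set K) (G : C(K, X) → Y) (t : K) (b : X) (ψ : Y →L[ℝ] ℝ) : Prop :=
  (∀ y, ψ y ≤ ‖y‖) ∧ (∀ u ∈ idealOf Z, ‖u‖ = 1 → u t = b → ψ (G u) = 1) ∧
    ∀ u ∈ idealOf Z, ‖u‖ = 1 → u t = -b → ψ (G u) = -1

namespace CIso

variable {Z : Set K} {G : C(K, X) → Y}

/-- The restriction to the subspace is a surjective isometry between unit spheres. -/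
lemma sIso (hG : CIso Z G) : SIso (fun u : idealOf (X := X) Z => G (u : C(K, X))) := by
  refine ⟨fun u hu => hG.norm_map _ u.2 hu, fun u v hu hv => hG.dist_map _ u.2 _ v.2 hu hv,
    fun w hw => ?_⟩
  obtain ⟨u, huZ, hu, hGu⟩ := hG.surj w hw
  exact ⟨⟨u, huZ⟩, hu, hGu⟩

/-- Height functionals of nonempty convex subsets of the unit sphere of the subspace. -/
lemma exists_height (hG : CIso Z G) {C : Set C(K, X)} (hC : Convex ℝ C)
    (hCZ : ∀ u ∈ C, u ∈ idealOf Z) (hC1 : ∀ u ∈ C, ‖u‖ = 1) (hne : C.Nonempty) :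
    ∃ ψ : Y →L[ℝ] ℝ, (∀ y, ψ y ≤ ‖y‖) ∧ (∀ u ∈ C, ψ (G u) = 1) ∧
      ∀ u ∈ C, ψ (G (-u)) = -1 := by
  obtain ⟨u₀, hu₀⟩ := hne
  obtain ⟨ψ, hle, h1, h2⟩ := hG.sIso.exists_height_of_convex
    (C := (idealOf (X := X) Z).subtype ⁻¹' C) (hC.linear_preimage _)
    (fun u hu => hC1 _ hu) ⟨⟨u₀, hCZ u₀ hu₀⟩, hu₀⟩
  exact ⟨ψ, hle, fun u hu => h1 ⟨u, hCZ u hu⟩ hu, fun u hu => h2 ⟨u, hCZ u hu⟩ hu⟩

/-- Height functionals of caps exist. -/
lemma exists_isHeight (hG : CIso Z G) (hZ : IsClosed Z) {t : K} (ht : t ∉ Z) {b : X}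
    (hb : ‖b‖ = 1) : ∃ ψ : Y →L[ℝ] ℝ, IsHeight Z G t b ψ := by
  obtain ⟨C, hCdef⟩ : ∃ C : Set C(K, X), C = {u | u ∈ idealOf Z ∧ ‖u‖ = 1 ∧ u t = b} :=
    ⟨_, rfl⟩
  have hC : Convex ℝ C := by
    intro u hu v hv α β hα hβ hαβ
    rw [hCdef] at hu hv ⊢
    obtain ⟨huZ, hu1, hut⟩ := hu
    obtain ⟨hvZ, hv1, hvt⟩ := hv
    have hval : (α • u + β • v) t = b := by
      rw [ContinuousMap.add_apply, ContinuousMap.smul_apply, ContinuousMap.smul_apply, hut, hvt,
        ← add_smul, hαβ, one_smul]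
    refine ⟨(idealOf Z).add_mem ((idealOf Z).smul_mem α huZ) ((idealOf Z).smul_mem β hvZ), ?_,
      hval⟩
    apply le_antisymm
    · calc ‖α • u + β • v‖ ≤ ‖α • u‖ + ‖β • v‖ := norm_add_le _ _
        _ = α + β := by
          rw [norm_smul, norm_smul, hu1, hv1, Real.norm_eq_abs, Real.norm_eq_abs,
            abs_of_nonneg hα, abs_of_nonneg hβ, mul_one, mul_one]
        _ = 1 := hαβ
    · have h1 := (α • u + β • v).norm_coe_le_norm t
      rw [hval, hb] at h1
      exact h1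
  have hne : C.Nonempty := by
    obtain ⟨κ, hκt, hκ0, hκ1, hκU⟩ := exists_bump hZ.isOpen_compl (t := t) ht
    refine ⟨bumpVec κ b, ?_⟩
    rw [hCdef]
    refine ⟨fun s hs => ?_, ?_, ?_⟩
    · rw [bumpVec_apply, hκU s (fun h => h hs), zero_smul]
    · apply le_antisymm
      · rw [ContinuousMap.norm_le _ zero_le_one]
        intro s
        rw [bumpVec_apply, norm_smul, hb, mul_one, Real.norm_eq_abs, abs_of_nonneg (hκ0 s)]
        exact hκ1 s
      · have h1 := (bumpVec κ b).norm_coe_le_norm t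
        rw [bumpVec_apply, hκt, one_smul, hb] at h1
        exact h1
    · rw [bumpVec_apply, hκt, one_smul]
  obtain ⟨ψ, hle, h1, h2⟩ := hG.exists_height hC
    (fun u hu => by rw [hCdef] at hu; exact hu.1) (fun u hu => by rw [hCdef] at hu; exact hu.2.1)
    hne
  refine ⟨ψ, hle, fun u huZ hu1 hut => h1 u (by rw [hCdef]; exact ⟨huZ, hu1, hut⟩),
    fun u huZ hu1 hut => ?_⟩
  have h3 := h2 (-u) (by
    rw [hCdef]
    refine ⟨Submodule.neg_mem _ huZ, by rw [norm_neg]; exact hu1, ?_⟩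
    rw [ContinuousMap.neg_apply, hut, neg_neg])
  rwa [neg_neg] at h3

/-- A unit function can be moved into a cap at a cost close to `‖u t - c‖`. -/
lemma exists_cap_near (hZ : IsClosed Z) {t : K} (ht : t ∉ Z) {c : X} (hc : ‖c‖ = 1)
    {u : C(K, X)} (hu : u ∈ idealOf Z) (hu1 : ‖u‖ = 1) {ε : ℝ} (hε : 0 < ε) :
    ∃ v : C(K, X), v ∈ idealOf Z ∧ ‖v‖ = 1 ∧ v t = c ∧ ‖u - v‖ ≤ ‖u t - c‖ + ε := by
  obtain ⟨U, hUdef⟩ : ∃ U : Set K, U = {s | ‖u s - u t‖ < ε} ∩ Zᶜ := ⟨_, rfl⟩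
  have hUo : IsOpen U := by
    rw [hUdef]
    refine IsOpen.inter ?_ hZ.isOpen_compl
    exact isOpen_lt (continuous_norm.comp (u.continuous.sub continuous_const)) continuous_const
  have htU : t ∈ U := by
    rw [hUdef]
    refine ⟨?_, ht⟩
    show ‖u t - u t‖ < ε
    rw [sub_self, norm_zero]
    exact hε
  obtain ⟨κ, hκt, hκ0, hκ1, hκU⟩ := exists_bump hUo htU
  obtain ⟨v, hvdef⟩ : ∃ v : C(K, X), v = smulMap (1 - κ) u + bumpVec κ c := ⟨_, rfl⟩
  have hvs : ∀ s, v s = (1 - κ s) • u s + κ s • c := by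
    intro s
    rw [hvdef]
    rfl
  have hvt : v t = c := by
    rw [hvs, hκt, sub_self, zero_smul, zero_add, one_smul]
  refine ⟨v, fun s hs => ?_, ?_, hvt, ?_⟩
  · have hsU : s ∉ U := by
      rw [hUdef]
      exact fun h => h.2 hs
    rw [hvs, hu s hs, hκU s hsU, smul_zero, zero_smul, add_zero]
  · apply le_antisymm
    · rw [ContinuousMap.norm_le _ zero_le_one]
      intro s
      rw [hvs]
      have h1 := u.norm_coe_le_norm s
      rw [hu1] at h1
      calc ‖(1 - κ s) • u s + κ s • c‖ ≤ ‖(1 - κ s) • u s‖ + ‖κ s • c‖ := norm_add_le _ _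
        _ = (1 - κ s) * ‖u s‖ + κ s := by
          rw [norm_smul, norm_smul, hc, mul_one, Real.norm_eq_abs, Real.norm_eq_abs,
            abs_of_nonneg (hκ0 s), abs_of_nonneg (sub_nonneg.mpr (hκ1 s))]
        _ ≤ (1 - κ s) * 1 + κ s :=
          add_le_add_left (mul_le_mul_of_nonneg_left h1 (sub_nonneg.mpr (hκ1 s))) _
        _ = 1 := by ring
    · have h1 := v.norm_coe_le_norm t
      rw [hvt, hc] at h1
      exact h1
  · rw [ContinuousMap.norm_le _ (by positivity)]
    intro s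
    have e : (u - v) s = κ s • (u s - c) := by
      rw [ContinuousMap.sub_apply, hvs]
      module
    rw [e, norm_smul, Real.norm_eq_abs, abs_of_nonneg (hκ0 s)]
    by_cases hsU : s ∈ U
    · have h2 : ‖u s - u t‖ < ε := by
        rw [hUdef] at hsU
        exact hsU.1
      have h3 : ‖u s - c‖ ≤ ‖u s - u t‖ + ‖u t - c‖ := by
        have e2 : u s - c = (u s - u t) + (u t - c) := by abel
        rw [e2]
        exact norm_add_le _ _
      have h4 : κ s * ‖u s - c‖ ≤ 1 * ‖u s - c‖ :=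
        mul_le_mul_of_nonneg_right (hκ1 s) (norm_nonneg _)
      linarith
    · rw [hκU s hsU, zero_mul]
      positivity

/-- Bounds for the height functionals of a cap. -/
lemma height_bounds (hG : CIso Z G) (hZ : IsClosed Z) {t : K} (ht : t ∉ Z) {b : X}
    (hb : ‖b‖ = 1) {ψ : Y →L[ℝ] ℝ} (hψ : IsHeight Z G t b ψ) {u : C(K, X)}
    (hu : u ∈ idealOf Z) (hu1 : ‖u‖ = 1) :
    1 - ‖u t - b‖ ≤ ψ (G u) ∧ ψ (G u) ≤ ‖u t + b‖ - 1 := by
  obtain ⟨hle, htop, hbot⟩ := hψ
  constructor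
  · have key : ∀ ε : ℝ, 0 < ε → 1 - ‖u t - b‖ ≤ ψ (G u) + ε := by
      intro ε hε
      obtain ⟨v, hvZ, hv1, hvt, hd⟩ := exists_cap_near hZ ht hb hu hu1 hε
      have h1 := hle (G v - G u)
      rw [hG.dist_map v hvZ u hu hv1 hu1, map_sub, htop v hvZ hv1 hvt, norm_sub_rev] at h1
      linarith
    exact le_of_forall_pos_le_add key
  · have key : ∀ ε : ℝ, 0 < ε → ψ (G u) ≤ ‖u t + b‖ - 1 + ε := by
      intro ε hε
      obtain ⟨v, hvZ, hv1, hvt, hd⟩ := exists_cap_near hZ ht (c := -b)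
        (by rw [norm_neg]; exact hb) hu hu1 hε
      have h1 := hle (G u - G v)
      rw [hG.dist_map u hu v hvZ hu1 hv1, map_sub, hbot v hvZ hv1 hvt] at h1
      rw [sub_neg_eq_add] at hd
      linarith
    exact le_of_forall_pos_le_add key

/-- Height functionals at `t` vanish on the images of unit functions vanishing at `t`. -/
lemma height_zero (hG : CIso Z G) (hZ : IsClosed Z) {t : K} (ht : t ∉ Z) {b : X}
    (hb : ‖b‖ = 1) {ψ : Y →L[ℝ] ℝ} (hψ : IsHeight Z G t b ψ) {u : C(K, X)}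
    (hu : u ∈ idealOf Z) (hu1 : ‖u‖ = 1) (hut : u t = 0) : ψ (G u) = 0 := by
  have h := hG.height_bounds hZ ht hb hψ hu hu1
  rw [hut, zero_sub, norm_neg, zero_add, hb] at h
  linarith [h.1, h.2]

/-- The height functional in the direction of `u t` is at least `‖u t‖` at `G u`. -/
lemma height_ge (hG : CIso Z G) (hZ : IsClosed Z) {t : K} (ht : t ∉ Z) {u : C(K, X)}
    (hu : u ∈ idealOf Z) (hu1 : ‖u‖ = 1) (hut : u t ≠ 0) {ψ : Y →L[ℝ] ℝ}
    (hψ : IsHeight Z G t (‖u t‖⁻¹ • u t) ψ) : ‖u t‖ ≤ ψ (G u) := by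
  have hpos : 0 < ‖u t‖ := norm_pos_iff.mpr hut
  have hb : ‖‖u t‖⁻¹ • u t‖ = 1 := norm_inv_smul_self hut
  have h1 := (hG.height_bounds hZ ht hb hψ hu hu1).1
  have e : u t - ‖u t‖⁻¹ • u t = (1 - ‖u t‖⁻¹) • u t := by rw [sub_smul, one_smul]
  have hz1 : ‖u t‖ ≤ 1 := by
    have := u.norm_coe_le_norm t
    rwa [hu1] at this
  have hinv : 1 ≤ ‖u t‖⁻¹ := (one_le_inv₀ hpos).mpr hz1
  rw [e, norm_smul, Real.norm_eq_abs, abs_of_nonpos (by linarith)] at h1
  have e2 : -(1 - ‖u t‖⁻¹) * ‖u t‖ = 1 - ‖u t‖ := by field_simp; ring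
  linarith

end CIso

end CKBase

end Vale.Agent.H23
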