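import Vale.Agent.H23.CKDet
import Vale.Agent.H23.L1Main

/-!
# Tingley's problem for spaces of continuous vector-valued functions

Let `K` be a compact Hausdorff space, `Z` a closed subset of `K` whose complement has at least
two points, `X` a nonzero real normed space and `Y` a real Banach space. Every surjective
isometry from the unit sphere of the space of continuous functions `K → X` vanishing on `Z`
(supremum norm) onto the unit sphere of `Y` is the restriction of a surjective real-linear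
isometry. For `Z = ∅` this is the space `C(K, X)` of all continuous functions.
-/

namespace Vale.Agent.H23

section CKMain

variable {K X Y : Type*} [TopologicalSpace K] [CompactSpace K] [T2Space K]
  [NormedAddCommGroup X] [NormedSpace ℝ X] [NormedAddCommGroup Y] [NormedSpace ℝ Y]

/-- A linear map agreeing with `G` on unit vectors is the positively homogeneous extension of
`G`. -/
lemma linear_eq_hext {W : Set K} {G : C(K, X) → Y} (Λ : idealOf (X := X) W →ₗ[ℝ] Y)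
    (hΛ : ∀ u, ‖u‖ = 1 → Λ u = G (u : C(K, X))) (u : idealOf (X := X) W) :
    Λ u = hext G (u : C(K, X)) := by
  rcases eq_or_ne u 0 with rfl | hne
  · rw [map_zero, Submodule.coe_zero, hext_zero]
  · have h1 : ‖‖u‖⁻¹ • u‖ = 1 := norm_inv_smul_self hne
    have h2 := hΛ _ h1
    rw [map_smul, Submodule.coe_smul] at h2
    unfold hext
    rw [← Submodule.coe_norm, ← h2, smul_smul, mul_inv_cancel₀ (norm_ne_zero_iff.mpr hne),
      one_smul]

/-- Two cutting functions with disjoint bands and a scalar function equal to `0` on the first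
band and to `1` on the second. -/
lemma exists_two_cutters {Z : Set K} {t₁ t₂ : K} (ht₁ : t₁ ∉ Z) (ht₂ : t₂ ∉ Z) (hne : t₁ ≠ t₂) :
    ∃ h₁ h₂ φ : C(K, ℝ), IsCutter Z h₁ ∧ IsCutter Z h₂ ∧ (∀ s ∈ bandSet h₁, φ s = 0) ∧
      ∀ s ∈ bandSet h₂, φ s = 1 := by
  obtain ⟨h₀, h0t, h0t', -⟩ := exists_sep hne
  refine ⟨⟨fun s => 5 * h₀ s - 1, (continuous_const.mul h₀.continuous).sub continuous_const⟩,
    ⟨fun s => 5 * h₀ s - 3, (continuous_const.mul h₀.continuous).sub continuous_const⟩,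
    clampFn ⟨fun s => 5 * h₀ s - 2, (continuous_const.mul h₀.continuous).sub continuous_const⟩,
    ⟨⟨t₁, ht₁, ?_⟩, ⟨t₂, ht₂, ?_⟩⟩, ⟨⟨t₁, ht₁, ?_⟩, ⟨t₂, ht₂, ?_⟩⟩, ?_, ?_⟩
  · show 5 * h₀ t₁ - 1 < 0
    rw [h0t]; norm_num
  · show 1 < 5 * h₀ t₂ - 1
    rw [h0t']; norm_num
  · show 5 * h₀ t₁ - 3 < 0
    rw [h0t]; norm_num
  · show 1 < 5 * h₀ t₂ - 3
    rw [h0t']; norm_num
  · intro s hs
    have h2 : 5 * h₀ s - 1 ≤ 1 := hs.2
    apply clampFn_of_nonpos
    show 5 * h₀ s - 2 ≤ 0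
    linarith
  · intro s hs
    have h1 : 0 ≤ 5 * h₀ s - 3 := hs.1
    apply clampFn_of_one_le
    show 1 ≤ 5 * h₀ s - 2
    linarith

namespace CIso

variable {Z : Set K} {G : C(K, X) → Y}

/-- The positively homogeneous extension of `G` is killed at functions vanishing at `t` by the
height functionals at `t`. -/
lemma height_hext_zero (hG : CIso Z G) (hZ : IsClosed Z) {t : K} (ht : t ∉ Z) {b : X}
    (hb : ‖b‖ = 1) {ψ : Y →L[ℝ] ℝ} (hψ : IsHeight Z G t b ψ) {v : C(K, X)}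
    (hv : v ∈ idealOf Z) (hvt : v t = 0) : ψ (hext G v) = 0 := by
  unfold hext
  rcases eq_or_ne v 0 with rfl | hne
  · rw [norm_zero, zero_smul, map_zero]
  · rw [map_smul, hG.height_zero hZ ht hb hψ (Submodule.smul_mem _ _ hv)
      (norm_inv_smul_self hne) (by rw [ContinuousMap.smul_apply, hvt, smul_zero]), smul_zero]

/-- Gluing: a linear map on the functions vanishing on `Z` which agrees with the homogeneous
extension of `G` on all cut functions, and which is killed at functions vanishing at `t` by the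
height functionals at `t`. -/
lemma exists_glue [CompleteSpace Y] [Nontrivial X] (hG : CIso Z G) (hZ : IsClosed Z)
    {t₁ t₂ : K} (ht₁ : t₁ ∉ Z) (ht₂ : t₂ ∉ Z) (hne : t₁ ≠ t₂) :
    ∃ L : idealOf (X := X) Z →ₗ[ℝ] Y,
      (∀ (h : C(K, ℝ)) (u : idealOf (X := X) Z), IsCutter Z h →
        (u : C(K, X)) ∈ idealOf (Z ∪ bandSet h) → L u = hext G (u : C(K, X))) ∧
      ∀ (t : K) (b : X) (ψ : Y →L[ℝ] ℝ) (u : idealOf (X := X) Z), t ∉ Z → ‖b‖ = 1 →
        IsHeight Z G t b ψ → (u : C(K, X)) t = 0 → ψ (L u) = 0 := by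
  obtain ⟨h₁, h₂, φ, hc₁, hc₂, hφ₁, hφ₂⟩ := exists_two_cutters ht₁ ht₂ hne
  obtain ⟨Λ₁, -, hΛ₁⟩ := hG.exists_band_linear hZ hc₁
  obtain ⟨Λ₂, -, hΛ₂⟩ := hG.exists_band_linear hZ hc₂
  have hm₁ : ∀ u : idealOf (X := X) Z,
      ((smulMap φ).comp (idealOf (X := X) Z).subtype) u ∈ idealOf (X := X) (Z ∪ bandSet h₁) := by
    intro u s hs
    show φ s • (u : C(K, X)) s = 0
    rcases hs with hs | hs
    · rw [u.2 s hs, smul_zero]
    · rw [hφ₁ s hs, zero_smul]
  have hm₂ : ∀ u : idealOf (X := X) Z,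
      ((smulMap (1 - φ)).comp (idealOf (X := X) Z).subtype) u ∈
        idealOf (X := X) (Z ∪ bandSet h₂) := by
    intro u s hs
    show (1 - φ s) • (u : C(K, X)) s = 0
    rcases hs with hs | hs
    · rw [u.2 s hs, smul_zero]
    · rw [hφ₂ s hs, sub_self, zero_smul]
  obtain ⟨L, hLdef⟩ : ∃ L : idealOf (X := X) Z →ₗ[ℝ] Y,
      L = Λ₁.comp (LinearMap.codRestrict _ _ hm₁) + Λ₂.comp (LinearMap.codRestrict _ _ hm₂) :=
    ⟨_, rfl⟩
  have hLval : ∀ u : idealOf (X := X) Z, L u = hext G (smulMap φ (u : C(K, X))) +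
      hext G (smulMap (1 - φ) (u : C(K, X))) := by
    intro u
    rw [hLdef, LinearMap.add_apply, LinearMap.comp_apply, LinearMap.comp_apply,
      linear_eq_hext Λ₁ hΛ₁, linear_eq_hext Λ₂ hΛ₂]
    rfl
  refine ⟨L, ?_, ?_⟩
  · intro h u hcut hu
    obtain ⟨Λ, -, hΛ⟩ := hG.exists_band_linear hZ hcut
    have hv : smulMap φ (u : C(K, X)) ∈ idealOf (X := X) (Z ∪ bandSet h) := by
      intro s hs
      rw [smulMap_apply, hu s hs, smul_zero]
    have hw : smulMap (1 - φ) (u : C(K, X)) ∈ idealOf (X := X) (Z ∪ bandSet h) := by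
      intro s hs
      rw [smulMap_apply, hu s hs, smul_zero]
    have e1 := linear_eq_hext Λ hΛ ⟨_, hv⟩
    have e2 := linear_eq_hext Λ hΛ ⟨_, hw⟩
    have e3 := linear_eq_hext Λ hΛ ⟨_, hu⟩
    have e4 : (⟨_, hv⟩ : idealOf (X := X) (Z ∪ bandSet h)) + ⟨_, hw⟩ = ⟨_, hu⟩ := by
      apply Subtype.ext
      ext s
      show φ s • (u : C(K, X)) s + (1 - φ s) • (u : C(K, X)) s = (u : C(K, X)) s
      module
    rw [hLval, ← e1, ← e2, ← map_add, e4, e3]
  · intro t b ψ u ht hb hψ hut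
    rw [hLval, map_add,
      hG.height_hext_zero hZ ht hb hψ (v := smulMap φ (u : C(K, X)))
        (fun s hs => by rw [smulMap_apply, u.2 s hs, smul_zero])
        (by rw [smulMap_apply, hut, smul_zero]),
      hG.height_hext_zero hZ ht hb hψ (v := smulMap (1 - φ) (u : C(K, X)))
        (fun s hs => by rw [smulMap_apply, u.2 s hs, smul_zero])
        (by rw [smulMap_apply, hut, smul_zero]), add_zero]

/-- A cutting function together with a bump at `t` whose multiples of constant vectors are cut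
functions. -/
lemma exists_cut_bump (hZ : IsClosed Z) {t t' : K} (ht : t ∉ Z) (ht' : t' ∉ Z) (hne : t ≠ t') :
    ∃ h κ : C(K, ℝ), IsCutter Z h ∧ κ t = 1 ∧ (∀ s, 0 ≤ κ s) ∧ (∀ s, κ s ≤ 1) ∧
      ∀ s ∈ Z ∪ bandSet h, κ s = 0 := by
  obtain ⟨h₀, h, h0t, -, hcut, hband⟩ := exists_cutter_at ht ht' hne
  obtain ⟨κ, hκt, hκ0, hκ1, hκU⟩ := exists_bump (U := {s | h₀ s < 1 / 3} ∩ Zᶜ)
    ((isOpen_lt h₀.continuous continuous_const).inter hZ.isOpen_compl) (t := t)
    ⟨by show h₀ t < 1 / 3; rw [h0t]; norm_num, ht⟩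
  refine ⟨h, κ, hcut, hκt, hκ0, hκ1, fun s hs => hκU s ?_⟩
  intro hsU
  rcases hs with hs | hs
  · exact hsU.2 hs
  · have h1 : h₀ s < 1 / 3 := hsU.1
    linarith [(hband s hs).1]

/-- Values of the height functionals at `t` on the glued linear map: they only depend on the
value of the function at `t`. -/
lemma glue_height (hG : CIso Z G) (hZ : IsClosed Z) (hK : ∀ t, t ∉ Z → ∃ t', t' ∉ Z ∧ t' ≠ t)
    {L : idealOf (X := X) Z →ₗ[ℝ] Y}
    (hL1 : ∀ (h : C(K, ℝ)) (u : idealOf (X := X) Z), IsCutter Z h →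
      (u : C(K, X)) ∈ idealOf (Z ∪ bandSet h) → L u = hext G (u : C(K, X)))
    (hL2 : ∀ (t : K) (b : X) (ψ : Y →L[ℝ] ℝ) (u : idealOf (X := X) Z), t ∉ Z → ‖b‖ = 1 →
      IsHeight Z G t b ψ → (u : C(K, X)) t = 0 → ψ (L u) = 0)
    {t : K} (ht : t ∉ Z) {b : X} (hb : ‖b‖ = 1) {ψ : Y →L[ℝ] ℝ} (hψ : IsHeight Z G t b ψ)
    (u : idealOf (X := X) Z) :
    ψ (L u) ≤ ‖(u : C(K, X)) t‖ ∧
      ∀ ρ : ℝ, 0 ≤ ρ → (u : C(K, X)) t = ρ • b → ψ (L u) = ρ := by
  obtain ⟨t', ht', hne⟩ := hK t ht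
  obtain ⟨h, κ, hcut, hκt, hκ0, hκ1, hκ⟩ := exists_cut_bump hZ ht ht' (Ne.symm hne)
  have hkmem : ∀ x : X, bumpVec κ x ∈ idealOf (X := X) (Z ∪ bandSet h) := by
    intro x s hs
    rw [bumpVec_apply, hκ s hs, zero_smul]
  have hkZ : ∀ x : X, bumpVec κ x ∈ idealOf (X := X) Z := fun x =>
    idealOf_anti Set.subset_union_left (hkmem x)
  have hknorm : ∀ x : X, ‖bumpVec κ x‖ ≤ ‖x‖ := by
    intro x
    rw [ContinuousMap.norm_le _ (norm_nonneg _)]
    intro s
    rw [bumpVec_apply, norm_smul, Real.norm_eq_abs, abs_of_nonneg (hκ0 s)]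
    calc κ s * ‖x‖ ≤ 1 * ‖x‖ := mul_le_mul_of_nonneg_right (hκ1 s) (norm_nonneg _)
      _ = ‖x‖ := one_mul _
  -- reduction to the bump
  have hred : ψ (L u) = ψ (L ⟨bumpVec κ ((u : C(K, X)) t), hkZ _⟩) := by
    have e : u = (u - ⟨bumpVec κ ((u : C(K, X)) t), hkZ _⟩) +
        ⟨bumpVec κ ((u : C(K, X)) t), hkZ _⟩ := by
      rw [sub_add_cancel]
    have h0 : ψ (L (u - ⟨bumpVec κ ((u : C(K, X)) t), hkZ _⟩)) = 0 := by
      apply hL2 t b ψ _ ht hb hψ
      show (u : C(K, X)) t - κ t • (u : C(K, X)) t = 0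
      rw [hκt, one_smul, sub_self]
    conv_lhs => rw [e]
    rw [map_add, map_add, h0, zero_add]
  have hle : ∀ y, ψ y ≤ ‖y‖ := hψ.1
  constructor
  · rw [hred, hL1 h _ hcut (hkmem _)]
    show ψ (hext G (bumpVec κ ((u : C(K, X)) t))) ≤ _
    rcases eq_or_ne (bumpVec κ ((u : C(K, X)) t)) 0 with h0 | hne0
    · rw [h0, hext_zero, map_zero]
      exact norm_nonneg _
    · unfold hext
      rw [map_smul, smul_eq_mul]
      have h1 := hle (G (‖bumpVec κ ((u : C(K, X)) t)‖⁻¹ • bumpVec κ ((u : C(K, X)) t)))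
      rw [hG.norm_map _ (Submodule.smul_mem _ _ (hkZ _)) (norm_inv_smul_self hne0)] at h1
      calc ‖bumpVec κ ((u : C(K, X)) t)‖ *
            ψ (G (‖bumpVec κ ((u : C(K, X)) t)‖⁻¹ • bumpVec κ ((u : C(K, X)) t)))
          ≤ ‖bumpVec κ ((u : C(K, X)) t)‖ * 1 :=
            mul_le_mul_of_nonneg_left h1 (norm_nonneg _)
        _ = ‖bumpVec κ ((u : C(K, X)) t)‖ := mul_one _
        _ ≤ ‖(u : C(K, X)) t‖ := hknorm _
  · intro ρ hρ hut
    have hb1 : ‖bumpVec κ b‖ = 1 := by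
      apply le_antisymm
      · have := hknorm b
        rwa [hb] at this
      · have h1 := (bumpVec κ b).norm_coe_le_norm t
        rw [bumpVec_apply, hκt, one_smul, hb] at h1
        exact h1
    have e : (⟨bumpVec κ ((u : C(K, X)) t), hkZ _⟩ : idealOf (X := X) Z) =
        ρ • ⟨bumpVec κ b, hkZ b⟩ := by
      apply Subtype.ext
      ext s
      show κ s • (u : C(K, X)) t = ρ • (κ s • b)
      rw [hut, smul_comm]
    rw [hred, e, map_smul, map_smul, hL1 h _ hcut (hkmem b)]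
    show ρ • ψ (hext G (bumpVec κ b)) = ρ
    rw [hext_of_norm_one G hb1, hψ.2.1 _ (hkZ b) hb1 (by rw [bumpVec_apply, hκt, one_smul]),
      smul_eq_mul, mul_one]

/-- The glued linear map is an isometry. -/
lemma glue_norm (hG : CIso Z G) (hZ : IsClosed Z) (hK : ∀ t, t ∉ Z → ∃ t', t' ∉ Z ∧ t' ≠ t)
    {L : idealOf (X := X) Z →ₗ[ℝ] Y}
    (hL1 : ∀ (h : C(K, ℝ)) (u : idealOf (X := X) Z), IsCutter Z h →
      (u : C(K, X)) ∈ idealOf (Z ∪ bandSet h) → L u = hext G (u : C(K, X)))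
    (hL2 : ∀ (t : K) (b : X) (ψ : Y →L[ℝ] ℝ) (u : idealOf (X := X) Z), t ∉ Z → ‖b‖ = 1 →
      IsHeight Z G t b ψ → (u : C(K, X)) t = 0 → ψ (L u) = 0)
    [Nonempty K] (u : idealOf (X := X) Z) : ‖L u‖ = ‖u‖ := by
  apply le_antisymm
  · rcases eq_or_ne (L u) 0 with h0 | hne0
    · rw [h0, norm_zero]
      exact norm_nonneg _
    · obtain ⟨v, hvZ, hv1, hGv⟩ := hG.surj _ (norm_inv_smul_self hne0)
      obtain ⟨t, ht⟩ := exists_norm_apply_eq v
      rw [hv1] at ht
      have htZ : t ∉ Z := by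
        intro h
        rw [hvZ t h, norm_zero] at ht
        exact zero_ne_one ht
      obtain ⟨ψ, hψ⟩ := hG.exists_isHeight hZ htZ ht
      have h1 : ψ (G v) = 1 := hψ.2.1 v hvZ hv1 rfl
      have h2 : ψ (L u) = ‖L u‖ := by
        have e : ψ (L u) = ψ (‖L u‖ • (‖L u‖⁻¹ • L u)) := by rw [norm_smul_inv_smul_self]
        rw [e, map_smul, ← hGv, h1, smul_eq_mul, mul_one]
      have h3 := (hG.glue_height hZ hK hL1 hL2 htZ ht hψ u).1
      rw [h2] at h3
      exact h3.trans ((u : C(K, X)).norm_coe_le_norm t)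
  · rcases eq_or_ne u 0 with rfl | hne0
    · rw [norm_zero]
      exact norm_nonneg _
    · obtain ⟨t, ht⟩ := exists_norm_apply_eq (u : C(K, X))
      have hpos : 0 < ‖(u : C(K, X))‖ := by
        rw [← Submodule.coe_norm]
        exact norm_pos_iff.mpr hne0
      have hut : (u : C(K, X)) t ≠ 0 := by
        intro h
        rw [h, norm_zero] at ht
        rw [← ht] at hpos
        exact lt_irrefl _ hpos
      have htZ : t ∉ Z := fun h => hut (u.2 t h)
      obtain ⟨ψ, hψ⟩ := hG.exists_isHeight hZ htZ (norm_inv_smul_self hut)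
      have h3 := (hG.glue_height hZ hK hL1 hL2 htZ (norm_inv_smul_self hut) hψ u).2
        ‖(u : C(K, X)) t‖ (norm_nonneg _) (norm_smul_inv_smul_self _).symm
      have h4 := hψ.1 (L u)
      rw [h3, ht] at h4
      exact h4

/-- Main theorem in function form: `G` agrees on the unit sphere of the space of functions
vanishing on `Z` with a linear isometry. -/
theorem exists_linear [CompleteSpace Y] [Nontrivial X] (hG : CIso Z G) (hZ : IsClosed Z)
    {t₁ t₂ : K} (ht₁ : t₁ ∉ Z) (ht₂ : t₂ ∉ Z) (hne : t₁ ≠ t₂) :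
    ∃ L : idealOf (X := X) Z →ₗ[ℝ] Y, (∀ u, ‖L u‖ = ‖u‖) ∧
      ∀ u : idealOf (X := X) Z, ‖u‖ = 1 → L u = G (u : C(K, X)) := by
  have hK : ∀ t, t ∉ Z → ∃ t', t' ∉ Z ∧ t' ≠ t := by
    intro t _
    by_cases h : t = t₁
    · exact ⟨t₂, ht₂, by rw [h]; exact Ne.symm hne⟩
    · exact ⟨t₁, ht₁, Ne.symm h⟩
  have hKne : Nonempty K := ⟨t₁⟩
  obtain ⟨L, hL1, hL2⟩ := hG.exists_glue hZ ht₁ ht₂ hne
  have hnorm : ∀ u, ‖L u‖ = ‖u‖ := fun u => hG.glue_norm hZ hK hL1 hL2 u
  refine ⟨L, hnorm, fun u hu => ?_⟩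
  have hu1 : ‖(u : C(K, X))‖ = 1 := by rw [← Submodule.coe_norm]; exact hu
  obtain ⟨u'', hu''Z, hu''1, hGu''⟩ := hG.surj (L u) (by rw [hnorm, hu])
  have hdist : ∀ (h : C(K, ℝ)) (w : C(K, X)), IsCutter Z h → w ∈ idealOf (Z ∪ bandSet h) →
      ‖w‖ = 1 → ‖(u : C(K, X)) - w‖ = ‖u'' - w‖ := by
    intro h w hcut hw hw1
    have hwZ : w ∈ idealOf Z := idealOf_anti Set.subset_union_left hw
    have e1 : L ⟨w, hwZ⟩ = G w := by
      rw [hL1 h ⟨w, hwZ⟩ hcut hw]
      exact hext_of_norm_one G hw1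
    have e2 : ‖(u : C(K, X)) - w‖ = ‖L (u - ⟨w, hwZ⟩)‖ := by
      rw [hnorm, Submodule.coe_norm, Submodule.coe_sub]
    rw [e2, map_sub, e1, ← hGu'']
    exact hG.dist_map u'' hu''Z w hwZ hu''1 hw1
  have hfin := eq_of_dist_cut hZ hK u.2 hu''Z hu1 hu''1 hdist
  rw [← hGu'', hfin]

end CIso

section Wrapper

/-- Let `Z` be a closed subset of the compact Hausdorff space `K` whose complement has at least
two points, `X` a nonzero real normed space and `Y` a real Banach space. Every surjective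
isometry from the unit sphere of the space of continuous functions `K → X` vanishing on `Z` onto
the unit sphere of `Y` is the restriction of a surjective real-linear isometry. -/
theorem exists_linearIsometryEquiv_ideal [CompleteSpace Y] [Nontrivial X] {Z : Set K}
    (hZ : IsClosed Z) (hK : ∃ t₁ t₂ : K, t₁ ∉ Z ∧ t₂ ∉ Z ∧ t₁ ≠ t₂)
    (f : Metric.sphere (0 : idealOf (X := X) Z) 1 → Metric.sphere (0 : Y) 1) (hf : Isometry f)
    (hsurj : Function.Surjective f) :
    ∃ T : idealOf (X := X) Z ≃ₗᵢ[ℝ] Y,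
      ∀ p : Metric.sphere (0 : idealOf (X := X) Z) 1,
        T (p : idealOf (X := X) Z) = (f p : Y) := by
  classical
  obtain ⟨t₁, t₂, ht₁, ht₂, hne⟩ := hK
  obtain ⟨g₀, h1, h2, h3, h4⟩ := exists_fun_of_sphere_map f hf hsurj
  obtain ⟨G, hGdef⟩ : ∃ G : C(K, X) → Y,
      G = fun u => if h : u ∈ idealOf (X := X) Z then g₀ ⟨u, h⟩ else 0 := ⟨_, rfl⟩
  have hGval : ∀ u : idealOf (X := X) Z, G (u : C(K, X)) = g₀ u := by
    intro u
    rw [hGdef]
    simp only [dif_pos u.2]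
  have hG : CIso Z G := by
    refine ⟨fun u hu hu1 => ?_, fun u hu v hv hu1 hv1 => ?_, fun w hw => ?_⟩
    · rw [hGval ⟨u, hu⟩]
      exact h1 _ hu1
    · rw [hGval ⟨u, hu⟩, hGval ⟨v, hv⟩]
      exact h2 ⟨u, hu⟩ ⟨v, hv⟩ hu1 hv1
    · obtain ⟨u, hu1, hgu⟩ := h3 w hw
      exact ⟨u, u.2, hu1, by rw [hGval, hgu]⟩
  obtain ⟨L, hnorm, hLG⟩ := hG.exists_linear hZ ht₁ ht₂ hne
  let T₀ : idealOf (X := X) Z →ₗᵢ[ℝ] Y := ⟨L, hnorm⟩
  have hT₀ : Function.Surjective T₀ := by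
    intro y
    rcases eq_or_ne y 0 with rfl | hy
    · exact ⟨0, map_zero _⟩
    · obtain ⟨u, hu1, hgu⟩ := h3 _ (norm_inv_smul_self hy)
      refine ⟨‖y‖ • u, ?_⟩
      show L (‖y‖ • u) = y
      rw [map_smul, hLG u hu1, hGval, hgu, norm_smul_inv_smul_self]
  refine ⟨LinearIsometryEquiv.ofSurjective T₀ hT₀, fun p => ?_⟩
  show L (p : idealOf (X := X) Z) = (f p : Y)
  rw [hLG _ (mem_sphere_zero_iff_norm.mp p.2), hGval, h4]

/-- The space of all continuous functions, as the space of the functions vanishing on the empty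
set. -/
def idealEmptyEquiv : C(K, X) ≃ₗᵢ[ℝ] idealOf (X := X) (∅ : Set K) where
  toFun u := ⟨u, fun t ht => absurd ht (Set.notMem_empty t)⟩
  map_add' _ _ := rfl
  map_smul' _ _ := rfl
  invFun u := u
  left_inv _ := rfl
  right_inv _ := rfl
  norm_map' _ := rfl

/-- Let `K` be a compact Hausdorff space with at least two points, `X` a nonzero real normed
space and `Y` a real Banach space. Every surjective isometry from the unit sphere of `C(K, X)`
onto the unit sphere of `Y` is the restriction of a surjective real-linear isometry. -/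
theorem exists_linearIsometryEquiv_continuousMap [CompleteSpace Y] [Nontrivial X] [Nontrivial K]
    (f : Metric.sphere (0 : C(K, X)) 1 → Metric.sphere (0 : Y) 1) (hf : Isometry f)
    (hsurj : Function.Surjective f) :
    ∃ T : C(K, X) ≃ₗᵢ[ℝ] Y, ∀ p : Metric.sphere (0 : C(K, X)) 1, T (p : C(K, X)) = (f p : Y) := by
  obtain ⟨t₁, t₂, hne⟩ := exists_pair_ne K
  exact exists_linearIsometryEquiv_of_equiv idealEmptyEquiv
    (fun f' hf' hs' => exists_linearIsometryEquiv_ideal isClosed_empty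
      ⟨t₁, t₂, Set.notMem_empty _, Set.notMem_empty _, hne⟩ f' hf' hs') f hf hsurj

end Wrapper

end CKMain

end Vale.Agent.H23
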