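import Mathlib

/-!
# A chain lemma on the unit sphere of a normed space

If a map `D` defined on the unit sphere of a real normed space satisfies
`‖D x - D y‖ ≤ K * (2 - ‖x + y‖)` for all unit vectors `x, y`, then `D a = D a'` for all unit
vectors `a, a'` which are not antipodal. The proof joins `a` to `a'` by the normalised points of
the segment `[a, a']` and estimates the sum of the gaps `2 - ‖x i + x (i + 1)‖` by a telescoping
sum of values of norming functionals.
-/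

namespace Vale.Agent.H23

section Chain

variable {E F : Type*} [NormedAddCommGroup E] [NormedSpace ℝ E] [NormedAddCommGroup F]

lemma eq_of_gap_bound (D : E → F) {K : ℝ} (hK : 0 ≤ K)
    (hD : ∀ x y : E, ‖x‖ = 1 → ‖y‖ = 1 → ‖D x - D y‖ ≤ K * (2 - ‖x + y‖))
    {a a' : E} (ha : ‖a‖ = 1) (ha' : ‖a'‖ = 1) (hne : a + a' ≠ 0) : D a = D a' := by
  obtain ⟨e, he⟩ : ∃ e : E, e = a' - a := ⟨_, rfl⟩
  have hp_ne : ∀ s : ℝ, 0 ≤ s → s ≤ 1 → a + s • e ≠ 0 := by
    intro s hs0 hs1 h0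
    have e1 : a + s • e = (1 - s) • a + s • a' := by rw [he]; module
    have h1 : (1 - s) • a = -(s • a') := by
      rw [e1] at h0
      exact eq_neg_of_add_eq_zero_left h0
    have h2 : 1 - s = s := by
      have := congrArg norm h1
      rw [norm_neg, norm_smul, norm_smul, ha, ha', Real.norm_eq_abs, Real.norm_eq_abs,
        abs_of_nonneg (by linarith), abs_of_nonneg hs0, mul_one, mul_one] at this
      exact this
    have hs : s = 1 / 2 := by linarith
    apply hne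
    have e2 : a + s • e = (1 / 2 : ℝ) • (a + a') := by rw [hs, he]; module
    rw [e2] at h0
    exact (smul_eq_zero.mp h0).resolve_left (by norm_num)
  obtain ⟨s₀, hs₀, hmin⟩ := isCompact_Icc.exists_isMinOn
    (Set.nonempty_Icc.mpr (zero_le_one' ℝ)) (f := fun s : ℝ => ‖a + s • e‖)
    (by fun_prop : Continuous fun s : ℝ => ‖a + s • e‖).continuousOn
  obtain ⟨m, hm⟩ : ∃ m : ℝ, m = ‖a + s₀ • e‖ := ⟨_, rfl⟩
  have hmpos : 0 < m := by rw [hm]; exact norm_pos_iff.mpr (hp_ne s₀ hs₀.1 hs₀.2)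
  have hmle : ∀ s : ℝ, 0 ≤ s → s ≤ 1 → m ≤ ‖a + s • e‖ := by
    intro s h0 h1
    rw [hm]
    exact hmin ⟨h0, h1⟩
  have hmain : ∀ n : ℕ, 0 < n → ‖D a - D a'‖ ≤ K * (2 * ‖e‖ / (n * m)) := by
    intro n hn
    have hnpos : (0 : ℝ) < n := by exact_mod_cast hn
    obtain ⟨p, hp⟩ : ∃ p : ℕ → E, p = fun i : ℕ => a + ((i : ℝ) / n) • e := ⟨_, rfl⟩
    have hpi : ∀ i, p i = a + ((i : ℝ) / n) • e := fun i => by rw [hp]
    have hin : ∀ i : ℕ, i ≤ n → (i : ℝ) / n ≤ 1 := by
      intro i hi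
      rw [div_le_one hnpos]; exact_mod_cast hi
    have hpne : ∀ i, i ≤ n → p i ≠ 0 := fun i hi => by
      rw [hpi]; exact hp_ne _ (by positivity) (hin i hi)
    have hpm : ∀ i, i ≤ n → m ≤ ‖p i‖ := fun i hi => by
      rw [hpi]; exact hmle _ (by positivity) (hin i hi)
    have hφ : ∀ i : ℕ, ∃ φ : StrongDual ℝ E, ‖φ‖ ≤ 1 ∧ φ (p i) = ‖p i‖ := by
      intro i
      obtain ⟨φ, h1, h2⟩ := exists_dual_vector'' ℝ (p i)
      exact ⟨φ, h1, by simpa using h2⟩
    choose φ hφ1 hφ2 using hφ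
    obtain ⟨x, hx⟩ : ∃ x : ℕ → E, x = fun i : ℕ => ‖p i‖⁻¹ • p i := ⟨_, rfl⟩
    have hxi : ∀ i, x i = ‖p i‖⁻¹ • p i := fun i => by rw [hx]
    have hx1 : ∀ i, i ≤ n → ‖x i‖ = 1 := fun i hi => by
      rw [hxi, norm_smul, norm_inv, norm_norm]
      exact inv_mul_cancel₀ (norm_ne_zero_iff.mpr (hpne i hi))
    have hp0 : p 0 = a := by rw [hpi]; simp
    have hpn : p n = a' := by
      rw [hpi, div_self hnpos.ne', one_smul, he]; abel
    have hx0 : x 0 = a := by rw [hxi, hp0, ha, inv_one, one_smul]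
    have hxn : x n = a' := by rw [hxi, hpn, ha', inv_one, one_smul]
    have hle : ∀ (ψ : StrongDual ℝ E), ‖ψ‖ ≤ 1 → ∀ v : E, ψ v ≤ ‖v‖ := by
      intro ψ h1 v
      calc ψ v ≤ ‖ψ v‖ := Real.le_norm_self _
        _ ≤ ‖ψ‖ * ‖v‖ := ψ.le_opNorm v
        _ ≤ 1 * ‖v‖ := by gcongr
        _ = ‖v‖ := one_mul _
    have hstep : ∀ i, i < n →
        2 - ‖x i + x (i + 1)‖ ≤ (φ (i + 1) e - φ i e) / (n * m) := by
      intro i hi
      have hi1 : i + 1 ≤ n := hi
      have hNi : 0 < ‖p i‖ := norm_pos_iff.mpr (hpne i hi.le)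
      have hNi1 : 0 < ‖p (i + 1)‖ := norm_pos_iff.mpr (hpne (i + 1) hi1)
      have hpp : p (i + 1) = p i + (1 / (n : ℝ)) • e := by
        rw [hpi, hpi]
        push_cast
        have : ((i : ℝ) + 1) / n = (i : ℝ) / n + 1 / n := by ring
        rw [this]; module
      have h1 : 1 + (‖p i‖ + φ i e / n) / ‖p (i + 1)‖ ≤ ‖x i + x (i + 1)‖ := by
        have h2 := hle (φ i) (hφ1 i) (x i + x (i + 1))
        have h3 : φ i (x i + x (i + 1)) = 1 + (‖p i‖ + φ i e / n) / ‖p (i + 1)‖ := by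
          rw [hxi, hxi, map_add, map_smul, map_smul, hφ2 i, hpp, map_add, map_smul, hφ2 i]
          simp only [smul_eq_mul]
          field_simp
        rw [← h3]; exact h2
      have h4 : ‖p (i + 1)‖ ≤ ‖p i‖ + φ (i + 1) e / n := by
        have h5 := hφ2 (i + 1)
        rw [hpp, map_add, map_smul] at h5
        have h6 := hle (φ (i + 1)) (hφ1 (i + 1)) (p i)
        rw [← hpp] at h5
        rw [← h5]
        simp only [smul_eq_mul]
        have : 1 / (n : ℝ) * φ (i + 1) e = φ (i + 1) e / n := by ring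
        rw [this]
        linarith
      have hA : 2 - ‖x i + x (i + 1)‖ ≤ ((φ (i + 1) e - φ i e) / n) / ‖p (i + 1)‖ := by
        have h7 : 2 - ‖x i + x (i + 1)‖ ≤ 1 - (‖p i‖ + φ i e / n) / ‖p (i + 1)‖ := by linarith
        refine h7.trans ?_
        rw [le_div_iff₀ hNi1, sub_mul, one_mul, div_mul_cancel₀ _ hNi1.ne']
        have : (φ (i + 1) e - φ i e) / n = φ (i + 1) e / n - φ i e / n := by ring
        rw [this]
        linarith
      have hA0 : 0 ≤ (φ (i + 1) e - φ i e) / n := by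
        have h7 : 0 ≤ 2 - ‖x i + x (i + 1)‖ := by
          have := norm_add_le (x i) (x (i + 1))
          rw [hx1 i hi.le, hx1 (i + 1) hi1] at this
          linarith
        have h8 := h7.trans hA
        by_contra hneg
        have : (φ (i + 1) e - φ i e) / n / ‖p (i + 1)‖ < 0 :=
          div_neg_of_neg_of_pos (not_le.mp hneg) hNi1
        linarith
      calc 2 - ‖x i + x (i + 1)‖ ≤ ((φ (i + 1) e - φ i e) / n) / ‖p (i + 1)‖ := hA
        _ ≤ ((φ (i + 1) e - φ i e) / n) / m :=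
          div_le_div_of_nonneg_left hA0 hmpos (hpm (i + 1) hi1)
        _ = (φ (i + 1) e - φ i e) / (n * m) := by rw [div_div]
    have hsum : ‖D (x 0) - D (x n)‖ ≤ ∑ i ∈ Finset.range n, ‖D (x i) - D (x (i + 1))‖ := by
      have := dist_le_range_sum_dist (fun i => D (x i)) n
      simpa [dist_eq_norm] using this
    have hsum2 : ∑ i ∈ Finset.range n, ‖D (x i) - D (x (i + 1))‖
        ≤ ∑ i ∈ Finset.range n, K * ((φ (i + 1) e - φ i e) / (n * m)) := by
      apply Finset.sum_le_sum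
      intro i hi
      have hi' : i < n := Finset.mem_range.mp hi
      exact (hD _ _ (hx1 i hi'.le) (hx1 (i + 1) hi')).trans
        (mul_le_mul_of_nonneg_left (hstep i hi') hK)
    have htel : ∑ i ∈ Finset.range n, K * ((φ (i + 1) e - φ i e) / (n * m))
        = K * ((φ n e - φ 0 e) / (n * m)) := by
      rw [← Finset.mul_sum, ← Finset.sum_div, Finset.sum_range_sub (fun i => φ i e)]
    have hbound : φ n e - φ 0 e ≤ 2 * ‖e‖ := by
      have h1 := hle (φ n) (hφ1 n) e
      have h2 := hle (φ 0) (hφ1 0) (-e)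
      rw [map_neg, norm_neg] at h2
      linarith
    rw [hx0, hxn] at hsum
    calc ‖D a - D a'‖ ≤ K * ((φ n e - φ 0 e) / (n * m)) := by
          rw [← htel]; exact hsum.trans hsum2
      _ ≤ K * (2 * ‖e‖ / (n * m)) := by gcongr
  by_contra hne'
  have hpos : 0 < ‖D a - D a'‖ := norm_pos_iff.mpr (sub_ne_zero.mpr hne')
  obtain ⟨n, hn⟩ := exists_nat_gt (K * (2 * ‖e‖) / (m * ‖D a - D a'‖))
  have hn0 : 0 < n := by
    have : (0 : ℝ) ≤ K * (2 * ‖e‖) / (m * ‖D a - D a'‖) := by positivity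
    exact_mod_cast lt_of_le_of_lt this hn
  have h1 := hmain n hn0
  have hnpos : (0 : ℝ) < n := by exact_mod_cast hn0
  rw [div_lt_iff₀ (by positivity)] at hn
  have h2 : K * (2 * ‖e‖ / (n * m)) * (n * m) = K * (2 * ‖e‖) := by field_simp
  have h3 : ‖D a - D a'‖ * (n * m) ≤ K * (2 * ‖e‖) := by
    rw [← h2]; exact mul_le_mul_of_nonneg_right h1 (by positivity)
  nlinarith

end Chain

end Vale.Agent.H23
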