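import Vale.Agent.H23.L1Sum

/-!
# From closure under equal-norm sums to additivity

A homogeneous norm-preserving map `G : E → Y` with closed range, whose range is closed under sums
of two elements of the same norm, has a range that is a closed subspace; if every surjective
isometry from the unit sphere of `E` onto the unit sphere of a closed subspace of `Y` is linear,
then `G` is additive.
-/

namespace Vale.Agent.H23

variable {E Y : Type*} [NormedAddCommGroup E] [NormedSpace ℝ E]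
  [NormedAddCommGroup Y] [NormedSpace ℝ Y]

lemma range_add_of_eqsum {G : E → Y} (hsmul : ∀ (t : ℝ) (a : E), G (t • a) = t • G a)
    (hnorm : ∀ a, ‖G a‖ = ‖a‖) (hclosed : IsClosed (Set.range G))
    (heq : ∀ a b, ‖a‖ = ‖b‖ → ∃ c, G a + G b = G c) (a b : E) :
    ∃ c, G a + G b = G c := by
  have hG0 : G 0 = 0 := by
    have := hsmul 0 0
    simpa using this
  by_cases ha : a = 0
  · exact ⟨b, by rw [ha, hG0, zero_add]⟩
  by_cases hb : b = 0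
  · exact ⟨a, by rw [hb, hG0, add_zero]⟩
  set U : Set Y := Set.range G ∩ {y | ‖y‖ = 1} with hU
  have hU1 : ∀ p ∈ U, ‖p‖ = 1 := fun p hp => hp.2
  have hUc : IsClosed U := hclosed.inter (isClosed_eq continuous_norm continuous_const)
  have hUsum : ∀ p ∈ U, ∀ q ∈ U, p + q ≠ 0 → ‖p + q‖⁻¹ • (p + q) ∈ U := by
    rintro p ⟨⟨a', rfl⟩, hp⟩ q ⟨⟨b', rfl⟩, hq⟩ hne
    have ha' : ‖a'‖ = 1 := by rw [← hnorm]; exact hp
    have hb' : ‖b'‖ = 1 := by rw [← hnorm]; exact hq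
    obtain ⟨c, hc⟩ := heq a' b' (by rw [ha', hb'])
    refine ⟨⟨‖G a' + G b'‖⁻¹ • c, ?_⟩, ?_⟩
    · rw [hsmul, hc]
    · exact norm_inv_smul_self hne
  set p := G (‖a‖⁻¹ • a) with hp
  set q := G (‖b‖⁻¹ • b) with hq
  have hpU : p ∈ U := ⟨⟨_, rfl⟩, by
    show ‖p‖ = 1
    rw [hp, hnorm]; exact norm_inv_smul_self ha⟩
  have hqU : q ∈ U := ⟨⟨_, rfl⟩, by
    show ‖q‖ = 1
    rw [hq, hnorm]; exact norm_inv_smul_self hb⟩
  have hap : G a = ‖a‖ • p := by rw [hp, ← hsmul, norm_smul_inv_smul_self]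
  have hbq : G b = ‖b‖ • q := by rw [hq, ← hsmul, norm_smul_inv_smul_self]
  by_cases hpq : p + q = 0
  · have hq' : q = -p := eq_neg_of_add_eq_zero_right hpq
    refine ⟨(‖a‖ - ‖b‖) • (‖a‖⁻¹ • a), ?_⟩
    rw [hsmul, hap, hbq, hq', ← hp]; module
  · have hpos : 0 < ‖a‖ + ‖b‖ := by
      have := norm_pos_iff.mpr ha
      have := norm_nonneg b
      linarith
    have hmem := normalized_combo_mem hU1 hUc hUsum hpU hqU hpq (norm_nonneg a) (norm_nonneg b)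
      hpos
    obtain ⟨⟨c, hc⟩, -⟩ := hmem
    refine ⟨‖‖a‖ • p + ‖b‖ • q‖ • c, ?_⟩
    rw [hsmul, hc, hap, hbq, norm_smul_inv_smul_self]

/-- The range of `G`, as a submodule. -/
noncomputable def rangeSubmodule {G : E → Y} (hsmul : ∀ (t : ℝ) (a : E), G (t • a) = t • G a)
    (hnorm : ∀ a, ‖G a‖ = ‖a‖) (hclosed : IsClosed (Set.range G))
    (heq : ∀ a b, ‖a‖ = ‖b‖ → ∃ c, G a + G b = G c) : Submodule ℝ Y where
  carrier := Set.range G
  add_mem' := by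
    rintro _ _ ⟨a, rfl⟩ ⟨b, rfl⟩
    obtain ⟨c, hc⟩ := range_add_of_eqsum hsmul hnorm hclosed heq a b
    exact ⟨c, hc.symm⟩
  zero_mem' := ⟨0, by simpa using hsmul 0 0⟩
  smul_mem' := by
    rintro t _ ⟨a, rfl⟩
    exact ⟨t • a, hsmul t a⟩

theorem additive_of_eqsum {G : E → Y} (hsmul : ∀ (t : ℝ) (a : E), G (t • a) = t • G a)
    (hnorm : ∀ a, ‖G a‖ = ‖a‖) (hclosed : IsClosed (Set.range G))
    (heq : ∀ a b, ‖a‖ = ‖b‖ → ∃ c, G a + G b = G c)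
    (hdist : ∀ a b, ‖a‖ = 1 → ‖b‖ = 1 → ‖G a - G b‖ = ‖a - b‖)
    (hM : ∀ (Z : Submodule ℝ Y), IsClosed (Z : Set Y) → ∀ k : E → Z,
      (∀ a, ‖a‖ = 1 → ‖k a‖ = 1) → (∀ a b, ‖a‖ = 1 → ‖b‖ = 1 → ‖k a - k b‖ = ‖a - b‖) →
      (∀ w : Z, ‖w‖ = 1 → ∃ a, ‖a‖ = 1 ∧ k a = w) →
      ∃ T : E ≃ₗᵢ[ℝ] Z, ∀ a, ‖a‖ = 1 → T a = k a) (a b : E) :
    G (a + b) = G a + G b := by
  have hG0 : G 0 = 0 := by simpa using hsmul 0 0
  let k : E → rangeSubmodule hsmul hnorm hclosed heq := fun a => ⟨G a, ⟨a, rfl⟩⟩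
  have hk1 : ∀ a, ‖a‖ = 1 → ‖k a‖ = 1 := by
    intro a ha
    rw [Submodule.coe_norm]
    show ‖G a‖ = 1
    rw [hnorm, ha]
  have hk2 : ∀ a b, ‖a‖ = 1 → ‖b‖ = 1 → ‖k a - k b‖ = ‖a - b‖ := by
    intro a b ha hb
    rw [Submodule.coe_norm, Submodule.coe_sub]
    exact hdist a b ha hb
  have hk3 : ∀ w : rangeSubmodule hsmul hnorm hclosed heq, ‖w‖ = 1 → ∃ a, ‖a‖ = 1 ∧ k a = w := by
    rintro ⟨w, ⟨c, rfl⟩⟩ hw
    refine ⟨c, ?_, rfl⟩
    rw [Submodule.coe_norm] at hw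
    rw [← hnorm]; exact hw
  obtain ⟨T, hT⟩ := hM (rangeSubmodule hsmul hnorm hclosed heq) hclosed k hk1 hk2 hk3
  have hTG : ∀ a, ((T a : rangeSubmodule hsmul hnorm hclosed heq) : Y) = G a := by
    intro a
    by_cases ha : a = 0
    · simp [ha, hG0]
    · have h1 := hT _ (norm_inv_smul_self ha)
      have h2 : T a = ‖a‖ • T (‖a‖⁻¹ • a) := by
        rw [← map_smul, norm_smul_inv_smul_self]
      rw [h2, h1, Submodule.coe_smul]
      show ‖a‖ • G (‖a‖⁻¹ • a) = G a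
      rw [← hsmul, norm_smul_inv_smul_self]
  rw [← hTG, ← hTG, ← hTG, map_add, Submodule.coe_add]

end Vale.Agent.H23
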