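import Vale.Agent.H23.Antipodal
import Vale.Agent.H23.RangeAdd

/-!
# A general criterion for linear extension on `ℓ¹`-sums

Let `g : X₁ → X₂ → Y` restrict to a surjective isometry from the unit sphere of `X₁ ⊕₁ X₂` onto
the unit sphere of `Y` (`X₁`, `X₂` arbitrary nontrivial real normed spaces). If `g` maps the
segments joining the poles `(a, 0)` and `(0, b)` affinely for all `a` and all `b` in a
separating family of unit vectors of `X₂`, and for all `b` and all `a` in a separating family of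
unit vectors of `X₁`, and the two summands have the Mazur-Ulam property (for closed subspaces of
`Y` as targets), then `g` is the restriction of a linear isometry.
-/

namespace Vale.Agent.H23

section Core

variable {X₁ X₂ Y : Type*} [NormedAddCommGroup X₁] [NormedSpace ℝ X₁]
  [NormedAddCommGroup X₂] [NormedSpace ℝ X₂] [NormedAddCommGroup Y] [NormedSpace ℝ Y]

/-- `g` maps the segment joining the poles `(a, 0)` and `(0, b)` affinely. -/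
def SegAt (g : X₁ → X₂ → Y) (a : X₁) (b : X₂) : Prop :=
  ∀ t : ℝ, 0 ≤ t → t ≤ 1 → g ((1 - t) • a) (t • b) = (1 - t) • g a 0 + t • g 0 b

omit [NormedSpace ℝ X₁] [NormedSpace ℝ X₂] [NormedSpace ℝ Y] in
lemma L1Iso.flip {g : X₁ → X₂ → Y} (hg : L1Iso g) : L1Iso (fun b a => g a b) where
  norm_map b a h := hg.norm_map a b (by linarith)
  dist_map b a b' a' h h' := by
    rw [hg.dist_map a b a' b' (by linarith) (by linarith)]; ring
  surj w hw := by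
    obtain ⟨a, b, h, e⟩ := hg.surj w hw
    exact ⟨b, a, by linarith, e⟩

lemma SegAt.flip {g : X₁ → X₂ → Y} {a : X₁} {b : X₂} (h : SegAt g a b) :
    SegAt (fun b a => g a b) b a := by
  intro t ht0 ht1
  have h1 := h (1 - t) (by linarith) (by linarith)
  rw [sub_sub_cancel] at h1
  show g (t • a) ((1 - t) • b) = (1 - t) • g 0 b + t • g a 0
  rw [h1, add_comm]

/-- Nonnegative combinations of two unit vectors whose sum has norm `2`. -/
lemma norm_nonneg_combo {u v : Y} (hu : ‖u‖ = 1) (hv : ‖v‖ = 1) (huv : ‖u + v‖ = 2)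
    {α β : ℝ} (hα : 0 ≤ α) (hβ : 0 ≤ β) : ‖α • u + β • v‖ = α + β := by
  rcases eq_or_lt_of_le (add_nonneg hα hβ) with h0 | hpos
  · have h1 : α = 0 := by linarith
    have h2 : β = 0 := by linarith
    simp [h1, h2]
  · have hs0 : 0 ≤ α / (α + β) := by positivity
    have hs1 : α / (α + β) ≤ 1 := by rw [div_le_one hpos]; linarith
    have h := norm_combo_of_norm_add hu hv huv hs0 hs1
    have e : α • u + β • v = (α + β) • ((α / (α + β)) • u + (1 - α / (α + β)) • v) := by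
      rw [smul_add, smul_smul, smul_smul]
      congr 2
      · field_simp
      · field_simp; ring
    rw [e, norm_smul, h, mul_one, Real.norm_eq_abs, abs_of_pos hpos]

variable [Nontrivial X₁] [Nontrivial X₂] {g : X₁ → X₂ → Y}

lemma L1Iso.neg_fst (hg : L1Iso g) {a : X₁} (ha : ‖a‖ = 1) : g (-a) 0 = - g a 0 := by
  have h := hg.map_neg_neg (c := a) (d := (0 : X₂)) (by simp [ha])
  rwa [neg_zero] at h

lemma L1Iso.neg_snd (hg : L1Iso g) {b : X₂} (hb : ‖b‖ = 1) : g 0 (-b) = - g 0 b := by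
  have h := hg.map_neg_neg (c := (0 : X₁)) (d := b) (by simp [hb])
  rwa [neg_zero] at h

lemma L1Iso.G₁_hom (hg : L1Iso g) (t : ℝ) (a : X₁) : G₁ g (t • a) = t • G₁ g a :=
  hext_smul (fun _ ha => hg.neg_fst ha) t a

lemma L1Iso.G₂_hom (hg : L1Iso g) (t : ℝ) (b : X₂) : G₂ g (t • b) = t • G₂ g b :=
  hext_smul (fun _ hb => hg.neg_snd hb) t b

omit [Nontrivial X₁] [Nontrivial X₂] [NormedSpace ℝ X₂] in
lemma L1Iso.G₁_nrm (hg : L1Iso g) (a : X₁) : ‖G₁ g a‖ = ‖a‖ :=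
  norm_hext (fun a ha => hg.norm_map a 0 (by simp [ha])) a

omit [Nontrivial X₁] [Nontrivial X₂] [NormedSpace ℝ X₁] in
lemma L1Iso.G₂_nrm (hg : L1Iso g) (b : X₂) : ‖G₂ g b‖ = ‖b‖ :=
  norm_hext (fun b hb => hg.norm_map 0 b (by simp [hb])) b

omit [Nontrivial X₁] [Nontrivial X₂] [NormedSpace ℝ X₂] in
lemma G₁_unit (g : X₁ → X₂ → Y) {a : X₁} (ha : ‖a‖ = 1) : G₁ g a = g a 0 :=
  hext_of_norm_one _ ha

omit [Nontrivial X₁] [Nontrivial X₂] [NormedSpace ℝ X₁] in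
lemma G₂_unit (g : X₁ → X₂ → Y) {b : X₂} (hb : ‖b‖ = 1) : G₂ g b = g 0 b :=
  hext_of_norm_one _ hb

omit [Nontrivial X₁] [Nontrivial X₂] [NormedSpace ℝ X₂] in
lemma G₁_map_zero (g : X₁ → X₂ → Y) : G₁ g 0 = 0 := hext_zero _

omit [Nontrivial X₁] [Nontrivial X₂] [NormedSpace ℝ X₁] in
lemma G₂_map_zero (g : X₁ → X₂ → Y) : G₂ g 0 = 0 := hext_zero _

/-- The images of a pole of the first summand and of a pole of the second summand lie on a
common face. -/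
lemma L1Iso.norm_pole_add (hg : L1Iso g) {a : X₁} {b : X₂} (ha : ‖a‖ = 1) (hb : ‖b‖ = 1) :
    ‖g a 0 + g 0 b‖ = 2 := by
  have h := hg.dist_map a 0 0 (-b) (by simp [ha]) (by simp [hb])
  rw [hg.neg_snd hb, sub_neg_eq_add, sub_zero, zero_sub, neg_neg, ha, hb] at h
  rw [h]; norm_num

/-- The candidate linear extension preserves the norm. -/
lemma L1Iso.norm_G_add (hg : L1Iso g) (a : X₁) (b : X₂) : ‖G₁ g a + G₂ g b‖ = ‖a‖ + ‖b‖ := by
  by_cases ha : a = 0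
  · rw [ha, G₁_map_zero, zero_add, hg.G₂_nrm, norm_zero, zero_add]
  by_cases hb : b = 0
  · rw [hb, G₂_map_zero, add_zero, hg.G₁_nrm, norm_zero, add_zero]
  have h1 : ‖‖a‖⁻¹ • a‖ = 1 := norm_inv_smul_self ha
  have h2 : ‖‖b‖⁻¹ • b‖ = 1 := norm_inv_smul_self hb
  have hu : ‖g (‖a‖⁻¹ • a) 0‖ = 1 := hg.norm_map _ _ (by simp [h1])
  have hv : ‖g 0 (‖b‖⁻¹ • b)‖ = 1 := hg.norm_map _ _ (by simp [h2])
  exact norm_nonneg_combo hu hv (hg.norm_pole_add h1 h2) (norm_nonneg a) (norm_nonneg b)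

/-- If all segments from the first summand to the pole `(0, b)` are mapped affinely, the same
holds for the pole `(0, -b)`. -/
lemma L1Iso.segAt_neg (hg : L1Iso g) {b : X₂} (hb : ‖b‖ = 1)
    (hseg : ∀ a : X₁, ‖a‖ = 1 → SegAt g a b) (a : X₁) (ha : ‖a‖ = 1) : SegAt g a (-b) := by
  intro t ht0 ht1
  have h1 := hseg (-a) (by rw [norm_neg]; exact ha) t ht0 ht1
  have hsph : ‖(1 - t) • (-a)‖ + ‖t • b‖ = 1 := by
    rw [norm_smul, norm_smul, norm_neg, ha, hb, Real.norm_eq_abs, Real.norm_eq_abs,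
      abs_of_nonneg (by linarith), abs_of_nonneg ht0]; ring
  have h2 := hg.map_neg_neg hsph
  have e1 : -((1 - t) • (-a)) = (1 - t) • a := by module
  have e2 : -(t • b) = t • (-b) := by module
  rw [e1, e2, h1, hg.neg_fst ha] at h2
  rw [h2, hg.neg_snd hb]
  module

/-- The key estimate: the distance from the sum of two elements of the same norm of the image
of the first summand to a multiple of the image of a pole of the second summand. -/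
lemma L1Iso.norm_G₁_add_sub (hg : L1Iso g) {a a' : X₁} (haa : ‖a‖ = ‖a'‖) {b : X₂}
    (hb : ‖b‖ = 1) (hseg : ∀ a : X₁, ‖a‖ = 1 → SegAt g a b) {s : ℝ} (hs : 0 ≤ s) :
    ‖G₁ g a + G₁ g a' - s • g 0 b‖ = ‖a + a'‖ + s := by
  have hv : ‖g 0 b‖ = 1 := hg.norm_map 0 b (by simp [hb])
  by_cases ha : a = 0
  · have ha' : a' = 0 := by
      rw [ha, norm_zero] at haa
      exact norm_eq_zero.mp haa.symm
    rw [ha, ha', G₁_map_zero, add_zero, zero_sub, norm_neg, norm_smul, hv, mul_one,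
      Real.norm_eq_abs, abs_of_nonneg hs, add_zero, norm_zero, zero_add]
  have ha' : a' ≠ 0 := by
    intro h0
    rw [h0, norm_zero] at haa
    exact ha (norm_eq_zero.mp haa)
  have hapos : 0 < ‖a‖ := norm_pos_iff.mpr ha
  obtain ⟨ρ, hρ⟩ : ∃ ρ : ℝ, ρ = ‖a‖ + s / 2 := ⟨_, rfl⟩
  have hρpos : 0 < ρ := by rw [hρ]; linarith
  obtain ⟨τ, hτ⟩ : ∃ τ : ℝ, τ = s / 2 / ρ := ⟨_, rfl⟩
  have hτ0 : 0 ≤ τ := by rw [hτ]; positivity
  have hτ1 : τ ≤ 1 := by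
    rw [hτ, div_le_one hρpos, hρ]; linarith
  have hρτ : ρ * τ = s / 2 := by rw [hτ]; field_simp
  have hρ1τ : ρ * (1 - τ) = ‖a‖ := by rw [mul_sub, hρτ, hρ]; ring
  obtain ⟨â, hâ⟩ : ∃ â : X₁, â = ‖a‖⁻¹ • a := ⟨_, rfl⟩
  obtain ⟨â', hâ'⟩ : ∃ â' : X₁, â' = ‖a'‖⁻¹ • a' := ⟨_, rfl⟩
  have hâ1 : ‖â‖ = 1 := by rw [hâ]; exact norm_inv_smul_self ha
  have hâ'1 : ‖â'‖ = 1 := by rw [hâ']; exact norm_inv_smul_self ha'
  have hnâ'1 : ‖-â'‖ = 1 := by rw [norm_neg]; exact hâ'1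
  have hnb : ‖-b‖ = 1 := by rw [norm_neg]; exact hb
  have hp := hg.segAt_neg hb hseg â hâ1 τ hτ0 hτ1
  have hq := hseg (-â') hnâ'1 τ hτ0 hτ1
  rw [hg.neg_snd hb] at hp
  rw [hg.neg_fst hâ'1] at hq
  have hsph1 : ‖(1 - τ) • â‖ + ‖τ • (-b)‖ = 1 := by
    rw [norm_smul, norm_smul, hâ1, hnb, Real.norm_eq_abs, Real.norm_eq_abs,
      abs_of_nonneg (by linarith), abs_of_nonneg hτ0]; ring
  have hsph2 : ‖(1 - τ) • (-â')‖ + ‖τ • b‖ = 1 := by
    rw [norm_smul, norm_smul, hnâ'1, hb, Real.norm_eq_abs, Real.norm_eq_abs,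
      abs_of_nonneg (by linarith), abs_of_nonneg hτ0]; ring
  have hd := hg.dist_map _ _ _ _ hsph1 hsph2
  rw [hp, hq] at hd
  have hG : G₁ g a = ‖a‖ • g â 0 := by rw [hâ]; rfl
  have hG' : G₁ g a' = ‖a‖ • g â' 0 := by rw [hâ', haa]; rfl
  have e1 : G₁ g a + G₁ g a' - s • g 0 b
      = ρ • ((1 - τ) • g â 0 + τ • -g 0 b - ((1 - τ) • -g â' 0 + τ • g 0 b)) := by
    rw [hG, hG', ← hρ1τ]
    have hs2 : s = 2 * (ρ * τ) := by rw [hρτ]; ring
    nth_rewrite 1 [hs2]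
    module
  have e2 : (1 - τ) • â - (1 - τ) • (-â') = ((1 - τ) * ‖a‖⁻¹) • (a + a') := by
    rw [hâ, hâ', ← haa]; module
  have e3 : τ • (-b) - τ • b = (-(2 * τ)) • b := by module
  have hA : |(1 - τ) * ‖a‖⁻¹| = (1 - τ) * ‖a‖⁻¹ :=
    abs_of_nonneg (mul_nonneg (by linarith) (inv_nonneg.mpr hapos.le))
  have hB : |2 * τ| = 2 * τ := abs_of_nonneg (by linarith)
  rw [e1, norm_smul, hd, e2, e3, norm_smul, norm_smul, hb, Real.norm_eq_abs, Real.norm_eq_abs,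
    Real.norm_eq_abs, abs_of_pos hρpos, abs_neg, hA, hB]
  have e4 : ρ * ((1 - τ) * ‖a‖⁻¹ * ‖a + a'‖ + 2 * τ * 1)
      = (ρ * (1 - τ)) * ‖a‖⁻¹ * ‖a + a'‖ + 2 * (ρ * τ) := by ring
  rw [e4, hρ1τ, hρτ, mul_inv_cancel₀ hapos.ne']
  ring

/-- Sums of two elements of the same norm of the image of the first summand stay in it. -/
lemma L1Iso.G₁_add_mem (hg : L1Iso g) (V : Set X₂) (hV1 : ∀ b ∈ V, ‖b‖ = 1)
    (hseg : ∀ b ∈ V, ∀ a : X₁, ‖a‖ = 1 → SegAt g a b)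
    (hsep : ∀ d : X₂, (∀ b ∈ V, ‖d - b‖ = ‖d‖ + 1) → d = 0)
    {a a' : X₁} (haa : ‖a‖ = ‖a'‖) : ∃ c, G₁ g a + G₁ g a' = G₁ g c := by
  by_cases hw : G₁ g a + G₁ g a' = 0
  · exact ⟨0, by rw [hw, G₁_map_zero]⟩
  obtain ⟨σ, hσ⟩ : ∃ σ : ℝ, σ = ‖G₁ g a + G₁ g a'‖ := ⟨_, rfl⟩
  have hσpos : 0 < σ := by rw [hσ]; exact norm_pos_iff.mpr hw
  have hunit : ‖σ⁻¹ • (G₁ g a + G₁ g a')‖ = 1 := by
    rw [hσ]; exact norm_inv_smul_self hw
  obtain ⟨c, d, hcd, hgcd⟩ := hg.surj _ hunit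
  have hd : d = 0 := by
    apply hsep
    intro b hb
    have hb1 := hV1 b hb
    have hkey := hg.norm_G₁_add_sub haa hb1 (hseg b hb) hσpos.le
    have hkey0 := hg.norm_G₁_add_sub haa hb1 (hseg b hb) (le_refl (0 : ℝ))
    rw [zero_smul, sub_zero, add_zero, ← hσ] at hkey0
    have h1 := hg.dist_map c d 0 b hcd (by simp [hb1])
    rw [hgcd, sub_zero] at h1
    have e : σ⁻¹ • (G₁ g a + G₁ g a') - g 0 b = σ⁻¹ • (G₁ g a + G₁ g a' - σ • g 0 b) := by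
      rw [smul_sub, smul_smul, inv_mul_cancel₀ hσpos.ne', one_smul]
    rw [e, norm_smul, hkey, ← hkey0, Real.norm_eq_abs, abs_of_pos (inv_pos.mpr hσpos)] at h1
    have e2 : σ⁻¹ * (σ + σ) = 2 := by field_simp; ring
    rw [e2] at h1
    linarith
  subst hd
  have hc1 : ‖c‖ = 1 := by simpa using hcd
  refine ⟨σ • c, ?_⟩
  rw [hg.G₁_hom, G₁_unit g hc1, hgcd, smul_smul, mul_inv_cancel₀ hσpos.ne', one_smul]

omit [Nontrivial X₁] [Nontrivial X₂] in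
/-- A description of the image of the first summand by closed conditions. -/
lemma L1Iso.range_G₁_eq (hg : L1Iso g) :
    Set.range (G₁ g) = ⋂ b : {b : X₂ // ‖b‖ = 1}, {y : Y | ‖y - ‖y‖ • g 0 (b : X₂)‖ = 2 * ‖y‖} := by
  ext y
  simp only [Set.mem_range, Set.mem_iInter, Set.mem_ofPred_eq, Subtype.forall]
  constructor
  · rintro ⟨a, rfl⟩ b hb
    rw [hg.G₁_nrm]
    by_cases ha : a = 0
    · simp [ha, G₁_map_zero]
    have h1 : ‖‖a‖⁻¹ • a‖ = 1 := norm_inv_smul_self ha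
    have h := hg.dist_map (‖a‖⁻¹ • a) 0 0 b (by simp [h1]) (by simp [hb])
    rw [sub_zero, zero_sub, norm_neg, h1, hb] at h
    have e : G₁ g a - ‖a‖ • g 0 b = ‖a‖ • (g (‖a‖⁻¹ • a) 0 - g 0 b) := by
      rw [smul_sub]; rfl
    rw [e, norm_smul, h, norm_norm]; ring
  · intro h
    by_cases hy : y = 0
    · exact ⟨0, by rw [G₁_map_zero, hy]⟩
    have hypos : 0 < ‖y‖ := norm_pos_iff.mpr hy
    obtain ⟨c, d, hcd, hgcd⟩ := hg.surj _ (norm_inv_smul_self hy)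
    have hd : d = 0 := by
      by_contra hd
      have hb1 : ‖‖d‖⁻¹ • d‖ = 1 := norm_inv_smul_self hd
      have h1 := h _ hb1
      have h2 := hg.dist_map c d 0 (‖d‖⁻¹ • d) hcd (by simp [hb1])
      rw [hgcd, sub_zero] at h2
      have e : ‖y‖⁻¹ • y - g 0 (‖d‖⁻¹ • d) = ‖y‖⁻¹ • (y - ‖y‖ • g 0 (‖d‖⁻¹ • d)) := by
        rw [smul_sub, smul_smul, inv_mul_cancel₀ hypos.ne', one_smul]
      rw [e, norm_smul, h1, norm_inv, norm_norm] at h2
      have e2 : ‖y‖⁻¹ * (2 * ‖y‖) = 2 := by field_simp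
      rw [e2] at h2
      have hdpos : 0 < ‖d‖ := norm_pos_iff.mpr hd
      have e3 : d - ‖d‖⁻¹ • d = (1 - ‖d‖⁻¹) • d := by module
      have e4 : ‖d - ‖d‖⁻¹ • d‖ = 1 - ‖d‖ := by
        rw [e3, norm_smul, Real.norm_eq_abs]
        have hle : ‖d‖ ≤ 1 := by linarith [norm_nonneg c]
        have : 1 - ‖d‖⁻¹ ≤ 0 := by
          have := (one_le_inv₀ hdpos).mpr hle
          linarith
        rw [abs_of_nonpos this]
        field_simp
        ring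
      rw [e4] at h2
      linarith
    subst hd
    have hc1 : ‖c‖ = 1 := by simpa using hcd
    refine ⟨‖y‖ • c, ?_⟩
    have e5 : G₁ g (‖y‖ • c) = ‖y‖ • g c 0 := by
      unfold G₁
      exact hext_smul_of_nonneg _ hc1 (norm_nonneg y)
    rw [e5, hgcd, norm_smul_inv_smul_self]

omit [Nontrivial X₁] [Nontrivial X₂] in
lemma L1Iso.isClosed_range_G₁_gen (hg : L1Iso g) : IsClosed (Set.range (G₁ g)) := by
  rw [hg.range_G₁_eq]
  apply isClosed_iInter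
  intro b
  exact isClosed_eq (by fun_prop) (by fun_prop)

/-- Additivity of the homogeneous extension of `g` on the first summand. -/
lemma L1Iso.G₁_add_gen (hg : L1Iso g) (V : Set X₂) (hV1 : ∀ b ∈ V, ‖b‖ = 1)
    (hseg : ∀ b ∈ V, ∀ a : X₁, ‖a‖ = 1 → SegAt g a b)
    (hsep : ∀ d : X₂, (∀ b ∈ V, ‖d - b‖ = ‖d‖ + 1) → d = 0)
    (hM : ∀ (Z : Submodule ℝ Y), IsClosed (Z : Set Y) → ∀ k : X₁ → Z,
      (∀ a, ‖a‖ = 1 → ‖k a‖ = 1) → (∀ a b, ‖a‖ = 1 → ‖b‖ = 1 → ‖k a - k b‖ = ‖a - b‖) →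
      (∀ w : Z, ‖w‖ = 1 → ∃ a, ‖a‖ = 1 ∧ k a = w) →
      ∃ T : X₁ ≃ₗᵢ[ℝ] Z, ∀ a, ‖a‖ = 1 → T a = k a) (a a' : X₁) :
    G₁ g (a + a') = G₁ g a + G₁ g a' := by
  refine additive_of_eqsum hg.G₁_hom hg.G₁_nrm hg.isClosed_range_G₁_gen
    (fun a a' haa => hg.G₁_add_mem V hV1 hseg hsep haa) ?_ hM a a'
  intro a b ha hb
  rw [G₁_unit g ha, G₁_unit g hb, hg.dist_map a 0 b 0 (by simp [ha]) (by simp [hb])]
  simp

omit [Nontrivial X₁] [Nontrivial X₂] [NormedSpace ℝ X₂] in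
lemma norm_sub_inv_smul_self {c : X₁} (hc : c ≠ 0) (hle : ‖c‖ ≤ 1) :
    ‖c - ‖c‖⁻¹ • c‖ = 1 - ‖c‖ := by
  have hpos : 0 < ‖c‖ := norm_pos_iff.mpr hc
  have e3 : c - ‖c‖⁻¹ • c = (1 - ‖c‖⁻¹) • c := by module
  rw [e3, norm_smul, Real.norm_eq_abs]
  have : 1 - ‖c‖⁻¹ ≤ 0 := by
    have := (one_le_inv₀ hpos).mpr hle
    linarith
  rw [abs_of_nonpos this]
  field_simp
  ring

omit [Nontrivial X₁] [Nontrivial X₂] in
/-- A point of the unit sphere of the `ℓ¹`-sum is determined by its distances to the poles. -/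
lemma eq_of_dist_poles {c c' : X₁} {d d' : X₂} (h : ‖c‖ + ‖d‖ = 1) (h' : ‖c'‖ + ‖d'‖ = 1)
    (h1 : ∀ a : X₁, ‖a‖ = 1 → ‖c' - a‖ + ‖d'‖ = ‖c - a‖ + ‖d‖)
    (h2 : ∀ b : X₂, ‖b‖ = 1 → ‖c'‖ + ‖d' - b‖ = ‖c‖ + ‖d - b‖) : c' = c ∧ d' = d := by
  have hd : ‖d'‖ ≤ ‖d‖ := by
    by_cases hc : c = 0
    · rw [hc, norm_zero, zero_add] at h
      linarith [norm_nonneg c']
    · have ha : ‖‖c‖⁻¹ • c‖ = 1 := norm_inv_smul_self hc
      have e := h1 _ ha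
      rw [norm_sub_inv_smul_self hc (by linarith [norm_nonneg d])] at e
      have e2 : 1 - ‖c'‖ ≤ ‖c' - ‖c‖⁻¹ • c‖ := by
        have := norm_sub_norm_le (‖c‖⁻¹ • c) c'
        rw [ha, norm_sub_rev] at this
        exact this
      linarith
  have hc : ‖c'‖ ≤ ‖c‖ := by
    by_cases hd0 : d = 0
    · rw [hd0, norm_zero, add_zero] at h
      linarith [norm_nonneg d']
    · have hb : ‖‖d‖⁻¹ • d‖ = 1 := norm_inv_smul_self hd0
      have e := h2 _ hb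
      rw [norm_sub_inv_smul_self hd0 (by linarith [norm_nonneg c])] at e
      have e2 : 1 - ‖d'‖ ≤ ‖d' - ‖d‖⁻¹ • d‖ := by
        have := norm_sub_norm_le (‖d‖⁻¹ • d) d'
        rw [hb, norm_sub_rev] at this
        exact this
      linarith
  constructor
  · exact eq_of_dist_sphere_eq (by linarith [norm_nonneg d'])
      (fun a ha => by have := h1 a ha; linarith)
  · exact eq_of_dist_sphere_eq (by linarith [norm_nonneg c'])
      (fun b hb => by have := h2 b hb; linarith)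

/-- The general criterion: if `g` maps the segments from all poles of one summand to the poles
of a separating family of the other summand affinely (both ways round), and both summands have
the Mazur-Ulam property for closed subspaces of `Y` as targets, then `g` is the restriction of
a linear isometry. -/
theorem L1Iso.exists_linearIsometryEquiv_of_segAt (hg : L1Iso g)
    (V₁ : Set X₁) (hV₁ : ∀ a ∈ V₁, ‖a‖ = 1)
    (hseg₁ : ∀ a ∈ V₁, ∀ b : X₂, ‖b‖ = 1 → SegAt g a b)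
    (hsep₁ : ∀ c : X₁, (∀ a ∈ V₁, ‖c - a‖ = ‖c‖ + 1) → c = 0)
    (V₂ : Set X₂) (hV₂ : ∀ b ∈ V₂, ‖b‖ = 1)
    (hseg₂ : ∀ b ∈ V₂, ∀ a : X₁, ‖a‖ = 1 → SegAt g a b)
    (hsep₂ : ∀ d : X₂, (∀ b ∈ V₂, ‖d - b‖ = ‖d‖ + 1) → d = 0)
    (hM₁ : ∀ (Z : Submodule ℝ Y), IsClosed (Z : Set Y) → ∀ k : X₁ → Z,
      (∀ a, ‖a‖ = 1 → ‖k a‖ = 1) → (∀ a b, ‖a‖ = 1 → ‖b‖ = 1 → ‖k a - k b‖ = ‖a - b‖) →
      (∀ w : Z, ‖w‖ = 1 → ∃ a, ‖a‖ = 1 ∧ k a = w) →
      ∃ T : X₁ ≃ₗᵢ[ℝ] Z, ∀ a, ‖a‖ = 1 → T a = k a)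
    (hM₂ : ∀ (Z : Submodule ℝ Y), IsClosed (Z : Set Y) → ∀ k : X₂ → Z,
      (∀ a, ‖a‖ = 1 → ‖k a‖ = 1) → (∀ a b, ‖a‖ = 1 → ‖b‖ = 1 → ‖k a - k b‖ = ‖a - b‖) →
      (∀ w : Z, ‖w‖ = 1 → ∃ a, ‖a‖ = 1 ∧ k a = w) →
      ∃ T : X₂ ≃ₗᵢ[ℝ] Z, ∀ a, ‖a‖ = 1 → T a = k a) :
    ∃ T : WithLp 1 (X₁ × X₂) ≃ₗᵢ[ℝ] Y,
      ∀ x : WithLp 1 (X₁ × X₂), ‖x‖ = 1 → T x = g x.fst x.snd := by
  have hadd₁ : ∀ a a', G₁ g (a + a') = G₁ g a + G₁ g a' :=
    hg.G₁_add_gen V₂ hV₂ hseg₂ hsep₂ hM₁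
  have hadd₂ : ∀ b b', G₂ g (b + b') = G₂ g b + G₂ g b' :=
    hg.flip.G₁_add_gen V₁ hV₁ (fun a ha b hb => (hseg₁ a ha b hb).flip) hsep₁ hM₂
  have hsub₁ : ∀ a a', G₁ g (a - a') = G₁ g a - G₁ g a' := by
    intro a a'
    have := hadd₁ (a - a') a'
    rw [sub_add_cancel] at this
    rw [this]; abel
  have hsub₂ : ∀ b b', G₂ g (b - b') = G₂ g b - G₂ g b' := by
    intro b b'
    have := hadd₂ (b - b') b'
    rw [sub_add_cancel] at this
    rw [this]; abel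
  have hsph : ∀ (c : X₁) (d : X₂), ‖c‖ + ‖d‖ = 1 → G₁ g c + G₂ g d = g c d := by
    intro c d hcd
    have hn : ‖G₁ g c + G₂ g d‖ = 1 := by rw [hg.norm_G_add, hcd]
    obtain ⟨c', d', hcd', hg'⟩ := hg.surj _ hn
    have key := eq_of_dist_poles hcd hcd' ?_ ?_
    · rw [← hg', key.1, key.2]
    · intro a ha
      have h1 := hg.dist_map c' d' a 0 hcd' (by simp [ha])
      rw [hg', sub_zero] at h1
      have e : G₁ g c + G₂ g d - g a 0 = G₁ g (c - a) + G₂ g d := by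
        rw [hsub₁, G₁_unit g ha]; abel
      rw [e, hg.norm_G_add] at h1
      linarith
    · intro b hb
      have h1 := hg.dist_map c' d' 0 b hcd' (by simp [hb])
      rw [hg', sub_zero] at h1
      have e : G₁ g c + G₂ g d - g 0 b = G₁ g c + G₂ g (d - b) := by
        rw [hsub₂, G₂_unit g hb]; abel
      rw [e, hg.norm_G_add] at h1
      linarith
  let Ψ : WithLp 1 (X₁ × X₂) → Y := fun x => G₁ g x.fst + G₂ g x.snd
  have hΨ : ∀ x x', ‖Ψ x - Ψ x'‖ = ‖x - x'‖ := by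
    intro x x'
    have e : Ψ x - Ψ x' = G₁ g (x - x').fst + G₂ g (x - x').snd := by
      simp only [Ψ, WithLp.sub_fst, WithLp.sub_snd]
      rw [hsub₁, hsub₂]; abel
    rw [e, hg.norm_G_add, WithLp.prod_norm_eq_of_L1]
  have hiso : Isometry Ψ :=
    Isometry.of_dist_eq fun x x' => by rw [dist_eq_norm, dist_eq_norm]; exact hΨ x x'
  have hsurj : Function.Surjective Ψ := by
    intro w
    by_cases hw : w = 0
    · refine ⟨0, ?_⟩
      show G₁ g (0 : WithLp 1 (X₁ × X₂)).fst + G₂ g (0 : WithLp 1 (X₁ × X₂)).snd = w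
      simp [G₁_map_zero, G₂_map_zero, hw]
    · obtain ⟨c, d, hcd, hgcd⟩ := hg.surj _ (norm_inv_smul_self hw)
      refine ⟨WithLp.toLp 1 (‖w‖ • c, ‖w‖ • d), ?_⟩
      show G₁ g (‖w‖ • c) + G₂ g (‖w‖ • d) = w
      rw [hg.G₁_hom, hg.G₂_hom, ← smul_add, hsph c d hcd, hgcd, norm_smul_inv_smul_self]
  let e : WithLp 1 (X₁ × X₂) ≃ᵢ Y := IsometryEquiv.mk' Ψ (Function.surjInv hsurj)
    (Function.surjInv_eq hsurj) hiso
  have he0 : e 0 = 0 := by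
    show G₁ g (0 : WithLp 1 (X₁ × X₂)).fst + G₂ g (0 : WithLp 1 (X₁ × X₂)).snd = 0
    simp [G₁_map_zero, G₂_map_zero]
  refine ⟨e.toRealLinearIsometryEquivOfMapZero he0, fun x hx => ?_⟩
  rw [IsometryEquiv.coe_toRealLinearIsometryEquivOfMapZero]
  show G₁ g x.fst + G₂ g x.snd = g x.fst x.snd
  rw [WithLp.prod_norm_eq_of_L1] at hx
  exact hsph _ _ hx

end Core

end Vale.Agent.H23
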