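import Vale.Agent.H23.L1Sum
import Vale.Agent.H23.L1Core

/-!
# Sphere isometries preserve the relation `‖u + c‖ = 2`

Let `G` restrict to a surjective isometry from the unit sphere of a real normed space `Z` onto
the unit sphere of a real normed space `Y`. If two unit vectors `u`, `c` of `Z` satisfy
`‖u + c‖ = 2` (they lie in a common convex subset of the sphere) then `‖G u + G c‖ = 2`, and
conversely. A consequence used later: if all unit vectors `w` with `‖w + p₀‖ = 2` satisfy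
`‖w + p‖ = 2` for every `p` in a set `P` of unit vectors, then some functional of norm at most
one takes the value `1` on all of `P`.
-/

namespace Vale.Agent.H23

section Clique

variable {Z Y : Type*} [NormedAddCommGroup Z] [NormedSpace ℝ Z]
  [NormedAddCommGroup Y] [NormedSpace ℝ Y]

/-- A surjective isometry from the unit sphere of `Z` onto the unit sphere of `Y`, in function
form. -/
structure SIso (G : Z → Y) : Prop where
  norm_map : ∀ u, ‖u‖ = 1 → ‖G u‖ = 1
  dist_map : ∀ u v, ‖u‖ = 1 → ‖v‖ = 1 → ‖G u - G v‖ = ‖u - v‖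
  surj : ∀ w : Y, ‖w‖ = 1 → ∃ u, ‖u‖ = 1 ∧ G u = w

namespace SIso

variable {G : Z → Y}

/-- Two unit vectors in a common convex subset of the sphere have images whose sum has norm
`2`. -/
lemma norm_add_eq_two (hG : SIso G) {u c : Z} (hu : ‖u‖ = 1) (hc : ‖c‖ = 1)
    (huc : ‖u + c‖ = 2) : ‖G u + G c‖ = 2 := by
  have hGu := hG.norm_map u hu
  have hGc := hG.norm_map c hc
  have hle : ‖G u + G c‖ ≤ 2 := by
    have := norm_add_le (G u) (G c)
    linarith
  have key : ∀ l : ℝ, 0 < l → l ≤ 1 → 2 - 2 * l ≤ ‖G u + G c‖ := by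
    intro l hl0 hl1
    obtain ⟨xl, hxl⟩ : ∃ xl : Z, xl = l • u + (1 - l) • c := ⟨_, rfl⟩
    have hxl1 : ‖xl‖ = 1 := by
      rw [hxl, norm_nonneg_combo hu hc huc hl0.le (by linarith)]; ring
    have hGx := hG.norm_map xl hxl1
    obtain ⟨y, hy1, hGy⟩ := hG.surj (- G xl) (by rw [norm_neg]; exact hGx)
    have hd : ‖y - xl‖ = 2 := by
      rw [← hG.dist_map y xl hy1 hxl1, hGy]
      have e : - G xl - G xl = -((2 : ℝ) • G xl) := by rw [two_smul]; abel
      rw [e, norm_neg, norm_smul, hGx]; norm_num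
    obtain ⟨ψ, hψ1, hψ2⟩ := exists_dual_vector'' ℝ (xl - y)
    have hψ2' : ψ (xl - y) = ‖xl - y‖ := by simpa using hψ2
    have hψle : ∀ v : Z, ψ v ≤ ‖v‖ := by
      intro v
      have h1 := ψ.le_of_opNorm_le hψ1 v
      rw [one_mul] at h1
      exact (le_abs_self _).trans (by simpa [Real.norm_eq_abs] using h1)
    have h2 : ψ xl - ψ y = 2 := by
      rw [← map_sub, hψ2', norm_sub_rev, hd]
    have hx_le := hψle xl
    rw [hxl1] at hx_le
    have hy_le := hψle (-y)
    rw [norm_neg, hy1, map_neg] at hy_le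
    have hψx : ψ xl = 1 := by linarith
    have hψy : ψ y = -1 := by linarith
    have hu_le := hψle u
    rw [hu] at hu_le
    have hc_le := hψle c
    rw [hc] at hc_le
    have hψu : ψ u = 1 := by
      have e1 : ψ xl = l * ψ u + (1 - l) * ψ c := by
        rw [hxl, map_add, map_smul, map_smul, smul_eq_mul, smul_eq_mul]
      have e2 : l * (1 - ψ u) = 0 := by
        have h3 := mul_nonneg hl0.le (sub_nonneg.mpr hu_le)
        have h4 := mul_nonneg (sub_nonneg.mpr hl1) (sub_nonneg.mpr hc_le)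
        nlinarith
      rcases mul_eq_zero.mp e2 with h5 | h5
      · linarith
      · linarith
    have huy : ‖u - y‖ = 2 := by
      apply le_antisymm
      · have := norm_sub_le u y
        linarith
      · have := hψle (u - y)
        rw [map_sub] at this
        linarith
    have h3 : ‖G u + G xl‖ = 2 := by
      have h4 := hG.dist_map u y hu hy1
      rw [hGy, sub_neg_eq_add, huy] at h4
      exact h4
    have h4 : ‖G xl - G c‖ ≤ 2 * l := by
      rw [hG.dist_map xl c hxl1 hc]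
      have e : xl - c = l • (u - c) := by rw [hxl]; module
      rw [e, norm_smul, Real.norm_eq_abs, abs_of_pos hl0]
      have := norm_sub_le u c
      nlinarith
    have h5 : ‖G u + G xl‖ ≤ ‖G u + G c‖ + ‖G xl - G c‖ := by
      have e : G u + G xl = (G u + G c) + (G xl - G c) := by abel
      rw [e]; exact norm_add_le _ _
    linarith
  apply le_antisymm hle
  by_contra hlt
  rw [not_le] at hlt
  have h1 := key (min 1 ((2 - ‖G u + G c‖) / 4)) (lt_min one_pos (by linarith))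
    (min_le_left _ _)
  have h2 : min 1 ((2 - ‖G u + G c‖) / 4) ≤ (2 - ‖G u + G c‖) / 4 := min_le_right _ _
  linarith

/-- An inverse map, again a surjective isometry between the unit spheres. -/
lemma exists_inverse (hG : SIso G) :
    ∃ G' : Y → Z, SIso G' ∧ ∀ u, ‖u‖ = 1 → G' (G u) = u := by
  have hex : ∀ w : Y, ∃ u : Z, ‖w‖ = 1 → ‖u‖ = 1 ∧ G u = w := by
    intro w
    by_cases hw : ‖w‖ = 1
    · obtain ⟨u, hu, hGu⟩ := hG.surj w hw
      exact ⟨u, fun _ => ⟨hu, hGu⟩⟩
    · exact ⟨0, fun h => absurd h hw⟩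
  choose G' hG' using hex
  have hinj : ∀ u v, ‖u‖ = 1 → ‖v‖ = 1 → G u = G v → u = v := by
    intro u v hu hv h
    have h1 := hG.dist_map u v hu hv
    rw [h, sub_self, norm_zero] at h1
    exact sub_eq_zero.mp (norm_eq_zero.mp h1.symm)
  have hleft : ∀ u, ‖u‖ = 1 → G' (G u) = u := by
    intro u hu
    have h1 := hG' (G u) (hG.norm_map u hu)
    exact hinj _ _ h1.1 hu h1.2
  refine ⟨G', ⟨fun w hw => (hG' w hw).1, ?_, ?_⟩, hleft⟩
  · intro w w' hw hw'
    have h1 := hG' w hw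
    have h2 := hG' w' hw'
    rw [← hG.dist_map _ _ h1.1 h2.1, h1.2, h2.2]
  · intro u hu
    exact ⟨G u, hG.norm_map u hu, hleft u hu⟩

/-- A surjective isometry between unit spheres preserves and reflects the relation
`‖u + c‖ = 2`. -/
lemma norm_add_eq_two_iff (hG : SIso G) {u c : Z} (hu : ‖u‖ = 1) (hc : ‖c‖ = 1) :
    ‖G u + G c‖ = 2 ↔ ‖u + c‖ = 2 := by
  constructor
  · intro h
    obtain ⟨G', hG', hleft⟩ := hG.exists_inverse
    have h1 := hG'.norm_add_eq_two (hG.norm_map u hu) (hG.norm_map c hc) h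
    rwa [hleft u hu, hleft c hc] at h1
  · exact hG.norm_add_eq_two hu hc

end SIso

end Clique

section Aligned

variable {Y : Type*} [NormedAddCommGroup Y] [NormedSpace ℝ Y]

/-- Adding a nonnegative multiple of a vector of `P` to a vector aligned with `p₀` adds the
norms. -/
lemma norm_add_smul_of_aligned {p₀ : Y} {P : Set Y}
    (hP : ∀ p ∈ P, ‖p‖ = 1 ∧ ∀ w : Y, ‖w‖ = 1 → ‖w + p₀‖ = 2 → ‖w + p‖ = 2)
    {v : Y} (hv : ∀ t : ℝ, 0 ≤ t → ‖v + t • p₀‖ = ‖v‖ + t) {p : Y} (hp : p ∈ P) {μ : ℝ}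
    (hμ : 0 ≤ μ) : ‖v + μ • p‖ = ‖v‖ + μ := by
  rcases eq_or_ne v 0 with rfl | hne
  · rw [zero_add, norm_zero, zero_add, norm_smul, (hP p hp).1, mul_one, Real.norm_eq_abs,
      abs_of_nonneg hμ]
  · have hpos : 0 < ‖v‖ := norm_pos_iff.mpr hne
    have hu : ‖‖v‖⁻¹ • v‖ = 1 := norm_inv_smul_self hne
    have h1 : ‖‖v‖⁻¹ • v + p₀‖ = 2 := by
      have e : ‖v‖⁻¹ • v + p₀ = ‖v‖⁻¹ • (v + ‖v‖ • p₀) := by
        rw [smul_add, smul_smul, inv_mul_cancel₀ hpos.ne', one_smul]
      rw [e, norm_smul, norm_inv, norm_norm, hv _ hpos.le]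
      field_simp
      ring
    have h2 := (hP p hp).2 _ hu h1
    have h3 := norm_nonneg_combo hu (hP p hp).1 h2 hpos.le hμ
    rw [smul_smul, mul_inv_cancel₀ hpos.ne', one_smul] at h3
    exact h3

/-- Norm additivity for finite nonnegative combinations of vectors of `P`. -/
lemma norm_sum_of_aligned {p₀ : Y} (hp₀ : ‖p₀‖ = 1) {P : Set Y}
    (hP : ∀ p ∈ P, ‖p‖ = 1 ∧ ∀ w : Y, ‖w‖ = 1 → ‖w + p₀‖ = 2 → ‖w + p‖ = 2)
    {ι : Type*} (s : Finset ι) (μ : ι → ℝ) (z : ι → Y) (hμ : ∀ i ∈ s, 0 ≤ μ i)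
    (hz : ∀ i ∈ s, z i ∈ P) :
    ∀ t : ℝ, 0 ≤ t → ‖∑ i ∈ s, μ i • z i + t • p₀‖ = ∑ i ∈ s, μ i + t := by
  classical
  induction s using Finset.induction_on with
  | empty =>
    intro t ht
    rw [Finset.sum_empty, Finset.sum_empty, zero_add, zero_add, norm_smul, hp₀, mul_one,
      Real.norm_eq_abs, abs_of_nonneg ht]
  | insert j s hj ih =>
    intro t ht
    have ih' := ih (fun i hi => hμ i (Finset.mem_insert_of_mem hi))
      (fun i hi => hz i (Finset.mem_insert_of_mem hi))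
    obtain ⟨v, hvdef⟩ : ∃ v : Y, v = ∑ i ∈ s, μ i • z i + t • p₀ := ⟨_, rfl⟩
    have hvn : ‖v‖ = ∑ i ∈ s, μ i + t := by rw [hvdef]; exact ih' t ht
    have hv : ∀ t' : ℝ, 0 ≤ t' → ‖v + t' • p₀‖ = ‖v‖ + t' := by
      intro t' ht'
      have e : v + t' • p₀ = ∑ i ∈ s, μ i • z i + (t + t') • p₀ := by
        rw [hvdef, add_smul]; abel
      rw [e, ih' _ (by linarith), hvn]; ring
    have h1 := norm_add_smul_of_aligned hP hv (hz j (Finset.mem_insert_self j s))
      (hμ j (Finset.mem_insert_self j s))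
    have e2 : ∑ i ∈ insert j s, μ i • z i + t • p₀ = v + μ j • z j := by
      rw [Finset.sum_insert hj, hvdef]; abel
    rw [e2, h1, hvn, Finset.sum_insert hj]; ring

/-- If every unit vector `w` with `‖w + p₀‖ = 2` satisfies `‖w + p‖ = 2` for all `p` in a set
`P` of unit vectors, then a functional dominated by the norm equals `1` on `P`. -/
lemma exists_functional_of_aligned {p₀ : Y} (hp₀ : ‖p₀‖ = 1) {P : Set Y}
    (hP : ∀ p ∈ P, ‖p‖ = 1 ∧ ∀ w : Y, ‖w‖ = 1 → ‖w + p₀‖ = 2 → ‖w + p‖ = 2) :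
    ∃ ψ : Y →L[ℝ] ℝ, (∀ y, ψ y ≤ ‖y‖) ∧ ∀ p ∈ P, ψ p = 1 := by
  have hdisj : Disjoint (Metric.ball (0 : Y) 1) (convexHull ℝ P) := by
    rw [Set.disjoint_left]
    intro w hw hwN
    rw [convexHull_eq] at hwN
    obtain ⟨ι, s, μ, z, hμ, hsum, hz, hcm⟩ := hwN
    have h := norm_sum_of_aligned hp₀ hP s μ z hμ hz 0 le_rfl
    rw [zero_smul, add_zero, add_zero, hsum] at h
    rw [Finset.centerMass_eq_of_sum_1 _ _ hsum] at hcm
    rw [hcm] at h
    rw [mem_ball_zero_iff, h] at hw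
    exact lt_irrefl _ hw
  obtain ⟨f, u, hfu, huf⟩ :=
    geometric_hahn_banach_open (convex_ball (0 : Y) 1) Metric.isOpen_ball
      (convex_convexHull ℝ P) hdisj
  have hu : 0 < u := by
    have := hfu 0 (by simp)
    rwa [map_zero] at this
  have hle : ∀ y : Y, f y ≤ u * ‖y‖ := by
    intro y
    by_contra hlt
    rw [not_le] at hlt
    have hy0 : 0 < ‖y‖ := by
      by_contra h0
      have h00 : ‖y‖ = 0 := le_antisymm (not_lt.mp h0) (norm_nonneg _)
      have hy : y = 0 := norm_eq_zero.mp h00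
      rw [hy, map_zero, norm_zero, mul_zero] at hlt
      exact lt_irrefl _ hlt
    have hfy : 0 < f y := lt_trans (mul_pos hu hy0) hlt
    have hz : ‖(u / f y) • y‖ < 1 := by
      rw [norm_smul, Real.norm_eq_abs, abs_of_pos (div_pos hu hfy), div_mul_eq_mul_div,
        div_lt_one hfy]
      exact hlt
    have h1 := hfu ((u / f y) • y) (by rwa [mem_ball_zero_iff])
    rw [map_smul, smul_eq_mul, div_mul_cancel₀ _ hfy.ne'] at h1
    exact lt_irrefl _ h1
  refine ⟨u⁻¹ • f, fun y => ?_, fun p hp => ?_⟩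
  · rw [smul_apply, smul_eq_mul, inv_mul_le_iff₀ hu]
    exact hle y
  · have h1 : u ≤ f p := huf _ (subset_convexHull ℝ P hp)
    have h2 := hle p
    rw [(hP p hp).1, mul_one] at h2
    rw [smul_apply, smul_eq_mul, le_antisymm h2 h1, inv_mul_cancel₀ hu.ne']

end Aligned

end Vale.Agent.H23
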