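import Vale.Agent.H23.Kappa
import Vale.Agent.H23.HilbertMU

/-!
# The `ℓ¹`-sum of a normed space with the real line

For a surjective isometry `g` from the unit sphere of `X₁ ⊕₁ ℝ` onto the unit sphere of `Y`, the
image of the unit sphere is a double cone with apexes `± g 0 1`: the ray from `g 0 1` through
the image of any point of the open upper cap stays in the unit sphere of `Y` until it reaches the
image of the equator.
-/

namespace Vale.Agent.H23

section Ray

variable {X₁ Y : Type*} [NormedAddCommGroup X₁] [NormedSpace ℝ X₁] [Nontrivial X₁]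
  [NormedAddCommGroup Y] [NormedSpace ℝ Y] {g : X₁ → ℝ → Y}

/-- Every unit vector of `Y` at distance less than `2` from the image of the pole `(0, 1)` lies
on a common face with it. -/
lemma L1Iso.cap (hg : L1Iso g) {q : Y} (hq : ‖q‖ = 1) (hlt : ‖q - g 0 1‖ < 2) :
    ‖q + g 0 1‖ = 2 := by
  obtain ⟨c, r, hcr, rfl⟩ := hg.surj q hq
  have h1 := hg.dist_map c r 0 1 hcr (by simp)
  rw [sub_zero] at h1
  rw [h1] at hlt
  have hcr' := hcr
  rw [Real.norm_eq_abs] at hcr hlt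
  have hr : 0 ≤ r := by
    by_contra hneg
    have hneg' : r < 0 := not_le.mp hneg
    rw [abs_of_neg hneg'] at hcr
    rw [abs_of_neg (by linarith)] at hlt
    linarith
  have h2 := hg.dist_map c r 0 (-1) hcr' (by simp)
  rw [hg.neg_snd (by simp : ‖(1 : ℝ)‖ = 1), sub_neg_eq_add, sub_zero, sub_neg_eq_add] at h2
  rw [h2, Real.norm_eq_abs, abs_of_nonneg (by linarith)]
  rw [abs_of_nonneg hr] at hcr
  linarith

/-- The ray from the image of the pole `(0, 1)` through the image of a point of the open upper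
cap reaches the image of the equator. -/
lemma L1Iso.exists_pole_of_ray (hg : L1Iso g) {w : X₁} (hw : ‖w‖ = 1) {t : ℝ} (ht0 : 0 < t)
    (ht1 : t < 1) :
    ∃ a : X₁, ‖a‖ = 1 ∧ g ((1 - t) • w) t = (1 - t) • g a 0 + t • g 0 1 := by
  have h1t : 0 < 1 - t := by linarith
  obtain ⟨v, hvdef⟩ : ∃ v : Y, v = g 0 1 := ⟨_, rfl⟩
  obtain ⟨y, hydef⟩ : ∃ y : Y, y = g ((1 - t) • w) t := ⟨_, rfl⟩
  have hv1 : ‖v‖ = 1 := by rw [hvdef]; exact hg.norm_map 0 1 (by simp)
  have hsph : ‖(1 - t) • w‖ + ‖t‖ = 1 := by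
    rw [norm_smul, hw, mul_one, Real.norm_eq_abs, Real.norm_eq_abs, abs_of_pos h1t,
      abs_of_pos ht0]; ring
  have hy1 : ‖y‖ = 1 := by rw [hydef]; exact hg.norm_map _ _ hsph
  have hyv : ‖y - v‖ = 2 * (1 - t) := by
    rw [hydef, hvdef, hg.dist_map _ _ 0 1 hsph (by simp), sub_zero, norm_smul, hw, mul_one,
      Real.norm_eq_abs, Real.norm_eq_abs, abs_of_pos h1t]
    have : |t - 1| = 1 - t := by rw [abs_sub_comm]; exact abs_of_pos h1t
    rw [this]; ring
  have hcap : ∀ q : Y, ‖q‖ = 1 → ‖q - v‖ < 2 → ‖q + v‖ = 2 := fun q hq hlt => by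
    rw [hvdef] at hlt ⊢; exact hg.cap hq hlt
  have hyv2 : ‖y + v‖ = 2 := hcap y hy1 (by rw [hyv]; linarith)
  obtain ⟨T, hT⟩ : ∃ T : ℝ, T = (1 - t)⁻¹ := ⟨_, rfl⟩
  have hT1 : 1 < T := by rw [hT]; exact (one_lt_inv₀ h1t).mpr (by linarith)
  have hTt : T * (1 - t) = 1 := by rw [hT]; exact inv_mul_cancel₀ h1t.ne'
  have hseg01 : ∀ s : ℝ, 0 ≤ s → s ≤ 1 → ‖v + s • (y - v)‖ = 1 := by
    intro s hs0 hs1
    have e : v + s • (y - v) = s • y + (1 - s) • v := by module
    rw [e]; exact norm_combo_of_norm_add hy1 hv1 hyv2 hs0 hs1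
  have hmain : Set.Icc 1 T ⊆ {s : ℝ | ‖v + s • (y - v)‖ = 1} := by
    apply IsClosed.Icc_subset_of_forall_exists_gt
    · exact (isClosed_eq (by fun_prop) continuous_const).inter isClosed_Icc
    · exact hseg01 1 zero_le_one le_rfl
    · rintro x ⟨hxS, hx1, hxT⟩ y' hy'
      have hxS' : ‖v + x • (y - v)‖ = 1 := hxS
      have hy'' : x < y' := hy'
      obtain ⟨s', hs'⟩ : ∃ s' : ℝ, s' = min y' ((3 * x + T) / 4) := ⟨_, rfl⟩
      have hxs : x < s' := by rw [hs']; exact lt_min hy'' (by linarith)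
      have hs'y : s' ≤ y' := by rw [hs']; exact min_le_left _ _
      have hs'T : s' ≤ (3 * x + T) / 4 := by rw [hs']; exact min_le_right _ _
      refine ⟨s', ?_, hxs, hs'y⟩
      obtain ⟨p, hp⟩ : ∃ p : Y, p = v + x • (y - v) := ⟨_, rfl⟩
      obtain ⟨q, hq⟩ : ∃ q : Y, q = v + s' • (y - v) := ⟨_, rfl⟩
      obtain ⟨H, hH⟩ : ∃ H : ℝ, H = ‖q‖ := ⟨_, rfl⟩
      have hp1 : ‖p‖ = 1 := by rw [hp]; exact hxS'
      have hqp : ‖q - p‖ = (s' - x) * (2 * (1 - t)) := by
        have e : q - p = (s' - x) • (y - v) := by rw [hq, hp]; module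
        rw [e, norm_smul, hyv, Real.norm_eq_abs, abs_of_pos (by linarith)]
      have hH1 : |H - 1| ≤ (s' - x) * (2 * (1 - t)) := by
        have h9 := abs_norm_sub_norm_le q p
        rw [hp1, hqp, ← hH] at h9
        exact h9
      have hx1t : 0 < x * (1 - t) := by nlinarith
      have hsmall : (s' - x) * (2 * (1 - t)) < 1 := by nlinarith
      have hHpos : 0 < H := by have := abs_le.mp hH1; linarith
      obtain ⟨w', hw'⟩ : ∃ w' : Y, w' = H⁻¹ • q := ⟨_, rfl⟩
      have hw'1 : ‖w'‖ = 1 := by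
        rw [hw', norm_smul, ← hH, Real.norm_eq_abs, abs_of_pos (inv_pos.mpr hHpos),
          inv_mul_cancel₀ hHpos.ne']
      have hqw : q = H • w' := by rw [hw', smul_smul, mul_inv_cancel₀ hHpos.ne', one_smul]
      have hw'q : ‖w' - q‖ = |H - 1| := by
        have e : w' - q = (1 - H) • w' := by
          rw [hqw]; module
        rw [e, norm_smul, hw'1, mul_one, Real.norm_eq_abs, abs_sub_comm]
      have hqv : ‖q - v‖ = s' * (2 * (1 - t)) := by
        have e : q - v = s' • (y - v) := by rw [hq]; module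
        rw [e, norm_smul, hyv, Real.norm_eq_abs, abs_of_pos (by linarith)]
      have hw'v : ‖w' - v‖ < 2 := by
        have h3 : ‖w' - v‖ ≤ ‖w' - q‖ + ‖q - v‖ := by
          have := norm_add_le (w' - q) (q - v)
          rwa [sub_add_sub_cancel] at this
        rw [hw'q, hqv] at h3
        nlinarith
      have hw'v2 : ‖v + w'‖ = 2 := by rw [add_comm]; exact hcap w' hw'1 hw'v
      have hxpos : 0 < x := by linarith
      have hs'pos : 0 < s' := by linarith
      have e : p = (1 - x / s') • v + (x / s' * H) • w' := by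
        rw [mul_smul, ← hqw, hp, hq, smul_add, smul_smul, div_mul_cancel₀ x hs'pos.ne']
        module
      have hnp := norm_nonneg_combo hv1 hw'1 hw'v2 (α := 1 - x / s') (β := x / s' * H)
        (by rw [sub_nonneg, div_le_one hs'pos]; linarith) (by positivity)
      rw [← e, hp1] at hnp
      have hH' : H = 1 := by
        have hμ : 0 < x / s' := by positivity
        nlinarith
      show ‖v + s' • (y - v)‖ = 1
      rw [← hq, ← hH, hH']
  have hT_S : ‖v + T • (y - v)‖ = 1 := hmain ⟨hT1.le, le_rfl⟩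
  have hT2 : ‖v + (T / 2) • (y - v)‖ = 1 := by
    rcases le_total (T / 2) 1 with h | h
    · exact hseg01 _ (by linarith) h
    · exact hmain ⟨h, by linarith⟩
  obtain ⟨u', hu'⟩ : ∃ u' : Y, u' = v + T • (y - v) := ⟨_, rfl⟩
  have hu'1 : ‖u'‖ = 1 := by rw [hu']; exact hT_S
  have hu'v : ‖u' - v‖ = 2 := by
    have e : u' - v = T • (y - v) := by rw [hu']; module
    rw [e, norm_smul, hyv, Real.norm_eq_abs, abs_of_pos (by linarith)]
    nlinarith
  have hu'v2 : ‖u' + v‖ = 2 := by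
    have e : u' + v = (2 : ℝ) • (v + (T / 2) • (y - v)) := by rw [hu']; module
    rw [e, norm_smul, hT2]; norm_num
  obtain ⟨c, r, hcr, hgcr⟩ := hg.surj u' hu'1
  have hr : r = 0 := by
    have h1 := hg.dist_map c r 0 1 hcr (by simp)
    have h2 := hg.dist_map c r 0 (-1) hcr (by simp)
    rw [hgcr, ← hvdef, hu'v, sub_zero] at h1
    rw [hgcr, hg.neg_snd (by simp : ‖(1 : ℝ)‖ = 1), ← hvdef, sub_neg_eq_add, hu'v2, sub_zero,
      sub_neg_eq_add] at h2
    rw [Real.norm_eq_abs] at h1 h2 hcr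
    by_contra hr0
    rcases lt_or_gt_of_ne hr0 with hneg | hpos
    · have : |r + 1| < 1 + |r| := by
        rw [abs_of_neg hneg, abs_lt]; constructor <;> linarith
      linarith
    · have : |r - 1| < 1 + |r| := by
        rw [abs_of_pos hpos, abs_lt]; constructor <;> linarith
      linarith
  subst hr
  have hc1 : ‖c‖ = 1 := by simpa using hcr
  refine ⟨c, hc1, ?_⟩
  rw [← hydef, hgcr, ← hvdef, hu']
  have e : (1 - t) • (v + T • (y - v)) + t • v = v + (T * (1 - t)) • (y - v) := by module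
  rw [e, hTt]; module

/-- `1 : ℝ` is an extreme unit vector. -/
lemma mext_one : MExt (1 : ℝ) := by
  refine ⟨by simp, fun d hd => ?_⟩
  rw [Real.norm_eq_abs, Real.norm_eq_abs] at hd
  have h0 : 0 ≤ d := by
    by_contra h
    have h' : d < 0 := not_le.mp h
    rw [abs_of_neg h', abs_of_pos (by linarith)] at hd
    linarith
  rw [Real.norm_eq_abs, abs_of_nonneg h0]; simp

/-- Core theorem for the `ℓ¹`-sum of an arbitrary nontrivial normed space `X₁` with the real
line: if `X₁` has the Mazur-Ulam property for closed subspaces of `Y` and for `X₁` itself as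
targets, then every surjective isometry from the unit sphere of `X₁ ⊕₁ ℝ` onto the unit sphere
of `Y` is the restriction of a linear isometry. -/
theorem L1Iso.exists_linearIsometryEquiv_real (hg : L1Iso g)
    (hM₁ : ∀ (Z : Submodule ℝ Y), IsClosed (Z : Set Y) → ∀ k : X₁ → Z,
      (∀ a, ‖a‖ = 1 → ‖k a‖ = 1) → (∀ a b, ‖a‖ = 1 → ‖b‖ = 1 → ‖k a - k b‖ = ‖a - b‖) →
      (∀ w : Z, ‖w‖ = 1 → ∃ a, ‖a‖ = 1 ∧ k a = w) →
      ∃ T : X₁ ≃ₗᵢ[ℝ] Z, ∀ a, ‖a‖ = 1 → T a = k a)
    (hS₁ : ∀ k : X₁ → X₁, (∀ a, ‖a‖ = 1 → ‖k a‖ = 1) →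
      (∀ a b, ‖a‖ = 1 → ‖b‖ = 1 → ‖k a - k b‖ = ‖a - b‖) →
      (∀ w : X₁, ‖w‖ = 1 → ∃ a, ‖a‖ = 1 ∧ k a = w) →
      ∃ T : X₁ ≃ₗᵢ[ℝ] X₁, ∀ a, ‖a‖ = 1 → T a = k a) :
    ∃ T : WithLp 1 (X₁ × ℝ) ≃ₗᵢ[ℝ] Y,
      ∀ x : WithLp 1 (X₁ × ℝ), ‖x‖ = 1 → T x = g x.fst x.snd := by
  have hinj : ∀ (c c' : X₁) (r r' : ℝ), ‖c‖ + ‖r‖ = 1 → ‖c'‖ + ‖r'‖ = 1 →
      g c r = g c' r' → c = c' := by
    intro c c' r r' h1 h2 he
    have h := hg.dist_map c r c' r' h1 h2
    rw [he, sub_self, norm_zero] at h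
    have hc : ‖c - c'‖ = 0 := by linarith [norm_nonneg (c - c'), norm_nonneg (r - r')]
    exact sub_eq_zero.mp (norm_eq_zero.mp hc)
  have hseg1 : ∀ a : X₁, ‖a‖ = 1 → SegAt g a 1 := by
    intro a ha
    refine hg.segAt_of_mext mext_one ?_ a ha
    intro t ht0 ht1 κ h1 h2 h3 h4
    refine rigid_of_self hS₁ ht0 ht1 κ h1 h2 h3 ?_
    intro w hw
    obtain ⟨a', ha', hray⟩ := hg.exists_pole_of_ray hw ht0 ht1
    refine ⟨a', ha', ?_⟩
    have h5 := h4 a' ha'
    have h1t : 0 < 1 - t := by linarith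
    rw [← hray, smul_eq_mul, mul_one] at h5
    have hs : ∀ z : X₁, ‖z‖ = 1 → ‖(1 - t) • z‖ + ‖t‖ = 1 := by
      intro z hz
      rw [norm_smul, hz, mul_one, Real.norm_eq_abs, Real.norm_eq_abs, abs_of_pos h1t,
        abs_of_pos ht0]; ring
    have h6 := hinj _ _ _ _ (hs _ (h1 a' ha')) (hs w hw) h5
    exact smul_right_injective X₁ h1t.ne' h6
  have hsegn : ∀ a : X₁, ‖a‖ = 1 → SegAt g a (-1) := hg.segAt_neg (by simp) hseg1
  have hseg : ∀ b : ℝ, ‖b‖ = 1 → ∀ a : X₁, ‖a‖ = 1 → SegAt g a b := by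
    intro b hb
    rw [Real.norm_eq_abs] at hb
    rcases (abs_eq (by norm_num : (0 : ℝ) ≤ 1)).mp hb with rfl | rfl
    · exact hseg1
    · exact hsegn
  refine hg.exists_linearIsometryEquiv_of_segAt {a | ‖a‖ = 1} (fun a ha => ha)
    (fun a ha b hb => hseg b hb a ha) ?_ {b | ‖b‖ = 1} (fun b hb => hb)
    (fun b hb a ha => hseg b hb a ha) ?_ hM₁ ?_
  · intro c hc
    by_contra hc0
    have h := hc _ (norm_inv_smul_self hc0)
    have hpos := norm_pos_iff.mpr hc0
    have e : c - ‖c‖⁻¹ • c = (1 - ‖c‖⁻¹) • c := by module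
    have e2 : |1 - ‖c‖⁻¹| * ‖c‖ = |‖c‖ - 1| := by
      nth_rewrite 2 [← abs_of_pos hpos]
      rw [← abs_mul]
      congr 1
      field_simp
    rw [e, norm_smul, Real.norm_eq_abs, e2] at h
    rcases abs_cases (‖c‖ - 1) with ⟨h1, _⟩ | ⟨h1, _⟩ <;> linarith
  · intro d hd
    have h1 := hd 1 (by simp)
    have h2 := hd (-1) (by simp)
    rw [Real.norm_eq_abs, Real.norm_eq_abs] at h1 h2
    by_contra hd0
    rcases lt_or_gt_of_ne hd0 with hneg | hpos
    · have : |d - -1| < |d| + 1 := by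
        rw [abs_of_neg hneg, abs_lt]; constructor <;> linarith
      linarith
    · have : |d - 1| < |d| + 1 := by
        rw [abs_of_pos hpos, abs_lt]; constructor <;> linarith
      linarith
  · intro Z _ k hk1 hk2 hk3
    exact exists_linearIsometryEquiv_of_sphere_isometry hk1 hk2 hk3

end Ray

end Vale.Agent.H23
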