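import Vale.Agent.H23.Weak
import Vale.Agent.H23.BallIso
import Vale.Agent.H23.Ray

/-!
# Linearity on a summand without the Mazur-Ulam property

Let `g : X₁ → X₂ → Y` restrict to a surjective isometry from the unit sphere of `X₁ ⊕₁ X₂` onto
the unit sphere of `Y`. Suppose that for some pole `(0, b)` the straight segments from the images
of the poles `(a, 0)` to the image of `(0, b)` fill the image of the cone
`{((1 - t) • w, d t)}` over the unit sphere of `X₁`. Then the image of the cone over the unit ball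
of `X₁` gives an isometry from the unit ball of `X₁` onto the unit ball of the image of the first
summand, and `g` is linear on the first summand. This applies when `X₁` is finite-dimensional
and when `X₂ = ℝ`.
-/

namespace Vale.Agent.H23

section Cone

variable {X₁ X₂ Y : Type*} [NormedAddCommGroup X₁] [NormedSpace ℝ X₁]
  [NormedAddCommGroup X₂] [NormedSpace ℝ X₂] [NormedAddCommGroup Y] [NormedSpace ℝ Y]
  [Nontrivial X₁] [Nontrivial X₂] {g : X₁ → X₂ → Y}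

/-- Additivity of the homogeneous extension of `g` on the first summand from a pole `(0, b)`
whose cone is filled by straight segments. -/
theorem L1Iso.G₁_add_of_cone (hg : L1Iso g) {b : X₂} (hb : ‖b‖ = 1)
    (hP : ∀ t : ℝ, 0 < t → t < 1 → ∃ d : X₂, ‖d‖ = t ∧ ‖d - b‖ = 1 - t ∧
      (∀ a : X₁, ‖a‖ = 1 → ∃ c : X₁, ‖c‖ = 1 - t ∧ g c d = (1 - t) • g a 0 + t • g 0 b) ∧
      (∀ w : X₁, ‖w‖ = 1 → ∃ a : X₁, ‖a‖ = 1 ∧
        g ((1 - t) • w) d = (1 - t) • g a 0 + t • g 0 b))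
    (a a' : X₁) : G₁ g (a + a') = G₁ g a + G₁ g a' := by
  classical
  obtain ⟨v, hvdef⟩ : ∃ v : Y, v = g 0 b := ⟨_, rfl⟩
  have hv : ‖v‖ = 1 := by rw [hvdef]; exact hg.norm_map 0 b (by simp [hb])
  choose! d hd_n hd_b hP1 hP2 using hP
  obtain ⟨dd, hdd⟩ : ∃ dd : ℝ → X₂,
      dd = fun t => if t ≤ 0 then 0 else if 1 ≤ t then b else d t := ⟨_, rfl⟩
  have hdd0 : dd 0 = 0 := by rw [hdd]; simp
  have hdd1 : dd 1 = b := by rw [hdd]; simp
  have hddi : ∀ t : ℝ, 0 < t → t < 1 → dd t = d t := by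
    intro t h0 h1
    rw [hdd]
    simp [not_le.mpr h0, not_le.mpr h1]
  have hdd_n : ∀ t : ℝ, 0 ≤ t → t ≤ 1 → ‖dd t‖ = t := by
    intro t h0 h1
    rcases eq_or_lt_of_le h0 with h | h
    · rw [← h, hdd0, norm_zero]
    rcases eq_or_lt_of_le h1 with h' | h'
    · rw [h', hdd1, hb]
    · rw [hddi t h h']; exact hd_n t h h'
  have hdd_b : ∀ t : ℝ, 0 ≤ t → t ≤ 1 → ‖dd t - b‖ = 1 - t := by
    intro t h0 h1
    rcases eq_or_lt_of_le h0 with h | h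
    · rw [← h, hdd0, zero_sub, norm_neg, hb, sub_zero]
    rcases eq_or_lt_of_le h1 with h' | h'
    · rw [h', hdd1, sub_self, norm_zero, sub_self]
    · rw [hddi t h h']; exact hd_b t h h'
  obtain ⟨a₀, ha₀⟩ : ∃ a₀ : X₁, ‖a₀‖ = 1 := by
    obtain ⟨e, he⟩ := exists_ne (0 : X₁)
    exact ⟨‖e‖⁻¹ • e, norm_inv_smul_self he⟩
  have hu₀ : ‖g a₀ 0‖ = 1 := hg.norm_map a₀ 0 (by simp [ha₀])
  have huv : ‖g a₀ 0 - v‖ = 2 := by
    rw [hvdef, hg.dist_map a₀ 0 0 b (by simp [ha₀]) (by simp [hb]), sub_zero, zero_sub, norm_neg,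
      ha₀, hb]; norm_num
  -- the geodesic `dd`
  have hdd_le : ∀ t s : ℝ, 0 ≤ t → t ≤ 1 → 0 ≤ s → s ≤ 1 → ‖dd t - dd s‖ ≤ |t - s| := by
    intro t s ht0 ht1 hs0 hs1
    rcases eq_or_lt_of_le hs0 with h | h
    · rw [← h, hdd0, sub_zero, sub_zero, hdd_n t ht0 ht1, abs_of_nonneg ht0]
    rcases eq_or_lt_of_le hs1 with h' | h'
    · rw [h', hdd1, hdd_b t ht0 ht1, abs_sub_comm, abs_of_nonneg (by linarith)]
    rcases eq_or_lt_of_le ht0 with k | k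
    · rw [← k, hdd0, zero_sub, norm_neg, hdd_n s hs0 hs1, zero_sub, abs_neg, abs_of_nonneg hs0]
    rcases eq_or_lt_of_le ht1 with k' | k'
    · rw [k', hdd1, norm_sub_rev, hdd_b s hs0 hs1, abs_of_nonneg (by linarith)]
    obtain ⟨ct, hct1, hct⟩ := hP1 t k k' a₀ ha₀
    obtain ⟨cs, hcs1, hcs⟩ := hP1 s h h' a₀ ha₀
    have hdist := hg.dist_map ct (d t) cs (d s) (by rw [hct1, hd_n t k k']; ring)
      (by rw [hcs1, hd_n s h h']; ring)
    rw [hct, hcs, ← hvdef] at hdist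
    have e : (1 - t) • g a₀ 0 + t • v - ((1 - s) • g a₀ 0 + s • v)
        = (s - t) • (g a₀ 0 - v) := by module
    rw [e, norm_smul, huv, Real.norm_eq_abs] at hdist
    have h3 : |‖ct‖ - ‖cs‖| ≤ ‖ct - cs‖ := abs_norm_sub_norm_le ct cs
    rw [hct1, hcs1] at h3
    have e2 : 1 - t - (1 - s) = s - t := by ring
    rw [e2] at h3
    rw [hddi t k k', hddi s h h', abs_sub_comm t s]
    linarith
  have hdd_eq : ∀ t s : ℝ, 0 ≤ t → t ≤ 1 → 0 ≤ s → s ≤ 1 → ‖dd t - dd s‖ = |t - s| := by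
    intro t s ht0 ht1 hs0 hs1
    refine le_antisymm (hdd_le t s ht0 ht1 hs0 hs1) ?_
    have := abs_norm_sub_norm_le (dd t) (dd s)
    rwa [hdd_n t ht0 ht1, hdd_n s hs0 hs1] at this
  -- the map `h` on the closed unit ball
  obtain ⟨h, hh⟩ : ∃ h : X₁ → Y, h = fun e => g e (dd (1 - ‖e‖)) - (1 - ‖e‖) • v := ⟨_, rfl⟩
  have hh' : ∀ e : X₁, h e = g e (dd (1 - ‖e‖)) - (1 - ‖e‖) • v := fun e => by rw [hh]
  have hh1 : ∀ e : X₁, ‖e‖ ≤ 1 → ∃ c : X₁, ‖c‖ = ‖e‖ ∧ h e = G₁ g c := by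
    intro e he
    by_cases he0 : e = 0
    · refine ⟨0, by rw [he0], ?_⟩
      rw [hh', he0, norm_zero, sub_zero, hdd1, one_smul, hvdef, sub_self, G₁_map_zero]
    rcases eq_or_lt_of_le he with he1 | he1
    · refine ⟨e, rfl, ?_⟩
      rw [hh', he1, sub_self, hdd0, zero_smul, sub_zero, G₁_unit g he1]
    · have hepos : 0 < ‖e‖ := norm_pos_iff.mpr he0
      have ht0 : 0 < 1 - ‖e‖ := by linarith
      have ht1 : 1 - ‖e‖ < 1 := by linarith
      obtain ⟨a, ha, hga⟩ := hP2 (1 - ‖e‖) ht0 ht1 (‖e‖⁻¹ • e) (norm_inv_smul_self he0)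
      rw [sub_sub_cancel, norm_smul_inv_smul_self] at hga
      refine ⟨‖e‖ • a, ?_, ?_⟩
      · rw [norm_smul, ha, mul_one, norm_norm]
      · rw [hh', hddi _ ht0 ht1, hga, ← hvdef, hg.G₁_hom, G₁_unit g ha]
        abel
  have hh3 : ∀ c : X₁, ‖c‖ ≤ 1 → ∃ e : X₁, ‖e‖ ≤ 1 ∧ h e = G₁ g c := by
    intro c hc
    by_cases hc0 : c = 0
    · refine ⟨0, by simp, ?_⟩
      rw [hh', norm_zero, sub_zero, hdd1, one_smul, hvdef, sub_self, hc0, G₁_map_zero]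
    rcases eq_or_lt_of_le hc with hc1 | hc1
    · refine ⟨c, hc, ?_⟩
      rw [hh', hc1, sub_self, hdd0, zero_smul, sub_zero, G₁_unit g hc1]
    · have hcpos : 0 < ‖c‖ := norm_pos_iff.mpr hc0
      have ht0 : 0 < 1 - ‖c‖ := by linarith
      have ht1 : 1 - ‖c‖ < 1 := by linarith
      obtain ⟨c', hc'n, hgc'⟩ := hP1 (1 - ‖c‖) ht0 ht1 (‖c‖⁻¹ • c) (norm_inv_smul_self hc0)
      rw [sub_sub_cancel] at hc'n hgc'
      refine ⟨c', by rw [hc'n]; exact hc, ?_⟩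
      rw [hh', hc'n, hddi _ ht0 ht1, hgc', ← hvdef]
      show ‖c‖ • g (‖c‖⁻¹ • c) 0 + (1 - ‖c‖) • v - (1 - ‖c‖) • v = ‖c‖ • g (‖c‖⁻¹ • c) 0
      abel
  have hsubmem : ∀ c c' : X₁, ∃ c'' : X₁, G₁ g c - G₁ g c' = G₁ g c'' := by
    intro c c'
    obtain ⟨c'', hc''⟩ := range_add_of_eqsum hg.G₁_hom hg.G₁_nrm hg.isClosed_range_G₁_gen
      (fun a a' haa => hg.G₁_add_mem' haa) c (-c')
    refine ⟨c'', ?_⟩
    rw [← hc'']
    have : G₁ g (-c') = -G₁ g c' := by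
      have := hg.G₁_hom (-1) c'
      rwa [neg_one_smul, neg_one_smul] at this
    rw [this]; abel
  have hh2 : ∀ e e' : X₁, ‖e‖ ≤ 1 → ‖e'‖ ≤ 1 → ‖h e - h e'‖ = ‖e - e'‖ := by
    intro e e' he he'
    obtain ⟨c, -, hc⟩ := hh1 e he
    obtain ⟨c', -, hc'⟩ := hh1 e' he'
    obtain ⟨c'', hc''⟩ := hsubmem c c'
    have hs0 : 0 ≤ 1 - ‖e‖ := by linarith
    have hs1 : 1 - ‖e‖ ≤ 1 := by linarith [norm_nonneg e]
    have hs0' : 0 ≤ 1 - ‖e'‖ := by linarith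
    have hs1' : 1 - ‖e'‖ ≤ 1 := by linarith [norm_nonneg e']
    have hdist := hg.dist_map e (dd (1 - ‖e‖)) e' (dd (1 - ‖e'‖))
      (by rw [hdd_n _ hs0 hs1]; ring) (by rw [hdd_n _ hs0' hs1']; ring)
    rw [hdd_eq _ _ hs0 hs1 hs0' hs1'] at hdist
    have e1 : g e (dd (1 - ‖e‖)) - g e' (dd (1 - ‖e'‖))
        = G₁ g c'' + G₂ g ((‖e'‖ - ‖e‖) • b) := by
      rw [hg.G₂_hom, G₂_unit g hb, ← hvdef, ← hc'', ← hc, ← hc', hh', hh']
      module
    rw [e1, hg.norm_G_add, norm_smul, hb, mul_one, Real.norm_eq_abs] at hdist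
    have e2 : 1 - ‖e‖ - (1 - ‖e'‖) = ‖e'‖ - ‖e‖ := by ring
    rw [e2] at hdist
    rw [hc, hc', hc'', hg.G₁_nrm]
    linarith
  -- the image of the first summand as a submodule
  let Z : Submodule ℝ Y := rangeSubmodule hg.G₁_hom hg.G₁_nrm hg.isClosed_range_G₁_gen
    (fun a a' haa => hg.G₁_add_mem' haa)
  have hmemZ : ∀ e : X₁, ‖e‖ ≤ 1 → h e ∈ Z := by
    intro e he
    obtain ⟨c, -, hc⟩ := hh1 e he
    exact ⟨c, hc.symm⟩
  let k : X₁ → Z := fun e => if he : ‖e‖ ≤ 1 then ⟨h e, hmemZ e he⟩ else 0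
  have hk : ∀ e : X₁, ‖e‖ ≤ 1 → ((k e : Z) : Y) = h e := by
    intro e he
    show ((if he : ‖e‖ ≤ 1 then (⟨h e, hmemZ e he⟩ : Z) else 0 : Z) : Y) = h e
    rw [dif_pos he]
  have hh0 : h 0 = 0 := by
    rw [hh', norm_zero, sub_zero, hdd1, one_smul, hvdef, sub_self]
  obtain ⟨T, hT⟩ := exists_linearIsometryEquiv_of_ball_isometry (h := k)
    (fun c c' hc hc' => by
      rw [Submodule.coe_norm, Submodule.coe_sub, hk c hc, hk c' hc']
      exact hh2 c c' hc hc')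
    (Subtype.ext (by rw [hk 0 (by simp), hh0]; rfl))
    (fun w hw => by
      obtain ⟨c, hc⟩ := w.2
      have hcn : ‖c‖ ≤ 1 := by
        rw [← hg.G₁_nrm (g := g), hc]
        rw [Submodule.coe_norm] at hw
        exact hw
      obtain ⟨e, he, hee⟩ := hh3 c hcn
      exact ⟨e, he, Subtype.ext (by rw [hk e he, hee, hc])⟩)
  have hTG : ∀ a : X₁, ((T a : Z) : Y) = G₁ g a := by
    intro a
    by_cases ha : a = 0
    · rw [ha, map_zero, G₁_map_zero]; rfl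
    · have h1a : ‖‖a‖⁻¹ • a‖ = 1 := norm_inv_smul_self ha
      have h1 := hT _ h1a.le
      have h2 : T a = ‖a‖ • T (‖a‖⁻¹ • a) := by
        rw [← map_smul, norm_smul_inv_smul_self]
      rw [h2, h1, Submodule.coe_smul, hk _ h1a.le, hh', h1a, sub_self, hdd0, zero_smul, sub_zero]
      rfl
  rw [← hTG, ← hTG, ← hTG, map_add, Submodule.coe_add]

/-- The cone over the unit sphere of a finite-dimensional first summand is filled by straight
segments, for every pole of the second summand. -/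
lemma L1Iso.cone_of_finiteDimensional [FiniteDimensional ℝ X₁] (hg : L1Iso g) {b : X₂}
    (hb : ‖b‖ = 1) {t : ℝ} (ht0 : 0 < t) (ht1 : t < 1) :
    ∃ d : X₂, ‖d‖ = t ∧ ‖d - b‖ = 1 - t ∧
      (∀ a : X₁, ‖a‖ = 1 → ∃ c : X₁, ‖c‖ = 1 - t ∧ g c d = (1 - t) • g a 0 + t • g 0 b) ∧
      (∀ w : X₁, ‖w‖ = 1 → ∃ a : X₁, ‖a‖ = 1 ∧
        g ((1 - t) • w) d = (1 - t) • g a 0 + t • g 0 b) := by
  have h1t : 0 < 1 - t := by linarith
  obtain ⟨d, hd1, hd2, hd⟩ := hg.wpole hb ht0 ht1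
  refine ⟨d, hd1, hd2, fun a ha => ?_, ?_⟩
  · obtain ⟨c, hc1, -, hc⟩ := hd a ha
    exact ⟨c, hc1, hc⟩
  · choose! C hC1 hC2 hC using hd
    have hκ1 : ∀ a : X₁, ‖a‖ = 1 → ‖(1 - t)⁻¹ • C a‖ = 1 := by
      intro a ha
      rw [norm_smul, hC1 a ha, Real.norm_eq_abs, abs_of_pos (inv_pos.mpr h1t),
        inv_mul_cancel₀ h1t.ne']
    have hκ2 : ∀ a a' : X₁, ‖a‖ = 1 → ‖a'‖ = 1 →
        ‖(1 - t)⁻¹ • C a - (1 - t)⁻¹ • C a'‖ = ‖a - a'‖ := by
      intro a a' ha ha'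
      have h := hg.dist_map (C a) d (C a') d (by rw [hC1 a ha, hd1]; ring)
        (by rw [hC1 a' ha', hd1]; ring)
      rw [hC a ha, hC a' ha', sub_self, norm_zero, add_zero] at h
      have e : (1 - t) • g a 0 + t • g 0 b - ((1 - t) • g a' 0 + t • g 0 b)
          = (1 - t) • (g a 0 - g a' 0) := by module
      rw [e, norm_smul, hg.dist_map a 0 a' 0 (by simp [ha]) (by simp [ha']), sub_self, norm_zero,
        add_zero, Real.norm_eq_abs, abs_of_pos h1t] at h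
      rw [← smul_sub, norm_smul, ← h, Real.norm_eq_abs, abs_of_pos (inv_pos.mpr h1t),
        ← mul_assoc, inv_mul_cancel₀ h1t.ne', one_mul]
    intro w hw
    obtain ⟨a, ha, hκa⟩ := sphere_embedding_surjective (fun a => (1 - t)⁻¹ • C a) hκ1 hκ2 w hw
    refine ⟨a, ha, ?_⟩
    have e : (1 - t) • w = C a := by
      rw [← hκa, smul_smul, mul_inv_cancel₀ h1t.ne', one_smul]
    rw [e]; exact hC a ha

/-- The cone over the unit sphere of a strictly convex first summand is filled by straight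
segments, for every pole of the second summand. -/
lemma L1Iso.cone_of_strictConvex [StrictConvexSpace ℝ X₁] (hg : L1Iso g) {b : X₂}
    (hb : ‖b‖ = 1) {t : ℝ} (ht0 : 0 < t) (ht1 : t < 1) :
    ∃ d : X₂, ‖d‖ = t ∧ ‖d - b‖ = 1 - t ∧
      (∀ a : X₁, ‖a‖ = 1 → ∃ c : X₁, ‖c‖ = 1 - t ∧ g c d = (1 - t) • g a 0 + t • g 0 b) ∧
      (∀ w : X₁, ‖w‖ = 1 → ∃ a : X₁, ‖a‖ = 1 ∧
        g ((1 - t) • w) d = (1 - t) • g a 0 + t • g 0 b) := by
  obtain ⟨d, hd1, hd2, hd⟩ := hg.wpole hb ht0 ht1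
  refine ⟨d, hd1, hd2, fun a ha => ?_, fun w hw => ?_⟩
  · obtain ⟨c, hc1, -, hc⟩ := hd a ha
    exact ⟨c, hc1, hc⟩
  · obtain ⟨c, hc1, hc2, hc⟩ := hd w hw
    have hcw : c = ‖c‖ • w := eq_smul_of_norm_sub hw (by rw [hc2, hc1]; ring)
    rw [hc1] at hcw
    exact ⟨w, hw, by rw [← hcw]; exact hc⟩

end Cone

section ConeReal

variable {X₁ Y : Type*} [NormedAddCommGroup X₁] [NormedSpace ℝ X₁] [Nontrivial X₁]
  [NormedAddCommGroup Y] [NormedSpace ℝ Y] {g : X₁ → ℝ → Y}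

/-- The cone over the unit sphere of the first summand is filled by straight segments when the
second summand is the real line. -/
lemma L1Iso.cone_real (hg : L1Iso g) {t : ℝ} (ht0 : 0 < t) (ht1 : t < 1) :
    ∃ d : ℝ, ‖d‖ = t ∧ ‖d - 1‖ = 1 - t ∧
      (∀ a : X₁, ‖a‖ = 1 → ∃ c : X₁, ‖c‖ = 1 - t ∧ g c d = (1 - t) • g a 0 + t • g 0 1) ∧
      (∀ w : X₁, ‖w‖ = 1 → ∃ a : X₁, ‖a‖ = 1 ∧
        g ((1 - t) • w) d = (1 - t) • g a 0 + t • g 0 1) := by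
  have h1t : 0 < 1 - t := by linarith
  refine ⟨t, ?_, ?_, fun a ha => ?_, fun w hw => hg.exists_pole_of_ray hw ht0 ht1⟩
  · rw [Real.norm_eq_abs, abs_of_pos ht0]
  · rw [Real.norm_eq_abs, abs_sub_comm, abs_of_pos h1t]
  · obtain ⟨a', ha', -, hga'⟩ := hg.exists_kappa mext_one ha ht0 ht1
    refine ⟨(1 - t) • a', ?_, ?_⟩
    · rw [norm_smul, ha', mul_one, Real.norm_eq_abs, abs_of_pos h1t]
    · rw [smul_eq_mul, mul_one] at hga'
      exact hga'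

end ConeReal

end Vale.Agent.H23
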