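import Vale.Agent.H23.BallIso
import Vale.Agent.H23.L1Core

/-!
# Sphere isometries of a cylinder `X ⊕_∞ ℝ`

Function-level study of surjective isometries from the unit sphere of the `ℓ^∞`-sum `X ⊕_∞ ℝ`
(points `(x, s)` with norm `max ‖x‖ |s|`) onto the unit sphere of a real normed space `Y`.
The map is given as `g : X → ℝ → Y`. The main result of this file is that `g` agrees on the
sphere with a map `(x, s) ↦ Λ x + s • c` where `Λ` is linear and `‖Λ x + s • c‖ = max ‖x‖ |s|`.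
-/

namespace Vale.Agent.H23

open Set

variable {X Y : Type*} [NormedAddCommGroup X] [NormedSpace ℝ X]
  [NormedAddCommGroup Y] [NormedSpace ℝ Y]

/-- A surjective isometry from the unit sphere of `X ⊕_∞ ℝ` onto the unit sphere of `Y`, in
function form. -/
structure CylIso (g : X → ℝ → Y) : Prop where
  norm_map : ∀ x s, max ‖x‖ |s| = 1 → ‖g x s‖ = 1
  dist_map : ∀ x s x' s', max ‖x‖ |s| = 1 → max ‖x'‖ |s'| = 1 →
    ‖g x s - g x' s'‖ = max ‖x - x'‖ |s - s'|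
  surj : ∀ w : Y, ‖w‖ = 1 → ∃ x s, max ‖x‖ |s| = 1 ∧ g x s = w

lemma cyl_top {x : X} (hx : ‖x‖ ≤ 1) : max ‖x‖ |(1 : ℝ)| = 1 := by
  rw [abs_one]; exact max_eq_right hx

lemma cyl_bot {x : X} (hx : ‖x‖ ≤ 1) : max ‖x‖ |(-1 : ℝ)| = 1 := by
  rw [abs_neg, abs_one]; exact max_eq_right hx

lemma cyl_side {a : X} (ha : ‖a‖ = 1) {s : ℝ} (hs : |s| ≤ 1) : max ‖a‖ |s| = 1 := by
  rw [ha]; exact max_eq_left hs

lemma cyl_norm_le {x : X} {s : ℝ} (h : max ‖x‖ |s| = 1) : ‖x‖ ≤ 1 := by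
  rw [← h]; exact le_max_left _ _

lemma cyl_abs_le {x : X} {s : ℝ} (h : max ‖x‖ |s| = 1) : |s| ≤ 1 := by
  rw [← h]; exact le_max_right _ _

lemma cyl_norm_eq {x : X} {s : ℝ} (h : max ‖x‖ |s| = 1) (hs : |s| < 1) : ‖x‖ = 1 := by
  rcases max_choice ‖x‖ |s| with h1 | h1
  · rw [← h1]; exact h
  · rw [h1] at h; linarith

namespace CylIso

variable {g : X → ℝ → Y}

/-- Reflection of the cylinder in the hyperplane `s = 0`. -/
lemma flip (hg : CylIso g) : CylIso (fun x s => g x (-s)) where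
  norm_map x s h := hg.norm_map x (-s) (by rwa [abs_neg])
  dist_map x s x' s' h h' := by
    rw [hg.dist_map x (-s) x' (-s') (by rwa [abs_neg]) (by rwa [abs_neg])]
    congr 1
    rw [← abs_neg]; congr 1; ring
  surj w hw := by
    obtain ⟨x, s, h, hx⟩ := hg.surj w hw
    exact ⟨x, -s, by rwa [abs_neg], by rw [neg_neg]; exact hx⟩

/-- The antipodal set of a point in the open bottom cap is the top cap. -/
lemma eq_one_of_dist_two (hg : CylIso g) {x : X} (hx : ‖x‖ < 1) {x' : X} {s' : ℝ}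
    (h' : max ‖x'‖ |s'| = 1) (hd : ‖g x' s' - g x (-1)‖ = 2) : s' = 1 := by
  rw [hg.dist_map x' s' x (-1) h' (cyl_bot hx.le)] at hd
  have h1 : ‖x' - x‖ < 2 := by
    have := norm_sub_le x' x
    have := cyl_norm_le h'
    linarith
  have h2 : |s' - -1| = 2 := by
    rcases max_choice ‖x' - x‖ |s' - -1| with h3 | h3
    · rw [h3] at hd; linarith
    · rw [h3] at hd; exact hd
  have h3 := abs_le.mp (cyl_abs_le h')
  rcases abs_eq (by norm_num : (0 : ℝ) ≤ 2) |>.mp h2 with h4 | h4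
  · linarith
  · linarith [h3.1, h3.2]

/-- A point of the sphere approximated by top cap points lies in the top cap. -/
lemma eq_one_of_approx (hg : CylIso g) {y : X} {s : ℝ} (h : max ‖y‖ |s| = 1)
    (happ : ∀ t : ℝ, 0 ≤ t → t < 1 → ∃ z : X, ‖z‖ ≤ 1 ∧ ‖g y s - g z 1‖ ≤ 1 - t) : s = 1 := by
  have hs := abs_le.mp (cyl_abs_le h)
  by_contra hne
  have hlt : s < 1 := lt_of_le_of_ne hs.2 hne
  obtain ⟨z, hz, hle⟩ := happ ((s + 1) / 2) (by linarith) (by linarith)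
  rw [hg.dist_map y s z 1 h (cyl_top hz)] at hle
  have h1 : |s - 1| ≤ 1 - (s + 1) / 2 := le_trans (le_max_right _ _) hle
  rw [abs_of_nonpos (by linarith)] at h1
  linarith

/-- The negative of an open bottom cap point is a top cap point. -/
lemma exists_neg_bot_open (hg : CylIso g) {x : X} (hx : ‖x‖ < 1) :
    ∃ x' : X, ‖x'‖ ≤ 1 ∧ g x' 1 = - g x (-1) := by
  have h1 : ‖- g x (-1)‖ = 1 := by rw [norm_neg]; exact hg.norm_map x (-1) (cyl_bot hx.le)
  obtain ⟨x', s', h', hx'⟩ := hg.surj _ h1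
  have h2 : ‖g x' s' - g x (-1)‖ = 2 := by
    have e : - g x (-1) - g x (-1) = -((2 : ℝ) • g x (-1)) := by rw [two_smul]; abel
    rw [hx', e, norm_neg, norm_smul, hg.norm_map x (-1) (cyl_bot hx.le)]
    norm_num
  have h3 := hg.eq_one_of_dist_two hx h' h2
  subst h3
  exact ⟨x', cyl_norm_le h', hx'⟩

/-- The negative of a bottom cap point is a top cap point. -/
lemma exists_neg_bot (hg : CylIso g) {x : X} (hx : ‖x‖ ≤ 1) :
    ∃ x' : X, ‖x'‖ ≤ 1 ∧ g x' 1 = - g x (-1) := by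
  have h1 : ‖- g x (-1)‖ = 1 := by rw [norm_neg]; exact hg.norm_map x (-1) (cyl_bot hx)
  obtain ⟨x', s', h', hx'⟩ := hg.surj _ h1
  have h3 : s' = 1 := by
    refine hg.eq_one_of_approx h' fun t ht0 ht1 => ?_
    have htx : ‖t • x‖ < 1 := by
      rw [norm_smul, Real.norm_eq_abs, abs_of_nonneg ht0]
      nlinarith [norm_nonneg x]
    obtain ⟨z, hz, hgz⟩ := hg.exists_neg_bot_open htx
    refine ⟨z, hz, ?_⟩
    rw [hx', hgz, neg_sub_neg, hg.dist_map _ _ _ _ (cyl_bot htx.le) (cyl_bot hx), sub_self,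
      abs_zero]
    have e : t • x - x = (t - 1) • x := by rw [sub_smul, one_smul]
    rw [e, norm_smul, Real.norm_eq_abs, abs_of_nonpos (by linarith)]
    have := norm_nonneg x
    rw [max_eq_left (by nlinarith)]
    nlinarith
  subst h3
  exact ⟨x', cyl_norm_le h', hx'⟩

/-- The negative of a top cap point is a bottom cap point. -/
lemma exists_neg_top (hg : CylIso g) {x : X} (hx : ‖x‖ ≤ 1) :
    ∃ x' : X, ‖x'‖ ≤ 1 ∧ g x' (-1) = - g x 1 := by
  obtain ⟨x', h1, h2⟩ := hg.flip.exists_neg_bot hx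
  refine ⟨x', h1, ?_⟩
  simpa using h2

/-- Injectivity on the top cap. -/
lemma top_inj (hg : CylIso g) {x x' : X} (hx : ‖x‖ ≤ 1) (hx' : ‖x'‖ ≤ 1)
    (h : g x 1 = g x' 1) : x = x' := by
  have h1 := hg.dist_map x 1 x' 1 (cyl_top hx) (cyl_top hx')
  rw [h, sub_self, norm_zero, sub_self, abs_zero] at h1
  have h2 : ‖x - x'‖ ≤ 0 := by rw [h1]; exact le_max_left _ _
  exact sub_eq_zero.mp (norm_le_zero_iff.mp h2)

/-- The only point of the unit ball within distance `1` of every point of the ball is `0`. -/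
lemma eq_zero_of_forall_dist_le {p : X} (hp : ∀ x : X, ‖x‖ ≤ 1 → ‖p - x‖ ≤ 1) : p = 0 := by
  by_contra hne
  have hpos : 0 < ‖p‖ := norm_pos_iff.mpr hne
  have h1 : ‖-(‖p‖⁻¹ • p)‖ ≤ 1 := by
    rw [norm_neg, norm_smul, norm_inv, norm_norm, inv_mul_cancel₀ hpos.ne']
  have h2 := hp _ h1
  have e : p - -(‖p‖⁻¹ • p) = (1 + ‖p‖⁻¹) • p := by rw [add_smul, one_smul, sub_neg_eq_add]
  rw [e, norm_smul, Real.norm_eq_abs, abs_of_pos (by positivity), add_mul, one_mul,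
    inv_mul_cancel₀ hpos.ne'] at h2
  linarith

/-- The antipodal correspondence between the caps is given by a linear isometry of `X`. -/
lemma exists_antipode (hg : CylIso g) :
    ∃ Lt : X ≃ₗᵢ[ℝ] X, ∀ x : X, ‖x‖ ≤ 1 → g (Lt x) 1 = - g x (-1) := by
  have hex : ∀ x : X, ∃ x' : X, ‖x‖ ≤ 1 → ‖x'‖ ≤ 1 ∧ g x' 1 = - g x (-1) := by
    intro x
    by_cases hx : ‖x‖ ≤ 1
    · obtain ⟨x', h1, h2⟩ := hg.exists_neg_bot hx
      exact ⟨x', fun _ => ⟨h1, h2⟩⟩
    · exact ⟨0, fun h => absurd h hx⟩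
  choose L hL using hex
  have hdist : ∀ c c' : X, ‖c‖ ≤ 1 → ‖c'‖ ≤ 1 → ‖L c - L c'‖ = ‖c - c'‖ := by
    intro c c' hc hc'
    have h1 := hg.dist_map (L c) 1 (L c') 1 (cyl_top (hL c hc).1) (cyl_top (hL c' hc').1)
    rw [(hL c hc).2, (hL c' hc').2, sub_self, abs_zero, max_eq_left (norm_nonneg _)] at h1
    rw [← h1, neg_sub_neg, hg.dist_map _ _ _ _ (cyl_bot hc') (cyl_bot hc), sub_self, abs_zero,
      max_eq_left (norm_nonneg _), norm_sub_rev]
  have hsurj : ∀ w : X, ‖w‖ ≤ 1 → ∃ c : X, ‖c‖ ≤ 1 ∧ L c = w := by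
    intro w hw
    obtain ⟨x, hx, hgx⟩ := hg.exists_neg_top hw
    refine ⟨x, hx, hg.top_inj (hL x hx).1 hw ?_⟩
    rw [(hL x hx).2, hgx, neg_neg]
  have h0 : L 0 = 0 := by
    apply eq_zero_of_forall_dist_le
    intro x hx
    obtain ⟨c, hc, hLc⟩ := hsurj x hx
    rw [← hLc, hdist 0 c (by simp) hc, zero_sub, norm_neg]
    exact hc
  obtain ⟨Lt, hLt⟩ := exists_linearIsometryEquiv_of_ball_isometry hdist h0 hsurj
  exact ⟨Lt, fun x hx => by rw [hLt x hx]; exact (hL x hx).2⟩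

/-- Two top cap points have sum of norm `2`. -/
lemma norm_top_add_top (hg : CylIso g) {x y : X} (hx : ‖x‖ ≤ 1) (hy : ‖y‖ ≤ 1) :
    ‖g y 1 + g x 1‖ = 2 := by
  obtain ⟨Lt, hLt⟩ := hg.exists_antipode
  have hx0 : ‖Lt.symm x‖ ≤ 1 := by rw [LinearIsometryEquiv.norm_map]; exact hx
  have h1 := hLt (Lt.symm x) hx0
  rw [LinearIsometryEquiv.apply_symm_apply] at h1
  rw [h1, ← sub_eq_add_neg, hg.dist_map _ _ _ _ (cyl_top hy) (cyl_bot hx0)]
  have h2 : ‖y - Lt.symm x‖ ≤ 2 := by have := norm_sub_le y (Lt.symm x); linarith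
  have e : |(1 : ℝ) - -1| = 2 := by norm_num
  rw [e]
  exact max_eq_right h2

/-- A unit vector whose sum with an open top cap point has norm `2` is a top cap point. -/
lemma top_of_norm_add (hg : CylIso g) {x : X} (hx : ‖x‖ < 1) {w : Y} (hw : ‖w‖ = 1)
    (h : ‖w + g x 1‖ = 2) : ∃ y : X, ‖y‖ ≤ 1 ∧ g y 1 = w := by
  obtain ⟨Lt, hLt⟩ := hg.exists_antipode
  have hx0 : ‖Lt.symm x‖ < 1 := by rw [LinearIsometryEquiv.norm_map]; exact hx
  have h1 := hLt (Lt.symm x) hx0.le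
  rw [LinearIsometryEquiv.apply_symm_apply] at h1
  obtain ⟨y, s, hys, hgy⟩ := hg.surj w hw
  rw [h1, ← sub_eq_add_neg, ← hgy] at h
  have hs := hg.eq_one_of_dist_two hx0 hys h
  subst hs
  exact ⟨y, cyl_norm_le hys, hgy⟩

/-- Convex combinations of a top cap point and an open top cap point are top cap points. -/
lemma top_convex_open (hg : CylIso g) {y₁ y₂ : X} (h₁ : ‖y₁‖ ≤ 1) (h₂ : ‖y₂‖ < 1) {l : ℝ}
    (hl0 : 0 ≤ l) (hl1 : l ≤ 1) :
    ∃ y : X, ‖y‖ ≤ 1 ∧ g y 1 = l • g y₁ 1 + (1 - l) • g y₂ 1 := by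
  have hu := hg.norm_map y₁ 1 (cyl_top h₁)
  have hv := hg.norm_map y₂ 1 (cyl_top h₂.le)
  have huv := hg.norm_top_add_top h₂.le h₁
  have hm : ‖l • g y₁ 1 + (1 - l) • g y₂ 1‖ = 1 := by
    rw [norm_nonneg_combo hu hv huv hl0 (by linarith)]; ring
  have hm2 : ‖l • g y₁ 1 + (1 - l) • g y₂ 1 + g y₂ 1‖ = 2 := by
    have e : l • g y₁ 1 + (1 - l) • g y₂ 1 + g y₂ 1 = l • g y₁ 1 + (2 - l) • g y₂ 1 := by
      rw [sub_smul, sub_smul, one_smul, two_smul]; abel
    rw [e, norm_nonneg_combo hu hv huv hl0 (by linarith)]; ring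
  exact hg.top_of_norm_add h₂ hm hm2

/-- The image of the top cap is convex. -/
lemma top_convex (hg : CylIso g) {y₁ y₂ : X} (h₁ : ‖y₁‖ ≤ 1) (h₂ : ‖y₂‖ ≤ 1) {l : ℝ}
    (hl0 : 0 ≤ l) (hl1 : l ≤ 1) :
    ∃ y : X, ‖y‖ ≤ 1 ∧ g y 1 = l • g y₁ 1 + (1 - l) • g y₂ 1 := by
  have hu := hg.norm_map y₁ 1 (cyl_top h₁)
  have hv := hg.norm_map y₂ 1 (cyl_top h₂)
  have huv := hg.norm_top_add_top h₂ h₁
  have hm : ‖l • g y₁ 1 + (1 - l) • g y₂ 1‖ = 1 := by
    rw [norm_nonneg_combo hu hv huv hl0 (by linarith)]; ring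
  obtain ⟨y, s, hys, hgy⟩ := hg.surj _ hm
  have hs : s = 1 := by
    refine hg.eq_one_of_approx hys fun t ht0 ht1 => ?_
    have htx : ‖t • y₂‖ < 1 := by
      rw [norm_smul, Real.norm_eq_abs, abs_of_nonneg ht0]
      nlinarith [norm_nonneg y₂]
    obtain ⟨z, hz, hgz⟩ := hg.top_convex_open h₁ htx hl0 hl1
    refine ⟨z, hz, ?_⟩
    rw [hgy, hgz]
    have e : l • g y₁ 1 + (1 - l) • g y₂ 1 - (l • g y₁ 1 + (1 - l) • g (t • y₂) 1) =
        (1 - l) • (g y₂ 1 - g (t • y₂) 1) := by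
      rw [smul_sub]; abel
    rw [e, norm_smul, Real.norm_eq_abs, abs_of_nonneg (by linarith),
      hg.dist_map _ _ _ _ (cyl_top h₂) (cyl_top htx.le), sub_self, abs_zero]
    have e2 : y₂ - t • y₂ = (1 - t) • y₂ := by rw [sub_smul, one_smul]
    have h4 : 0 ≤ (1 - t) * ‖y₂‖ := mul_nonneg (by linarith) (norm_nonneg _)
    rw [e2, norm_smul, Real.norm_eq_abs, abs_of_nonneg (by linarith), max_eq_left h4]
    have h3 : (1 - t) * ‖y₂‖ ≤ 1 - t := by nlinarith [norm_nonneg y₂]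
    nlinarith
  subst hs
  exact ⟨y, cyl_norm_le hys, hgy⟩

/-- A functional dominated by the norm and equal to `1` on the image of the top cap. -/
lemma exists_height (hg : CylIso g) :
    ∃ h : Y →L[ℝ] ℝ, (∀ y, h y ≤ ‖y‖) ∧ ∀ x : X, ‖x‖ ≤ 1 → h (g x 1) = 1 := by
  obtain ⟨N, hN⟩ : ∃ N : Set Y, N = {w | ∃ x : X, ‖x‖ ≤ 1 ∧ g x 1 = w} := ⟨_, rfl⟩
  have hconv : Convex ℝ N := by
    intro w₁ hw₁ w₂ hw₂ a b ha hb hab
    rw [hN] at hw₁ hw₂ ⊢
    obtain ⟨y₁, h₁, rfl⟩ := hw₁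
    obtain ⟨y₂, h₂, rfl⟩ := hw₂
    have hb' : b = 1 - a := by linarith
    rw [hb']
    obtain ⟨y, hy, hgy⟩ := hg.top_convex h₁ h₂ ha (by linarith)
    exact ⟨y, hy, hgy⟩
  have hdisj : Disjoint (Metric.ball (0 : Y) 1) N := by
    rw [Set.disjoint_left]
    intro w hw hwN
    rw [hN] at hwN
    obtain ⟨x, hx, rfl⟩ := hwN
    rw [mem_ball_zero_iff, hg.norm_map x 1 (cyl_top hx)] at hw
    exact lt_irrefl _ hw
  obtain ⟨f, u, hfu, huf⟩ :=
    geometric_hahn_banach_open (convex_ball (0 : Y) 1) Metric.isOpen_ball hconv hdisj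
  have hu : 0 < u := by
    have := hfu 0 (by simp)
    rwa [map_zero] at this
  have hle : ∀ y : Y, f y ≤ u * ‖y‖ := by
    intro y
    by_contra hlt
    rw [not_le] at hlt
    have hy0 : 0 < ‖y‖ := by
      by_contra h0
      have h00 : ‖y‖ = 0 := le_antisymm (not_lt.mp h0) (norm_nonneg _)
      have hy : y = 0 := norm_eq_zero.mp h00
      rw [hy, map_zero, norm_zero, mul_zero] at hlt
      exact lt_irrefl _ hlt
    have hfy : 0 < f y := lt_trans (mul_pos hu hy0) hlt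
    have hz : ‖(u / f y) • y‖ < 1 := by
      rw [norm_smul, Real.norm_eq_abs, abs_of_pos (div_pos hu hfy), div_mul_eq_mul_div,
        div_lt_one hfy]
      exact hlt
    have h1 := hfu ((u / f y) • y) (by rwa [mem_ball_zero_iff])
    rw [map_smul, smul_eq_mul, div_mul_cancel₀ _ hfy.ne'] at h1
    exact lt_irrefl _ h1
  refine ⟨u⁻¹ • f, fun y => ?_, fun x hx => ?_⟩
  · rw [ContinuousLinearMap.smul_apply, smul_eq_mul, inv_mul_le_iff₀ hu]
    exact hle y
  · have h1 : u ≤ f (g x 1) := huf _ (by rw [hN]; exact ⟨x, hx, rfl⟩)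
    have h2 := hle (g x 1)
    rw [hg.norm_map x 1 (cyl_top hx), mul_one] at h2
    rw [ContinuousLinearMap.smul_apply, smul_eq_mul, le_antisymm h2 h1, inv_mul_cancel₀ hu.ne']

/-- The functional of `exists_height` computes the height coordinate. -/
lemma height_eq (hg : CylIso g) {h : Y →L[ℝ] ℝ} (hle : ∀ y, h y ≤ ‖y‖)
    (htop : ∀ x : X, ‖x‖ ≤ 1 → h (g x 1) = 1) {x : X} {s : ℝ} (hxs : max ‖x‖ |s| = 1) :
    h (g x s) = s := by
  obtain ⟨Lt, hLt⟩ := hg.exists_antipode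
  have hx := cyl_norm_le hxs
  have hs := abs_le.mp (cyl_abs_le hxs)
  have hbot : h (g x (-1)) = -1 := by
    have h1 := hLt x hx
    have h2 := htop (Lt x) (by rw [LinearIsometryEquiv.norm_map]; exact hx)
    rw [h1, map_neg] at h2
    linarith
  have h1 := hle (g x 1 - g x s)
  rw [hg.dist_map _ _ _ _ (cyl_top hx) hxs, sub_self, norm_zero, map_sub, htop x hx,
    max_eq_right (abs_nonneg _), abs_of_nonneg (by linarith)] at h1
  have h2 := hle (g x s - g x (-1))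
  rw [hg.dist_map _ _ _ _ hxs (cyl_bot hx), sub_self, norm_zero, map_sub, hbot,
    max_eq_right (abs_nonneg _), abs_of_nonneg (by linarith)] at h2
  linarith

/-- Any two points of the image sphere are at distance at most `2`. -/
lemma dist_le_two (hg : CylIso g) {x x' : X} {s s' : ℝ} (h : max ‖x‖ |s| = 1)
    (h' : max ‖x'‖ |s'| = 1) : max ‖x - x'‖ |s - s'| ≤ 2 := by
  rw [← hg.dist_map x s x' s' h h']
  have := norm_sub_le (g x s) (g x' s')
  rw [hg.norm_map x s h, hg.norm_map x' s' h'] at this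
  linarith

/-- Key estimate: the inverse of the antipodal isometry of `X` moves every unit vector to
distance `2`. -/
lemma norm_sub_antipode_symm (hg : CylIso g) {Lt : X ≃ₗᵢ[ℝ] X}
    (hLt : ∀ x : X, ‖x‖ ≤ 1 → g (Lt x) 1 = - g x (-1)) {a : X} (ha : ‖a‖ = 1) :
    ‖a - Lt.symm a‖ = 2 := by
  obtain ⟨h, hle, htop⟩ := hg.exists_height
  have hq : ‖-Lt.symm a‖ = 1 := by rw [norm_neg, LinearIsometryEquiv.norm_map]; exact ha
  have hna : ‖-a‖ = 1 := by rw [norm_neg]; exact ha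
  have hQ : g (-a) 1 = - g (-Lt.symm a) (-1) := by
    have h1 := hLt (-Lt.symm a) hq.le
    rwa [map_neg, LinearIsometryEquiv.apply_symm_apply] at h1
  have hPQ : ‖g a 1 + g (-Lt.symm a) (-1)‖ = 2 := by
    have e : g a 1 + g (-Lt.symm a) (-1) = g a 1 - g (-a) 1 := by rw [hQ]; abel
    rw [e, hg.dist_map _ _ _ _ (cyl_top ha.le) (cyl_top hna.le), sub_self, abs_zero,
      max_eq_left (norm_nonneg _)]
    have e2 : a - -a = (2 : ℝ) • a := by rw [two_smul]; abel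
    rw [e2, norm_smul, ha]; norm_num
  obtain ⟨v, hv⟩ : ∃ v : Y, v = (1 / 2 : ℝ) • (g a 1 + g (-Lt.symm a) (-1)) := ⟨_, rfl⟩
  have hv1 : ‖v‖ = 1 := by rw [hv, norm_smul, hPQ]; norm_num
  have hbotq : h (g (-Lt.symm a) (-1)) = -1 := hg.height_eq hle htop (cyl_bot hq.le)
  have hv0 : h v = 0 := by
    rw [hv, map_smul, map_add, htop a ha.le, hbotq]; simp
  obtain ⟨a'', s'', has, hga⟩ := hg.surj v hv1
  have hs'' : s'' = 0 := by
    rw [← hg.height_eq hle htop has, hga, hv0]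
  subst hs''
  have ha'' : ‖a''‖ = 1 := cyl_norm_eq has (by simp)
  have hna'' : ‖-a''‖ = 1 := by rw [norm_neg]; exact ha''
  have h0 : |(0 : ℝ)| ≤ 1 := by simp
  have htest : ∀ w : Y, ‖v - w‖ ≤
      (1 / 2) * ‖g a 1 - w‖ + (1 / 2) * ‖g (-Lt.symm a) (-1) - w‖ := by
    intro w
    have e : v - w = (1 / 2 : ℝ) • (g a 1 - w) + (1 / 2 : ℝ) • (g (-Lt.symm a) (-1) - w) := by
      rw [hv, ← smul_add]
      have e1 : g a 1 - w + (g (-Lt.symm a) (-1) - w) =
          g a 1 + g (-Lt.symm a) (-1) - (2 : ℝ) • w := by rw [two_smul]; abel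
      rw [e1, smul_sub, smul_smul]
      norm_num
    rw [e]
    refine (norm_add_le _ _).trans ?_
    rw [norm_smul, norm_smul]
    norm_num
  -- first test point
  have ht1 := htest (g (-a'') 0)
  rw [← hga, hg.dist_map _ _ _ _ has (cyl_side hna'' h0),
    hg.dist_map _ _ _ _ (cyl_top ha.le) (cyl_side hna'' h0),
    hg.dist_map _ _ _ _ (cyl_bot hq.le) (cyl_side hna'' h0)] at ht1
  have hb1 := hg.dist_le_two (cyl_bot hq.le) (cyl_side hna'' h0)
  have e3 : a'' - -a'' = (2 : ℝ) • a'' := by rw [two_smul]; abel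
  rw [e3, norm_smul, ha'', sub_self, abs_zero] at ht1
  have e4 : max (‖(2 : ℝ)‖ * 1) 0 = 2 := by norm_num
  rw [e4] at ht1
  have e7 : |(1 : ℝ) - 0| = 1 := by norm_num
  have e8 : |(-1 : ℝ) - 0| = 1 := by norm_num
  rw [e7, e8] at ht1
  rw [e8] at hb1
  have h5 : 2 ≤ max ‖a - -a''‖ 1 := by linarith
  have h6 : 2 ≤ ‖a - -a''‖ := by
    rcases le_max_iff.mp h5 with h7 | h7
    · exact h7
    · norm_num at h7
  -- second test point
  have ht2 := htest (g (-a) 0)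
  rw [← hga, hg.dist_map _ _ _ _ has (cyl_side hna h0),
    hg.dist_map _ _ _ _ (cyl_top ha.le) (cyl_side hna h0),
    hg.dist_map _ _ _ _ (cyl_bot hq.le) (cyl_side hna h0)] at ht2
  have hb2 := hg.dist_le_two (cyl_top ha.le) (cyl_side hna h0)
  have h8 : 2 ≤ max ‖a'' - -a‖ 0 := by
    refine le_trans ?_ (le_max_left _ _)
    have e5 : a'' - -a = a - -a'' := by abel
    rw [e5]; exact h6
  rw [e7, e8, sub_self, abs_zero] at ht2
  rw [e7] at hb2
  have h9 : 2 ≤ max ‖-Lt.symm a - -a‖ 1 := by linarith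
  have h10 : 2 ≤ ‖-Lt.symm a - -a‖ := by
    rcases le_max_iff.mp h9 with h7 | h7
    · exact h7
    · norm_num at h7
  have e6 : -Lt.symm a - -a = a - Lt.symm a := by abel
  rw [e6] at h10
  have h11 := norm_sub_le a (Lt.symm a)
  rw [LinearIsometryEquiv.norm_map, ha] at h11
  linarith

/-- A linear isometry `S` with `‖x + S x‖ = 2 ‖x‖` for all `x` is the identity. -/
lemma eq_self_of_norm_add_eq (S : X →ₗᵢ[ℝ] X) (hS : ∀ x, ‖x + S x‖ = 2 * ‖x‖) (a : X) :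
    S a = a := by
  have key : ∀ k : ℕ, ∀ S : X →ₗᵢ[ℝ] X, (∀ x, ‖x + S x‖ = 2 * ‖x‖) →
      ∀ a, 2 ^ k * ‖a - S a‖ ≤ 2 * ‖a‖ := by
    intro k
    induction k with
    | zero =>
      intro S hS a
      have h1 := norm_sub_le a (S a)
      rw [S.norm_map] at h1
      rw [pow_zero, one_mul]; linarith
    | succ k ih =>
      intro S hS a
      have hS2 : ∀ x, ‖x + (S.comp S) x‖ = 2 * ‖x‖ := by
        intro x
        show ‖x + S (S x)‖ = 2 * ‖x‖
        have h1 := hS (x + S x)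
        rw [map_add, hS x] at h1
        have h2 : ‖x + S x + (S x + S (S x))‖ ≤ ‖x + S (S x)‖ + 2 * ‖x‖ := by
          have e : x + S x + (S x + S (S x)) = (x + S (S x)) + (2 : ℝ) • S x := by
            rw [two_smul]; abel
          rw [e]
          refine (norm_add_le _ _).trans ?_
          rw [norm_smul, S.norm_map]; norm_num
        have h3 : ‖x + S (S x)‖ ≤ 2 * ‖x‖ := by
          have h4 := norm_add_le x (S (S x))
          rw [S.norm_map, S.norm_map] at h4; linarith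
        linarith
      have h4 : 2 ^ k * ‖a - S (S a)‖ ≤ 2 * ‖a‖ := ih (S.comp S) hS2 a
      have h5 : ‖a - S (S a)‖ = 2 * ‖a - S a‖ := by
        have h1 := hS (a - S a)
        rw [map_sub] at h1
        have e : a - S a + (S a - S (S a)) = a - S (S a) := by abel
        rwa [e] at h1
      rw [h5] at h4
      rw [pow_succ]; linarith
  by_contra hne
  have hpos : 0 < ‖a - S a‖ := norm_pos_iff.mpr (sub_ne_zero.mpr (Ne.symm hne))
  obtain ⟨k, hk⟩ := pow_unbounded_of_one_lt (2 * ‖a‖ / ‖a - S a‖) (by norm_num : (1 : ℝ) < 2)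
  have h1 := key k S hS a
  rw [div_lt_iff₀ hpos] at hk
  linarith

/-- The antipodal map of the sphere sends `(x, -1)` to `(-x, 1)`. -/
lemma top_neg (hg : CylIso g) {x : X} (hx : ‖x‖ ≤ 1) : g (-x) 1 = - g x (-1) := by
  obtain ⟨Lt, hLt⟩ := hg.exists_antipode
  obtain ⟨S, hSdef⟩ : ∃ S : X →ₗᵢ[ℝ] X,
      S = (Lt.symm.trans (LinearIsometryEquiv.neg ℝ)).toLinearIsometry := ⟨_, rfl⟩
  have hSx : ∀ y, S y = - Lt.symm y := by intro y; rw [hSdef]; rfl
  have hS : ∀ y, ‖y + S y‖ = 2 * ‖y‖ := by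
    intro y
    rw [hSx, ← sub_eq_add_neg]
    rcases eq_or_ne y 0 with rfl | hy
    · simp
    · have hpos : 0 < ‖y‖ := norm_pos_iff.mpr hy
      have hu : ‖‖y‖⁻¹ • y‖ = 1 := by
        rw [norm_smul, norm_inv, norm_norm, inv_mul_cancel₀ hpos.ne']
      have h1 := hg.norm_sub_antipode_symm hLt hu
      rw [map_smul, ← smul_sub, norm_smul, norm_inv, norm_norm,
        inv_mul_eq_iff_eq_mul₀ hpos.ne'] at h1
      linarith
  have h1 := eq_self_of_norm_add_eq S hS (-x)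
  rw [hSx] at h1
  have h2 : Lt.symm (-x) = x := by rw [← neg_neg (Lt.symm (-x)), h1, neg_neg]
  have h3 : Lt x = -x := by rw [← h2, LinearIsometryEquiv.apply_symm_apply, h2]
  rw [← h3]
  exact hLt x hx

/-- Translating the pole `g 0 1` by a vector of norm at most `1` in the kernel of the height
functional gives a unit vector. -/
lemma norm_pole_add (hg : CylIso g) {h : Y →L[ℝ] ℝ} (hle : ∀ y, h y ≤ ‖y‖)
    (htop : ∀ x : X, ‖x‖ ≤ 1 → h (g x 1) = 1) {e : Y} (he : h e = 0) (hen : ‖e‖ ≤ 1) :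
    ‖g 0 1 + e‖ = 1 := by
  have hc : ‖g (0 : X) 1‖ = 1 := hg.norm_map 0 1 (cyl_top (by simp))
  have hcbot : g (0 : X) (-1) = - g 0 1 := by
    have h1 := hg.top_neg (x := (0 : X)) (by simp)
    rw [neg_zero] at h1
    rw [h1, neg_neg]
  have hge : 1 ≤ ‖g 0 1 + e‖ := by
    have h1 := hle (g 0 1 + e)
    rwa [map_add, htop 0 (by simp), he, add_zero] at h1
  refine le_antisymm ?_ hge
  rcases eq_or_ne e 0 with rfl | hne
  · rw [add_zero, hc]
  have hpos : 0 < ‖e‖ := norm_pos_iff.mpr hne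
  have hu : ‖‖e‖⁻¹ • e‖ = 1 := by
    rw [norm_smul, norm_inv, norm_norm, inv_mul_cancel₀ hpos.ne']
  have hu0 : h (‖e‖⁻¹ • e) = 0 := by rw [map_smul, he, smul_zero]
  obtain ⟨a, s, has, hga⟩ := hg.surj _ hu
  have hs : s = 0 := by rw [← hg.height_eq hle htop has, hga, hu0]
  subst hs
  have ha : ‖a‖ = 1 := cyl_norm_eq has (by simp)
  have h1 : ‖g 0 1 + ‖e‖⁻¹ • e‖ = 1 := by
    rw [← hga]
    have e1 : g 0 1 + g a 0 = g a 0 - g 0 (-1) := by rw [hcbot]; abel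
    rw [e1, hg.dist_map _ _ _ _ has (cyl_bot (by simp)), sub_zero, ha]
    norm_num
  have e2 : g 0 1 + e = (1 - ‖e‖) • g (0 : X) 1 + ‖e‖ • (g 0 1 + ‖e‖⁻¹ • e) := by
    rw [smul_add, smul_smul, mul_inv_cancel₀ hpos.ne', one_smul, sub_smul, one_smul]; abel
  rw [e2]
  refine (norm_add_le _ _).trans ?_
  rw [norm_smul, norm_smul, h1, hc, Real.norm_eq_abs, abs_of_nonneg (by linarith), norm_norm]
  linarith

/-- The image of the top cap contains the translate by the pole of the unit ball of the kernel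
of the height functional. -/
lemma top_of_ker (hg : CylIso g) {h : Y →L[ℝ] ℝ} (hle : ∀ y, h y ≤ ‖y‖)
    (htop : ∀ x : X, ‖x‖ ≤ 1 → h (g x 1) = 1) {e : Y} (he : h e = 0) (hen : ‖e‖ ≤ 1) :
    ∃ y : X, ‖y‖ ≤ 1 ∧ g y 1 = g 0 1 + e := by
  obtain ⟨y, s, hys, hgy⟩ := hg.surj _ (hg.norm_pole_add hle htop he hen)
  have hs : s = 1 := by
    rw [← hg.height_eq hle htop hys, hgy, map_add, htop 0 (by simp), he, add_zero]
  subst hs
  exact ⟨y, cyl_norm_le hys, hgy⟩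

/-- On the top cap, `g` is the translate by the pole of a linear isometry of `X` onto the kernel
of the height functional. -/
lemma exists_base (hg : CylIso g) {h : Y →L[ℝ] ℝ} (hle : ∀ y, h y ≤ ‖y‖)
    (htop : ∀ x : X, ‖x‖ ≤ 1 → h (g x 1) = 1) :
    ∃ B : X ≃ₗᵢ[ℝ] LinearMap.ker (h : Y →ₗ[ℝ] ℝ),
      ∀ x : X, ‖x‖ ≤ 1 → g x 1 = g 0 1 + (B x : Y) := by
  have hc1 : h (g (0 : X) 1) = 1 := htop 0 (by simp)
  have hmem : ∀ x : X, g x 1 - g 0 1 - h (g x 1 - g 0 1) • g 0 1 ∈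
      LinearMap.ker (h : Y →ₗ[ℝ] ℝ) := by
    intro x
    rw [LinearMap.mem_ker]
    show h (g x 1 - g 0 1 - h (g x 1 - g 0 1) • g 0 1) = 0
    rw [map_sub, map_smul, hc1, smul_eq_mul, mul_one, sub_self]
  obtain ⟨κ, hκ⟩ : ∃ κ : X → LinearMap.ker (h : Y →ₗ[ℝ] ℝ), κ = fun x => ⟨_, hmem x⟩ :=
    ⟨_, rfl⟩
  have hκx : ∀ x : X, ‖x‖ ≤ 1 → (κ x : Y) = g x 1 - g 0 1 := by
    intro x hx
    rw [hκ]
    show g x 1 - g 0 1 - h (g x 1 - g 0 1) • g 0 1 = g x 1 - g 0 1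
    rw [map_sub, htop x hx, hc1, sub_self, zero_smul, sub_zero]
  have hdist : ∀ c c' : X, ‖c‖ ≤ 1 → ‖c'‖ ≤ 1 → ‖κ c - κ c'‖ = ‖c - c'‖ := by
    intro c c' hc hc'
    have e : ‖κ c - κ c'‖ = ‖(κ c : Y) - (κ c' : Y)‖ := rfl
    rw [e, hκx c hc, hκx c' hc',
      sub_sub_sub_cancel_right, hg.dist_map _ _ _ _ (cyl_top hc) (cyl_top hc'), sub_self,
      abs_zero, max_eq_left (norm_nonneg _)]
  have h0 : κ 0 = 0 := by
    apply Subtype.ext
    rw [hκx 0 (by simp), sub_self]; rfl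
  have hsurj : ∀ w : LinearMap.ker (h : Y →ₗ[ℝ] ℝ), ‖w‖ ≤ 1 → ∃ c : X, ‖c‖ ≤ 1 ∧ κ c = w := by
    intro w hw
    have hw0 : h (w : Y) = 0 := LinearMap.mem_ker.mp w.2
    obtain ⟨y, hy, hgy⟩ := hg.top_of_ker hle htop hw0 hw
    refine ⟨y, hy, Subtype.ext ?_⟩
    rw [hκx y hy, hgy, add_sub_cancel_left]
  obtain ⟨B, hB⟩ := exists_linearIsometryEquiv_of_ball_isometry hdist h0 hsurj
  refine ⟨B, fun x hx => ?_⟩
  rw [hB x hx, hκx x hx]; abel

/-- The norm of `Y` in terms of the kernel of the height functional and the pole. -/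
lemma norm_ker_add_smul (hg : CylIso g) {h : Y →L[ℝ] ℝ} (hle : ∀ y, h y ≤ ‖y‖)
    (htop : ∀ x : X, ‖x‖ ≤ 1 → h (g x 1) = 1) {e : Y} (he : h e = 0) (r : ℝ) :
    ‖e + r • g 0 1‖ = max ‖e‖ |r| := by
  rcases le_total ‖e‖ |r| with hcase | hcase
  · rw [max_eq_right hcase]
    rcases eq_or_ne r 0 with rfl | hr
    · rw [abs_zero] at hcase
      have he0 : e = 0 := norm_le_zero_iff.mp hcase
      rw [he0]; simp
    · have hrpos : 0 < |r| := abs_pos.mpr hr
      have e1 : e + r • g 0 1 = r • (g 0 1 + r⁻¹ • e) := by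
        rw [smul_add, smul_smul, mul_inv_cancel₀ hr, one_smul, add_comm]
      have h1 : ‖r⁻¹ • e‖ ≤ 1 := by
        rw [norm_smul, norm_inv, Real.norm_eq_abs, inv_mul_le_iff₀ hrpos, mul_one]; exact hcase
      have h2 : h (r⁻¹ • e) = 0 := by rw [map_smul, he, smul_zero]
      rw [e1, norm_smul, hg.norm_pole_add hle htop h2 h1, mul_one, Real.norm_eq_abs]
  · rw [max_eq_left hcase]
    rcases eq_or_ne e 0 with rfl | hne
    · rw [norm_zero] at hcase
      have hr0 : r = 0 := abs_eq_zero.mp (le_antisymm hcase (abs_nonneg _))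
      rw [hr0]; simp
    · have hpos : 0 < ‖e‖ := norm_pos_iff.mpr hne
      obtain ⟨eh, heh⟩ : ∃ eh : Y, eh = ‖e‖⁻¹ • e := ⟨_, rfl⟩
      have hu : ‖eh‖ = 1 := by
        rw [heh, norm_smul, norm_inv, norm_norm, inv_mul_cancel₀ hpos.ne']
      have hu0 : h eh = 0 := by rw [heh, map_smul, he, smul_zero]
      have hnu0 : h (-eh) = 0 := by rw [map_neg, hu0, neg_zero]
      have hρ : |r / ‖e‖| ≤ 1 := by rw [abs_div, abs_norm, div_le_one hpos]; exact hcase
      have hρ' := abs_le.mp hρ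
      have hU : ‖g 0 1 + eh‖ = 1 := hg.norm_pole_add hle htop hu0 hu.le
      have hV : ‖eh - g 0 1‖ = 1 := by
        have h1 := hg.norm_pole_add hle htop hnu0 (by rw [norm_neg]; exact hu.le)
        rw [← norm_neg] at h1
        have e3 : -(g 0 1 + -eh) = eh - g 0 1 := by abel
        rwa [e3] at h1
      have hUV : ‖(g 0 1 + eh) + (eh - g 0 1)‖ = 2 := by
        have e4 : (g 0 1 + eh) + (eh - g 0 1) = (2 : ℝ) • eh := by rw [two_smul]; abel
        rw [e4, norm_smul, hu]; norm_num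
      have h3 := norm_nonneg_combo hU hV hUV (α := (1 + r / ‖e‖) / 2)
        (β := (1 - r / ‖e‖) / 2) (by linarith) (by linarith)
      have e5 : e + r • g 0 1 = ‖e‖ • (((1 + r / ‖e‖) / 2) • (g 0 1 + eh) +
          ((1 - r / ‖e‖) / 2) • (eh - g 0 1)) := by
        have e6 : ((1 + r / ‖e‖) / 2) • (g 0 1 + eh) + ((1 - r / ‖e‖) / 2) • (eh - g 0 1) =
            eh + (r / ‖e‖) • g 0 1 := by
          module
        rw [e6, smul_add, smul_smul, heh, smul_smul, mul_inv_cancel₀ hpos.ne', one_smul,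
          mul_div_cancel₀ _ hpos.ne']
      rw [e5, norm_smul, h3, norm_norm]; ring

end CylIso

/-- Two unit vectors with the same truncated distances to every point of the unit ball
coincide. -/
lemma eq_of_max_dist_ball {a a' : X} (ha : ‖a‖ = 1) (ha' : ‖a'‖ = 1) {μ : ℝ} (hμ0 : 0 ≤ μ)
    (hμ1 : μ ≤ 1) (h : ∀ x : X, ‖x‖ ≤ 1 → max ‖a' - x‖ μ = max ‖a - x‖ μ) : a' = a := by
  by_contra hne
  obtain ⟨η, hηdef⟩ : ∃ η : ℝ, η = ‖a' - a‖ := ⟨_, rfl⟩
  have hη : 0 < η := by rw [hηdef]; exact norm_pos_iff.mpr (sub_ne_zero.mpr hne)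
  have hημ : η ≤ μ := by
    have h1 := h a ha.le
    rw [sub_self, norm_zero, max_eq_right hμ0] at h1
    rw [hηdef, ← h1]; exact le_max_left _ _
  have hη1 : η ≤ 1 := le_trans hημ hμ1
  obtain ⟨d, hd⟩ : ∃ d : X, d = η⁻¹ • (a' - a) := ⟨_, rfl⟩
  have hd1 : ‖d‖ = 1 := by
    rw [hd, norm_smul, norm_inv, Real.norm_eq_abs, abs_of_pos hη, ← hηdef,
      inv_mul_cancel₀ hη.ne']
  have ha'd : a' = a + η • d := by
    rw [hd, smul_smul, mul_inv_cancel₀ hη.ne', one_smul]; abel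
  have hnd : ‖-d‖ ≤ 1 := by rw [norm_neg]; exact hd1.le
  have ha'n : ‖a + η • d‖ = 1 := by rw [← ha'd]; exact ha'
  -- lower bounds
  have F1 : 1 ≤ ‖a + (1 + η) • d‖ := by
    have e : (1 + η) • (a + η • d) = a + η • (a + (1 + η) • d) := by module
    have h1 : ‖(1 + η) • (a + η • d)‖ ≤ ‖a‖ + ‖η • (a + (1 + η) • d)‖ := by
      rw [e]; exact norm_add_le _ _
    rw [norm_smul, norm_smul, ha'n, ha, Real.norm_eq_abs, Real.norm_eq_abs,
      abs_of_pos (by linarith), abs_of_pos hη] at h1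
    nlinarith
  have F2 : 1 ≤ ‖a + d‖ := by
    have e : a + η • d = (1 - η) • a + η • (a + d) := by module
    have h1 : ‖a + η • d‖ ≤ ‖(1 - η) • a‖ + ‖η • (a + d)‖ := by
      rw [e]; exact norm_add_le _ _
    rw [norm_smul, norm_smul, ha'n, ha, Real.norm_eq_abs, Real.norm_eq_abs,
      abs_of_nonneg (by linarith), abs_of_pos hη] at h1
    nlinarith
  have F3 : 1 ≤ ‖a - d‖ := by
    have e : (1 + η) • a = η • (a - d) + (a + η • d) := by module
    have h1 : ‖(1 + η) • a‖ ≤ ‖η • (a - d)‖ + ‖a + η • d‖ := by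
      rw [e]; exact norm_add_le _ _
    rw [norm_smul, norm_smul, ha'n, ha, Real.norm_eq_abs, Real.norm_eq_abs,
      abs_of_pos (by linarith), abs_of_pos hη] at h1
    nlinarith
  have F4 : 1 ≤ ‖a + (η - 1) • d‖ := by
    have e : a = η • (a + (η - 1) • d) + (1 - η) • (a + η • d) := by module
    have h1 : ‖a‖ ≤ ‖η • (a + (η - 1) • d)‖ + ‖(1 - η) • (a + η • d)‖ := by
      nth_rewrite 1 [e]; exact norm_add_le _ _
    rw [norm_smul, norm_smul, ha'n, ha, Real.norm_eq_abs, Real.norm_eq_abs,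
      abs_of_pos hη, abs_of_nonneg (by linarith : (0 : ℝ) ≤ 1 - η)] at h1
    nlinarith
  -- the two tests
  have T1 : ‖a + (1 + η) • d‖ = ‖a + d‖ := by
    have h1 := h (-d) hnd
    have e1 : a' - -d = a + (1 + η) • d := by rw [ha'd]; module
    have e2 : a - -d = a + d := by abel
    rw [e1, e2, max_eq_left (le_trans hμ1 F1), max_eq_left (le_trans hμ1 F2)] at h1
    exact h1
  have T2 : ‖a + (η - 1) • d‖ = ‖a - d‖ := by
    have h1 := h d hd1.le
    have e1 : a' - d = a + (η - 1) • d := by rw [ha'd]; module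
    rw [e1, max_eq_left (le_trans hμ1 F4), max_eq_left (le_trans hμ1 F3)] at h1
    exact h1
  -- upper bounds
  have F5 : ‖a + d‖ ≤ 1 := by
    have e : (1 + η) • (a + d) = η • a + (a + (1 + η) • d) := by module
    have h1 : ‖(1 + η) • (a + d)‖ ≤ ‖η • a‖ + ‖a + (1 + η) • d‖ := by
      rw [e]; exact norm_add_le _ _
    rw [norm_smul, norm_smul, ha, T1, Real.norm_eq_abs, Real.norm_eq_abs,
      abs_of_pos (by linarith), abs_of_pos hη] at h1
    nlinarith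
  have F6 : ‖a + (η - 1) • d‖ ≤ 1 := by
    have e : (1 + η) • (a + (η - 1) • d) = (a - d) + η • (a + η • d) := by module
    have h1 : ‖(1 + η) • (a + (η - 1) • d)‖ ≤ ‖a - d‖ + ‖η • (a + η • d)‖ := by
      rw [e]; exact norm_add_le _ _
    rw [norm_smul, norm_smul, ha'n, ← T2, Real.norm_eq_abs, Real.norm_eq_abs,
      abs_of_pos (by linarith), abs_of_pos hη] at h1
    nlinarith
  have e : (2 + η) • d = (a + (1 + η) • d) - (a - d) := by module
  have h1 : ‖(2 + η) • d‖ ≤ ‖a + (1 + η) • d‖ + ‖a - d‖ := by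
    rw [e]; exact norm_sub_le _ _
  rw [norm_smul, hd1, Real.norm_eq_abs, abs_of_pos (by linarith), T1, ← T2] at h1
  linarith

end Vale.Agent.H23
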