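import Vale.Agent.H23.Cyl
import Vale.Agent.H23.L1Main

/-!
# The Mazur-Ulam property of cylinders `X ⊕_∞ ℝ`

For every real normed space `X`, every surjective isometry from the unit sphere of the
`ℓ^∞`-sum `X ⊕_∞ ℝ` onto the unit sphere of a real normed space `Y` is the restriction of a
surjective real-linear isometry.
-/

namespace Vale.Agent.H23

open scoped ENNReal

variable {X Y : Type*} [NormedAddCommGroup X] [NormedSpace ℝ X]
  [NormedAddCommGroup Y] [NormedSpace ℝ Y]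

/-- Main theorem in function form: a sphere isometry of the cylinder agrees on the sphere with
`(x, s) ↦ B x + s • c` for a linear map `B` and a vector `c` such that
`‖B x + s • c‖ = max ‖x‖ |s|` and every vector of `Y` has this form. -/
theorem CylIso.exists_linear {g : X → ℝ → Y} (hg : CylIso g) :
    ∃ (B : X →ₗ[ℝ] Y) (c : Y), (∀ (x : X) (s : ℝ), ‖B x + s • c‖ = max ‖x‖ |s|) ∧
      (∀ y : Y, ∃ (x : X) (s : ℝ), B x + s • c = y) ∧
      ∀ (x : X) (s : ℝ), max ‖x‖ |s| = 1 → g x s = B x + s • c := by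
  obtain ⟨h, hle, htop⟩ := hg.exists_height
  obtain ⟨B₀, hB₀⟩ := hg.exists_base hle htop
  have hc1 : h (g (0 : X) 1) = 1 := htop 0 (by simp)
  have hker : ∀ x : X, h (B₀ x : Y) = 0 := fun x => LinearMap.mem_ker.mp (B₀ x).2
  have hnorm : ∀ (x : X) (s : ℝ), ‖(B₀ x : Y) + s • g 0 1‖ = max ‖x‖ |s| := by
    intro x s
    rw [hg.norm_ker_add_smul hle htop (hker x) s]
    show max ‖B₀ x‖ |s| = max ‖x‖ |s|
    rw [LinearIsometryEquiv.norm_map]
  have htopeq : ∀ x : X, ‖x‖ ≤ 1 → g x 1 = (B₀ x : Y) + (1 : ℝ) • g 0 1 := by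
    intro x hx; rw [hB₀ x hx, one_smul, add_comm]
  have hboteq : ∀ x : X, ‖x‖ ≤ 1 → g x (-1) = (B₀ x : Y) + (-1 : ℝ) • g 0 1 := by
    intro x hx
    have h1 := hg.top_neg hx
    have h2 := hB₀ (-x) (by rwa [norm_neg])
    rw [h1, map_neg, Submodule.coe_neg] at h2
    rw [neg_smul, one_smul, ← neg_neg (g x (-1)), h2]
    abel
  have hsub : ∀ x z : X, (B₀ x : Y) - (B₀ z : Y) = (B₀ (x - z) : Y) := by
    intro x z; rw [map_sub, Submodule.coe_sub]
  refine ⟨(LinearMap.ker (h : Y →ₗ[ℝ] ℝ)).subtype.comp B₀.toLinearEquiv.toLinearMap, g 0 1,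
    fun x s => hnorm x s, ?_, ?_⟩
  · intro y
    have hy : y - h y • g 0 1 ∈ LinearMap.ker (h : Y →ₗ[ℝ] ℝ) := by
      rw [LinearMap.mem_ker]
      show h (y - h y • g 0 1) = 0
      rw [map_sub, map_smul, hc1, smul_eq_mul, mul_one, sub_self]
    refine ⟨B₀.symm ⟨_, hy⟩, h y, ?_⟩
    show (B₀ (B₀.symm ⟨_, hy⟩) : Y) + h y • g 0 1 = y
    rw [LinearIsometryEquiv.apply_symm_apply]
    show y - h y • g 0 1 + h y • g 0 1 = y
    abel
  · intro x s hxs
    show g x s = (B₀ x : Y) + s • g 0 1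
    have hs := abs_le.mp (cyl_abs_le hxs)
    have hx := cyl_norm_le hxs
    rcases eq_or_ne s 1 with rfl | hs1
    · exact htopeq x hx
    rcases eq_or_ne s (-1) with rfl | hs2
    · exact hboteq x hx
    have hlt1 : s < 1 := lt_of_le_of_ne hs.2 hs1
    have hlt2 : -1 < s := lt_of_le_of_ne hs.1 (Ne.symm hs2)
    have hx1 : ‖x‖ = 1 := cyl_norm_eq hxs (abs_lt.mpr ⟨hlt2, hlt1⟩)
    have hw : ‖(B₀ x : Y) + s • g 0 1‖ = 1 := by rw [hnorm, hxs]
    obtain ⟨a', s', has', hga'⟩ := hg.surj _ hw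
    have hs' : s' = s := by
      rw [← hg.height_eq hle htop has', hga', map_add, hker x, map_smul, hc1, smul_eq_mul,
        mul_one, zero_add]
    subst hs'
    have ha'1 : ‖a'‖ = 1 := cyl_norm_eq has' (abs_lt.mpr ⟨hlt2, hlt1⟩)
    have htest1 : ∀ z : X, ‖z‖ ≤ 1 → max ‖a' - z‖ |s' - 1| = max ‖x - z‖ |s' - 1| := by
      intro z hz
      rw [← hg.dist_map a' s' z 1 has' (cyl_top hz), hga', htopeq z hz]
      have e : (B₀ x : Y) + s' • g 0 1 - ((B₀ z : Y) + (1 : ℝ) • g 0 1) =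
          (B₀ (x - z) : Y) + (s' - 1) • g 0 1 := by
        rw [← hsub]; module
      rw [e, hnorm]
    have htest2 : ∀ z : X, ‖z‖ ≤ 1 → max ‖a' - z‖ |s' - -1| = max ‖x - z‖ |s' - -1| := by
      intro z hz
      rw [← hg.dist_map a' s' z (-1) has' (cyl_bot hz), hga', hboteq z hz]
      have e : (B₀ x : Y) + s' • g 0 1 - ((B₀ z : Y) + (-1 : ℝ) • g 0 1) =
          (B₀ (x - z) : Y) + (s' - -1) • g 0 1 := by
        rw [← hsub]; module
      rw [e, hnorm]
    have hax : a' = x := by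
      rcases le_total 0 s' with h0 | h0
      · refine eq_of_max_dist_ball hx1 ha'1 (abs_nonneg (s' - 1)) ?_ htest1
        rw [abs_of_nonpos (by linarith)]; linarith
      · refine eq_of_max_dist_ball hx1 ha'1 (abs_nonneg (s' - -1)) ?_ htest2
        rw [abs_of_nonneg (by linarith)]; linarith
    rw [← hga', hax]

/-- From a map of the unit sphere of `X ⊕_∞ ℝ` to a function of two variables. -/
lemma exists_cylIso_of_sphere_map
    (f : Metric.sphere (0 : WithLp ∞ (X × ℝ)) 1 → Metric.sphere (0 : Y) 1)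
    (hf : Isometry f) (hsurj : Function.Surjective f) :
    ∃ g : X → ℝ → Y, CylIso g ∧
      ∀ z : Metric.sphere (0 : WithLp ∞ (X × ℝ)) 1,
        g (z : WithLp ∞ (X × ℝ)).fst (z : WithLp ∞ (X × ℝ)).snd = (f z : Y) := by
  obtain ⟨g₀, h1, h2, h3, h4⟩ := exists_fun_of_sphere_map f hf hsurj
  have hnorm : ∀ (a : X) (s : ℝ),
      ‖(WithLp.toLp ∞ (a, s) : WithLp ∞ (X × ℝ))‖ = max ‖a‖ |s| := by
    intro a s
    rw [WithLp.prod_norm_eq_sup]
    rfl
  refine ⟨fun a s => g₀ (WithLp.toLp ∞ (a, s)), ⟨?_, ?_, ?_⟩, fun z => ?_⟩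
  · intro a s has
    exact h1 _ (by rw [hnorm, has])
  · intro a s a' s' has has'
    show ‖g₀ _ - g₀ _‖ = _
    rw [h2 _ _ (by rw [hnorm, has]) (by rw [hnorm, has']), WithLp.prod_norm_eq_sup]
    rfl
  · intro w hw
    obtain ⟨z, hz, hgz⟩ := h3 w hw
    refine ⟨z.fst, z.snd, ?_, hgz⟩
    rw [← hz, WithLp.prod_norm_eq_sup]
    rfl
  · rw [← h4 z]
    rfl

/-- Every surjective isometry from the unit sphere of `X ⊕_∞ ℝ` onto the unit sphere of a real
normed space is the restriction of a surjective real-linear isometry. -/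
theorem exists_linearIsometryEquiv_cylinder
    (f : Metric.sphere (0 : WithLp ∞ (X × ℝ)) 1 → Metric.sphere (0 : Y) 1)
    (hf : Isometry f) (hsurj : Function.Surjective f) :
    ∃ T : WithLp ∞ (X × ℝ) ≃ₗᵢ[ℝ] Y,
      ∀ z : Metric.sphere (0 : WithLp ∞ (X × ℝ)) 1, T (z : WithLp ∞ (X × ℝ)) = (f z : Y) := by
  obtain ⟨g, hg, hgf⟩ := exists_cylIso_of_sphere_map f hf hsurj
  obtain ⟨B, c, hnorm, hall, hside⟩ := hg.exists_linear
  let T₀ : WithLp ∞ (X × ℝ) →ₗᵢ[ℝ] Y :=
    { toFun := fun p => B p.fst + p.snd • c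
      map_add' := by
        intro p q
        simp only [WithLp.add_fst, WithLp.add_snd, map_add, add_smul]
        abel
      map_smul' := by
        intro r p
        simp only [WithLp.smul_fst, WithLp.smul_snd, map_smul, smul_add, smul_eq_mul,
          RingHom.id_apply, mul_smul]
      norm_map' := by
        intro p
        show ‖B p.fst + p.snd • c‖ = ‖p‖
        rw [hnorm, WithLp.prod_norm_eq_sup]
        rfl }
  have hT₀ : Function.Surjective T₀ := by
    intro y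
    obtain ⟨x, s, hxs⟩ := hall y
    exact ⟨WithLp.toLp ∞ (x, s), hxs⟩
  refine ⟨LinearIsometryEquiv.ofSurjective T₀ hT₀, fun z => ?_⟩
  have hz1 : ‖(z : WithLp ∞ (X × ℝ))‖ = 1 := mem_sphere_zero_iff_norm.mp z.2
  have hz2 : max ‖(z : WithLp ∞ (X × ℝ)).fst‖ |(z : WithLp ∞ (X × ℝ)).snd| = 1 := by
    have h5 := hz1
    rw [WithLp.prod_norm_eq_sup] at h5
    exact h5
  rw [← hgf z, hside _ _ hz2]
  rfl

end Vale.Agent.H23
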