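import Mathlib

/-!
# A Day-type lemma

If all unit vectors `p, q` of a real normed space satisfy the rhombus law
`‖p + q‖ ^ 2 + ‖p - q‖ ^ 2 = 4` and `u, v` are unit vectors with `‖u + v‖ = ‖u - v‖`,
then `‖a • u + b • v‖ ^ 2 = a ^ 2 + b ^ 2` for all real `a, b`.
-/

namespace Vale.Agent.H23

open Real

variable {Y : Type*} [NormedAddCommGroup Y] [NormedSpace ℝ Y]

/-- The trigonometric combination `cos θ • u + sin θ • v`. -/
noncomputable def trig (u v : Y) (θ : ℝ) : Y := Real.cos θ • u + Real.sin θ • v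

lemma trig_add_pi (u v : Y) (θ : ℝ) : trig u v (θ + π) = - trig u v θ := by
  unfold trig
  rw [Real.cos_add_pi, Real.sin_add_pi]
  module

lemma trig_add (u v : Y) (α β : ℝ) :
    trig u v α + trig u v β = (2 * Real.cos ((α - β) / 2)) • trig u v ((α + β) / 2) := by
  have h1 := Real.cos_add_cos α β
  have h2 := Real.sin_add_sin α β
  calc trig u v α + trig u v β
      = (Real.cos α + Real.cos β) • u + (Real.sin α + Real.sin β) • v := by
        unfold trig; module
    _ = (2 * Real.cos ((α - β) / 2)) • trig u v ((α + β) / 2) := by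
        rw [h1, h2]; unfold trig; module

lemma trig_sub (u v : Y) (α β : ℝ) :
    trig u v α - trig u v β
      = (2 * Real.sin ((α - β) / 2)) • trig u v ((α + β) / 2 + π / 2) := by
  have h1 := Real.cos_sub_cos α β
  have h2 := Real.sin_sub_sin α β
  calc trig u v α - trig u v β
      = (Real.cos α - Real.cos β) • u + (Real.sin α - Real.sin β) • v := by
        unfold trig; module
    _ = (2 * Real.sin ((α - β) / 2)) • trig u v ((α + β) / 2 + π / 2) := by
        rw [h1, h2]; unfold trig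
        rw [Real.cos_add_pi_div_two, Real.sin_add_pi_div_two]; module

lemma continuous_trig (u v : Y) : Continuous (trig u v) := by
  unfold trig
  fun_prop

/-- The rhombus law for unit vectors. -/
def RhombusLaw (Y : Type*) [NormedAddCommGroup Y] : Prop :=
  ∀ p q : Y, ‖p‖ = 1 → ‖q‖ = 1 → ‖p + q‖ ^ 2 + ‖p - q‖ ^ 2 = 4

lemma day_step (hR : RhombusLaw Y) {u v : Y} {α β : ℝ}
    (hα : ‖trig u v α‖ = 1) (hβ : ‖trig u v β‖ = 1)
    (hα' : ‖trig u v (α + π / 2)‖ = 1) (hβ' : ‖trig u v (β + π / 2)‖ = 1)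
    (hc : Real.cos (α - β) ≠ 0) :
    ‖trig u v ((α + β) / 2)‖ = 1 ∧ ‖trig u v ((α + β) / 2 + π / 2)‖ = 1 := by
  have h1 := hR _ _ hα hβ
  have h2 := hR _ _ hα' hβ'
  rw [trig_add, trig_sub, norm_smul, norm_smul, Real.norm_eq_abs, Real.norm_eq_abs,
    mul_pow, mul_pow, sq_abs, sq_abs] at h1
  rw [trig_add, trig_sub, norm_smul, norm_smul, Real.norm_eq_abs, Real.norm_eq_abs,
    mul_pow, mul_pow, sq_abs, sq_abs] at h2
  have e1 : (α + π / 2 - (β + π / 2)) / 2 = (α - β) / 2 := by ring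
  have e2 : (α + π / 2 + (β + π / 2)) / 2 = (α + β) / 2 + π / 2 := by ring
  have e3 : (α + β) / 2 + π / 2 + π / 2 = (α + β) / 2 + π := by ring
  rw [e1, e2, e3, trig_add_pi, norm_neg] at h2
  set c := Real.cos ((α - β) / 2) with hc_def
  set s := Real.sin ((α - β) / 2) with hs_def
  set A := ‖trig u v ((α + β) / 2)‖ with hA
  set B := ‖trig u v ((α + β) / 2 + π / 2)‖ with hB
  have hcs : c ^ 2 + s ^ 2 = 1 := Real.cos_sq_add_sin_sq _
  have hcos : Real.cos (α - β) = c ^ 2 - s ^ 2 := by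
    have : α - β = 2 * ((α - β) / 2) := by ring
    rw [this, Real.cos_two_mul, ← hc_def]
    nlinarith
  have hne : c ^ 2 - s ^ 2 ≠ 0 := by rw [← hcos]; exact hc
  have hAB : A ^ 2 = B ^ 2 := by
    have : (c ^ 2 - s ^ 2) * (A ^ 2 - B ^ 2) = 0 := by nlinarith
    rcases mul_eq_zero.mp this with h | h
    · exact absurd h hne
    · linarith
  have hA1 : A ^ 2 = 1 := by nlinarith
  have hB1 : B ^ 2 = 1 := by rw [← hAB]; exact hA1
  have hA0 : 0 ≤ A := norm_nonneg _
  have hB0 : 0 ≤ B := norm_nonneg _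
  constructor
  · nlinarith
  · nlinarith

/-- An angle is good if both `trig u v θ` and `trig u v (θ + π / 2)` are unit vectors. -/
def Good (u v : Y) (θ : ℝ) : Prop :=
  ‖trig u v θ‖ = 1 ∧ ‖trig u v (θ + π / 2)‖ = 1

lemma Good.add_pi_div_two {u v : Y} {θ : ℝ} (h : Good u v θ) : Good u v (θ + π / 2) := by
  refine ⟨h.2, ?_⟩
  have e : θ + π / 2 + π / 2 = θ + π := by ring
  rw [e, trig_add_pi, norm_neg]
  exact h.1

lemma good_zero {u v : Y} (hu : ‖u‖ = 1) (hv : ‖v‖ = 1) : Good u v 0 := by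
  constructor
  · simp [trig, hu]
  · simp [trig, hv]

lemma good_pi_div_four (hR : RhombusLaw Y) {u v : Y} (hu : ‖u‖ = 1) (hv : ‖v‖ = 1)
    (huv : ‖u + v‖ = ‖u - v‖) : Good u v (π / 4) := by
  have h := hR u v hu hv
  rw [← huv] at h
  have h2 : ‖u + v‖ ^ 2 = 2 := by linarith
  have hs2 : Real.sqrt 2 ^ 2 = 2 := Real.sq_sqrt (by norm_num)
  have hs0 : 0 ≤ Real.sqrt 2 := Real.sqrt_nonneg 2
  have h3 : ‖u + v‖ = Real.sqrt 2 := by
    have h0 : 0 ≤ ‖u + v‖ := norm_nonneg _
    nlinarith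
  have h4 : ‖u - v‖ = Real.sqrt 2 := by rw [← huv]; exact h3
  constructor
  · have : trig u v (π / 4) = (Real.sqrt 2 / 2) • (u + v) := by
      unfold trig
      rw [Real.cos_pi_div_four, Real.sin_pi_div_four]
      module
    rw [this, norm_smul, Real.norm_eq_abs, abs_of_nonneg (by positivity), h3]
    nlinarith
  · have : trig u v (π / 4 + π / 2) = (-(Real.sqrt 2 / 2)) • (u - v) := by
      unfold trig
      rw [Real.cos_add_pi_div_two, Real.sin_add_pi_div_two, Real.cos_pi_div_four,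
        Real.sin_pi_div_four]
      module
    rw [this, norm_smul, Real.norm_eq_abs, abs_neg, abs_of_nonneg (by positivity), h4]
    nlinarith

lemma good_dyadic (hR : RhombusLaw Y) {u v : Y} (hu : ‖u‖ = 1) (hv : ‖v‖ = 1)
    (huv : ‖u + v‖ = ‖u - v‖) (n : ℕ) :
    ∀ k : ℕ, Good u v ((k : ℝ) * π / 2 ^ (n + 2)) := by
  induction n with
  | zero =>
    intro k
    induction k using Nat.strong_induction_on with
    | _ k ih =>
      match k, ih with
      | 0, _ => simpa using good_zero hu hv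
      | 1, _ =>
        have := good_pi_div_four hR hu hv huv
        have e : ((1 : ℕ) : ℝ) * π / 2 ^ (0 + 2) = π / 4 := by norm_num
        rw [e]; exact this
      | (k + 2), ih =>
        have h := (ih k (by omega)).add_pi_div_two
        have e : ((k + 2 : ℕ) : ℝ) * π / 2 ^ (0 + 2) = (k : ℝ) * π / 2 ^ (0 + 2) + π / 2 := by
          push_cast; ring
        rw [e]; exact h
  | succ n ih =>
    intro k
    rcases Nat.even_or_odd' k with ⟨j, rfl | rfl⟩
    · have e : ((2 * j : ℕ) : ℝ) * π / 2 ^ (n + 1 + 2) = (j : ℝ) * π / 2 ^ (n + 2) := by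
        push_cast; ring
      rw [e]; exact ih j
    · have h1 := ih j
      have h2 := ih (j + 1)
      have e : ((2 * j + 1 : ℕ) : ℝ) * π / 2 ^ (n + 1 + 2)
          = ((j : ℝ) * π / 2 ^ (n + 2) + ((j + 1 : ℕ) : ℝ) * π / 2 ^ (n + 2)) / 2 := by
        push_cast; ring
      rw [e]
      have hc : Real.cos ((j : ℝ) * π / 2 ^ (n + 2) - ((j + 1 : ℕ) : ℝ) * π / 2 ^ (n + 2)) ≠ 0 := by
        have e2 : (j : ℝ) * π / 2 ^ (n + 2) - ((j + 1 : ℕ) : ℝ) * π / 2 ^ (n + 2)
            = -(π / 2 ^ (n + 2)) := by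
          push_cast; ring
        rw [e2, Real.cos_neg]
        apply ne_of_gt
        apply Real.cos_pos_of_mem_Ioo
        have hpow : (4 : ℝ) ≤ 2 ^ (n + 2) := by
          have : (2 : ℝ) ^ 2 ≤ 2 ^ (n + 2) := pow_le_pow_right₀ (by norm_num) (by omega)
          linarith
        have hpos : (0 : ℝ) < 2 ^ (n + 2) := by positivity
        have hpi := Real.pi_pos
        constructor
        · have : 0 < π / 2 ^ (n + 2) := by positivity
          linarith
        · rw [div_lt_div_iff₀ hpos (by norm_num)]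
          nlinarith
      exact day_step hR h1.1 h2.1 h1.2 h2.2 hc

lemma norm_trig_of_nonneg (hR : RhombusLaw Y) {u v : Y} (hu : ‖u‖ = 1) (hv : ‖v‖ = 1)
    (huv : ‖u + v‖ = ‖u - v‖) {θ : ℝ} (hθ : 0 ≤ θ) : ‖trig u v θ‖ = 1 := by
  have hclosed : IsClosed {t : ℝ | ‖trig u v t‖ = 1} :=
    isClosed_eq (continuous_norm.comp (continuous_trig u v)) continuous_const
  have hmem : θ ∈ closure {t : ℝ | ‖trig u v t‖ = 1} := by
    rw [Metric.mem_closure_iff]
    intro ε hε
    have hpi := Real.pi_pos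
    obtain ⟨n, hn⟩ : ∃ n : ℕ, π / 2 ^ (n + 2) < ε := by
      obtain ⟨n, hn⟩ := exists_pow_lt_of_lt_one (div_pos hε hpi) (by norm_num : (1 / 2 : ℝ) < 1)
      refine ⟨n, ?_⟩
      have hpos : (0 : ℝ) < 2 ^ n := by positivity
      have h4 : (2 : ℝ) ^ (n + 2) = 4 * 2 ^ n := by ring
      rw [h4, div_lt_iff₀ (by positivity)]
      rw [one_div, inv_pow, lt_div_iff₀ hpi, inv_mul_lt_iff₀ hpos] at hn
      nlinarith
    have hpos : (0 : ℝ) < 2 ^ (n + 2) := by positivity
    set k : ℕ := ⌊θ * 2 ^ (n + 2) / π⌋₊ with hk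
    have hk1 : (k : ℝ) ≤ θ * 2 ^ (n + 2) / π := Nat.floor_le (by positivity)
    have hk2 : θ * 2 ^ (n + 2) / π < k + 1 := Nat.lt_floor_add_one _
    refine ⟨(k : ℝ) * π / 2 ^ (n + 2), (good_dyadic hR hu hv huv n k).1, ?_⟩
    rw [Real.dist_eq]
    rw [le_div_iff₀ hpi] at hk1
    rw [div_lt_iff₀ hpi] at hk2
    have h1 : (k : ℝ) * π / 2 ^ (n + 2) ≤ θ := by
      rw [div_le_iff₀ hpos]; exact hk1
    have h2 : θ < (k : ℝ) * π / 2 ^ (n + 2) + π / 2 ^ (n + 2) := by
      rw [← add_div, lt_div_iff₀ hpos]; linarith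
    rw [abs_of_nonneg (by linarith)]
    linarith
  rw [hclosed.closure_eq] at hmem
  exact hmem

/-- Day-type lemma, unit circle version. -/
lemma norm_combo_eq_one (hR : RhombusLaw Y) {u v : Y} (hu : ‖u‖ = 1) (hv : ‖v‖ = 1)
    (huv : ‖u + v‖ = ‖u - v‖) {a b : ℝ} (hab : a ^ 2 + b ^ 2 = 1) : ‖a • u + b • v‖ = 1 := by
  have ha1 : -1 ≤ a := by nlinarith
  have ha2 : a ≤ 1 := by nlinarith
  have hcos : Real.cos (Real.arccos a) = a := Real.cos_arccos ha1 ha2
  have hsin : Real.sin (Real.arccos a) = Real.sqrt (1 - a ^ 2) := Real.sin_arccos a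
  have hsq : Real.sqrt (1 - a ^ 2) = |b| := by
    have : 1 - a ^ 2 = b ^ 2 := by linarith
    rw [this, Real.sqrt_sq_eq_abs]
  rcases le_total 0 b with hb | hb
  · have h := norm_trig_of_nonneg hR hu hv huv (Real.arccos_nonneg a)
    unfold trig at h
    rw [hcos, hsin, hsq, abs_of_nonneg hb] at h
    exact h
  · have hv' : ‖-v‖ = 1 := by rw [norm_neg]; exact hv
    have huv' : ‖u + -v‖ = ‖u - -v‖ := by
      rw [← sub_eq_add_neg, sub_neg_eq_add]; exact huv.symm
    have h := norm_trig_of_nonneg hR hu hv' huv' (Real.arccos_nonneg a)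
    unfold trig at h
    rw [hcos, hsin, hsq, abs_of_nonpos hb] at h
    have e : a • u + -b • -v = a • u + b • v := by module
    rw [e] at h
    exact h

/-- Day-type lemma: the norm is Euclidean on the span of `u` and `v`. -/
lemma norm_combo_sq (hR : RhombusLaw Y) {u v : Y} (hu : ‖u‖ = 1) (hv : ‖v‖ = 1)
    (huv : ‖u + v‖ = ‖u - v‖) (a b : ℝ) : ‖a • u + b • v‖ ^ 2 = a ^ 2 + b ^ 2 := by
  rcases eq_or_lt_of_le (add_nonneg (sq_nonneg a) (sq_nonneg b)) with h0 | hpos
  · have ha : a = 0 := by nlinarith [sq_nonneg a, sq_nonneg b]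
    have hb : b = 0 := by nlinarith [sq_nonneg a, sq_nonneg b]
    subst ha; subst hb
    simp
  · set r := Real.sqrt (a ^ 2 + b ^ 2) with hr
    have hr0 : 0 < r := Real.sqrt_pos.mpr hpos
    have hr2 : r ^ 2 = a ^ 2 + b ^ 2 := Real.sq_sqrt hpos.le
    have h1 : (a / r) ^ 2 + (b / r) ^ 2 = 1 := by
      field_simp
      linarith
    have h := norm_combo_eq_one hR hu hv huv h1
    have e : a • u + b • v = r • ((a / r) • u + (b / r) • v) := by
      rw [smul_add, smul_smul, smul_smul]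
      congr 2 <;> field_simp
    rw [e, norm_smul, h, Real.norm_eq_abs, abs_of_pos hr0, mul_one, hr2]

end Vale.Agent.H23
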