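import Mathlib

/-!
# The identity is an extreme point of the set of contractions

If `t • A + (1 - t) • B = 1` with `A`, `B` linear contractions of a real normed space and
`0 < t < 1`, then `A = 1`.
-/

namespace Vale.Agent.H23

section ExtremeOp

variable {E : Type*} [NormedAddCommGroup E] [NormedSpace ℝ E]

theorem eq_one_of_convex_combo (A B : E →L[ℝ] E) (hA : ∀ y, ‖A y‖ ≤ ‖y‖)
    (hB : ∀ y, ‖B y‖ ≤ ‖y‖) {t : ℝ} (ht0 : 0 < t) (ht1 : t < 1)
    (h : t • A + (1 - t) • B = 1) : A = 1 := by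
  have h1t : 0 < 1 - t := by linarith
  have hBA : B = (1 - t)⁻¹ • (1 - t • A) := by
    rw [← h, add_sub_cancel_left, smul_smul, inv_mul_cancel₀ h1t.ne', one_smul]
  have hc : Commute A B := by
    rw [hBA]
    exact ((Commute.one_right A).sub_right ((Commute.refl A).smul_right t)).smul_right _
  obtain ⟨N, hN⟩ : ∃ N : E →L[ℝ] E, N = A - B := ⟨_, rfl⟩
  have hpowA : ∀ (j : ℕ) (y : E), ‖(A ^ j) y‖ ≤ ‖y‖ := by
    intro j
    induction j with
    | zero => intro y; simp
    | succ j ih =>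
      intro y
      rw [pow_succ', mul_apply_eq_comp]
      exact (hA _).trans (ih y)
  have hpowB : ∀ (k : ℕ) (y : E), ‖(B ^ k) y‖ ≤ ‖y‖ := by
    intro k
    induction k with
    | zero => intro y; simp
    | succ k ih =>
      intro y
      rw [pow_succ', mul_apply_eq_comp]
      exact (hB _).trans (ih y)
  have hpow : ∀ (j k : ℕ) (y : E), ‖(A ^ j * B ^ k) y‖ ≤ ‖y‖ := by
    intro j k y
    rw [mul_apply_eq_comp]
    exact (hpowA j _).trans (hpowB k y)
  -- the recursion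
  have hrec : ∀ (j k : ℕ), A ^ j * B ^ k
      = t • (A ^ (j + 1) * B ^ k) + (1 - t) • (A ^ j * B ^ (k + 1)) := by
    intro j k
    have e1 : A ^ (j + 1) * B ^ k = A ^ j * B ^ k * A := by
      rw [pow_succ, mul_assoc, mul_assoc, (hc.pow_right k).eq]
    have e2 : A ^ j * B ^ (k + 1) = A ^ j * B ^ k * B := by
      rw [pow_succ, mul_assoc]
    rw [e1, e2, ← mul_smul_comm, ← mul_smul_comm, ← mul_add, h, mul_one]
  by_contra hne
  have hNne : N ≠ 0 := by
    intro h0
    rw [hN, sub_eq_zero] at h0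
    apply hne
    rw [← h, ← h0, ← add_smul]
    simp
  have hNpos : 0 < ‖N‖ := norm_pos_iff.mpr hNne
  obtain ⟨c, hcdef⟩ : ∃ c : ℝ, c = t * (1 - t) := ⟨_, rfl⟩
  have hcpos : 0 < c := by rw [hcdef]; positivity
  have hct : c ≤ t := by rw [hcdef]; nlinarith
  have hc1t : c ≤ 1 - t := by rw [hcdef]; nlinarith
  obtain ⟨n, hn⟩ := exists_nat_gt (4 / ‖N‖)
  have hn4 : 4 < (n + 1 : ℝ) * ‖N‖ := by
    have h1 : 4 / ‖N‖ < (n + 1 : ℝ) := by linarith
    rwa [div_lt_iff₀ hNpos] at h1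
  obtain ⟨η, hη⟩ : ∃ η : ℝ, η = ‖N‖ * c ^ n / 2 := ⟨_, rfl⟩
  have hηpos : 0 < η := by rw [hη]; positivity
  obtain ⟨x, hx1, hx⟩ := N.exists_lt_apply_of_lt_opNorm (r := ‖N‖ - η) (by linarith)
  obtain ⟨ψ, hψ1, hψ⟩ := exists_dual_vector'' ℝ (N x)
  have hψ' : ψ (N x) = ‖N x‖ := by simpa using hψ
  have hψle : ∀ y : E, ψ y ≤ ‖y‖ := by
    intro y
    have h1 := ψ.le_of_opNorm_le hψ1 y
    rw [one_mul] at h1
    exact (le_abs_self _).trans (by simpa [Real.norm_eq_abs] using h1)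
  have hupper : ∀ (j k : ℕ), ψ (N ((A ^ j * B ^ k) x)) ≤ ‖N‖ := by
    intro j k
    refine (hψle _).trans ?_
    refine (N.le_opNorm _).trans ?_
    have h2 : ‖(A ^ j * B ^ k) x‖ ≤ 1 := (hpow j k x).trans hx1.le
    calc ‖N‖ * ‖(A ^ j * B ^ k) x‖ ≤ ‖N‖ * 1 := by gcongr
      _ = ‖N‖ := mul_one _
  have hfrec : ∀ (j k : ℕ), ψ (N ((A ^ j * B ^ k) x))
      = t * ψ (N ((A ^ (j + 1) * B ^ k) x)) + (1 - t) * ψ (N ((A ^ j * B ^ (k + 1)) x)) := by
    intro j k
    nth_rewrite 1 [hrec j k]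
    simp only [add_apply, smul_apply, map_add, map_smul,
      smul_eq_mul]
  have hlower : ∀ (m : ℕ) (j k : ℕ), j + k = m →
      ‖N‖ - η / c ^ m ≤ ψ (N ((A ^ j * B ^ k) x)) := by
    intro m
    induction m with
    | zero =>
      intro j k hjk
      have hj : j = 0 := by omega
      have hk : k = 0 := by omega
      subst hj; subst hk
      simp only [pow_zero, mul_one, one_apply_eq_self, div_one]
      rw [hψ']
      exact hx.le
    | succ m ih =>
      intro j k hjk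
      have hcm : 0 < c ^ m := pow_pos hcpos m
      rcases Nat.eq_zero_or_pos j with hj | hj
      · subst hj
        obtain ⟨k', rfl⟩ : ∃ k', k = k' + 1 := ⟨k - 1, by omega⟩
        have h1 := ih 0 k' (by omega)
        rw [hfrec 0 k'] at h1
        have h2 := hupper (0 + 1) k'
        have h3 : η / c ^ (m + 1) * (1 - t) ≥ η / c ^ m := by
          rw [pow_succ, ge_iff_le, div_le_iff₀ hcm, div_mul_eq_mul_div, div_mul_eq_mul_div,
            le_div_iff₀ (mul_pos hcm hcpos)]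
          nlinarith [mul_pos hηpos hcm]
        nlinarith
      · obtain ⟨j', rfl⟩ : ∃ j', j = j' + 1 := ⟨j - 1, by omega⟩
        have h1 := ih j' k (by omega)
        rw [hfrec j' k] at h1
        have h2 := hupper j' (k + 1)
        have h3 : η / c ^ (m + 1) * t ≥ η / c ^ m := by
          rw [pow_succ, ge_iff_le, div_le_iff₀ hcm, div_mul_eq_mul_div, div_mul_eq_mul_div,
            le_div_iff₀ (mul_pos hcm hcpos)]
          nlinarith [mul_pos hηpos hcm]
        nlinarith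
  -- the telescoping sum
  have hsum := hc.mul_geom_sum₂ (n + 1)
  rw [← hN] at hsum
  have hval : ψ ((A ^ (n + 1) - B ^ (n + 1)) x)
      = ∑ i ∈ Finset.range (n + 1), ψ (N ((A ^ i * B ^ (n + 1 - 1 - i)) x)) := by
    rw [← hsum, mul_apply_eq_comp, sum_apply, map_sum, map_sum]
  have hge : (n + 1 : ℝ) * (‖N‖ - η / c ^ n) ≤ ψ ((A ^ (n + 1) - B ^ (n + 1)) x) := by
    rw [hval]
    have : ∀ i ∈ Finset.range (n + 1),
        ‖N‖ - η / c ^ n ≤ ψ (N ((A ^ i * B ^ (n + 1 - 1 - i)) x)) := by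
      intro i hi
      rw [Finset.mem_range] at hi
      exact hlower n i (n + 1 - 1 - i) (by omega)
    have h5 := Finset.card_nsmul_le_sum (Finset.range (n + 1)) _ _ this
    rw [Finset.card_range, nsmul_eq_mul, Nat.cast_add, Nat.cast_one] at h5
    exact h5
  have hle : ψ ((A ^ (n + 1) - B ^ (n + 1)) x) ≤ 2 := by
    refine (hψle _).trans ?_
    rw [sub_apply]
    refine (norm_sub_le _ _).trans ?_
    have h6 := hpowA (n + 1) x
    have h7 := hpowB (n + 1) x
    linarith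
  have hηc : η / c ^ n = ‖N‖ / 2 := by
    rw [hη]
    field_simp
  rw [hηc] at hge
  nlinarith

end ExtremeOp

end Vale.Agent.H23
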