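import Vale.Agent.H23.FMCap
import Vale.Agent.H23.MSummand

/-!
# Sphere isometries of function modules: bands

Let `X` be a function module over a compact Hausdorff space `K` and let `h` be a continuous
scalar function on `K`. The vectors whose fiber seminorms vanish on the band
`{s : 0 ≤ h s ≤ 1}` form a subspace which is the direct sum, with the maximum norm, of the
vectors living where `h < 0` and the vectors living where `h > 1`. If both parts are nonzero,
the theorem on spaces with a maximum-norm decomposition shows that a sphere isometry `G` is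
linear on this subspace.
-/

namespace Vale.Agent.H23

section FMBand

variable {K X Y : Type*} [TopologicalSpace K] [CompactSpace K] [T2Space K]
  [NormedAddCommGroup X] [NormedSpace ℝ X] [NormedAddCommGroup Y] [NormedSpace ℝ Y]
  {M : C(K, ℝ) → X →ₗ[ℝ] X}

/-- A scalar function cuts the function module if it is negative at some point where some fiber
seminorm does not vanish, and larger than `1` at some point where some fiber seminorm does not
vanish. -/
def IsCutterF (M : C(K, ℝ) → X →ₗ[ℝ] X) (h : C(K, ℝ)) : Prop :=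
  (∃ s x, h s < 0 ∧ fsn M s x ≠ 0) ∧ ∃ s x, 1 < h s ∧ fsn M s x ≠ 0

lemma clampFn_pos {h : C(K, ℝ)} {s : K} (hs : 0 < h s) : 0 < clampFn h s := by
  rw [clampFn_apply]
  exact lt_max_of_lt_right (lt_min zero_lt_one hs)

lemma clampFn_mono {h h' : C(K, ℝ)} {s : K} (hs : h s ≤ h' s) : clampFn h s ≤ clampFn h' s := by
  rw [clampFn_apply, clampFn_apply]
  exact max_le_max le_rfl (min_le_min le_rfl hs)

/-- The vectors whose fiber seminorms vanish on the band of `h`. -/
def bandIdealF (hM : IsFunMod M) (h : C(K, ℝ)) : Submodule ℝ X where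
  carrier := {x | ∀ s ∈ bandSet h, fsn M s x = 0}
  add_mem' := by
    intro x y hx hy s hs
    apply le_antisymm _ (fsn_nonneg M s _)
    calc fsn M s (x + y) ≤ fsn M s x + fsn M s y := fsn_add_le hM s x y
      _ = 0 := by rw [hx s hs, hy s hs, add_zero]
  zero_mem' := fun s _ => fsn_zero hM s
  smul_mem' := by
    intro c x hx s hs
    show fsn M s (c • x) = 0
    rw [fsn_smul, hx s hs, mul_zero]

omit [CompactSpace K] [T2Space K] in
lemma mem_bandIdealF {hM : IsFunMod M} {h : C(K, ℝ)} {x : X} :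
    x ∈ bandIdealF hM h ↔ ∀ s ∈ bandSet h, fsn M s x = 0 := Iff.rfl

/-- The subspace of `Y` attached to a band: the common kernel of the height functionals of all
caps at points of the band. -/
def bandSubF (M : C(K, ℝ) → X →ₗ[ℝ] X) (G : X → Y) (h : C(K, ℝ)) : Submodule ℝ Y where
  carrier := {y | ∀ (t : K) (e : X) (ψ : Y →L[ℝ] ℝ), t ∈ bandSet h → IsPeak M t e →
    IsHeightF M G t e ψ → ψ y = 0}
  add_mem' := by
    intro y y' hy hy' t e ψ ht he hψ
    rw [map_add, hy t e ψ ht he hψ, hy' t e ψ ht he hψ, add_zero]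
  zero_mem' := by
    intro t e ψ _ _ _
    exact map_zero ψ
  smul_mem' := by
    intro c y hy t e ψ ht he hψ
    rw [map_smul, hy t e ψ ht he hψ, smul_zero]

omit [CompactSpace K] [T2Space K] in
lemma isClosed_bandSubF (M : C(K, ℝ) → X →ₗ[ℝ] X) (G : X → Y) (h : C(K, ℝ)) :
    IsClosed (bandSubF M G h : Set Y) := by
  have e : (bandSubF M G h : Set Y) = ⋂ (t : K) (e : X) (ψ : Y →L[ℝ] ℝ) (_ : t ∈ bandSet h)
      (_ : IsPeak M t e) (_ : IsHeightF M G t e ψ), {y | ψ y = 0} := by
    ext y
    simp only [Set.mem_iInter, Set.mem_ofPred_eq]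
    exact Iff.rfl
  rw [e]
  refine isClosed_iInter fun t => isClosed_iInter fun e => isClosed_iInter fun ψ =>
    isClosed_iInter fun _ => isClosed_iInter fun _ => isClosed_iInter fun _ => ?_
  exact isClosed_eq ψ.continuous continuous_const

/-- Multiplication by the truncation of `h`, as a linear map of the band ideal. -/
noncomputable def bandProjF (hM : IsFunMod M) (h : C(K, ℝ)) :
    bandIdealF hM h →ₗ[ℝ] bandIdealF hM h :=
  LinearMap.codRestrict _ ((M (clampFn h)).comp (Submodule.subtype _)) (by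
    intro x s hs
    show fsn M s (M (clampFn h) (x : X)) = 0
    rw [fsn_map hM, x.2 s hs, mul_zero])

lemma bandProjF_coe (hM : IsFunMod M) (h : C(K, ℝ)) (x : bandIdealF hM h) :
    (bandProjF hM h x : X) = M (clampFn h) (x : X) := rfl

lemma bandProjF_idem (hM : IsFunMod M) (h : C(K, ℝ)) (x : bandIdealF hM h) :
    bandProjF hM h (bandProjF hM h x) = bandProjF hM h x := by
  apply Subtype.ext
  rw [bandProjF_coe, bandProjF_coe]
  have h0 : M (clampFn h * clampFn h - clampFn h) (x : X) = 0 := by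
    apply eq_zero_of_forall_fsn hM
    intro s
    rw [fsn_map hM]
    by_cases hs : s ∈ bandSet h
    · rw [x.2 s hs, mul_zero]
    · have e : (clampFn h * clampFn h - clampFn h) s = 0 := by
        show clampFn h s * clampFn h s - clampFn h s = 0
        rcases clampFn_of_notMem hs with h0 | h1
        · rw [h0]; ring
        · rw [h1]; ring
      rw [e, abs_zero, zero_mul]
  rw [hM.map_sub, hM.map_mul, sub_eq_zero] at h0
  exact h0

lemma bandProjF_norm (hM : IsFunMod M) (h : C(K, ℝ)) (x : bandIdealF hM h) :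
    ‖x‖ = max ‖bandProjF hM h x‖ ‖x - bandProjF hM h x‖ := by
  rw [Submodule.coe_norm, Submodule.coe_norm, Submodule.coe_norm, Submodule.coe_sub,
    bandProjF_coe]
  have e1 : (x : X) - M (clampFn h) (x : X) = M (1 - clampFn h) (x : X) := by
    rw [hM.map_sub, hM.map_one]
  apply le_antisymm
  · apply norm_le_of_forall_fsn_le hM (le_max_of_le_left (norm_nonneg _))
    intro s
    by_cases hs : s ∈ bandSet h
    · rw [x.2 s hs]
      exact le_max_of_le_left (norm_nonneg _)
    · rcases clampFn_of_notMem hs with h0 | h1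
      · apply le_max_of_le_right
        have h2 := fsn_le_norm hM s ((x : X) - M (clampFn h) (x : X))
        have e2 : fsn M s ((x : X) - M (clampFn h) (x : X)) = fsn M s (x : X) := by
          rw [fsn_sub_rev hM, fsn_map_sub_self hM, h0, zero_sub, abs_neg, abs_one, one_mul]
        rw [e2] at h2
        exact h2
      · apply le_max_of_le_left
        have h2 := fsn_le_norm hM s (M (clampFn h) (x : X))
        rw [fsn_map hM, h1, abs_one, one_mul] at h2
        exact h2
  · apply max_le
    · exact hM.norm_le (clampFn_nonneg h) (clampFn_le_one h) _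
    · rw [e1]
      exact hM.norm_le (fun s => by
        rw [ContinuousMap.sub_apply, ContinuousMap.one_apply]
        linarith [clampFn_le_one h s]) (fun s => by
        rw [ContinuousMap.sub_apply, ContinuousMap.one_apply]
        linarith [clampFn_nonneg h s]) _

/-- The projection attached to a cutting function is not zero. -/
lemma bandProjF_ne_zero (hM : IsFunMod M) {h : C(K, ℝ)} {s₂ : K} (hs₂ : 1 < h s₂) {x₂ : X}
    (hne : fsn M s₂ x₂ ≠ 0) : ∃ x : bandIdealF hM h, bandProjF hM h x ≠ 0 := by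
  obtain ⟨κ, hκdef⟩ : ∃ κ : C(K, ℝ), κ = clampFn ⟨fun s => h s - 1,
    h.continuous.sub continuous_const⟩ := ⟨_, rfl⟩
  have hmem : M κ x₂ ∈ bandIdealF hM h := by
    intro s hs
    have h0 : κ s = 0 := by
      rw [hκdef]
      apply clampFn_of_nonpos
      show h s - 1 ≤ 0
      linarith [hs.2]
    rw [fsn_map hM, h0, abs_zero, zero_mul]
  have hκpos : 0 < κ s₂ := by
    rw [hκdef]
    apply clampFn_pos
    show 0 < h s₂ - 1
    linarith
  refine ⟨⟨M κ x₂, hmem⟩, fun hcon => ?_⟩
  have h2 : fsn M s₂ ((bandProjF hM h ⟨M κ x₂, hmem⟩ : bandIdealF hM h) : X) = 0 := by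
    rw [hcon]
    exact fsn_zero hM s₂
  rw [bandProjF_coe, fsn_map hM, fsn_map hM, clampFn_of_one_le hs₂.le, abs_one, one_mul,
    abs_of_pos hκpos] at h2
  rcases mul_eq_zero.mp h2 with h4 | h4
  · exact hκpos.ne' h4
  · exact hne h4

/-- The projection attached to a cutting function is not the identity. -/
lemma bandProjF_ne_id (hM : IsFunMod M) {h : C(K, ℝ)} {s₁ : K} (hs₁ : h s₁ < 0) {x₁ : X}
    (hne : fsn M s₁ x₁ ≠ 0) : ∃ x : bandIdealF hM h, bandProjF hM h x ≠ x := by
  obtain ⟨κ, hκdef⟩ : ∃ κ : C(K, ℝ), κ = clampFn ⟨fun s => -h s, h.continuous.neg⟩ := ⟨_, rfl⟩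
  have hmem : M κ x₁ ∈ bandIdealF hM h := by
    intro s hs
    have h0 : κ s = 0 := by
      rw [hκdef]
      apply clampFn_of_nonpos
      show -h s ≤ 0
      linarith [hs.1]
    rw [fsn_map hM, h0, abs_zero, zero_mul]
  have hκpos : 0 < κ s₁ := by
    rw [hκdef]
    apply clampFn_pos
    show 0 < -h s₁
    linarith
  refine ⟨⟨M κ x₁, hmem⟩, fun hcon => ?_⟩
  have h2 : fsn M s₁ ((bandProjF hM h ⟨M κ x₁, hmem⟩ : bandIdealF hM h) : X) =
      fsn M s₁ (M κ x₁) := by
    rw [hcon]
  rw [bandProjF_coe, fsn_map hM, fsn_map hM, clampFn_of_nonpos hs₁.le, abs_zero, zero_mul,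
    abs_of_pos hκpos] at h2
  rcases mul_eq_zero.mp h2.symm with h4 | h4
  · exact hκpos.ne' h4
  · exact hne h4

variable {G : X → Y}

/-- Images of unit vectors vanishing on a band lie in the band subspace. -/
lemma band_memF (hG : SIso G) (hM : IsFunMod M) {h : C(K, ℝ)} {u : X}
    (hu : u ∈ bandIdealF hM h) (hu1 : ‖u‖ = 1) : G u ∈ bandSubF M G h := by
  intro t e ψ ht he hψ
  exact height_zeroF hG hM he hψ hu1 (hu t ht)

/-- Unit vectors of the band subspace are images of unit vectors vanishing on the band. -/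
lemma exists_of_band_memF (hG : SIso G) (hM : IsFunMod M) {h : C(K, ℝ)} {y : Y}
    (hy : y ∈ bandSubF M G h) (hy1 : ‖y‖ = 1) :
    ∃ u : X, u ∈ bandIdealF hM h ∧ ‖u‖ = 1 ∧ G u = y := by
  obtain ⟨u, hu1, hGu⟩ := hG.surj y hy1
  refine ⟨u, fun s hs => ?_, hu1, hGu⟩
  by_contra hne
  obtain ⟨e, he, hue⟩ := exists_peak_dir hM hne
  obtain ⟨ψ, hψ⟩ := exists_isHeightF hG hM he
  have h1 := height_geF hG hM he hψ hu1 hue
  rw [hGu, hy s e ψ hs he hψ] at h1
  exact hne (le_antisymm h1 (fsn_nonneg M s u))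

/-- The restriction of `G` to the unit sphere of the band ideal, as a surjective isometry onto
the unit sphere of the band subspace. -/
lemma exists_band_sphere_mapF (hG : SIso G) (hM : IsFunMod M) (h : C(K, ℝ)) :
    ∃ f : Metric.sphere (0 : bandIdealF hM h) 1 → Metric.sphere (0 : bandSubF M G h) 1,
      Isometry f ∧ Function.Surjective f ∧
      ∀ p, ((f p : bandSubF M G h) : Y) = G ((p : bandIdealF hM h) : X) := by
  have hmemf : ∀ p : Metric.sphere (0 : bandIdealF hM h) 1,
      G ((p : bandIdealF hM h) : X) ∈ bandSubF M G h := fun p =>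
    band_memF hG hM (p : bandIdealF hM h).2 (mem_sphere_zero_iff_norm.mp p.2)
  have hnormf : ∀ p : Metric.sphere (0 : bandIdealF hM h) 1,
      (⟨_, hmemf p⟩ : bandSubF M G h) ∈ Metric.sphere (0 : bandSubF M G h) 1 := by
    intro p
    rw [mem_sphere_zero_iff_norm, Submodule.coe_norm]
    exact hG.norm_map _ (mem_sphere_zero_iff_norm.mp p.2)
  refine ⟨fun p => ⟨⟨_, hmemf p⟩, hnormf p⟩, ?_, ?_, fun p => rfl⟩
  · refine Isometry.of_dist_eq fun p q => ?_
    have e1 : dist p q = ‖((p : bandIdealF hM h) : X) - ((q : bandIdealF hM h) : X)‖ := by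
      rw [Subtype.dist_eq, dist_eq_norm]
      rfl
    rw [e1, Subtype.dist_eq, dist_eq_norm]
    exact hG.dist_map _ _ (mem_sphere_zero_iff_norm.mp p.2) (mem_sphere_zero_iff_norm.mp q.2)
  · intro w
    have hw1 : ‖((w : bandSubF M G h) : Y)‖ = 1 := by
      rw [← Submodule.coe_norm]
      exact mem_sphere_zero_iff_norm.mp w.2
    obtain ⟨u, hu, hu1, hGu⟩ := exists_of_band_memF hG hM (w : bandSubF M G h).2 hw1
    refine ⟨⟨⟨u, hu⟩, by rw [mem_sphere_zero_iff_norm, Submodule.coe_norm]; exact hu1⟩, ?_⟩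
    apply Subtype.ext
    apply Subtype.ext
    exact hGu

/-- On the band ideal of a cutting function, `G` agrees on the unit sphere with a linear
isometry. -/
lemma exists_band_linearF [CompleteSpace Y] (hG : SIso G) (hM : IsFunMod M)
    {h : C(K, ℝ)} (hh : IsCutterF M h) :
    ∃ Λ : bandIdealF hM h →ₗ[ℝ] Y, (∀ u, ‖Λ u‖ = ‖u‖) ∧
      ∀ u, ‖u‖ = 1 → Λ u = G (u : X) := by
  obtain ⟨⟨s₁, x₁, hs₁, hne₁⟩, ⟨s₂, x₂, hs₂, hne₂⟩⟩ := hh
  have hc : CompleteSpace (bandSubF M G h) := (isClosed_bandSubF M G h).completeSpace_coe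
  obtain ⟨f, hf, hsurj, hfval⟩ := exists_band_sphere_mapF hG hM h
  obtain ⟨T, hT⟩ := exists_linearIsometryEquiv_of_mProjection
    (X := bandIdealF hM h) (Y := bandSubF M G h) (bandProjF hM h)
    (bandProjF_idem hM h) (bandProjF_norm hM h) (bandProjF_ne_zero hM hs₂ hne₂)
    (bandProjF_ne_id hM hs₁ hne₁) f hf hsurj
  refine ⟨(bandSubF M G h).subtype.comp T.toLinearEquiv.toLinearMap, fun u => ?_, fun u hu => ?_⟩
  · show ‖((T u : bandSubF M G h) : Y)‖ = ‖u‖
    rw [← Submodule.coe_norm, LinearIsometryEquiv.norm_map]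
  · show ((T u : bandSubF M G h) : Y) = G (u : X)
    have h2 := hT ⟨u, mem_sphere_zero_iff_norm.mpr hu⟩
    rw [← hfval ⟨u, mem_sphere_zero_iff_norm.mpr hu⟩, ← h2]

end FMBand

end Vale.Agent.H23
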