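import Vale.Agent.H23.CKBand
import Mathlib.Analysis.Seminorm
import Mathlib.Analysis.SpecificLimits.Basic
import Mathlib.Analysis.Normed.Group.FunctionSeries

/-!
# Function modules: fiber seminorms

Let `K` be a compact Hausdorff space and `X` a real normed space on which the algebra `C(K, ℝ)`
acts by linear maps `M φ` in such a way that `‖M φ x + M ψ y‖ ≤ max ‖x‖ ‖y‖` whenever
`φ, ψ ≥ 0` and `φ + ψ ≤ 1`. For a point `t` of `K` the fiber seminorm of `x` at `t` is the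
infimum of the norms `‖M φ x‖` over the functions `φ` with values in `[0, 1]` which are equal to
`1` near `t`. This file shows that the fiber seminorms are seminorms, are upper semicontinuous
in `t`, satisfy `fsn t (M ψ x) = |ψ t| * fsn t x`, and that the norm of `x` is the largest of
its fiber seminorms. Every vector whose fiber seminorm at `t` is at most `1` agrees at `t` with
a vector of norm at most `1`.
-/

namespace Vale.Agent.H23

section FMBase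

variable {K X : Type*} [TopologicalSpace K] [CompactSpace K] [T2Space K]
  [NormedAddCommGroup X] [NormedSpace ℝ X]

/-- An action of `C(K, ℝ)` on `X` by linear maps making `X` a function module: it is
multiplicative, unital and additive in the function, and
`‖M φ x + M ψ y‖ ≤ max ‖x‖ ‖y‖` whenever `φ, ψ ≥ 0` and `φ + ψ ≤ 1`. -/
structure IsFunMod (M : C(K, ℝ) → X →ₗ[ℝ] X) : Prop where
  map_one : ∀ x, M 1 x = x
  map_mul : ∀ φ ψ x, M (φ * ψ) x = M φ (M ψ x)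
  map_add : ∀ φ ψ x, M (φ + ψ) x = M φ x + M ψ x
  map_smul : ∀ (c : ℝ) φ x, M (c • φ) x = c • M φ x
  mp : ∀ φ ψ x y, (∀ t, 0 ≤ φ t) → (∀ t, 0 ≤ ψ t) → (∀ t, φ t + ψ t ≤ 1) →
    ‖M φ x + M ψ y‖ ≤ max ‖x‖ ‖y‖

namespace IsFunMod

variable {M : C(K, ℝ) → X →ₗ[ℝ] X}

omit [CompactSpace K] [T2Space K] in
lemma map_zero' (hM : IsFunMod M) (x : X) : M 0 x = 0 := by
  have h := hM.map_smul 0 0 x
  rwa [zero_smul, zero_smul] at h

omit [CompactSpace K] [T2Space K] in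
lemma map_sub (hM : IsFunMod M) (φ ψ : C(K, ℝ)) (x : X) : M (φ - ψ) x = M φ x - M ψ x := by
  have h := hM.map_add (φ - ψ) ψ x
  rw [sub_add_cancel] at h
  rw [h, add_sub_cancel_right]

omit [CompactSpace K] [T2Space K] in
/-- Multiplication by a function with values in `[0, 1]` does not increase the norm. -/
lemma norm_le (hM : IsFunMod M) {φ : C(K, ℝ)} (h0 : ∀ t, 0 ≤ φ t) (h1 : ∀ t, φ t ≤ 1) (x : X) :
    ‖M φ x‖ ≤ ‖x‖ := by
  have h := hM.mp φ 0 x 0 h0 (fun _ => le_rfl) (fun t => by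
    rw [ContinuousMap.zero_apply, add_zero]
    exact h1 t)
  rw [map_zero, add_zero, norm_zero, max_eq_left (norm_nonneg _)] at h
  exact h

omit [CompactSpace K] [T2Space K] in
/-- Multiplication by a function bounded by `c` has norm at most `c`. -/
lemma norm_le_of_abs (hM : IsFunMod M) {χ : C(K, ℝ)} {c : ℝ} (hc : 0 ≤ c)
    (h : ∀ t, |χ t| ≤ c) (x : X) : ‖M χ x‖ ≤ c * ‖x‖ := by
  rcases eq_or_lt_of_le hc with h0 | hpos
  · have hχ : χ = 0 := by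
      ext t
      have := h t
      rw [← h0] at this
      exact abs_eq_zero.mp (le_antisymm this (abs_nonneg _))
    rw [hχ, hM.map_zero', norm_zero, ← h0, zero_mul]
  · obtain ⟨χp, hχp⟩ : ∃ χp : C(K, ℝ), ∀ t, χp t = max (χ t) 0 / c :=
      ⟨⟨fun t => max (χ t) 0 / c, (χ.continuous.max continuous_const).div_const c⟩, fun t => rfl⟩
    obtain ⟨χm, hχm⟩ : ∃ χm : C(K, ℝ), ∀ t, χm t = max (-χ t) 0 / c :=
      ⟨⟨fun t => max (-χ t) 0 / c, (χ.continuous.neg.max continuous_const).div_const c⟩,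
        fun t => rfl⟩
    have e : χ = c • χp - c • χm := by
      ext t
      rw [ContinuousMap.sub_apply, ContinuousMap.smul_apply, ContinuousMap.smul_apply, hχp, hχm,
        smul_eq_mul, smul_eq_mul, mul_div_cancel₀ _ hpos.ne', mul_div_cancel₀ _ hpos.ne']
      rcases le_total (χ t) 0 with h1 | h1
      · rw [max_eq_right h1, max_eq_left (by linarith)]
        ring
      · rw [max_eq_left h1, max_eq_right (by linarith)]
        ring
    have e2 : M χ x = c • (M χp x + M χm (-x)) := by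
      rw [e, hM.map_sub, hM.map_smul, hM.map_smul, map_neg, smul_add, smul_neg, sub_eq_add_neg]
    have h3 := hM.mp χp χm x (-x) (fun t => by rw [hχp]; positivity)
      (fun t => by rw [hχm]; positivity) (fun t => by
        rw [hχp, hχm, ← add_div, div_le_one hpos]
        have := h t
        rcases le_total (χ t) 0 with h1 | h1
        · rw [max_eq_right h1, max_eq_left (by linarith), zero_add]
          rw [abs_of_nonpos h1] at this
          exact this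
        · rw [max_eq_left h1, max_eq_right (by linarith), add_zero]
          rw [abs_of_nonneg h1] at this
          exact this)
    rw [norm_neg, max_self] at h3
    rw [e2, norm_smul, Real.norm_eq_abs, abs_of_pos hpos]
    exact mul_le_mul_of_nonneg_left h3 hpos.le

/-- Multiplication by the pointwise maximum of two functions. -/
lemma norm_sup_le (hM : IsFunMod M) (φ₁ φ₂ : C(K, ℝ)) (x : X) :
    ‖M (φ₁ ⊔ φ₂) x‖ ≤ max ‖M φ₁ x‖ ‖M φ₂ x‖ := by
  apply le_of_forall_pos_le_add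
  intro ε hε
  obtain ⟨δ, hδdef⟩ : ∃ δ : ℝ, δ = 2 * ε / (‖x‖ + 1) := ⟨_, rfl⟩
  have hx1 : 0 < ‖x‖ + 1 := by positivity
  have hδ : 0 < δ := by rw [hδdef]; positivity
  obtain ⟨α, hαdef⟩ : ∃ α : C(K, ℝ), α = clampFn ⟨fun s => 1 / 2 + (φ₁ s - φ₂ s) / δ,
      continuous_const.add ((φ₁.continuous.sub φ₂.continuous).div_const δ)⟩ := ⟨_, rfl⟩
  have hα0 : ∀ s, 0 ≤ α s := fun s => by rw [hαdef]; exact clampFn_nonneg _ s
  have hα1 : ∀ s, α s ≤ 1 := fun s => by rw [hαdef]; exact clampFn_le_one _ s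
  obtain ⟨θ, hθdef⟩ : ∃ θ : C(K, ℝ), θ = α * φ₁ + (1 - α) * φ₂ := ⟨_, rfl⟩
  have h1 : ‖M θ x‖ ≤ max ‖M φ₁ x‖ ‖M φ₂ x‖ := by
    have h := hM.mp α (1 - α) (M φ₁ x) (M φ₂ x) hα0 (fun s => by
      rw [ContinuousMap.sub_apply, ContinuousMap.one_apply]
      linarith [hα1 s]) (fun s => by
      rw [ContinuousMap.sub_apply, ContinuousMap.one_apply]
      linarith)
    rw [hθdef, hM.map_add, hM.map_mul, hM.map_mul]
    exact h
  have h2 : ∀ s, |(φ₁ ⊔ φ₂ - θ) s| ≤ δ / 2 := by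
    intro s
    have e : (φ₁ ⊔ φ₂ - θ) s = max (φ₁ s) (φ₂ s) - (α s * φ₁ s + (1 - α s) * φ₂ s) := by
      rw [hθdef]
      rfl
    rw [e]
    rcases le_or_gt (δ / 2) (φ₁ s - φ₂ s) with hD | hD
    · have hαs : α s = 1 := by
        rw [hαdef]
        apply clampFn_of_one_le
        show 1 ≤ 1 / 2 + (φ₁ s - φ₂ s) / δ
        have : 1 / 2 ≤ (φ₁ s - φ₂ s) / δ := by
          rw [le_div_iff₀ hδ]
          linarith
        linarith
      rw [hαs, max_eq_left (by linarith)]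
      have e2 : φ₁ s - (1 * φ₁ s + (1 - 1) * φ₂ s) = 0 := by ring
      rw [e2, abs_zero]
      positivity
    · rcases le_or_gt (φ₁ s - φ₂ s) (-(δ / 2)) with hD' | hD'
      · have hαs : α s = 0 := by
          rw [hαdef]
          apply clampFn_of_nonpos
          show 1 / 2 + (φ₁ s - φ₂ s) / δ ≤ 0
          have : (φ₁ s - φ₂ s) / δ ≤ -(1 / 2) := by
            rw [div_le_iff₀ hδ]
            linarith
          linarith
        rw [hαs, max_eq_right (by linarith)]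
        have e2 : φ₂ s - (0 * φ₁ s + (1 - 0) * φ₂ s) = 0 := by ring
        rw [e2, abs_zero]
        positivity
      · rcases le_total (φ₁ s) (φ₂ s) with h12 | h12
        · rw [max_eq_right h12]
          have e2 : φ₂ s - (α s * φ₁ s + (1 - α s) * φ₂ s) = α s * (φ₂ s - φ₁ s) := by ring
          rw [e2, abs_of_nonneg (mul_nonneg (hα0 s) (by linarith))]
          have : α s * (φ₂ s - φ₁ s) ≤ 1 * (φ₂ s - φ₁ s) :=
            mul_le_mul_of_nonneg_right (hα1 s) (by linarith)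
          linarith
        · rw [max_eq_left h12]
          have e2 : φ₁ s - (α s * φ₁ s + (1 - α s) * φ₂ s) = (1 - α s) * (φ₁ s - φ₂ s) := by
            ring
          rw [e2, abs_of_nonneg (mul_nonneg (by linarith [hα1 s]) (by linarith))]
          have : (1 - α s) * (φ₁ s - φ₂ s) ≤ 1 * (φ₁ s - φ₂ s) :=
            mul_le_mul_of_nonneg_right (by linarith [hα0 s]) (by linarith)
          linarith
  have h3 := hM.norm_le_of_abs (by positivity) h2 x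
  have e3 : M (φ₁ ⊔ φ₂) x = M θ x + M (φ₁ ⊔ φ₂ - θ) x := by
    rw [hM.map_sub, add_sub_cancel]
  have h4 : δ / 2 * ‖x‖ ≤ ε := by
    rw [hδdef]
    have e4 : 2 * ε / (‖x‖ + 1) / 2 * ‖x‖ = ε * (‖x‖ / (‖x‖ + 1)) := by field_simp
    rw [e4]
    have : ‖x‖ / (‖x‖ + 1) ≤ 1 := by
      rw [div_le_one hx1]
      linarith
    calc ε * (‖x‖ / (‖x‖ + 1)) ≤ ε * 1 := mul_le_mul_of_nonneg_left this hε.le
      _ = ε := mul_one ε
  calc ‖M (φ₁ ⊔ φ₂) x‖ = ‖M θ x + M (φ₁ ⊔ φ₂ - θ) x‖ := by rw [← e3]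
    _ ≤ ‖M θ x‖ + ‖M (φ₁ ⊔ φ₂ - θ) x‖ := norm_add_le _ _
    _ ≤ max ‖M φ₁ x‖ ‖M φ₂ x‖ + ε := add_le_add h1 (h3.trans h4)

end IsFunMod

/-- The functions with values in `[0, 1]` which are equal to `1` near `t`. -/
def nbhdOne (t : K) : Set C(K, ℝ) :=
  {φ | (∀ s, 0 ≤ φ s) ∧ (∀ s, φ s ≤ 1) ∧ ∃ V : Set K, IsOpen V ∧ t ∈ V ∧ ∀ s ∈ V, φ s = 1}

omit [CompactSpace K] [T2Space K] in
lemma one_mem_nbhdOne (t : K) : (1 : C(K, ℝ)) ∈ nbhdOne t :=
  ⟨fun _ => zero_le_one, fun _ => le_rfl, Set.univ, isOpen_univ, Set.mem_univ t, fun _ _ => rfl⟩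

omit [CompactSpace K] [T2Space K] in
lemma mul_mem_nbhdOne {t : K} {φ ψ : C(K, ℝ)} (hφ : φ ∈ nbhdOne t) (hψ : ψ ∈ nbhdOne t) :
    φ * ψ ∈ nbhdOne t := by
  obtain ⟨h0, h1, V, hV, htV, hV1⟩ := hφ
  obtain ⟨k0, k1, W, hW, htW, hW1⟩ := hψ
  refine ⟨fun s => mul_nonneg (h0 s) (k0 s), fun s => ?_, V ∩ W, hV.inter hW, ⟨htV, htW⟩,
    fun s hs => ?_⟩
  · rw [ContinuousMap.mul_apply]
    calc φ s * ψ s ≤ 1 * 1 := mul_le_mul (h1 s) (k1 s) (k0 s) zero_le_one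
      _ = 1 := one_mul 1
  · rw [ContinuousMap.mul_apply, hV1 s hs.1, hW1 s hs.2, one_mul]

/-- A member of `nbhdOne t` vanishing outside a given open neighbourhood of `t`. -/
lemma exists_nbhdOne_bump {U : Set K} (hU : IsOpen U) {t : K} (ht : t ∈ U) :
    ∃ θ ∈ nbhdOne t, ∀ s, s ∉ U → θ s = 0 := by
  obtain ⟨κ, hκt, hκ0, hκ1, hκU⟩ := exists_bump hU ht
  obtain ⟨h, hhdef⟩ : ∃ h : C(K, ℝ), ∀ s, h s = 2 * κ s :=
    ⟨⟨fun s => 2 * κ s, continuous_const.mul κ.continuous⟩, fun s => rfl⟩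
  refine ⟨clampFn h, ⟨fun s => clampFn_nonneg h s, fun s => clampFn_le_one h s,
    {s | 1 / 2 < κ s}, isOpen_lt continuous_const κ.continuous, ?_, fun s hs => ?_⟩,
    fun s hs => ?_⟩
  · show 1 / 2 < κ t
    rw [hκt]
    norm_num
  · apply clampFn_of_one_le
    rw [hhdef]
    have : 1 / 2 < κ s := hs
    linarith
  · apply clampFn_of_nonpos
    rw [hhdef, hκU s hs, mul_zero]

/-- The fiber seminorm at `t`. -/
noncomputable def fsn (M : C(K, ℝ) → X →ₗ[ℝ] X) (t : K) (x : X) : ℝ :=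
  sInf ((fun φ => ‖M φ x‖) '' nbhdOne t)

section Fsn

variable {M : C(K, ℝ) → X →ₗ[ℝ] X}

omit [CompactSpace K] [T2Space K] in
lemma fsn_bddBelow (M : C(K, ℝ) → X →ₗ[ℝ] X) (t : K) (x : X) :
    BddBelow ((fun φ => ‖M φ x‖) '' nbhdOne t) :=
  ⟨0, by
    rintro _ ⟨φ, -, rfl⟩
    exact norm_nonneg _⟩

omit [CompactSpace K] [T2Space K] in
lemma fsn_nonneg (M : C(K, ℝ) → X →ₗ[ℝ] X) (t : K) (x : X) : 0 ≤ fsn M t x := by
  apply le_csInf (Set.Nonempty.image _ ⟨1, one_mem_nbhdOne t⟩)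
  rintro _ ⟨φ, -, rfl⟩
  exact norm_nonneg _

omit [CompactSpace K] [T2Space K] in
lemma fsn_le (M : C(K, ℝ) → X →ₗ[ℝ] X) {t : K} {φ : C(K, ℝ)} (hφ : φ ∈ nbhdOne t) (x : X) :
    fsn M t x ≤ ‖M φ x‖ :=
  csInf_le (fsn_bddBelow M t x) ⟨φ, hφ, rfl⟩

omit [CompactSpace K] [T2Space K] in
lemma exists_of_fsn_lt {t : K} {x : X} {c : ℝ} (h : fsn M t x < c) :
    ∃ φ ∈ nbhdOne t, ‖M φ x‖ < c := by
  obtain ⟨_, ⟨φ, hφ, rfl⟩, hlt⟩ := exists_lt_of_csInf_lt
    (Set.Nonempty.image _ ⟨1, one_mem_nbhdOne t⟩) h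
  exact ⟨φ, hφ, hlt⟩

omit [CompactSpace K] [T2Space K] in
lemma fsn_le_norm (hM : IsFunMod M) (t : K) (x : X) : fsn M t x ≤ ‖x‖ := by
  have h := fsn_le M (one_mem_nbhdOne t) x
  rwa [hM.map_one] at h

omit [CompactSpace K] [T2Space K] in
lemma fsn_add_le (hM : IsFunMod M) (t : K) (x y : X) :
    fsn M t (x + y) ≤ fsn M t x + fsn M t y := by
  apply le_of_forall_pos_le_add
  intro ε hε
  obtain ⟨φ, hφ, hφx⟩ := exists_of_fsn_lt (M := M) (t := t) (x := x)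
    (c := fsn M t x + ε / 2) (by linarith)
  obtain ⟨ψ, hψ, hψy⟩ := exists_of_fsn_lt (M := M) (t := t) (x := y)
    (c := fsn M t y + ε / 2) (by linarith)
  have h1 := fsn_le M (mul_mem_nbhdOne hφ hψ) (x + y)
  have h2 : ‖M (φ * ψ) x‖ ≤ ‖M φ x‖ := by
    rw [mul_comm, hM.map_mul]
    exact hM.norm_le hψ.1 hψ.2.1 _
  have h3 : ‖M (φ * ψ) y‖ ≤ ‖M ψ y‖ := by
    rw [hM.map_mul]
    exact hM.norm_le hφ.1 hφ.2.1 _
  have h4 : ‖M (φ * ψ) (x + y)‖ ≤ ‖M (φ * ψ) x‖ + ‖M (φ * ψ) y‖ := by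
    rw [map_add]
    exact norm_add_le _ _
  linarith

omit [CompactSpace K] [T2Space K] in
lemma fsn_smul_le (M : C(K, ℝ) → X →ₗ[ℝ] X) (t : K) (c : ℝ) (x : X) :
    fsn M t (c • x) ≤ |c| * fsn M t x := by
  rcases eq_or_ne c 0 with rfl | hc
  · rw [zero_smul, abs_zero, zero_mul]
    have h := fsn_le M (one_mem_nbhdOne t) (0 : X)
    rw [map_zero, norm_zero] at h
    exact h
  · have hcpos : 0 < |c| := abs_pos.mpr hc
    apply le_of_forall_pos_le_add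
    intro ε hε
    obtain ⟨φ, hφ, hφx⟩ := exists_of_fsn_lt (M := M) (t := t) (x := x)
      (c := fsn M t x + ε / |c|) (by linarith [div_pos hε hcpos])
    have h1 := fsn_le M hφ (c • x)
    rw [map_smul, norm_smul, Real.norm_eq_abs] at h1
    have h2 : |c| * ‖M φ x‖ ≤ |c| * (fsn M t x + ε / |c|) :=
      mul_le_mul_of_nonneg_left hφx.le hcpos.le
    have e : |c| * (fsn M t x + ε / |c|) = |c| * fsn M t x + ε := by
      field_simp
    linarith

omit [CompactSpace K] [T2Space K] in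
lemma fsn_smul (M : C(K, ℝ) → X →ₗ[ℝ] X) (t : K) (c : ℝ) (x : X) :
    fsn M t (c • x) = |c| * fsn M t x := by
  apply le_antisymm (fsn_smul_le M t c x)
  rcases eq_or_ne c 0 with rfl | hc
  · rw [abs_zero, zero_mul]
    exact fsn_nonneg M t _
  · have hcpos : 0 < |c| := abs_pos.mpr hc
    have h := fsn_smul_le M t c⁻¹ (c • x)
    rw [smul_smul, inv_mul_cancel₀ hc, one_smul, abs_inv] at h
    calc |c| * fsn M t x ≤ |c| * (|c|⁻¹ * fsn M t (c • x)) :=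
          mul_le_mul_of_nonneg_left h hcpos.le
      _ = fsn M t (c • x) := by rw [← mul_assoc, mul_inv_cancel₀ hcpos.ne', one_mul]

/-- The fiber seminorm at `t`, as a seminorm. -/
noncomputable def fsem (hM : IsFunMod M) (t : K) : Seminorm ℝ X :=
  Seminorm.of (fsn M t) (fsn_add_le hM t) (fun c x => by
    rw [fsn_smul, Real.norm_eq_abs])

omit [CompactSpace K] [T2Space K] in
lemma fsem_apply (hM : IsFunMod M) (t : K) (x : X) : fsem hM t x = fsn M t x := rfl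

omit [CompactSpace K] [T2Space K] in
/-- Upper semicontinuity of the fiber seminorms. -/
lemma exists_open_fsn_lt {t : K} {x : X} {c : ℝ} (h : fsn M t x < c) :
    ∃ V : Set K, IsOpen V ∧ t ∈ V ∧ ∀ s ∈ V, fsn M s x < c := by
  obtain ⟨φ, ⟨h0, h1, V, hV, htV, hV1⟩, hφx⟩ := exists_of_fsn_lt h
  exact ⟨V, hV, htV, fun s hs => lt_of_le_of_lt
    (fsn_le M ⟨h0, h1, V, hV, hs, hV1⟩ x) hφx⟩

omit [CompactSpace K] [T2Space K] in
lemma isOpen_fsn_lt (M : C(K, ℝ) → X →ₗ[ℝ] X) (x : X) (c : ℝ) :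
    IsOpen {s : K | fsn M s x < c} := by
  rw [isOpen_iff_forall_mem_open]
  intro t ht
  obtain ⟨V, hV, htV, hVc⟩ := exists_open_fsn_lt (M := M) (x := x) (c := c) ht
  exact ⟨V, fun s hs => hVc s hs, hV, htV⟩

/-- The fiber seminorm of a product. -/
lemma fsn_map (hM : IsFunMod M) (t : K) (ψ : C(K, ℝ)) (x : X) :
    fsn M t (M ψ x) = |ψ t| * fsn M t x := by
  -- localisation: for `ε > 0` there is a member `θ` of `nbhdOne t` such that for all members `φ`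
  -- of `nbhdOne t`, `M (φ * θ) (M ψ x)` and `ψ t • M (φ * θ) x` differ by at most `ε * ‖x‖`
  have hloc : ∀ ε : ℝ, 0 < ε → ∃ θ ∈ nbhdOne t, ∀ φ ∈ nbhdOne t,
      ‖M (φ * θ) (M ψ x) - ψ t • M (φ * θ) x‖ ≤ ε * ‖x‖ := by
    intro ε hε
    obtain ⟨θ, hθ, hθU⟩ := exists_nbhdOne_bump (U := {s | |ψ s - ψ t| < ε})
      (isOpen_lt (continuous_abs.comp (ψ.continuous.sub continuous_const)) continuous_const)
      (t := t) (by
        show |ψ t - ψ t| < ε
        rw [sub_self, abs_zero]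
        exact hε)
    refine ⟨θ, hθ, fun φ hφ => ?_⟩
    obtain ⟨χ, hχdef⟩ : ∃ χ : C(K, ℝ), χ = θ * (ψ - ψ t • (1 : C(K, ℝ))) := ⟨_, rfl⟩
    have hχ : ∀ s, |χ s| ≤ ε := by
      intro s
      have e : χ s = θ s * (ψ s - ψ t) := by
        rw [hχdef]
        simp
      rw [e, abs_mul, abs_of_nonneg (hθ.1 s)]
      by_cases hs : s ∈ {s | |ψ s - ψ t| < ε}
      · have h1 : |ψ s - ψ t| < ε := hs
        calc θ s * |ψ s - ψ t| ≤ 1 * ε :=
              mul_le_mul (hθ.2.1 s) h1.le (abs_nonneg _) zero_le_one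
          _ = ε := one_mul ε
      · rw [hθU s hs, zero_mul]
        exact hε.le
    have e1 : φ * θ * ψ = ψ t • (φ * θ) + φ * χ := by
      rw [hχdef]
      ext s
      simp
      ring
    have e2 : M (φ * θ) (M ψ x) - ψ t • M (φ * θ) x = M φ (M χ x) := by
      have e3 : M (φ * θ) (M ψ x) = ψ t • M (φ * θ) x + M φ (M χ x) := by
        rw [← hM.map_mul (φ * θ) ψ x, e1, hM.map_add, hM.map_smul, hM.map_mul φ χ x]
      rw [e3, add_sub_cancel_left]
    rw [e2]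
    exact (hM.norm_le hφ.1 hφ.2.1 _).trans (hM.norm_le_of_abs hε.le hχ x)
  have hmulθ : ∀ (θ φ : C(K, ℝ)) (y : X), θ ∈ nbhdOne t → ‖M (φ * θ) y‖ ≤ ‖M φ y‖ := by
    intro θ φ y hθ
    rw [mul_comm, hM.map_mul]
    exact hM.norm_le hθ.1 hθ.2.1 _
  apply le_antisymm
  · apply le_of_forall_pos_le_add
    intro δ hδ
    obtain ⟨ε, hεdef⟩ : ∃ ε : ℝ, ε = δ / (|ψ t| + ‖x‖ + 1) := ⟨_, rfl⟩
    have hden : 0 < |ψ t| + ‖x‖ + 1 := by positivity
    have hε : 0 < ε := by rw [hεdef]; positivity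
    obtain ⟨θ, hθ, hθφ⟩ := hloc ε hε
    obtain ⟨φ, hφ, hφx⟩ := exists_of_fsn_lt (M := M) (t := t) (x := x)
      (c := fsn M t x + ε) (by linarith)
    have h1 := fsn_le M (mul_mem_nbhdOne hφ hθ) (M ψ x)
    have h2 := hθφ φ hφ
    have h3 : ‖M (φ * θ) (M ψ x)‖ ≤ ‖ψ t • M (φ * θ) x‖ + ε * ‖x‖ := by
      have e : M (φ * θ) (M ψ x) = ψ t • M (φ * θ) x +
          (M (φ * θ) (M ψ x) - ψ t • M (φ * θ) x) := by abel
      calc ‖M (φ * θ) (M ψ x)‖ = ‖ψ t • M (φ * θ) x +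
            (M (φ * θ) (M ψ x) - ψ t • M (φ * θ) x)‖ := by rw [← e]
        _ ≤ ‖ψ t • M (φ * θ) x‖ + ‖M (φ * θ) (M ψ x) - ψ t • M (φ * θ) x‖ := norm_add_le _ _
        _ ≤ ‖ψ t • M (φ * θ) x‖ + ε * ‖x‖ := add_le_add le_rfl h2
    rw [norm_smul, Real.norm_eq_abs] at h3
    have h4 : |ψ t| * ‖M (φ * θ) x‖ ≤ |ψ t| * (fsn M t x + ε) :=
      mul_le_mul_of_nonneg_left ((hmulθ θ φ x hθ).trans hφx.le) (abs_nonneg _)
    have h5 : |ψ t| * ε + ε * ‖x‖ ≤ δ := by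
      have e : |ψ t| * ε + ε * ‖x‖ = ε * (|ψ t| + ‖x‖) := by ring
      rw [e, hεdef, div_mul_eq_mul_div, div_le_iff₀ hden]
      nlinarith [abs_nonneg (ψ t), norm_nonneg x]
    nlinarith
  · apply le_of_forall_pos_le_add
    intro δ hδ
    obtain ⟨ε, hεdef⟩ : ∃ ε : ℝ, ε = δ / (‖x‖ + 1) := ⟨_, rfl⟩
    have hden : 0 < ‖x‖ + 1 := by positivity
    have hε : 0 < ε := by rw [hεdef]; positivity
    obtain ⟨θ, hθ, hθφ⟩ := hloc ε hε
    obtain ⟨φ, hφ, hφx⟩ := exists_of_fsn_lt (M := M) (t := t) (x := M ψ x)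
      (c := fsn M t (M ψ x) + ε) (by linarith)
    have h1 := fsn_le M (mul_mem_nbhdOne hφ hθ) x
    have h2 := hθφ φ hφ
    have h3 : ‖ψ t • M (φ * θ) x‖ ≤ ‖M (φ * θ) (M ψ x)‖ + ε * ‖x‖ := by
      have e : ψ t • M (φ * θ) x = M (φ * θ) (M ψ x) -
          (M (φ * θ) (M ψ x) - ψ t • M (φ * θ) x) := by abel
      calc ‖ψ t • M (φ * θ) x‖ = ‖M (φ * θ) (M ψ x) -
            (M (φ * θ) (M ψ x) - ψ t • M (φ * θ) x)‖ := by rw [← e]
        _ ≤ ‖M (φ * θ) (M ψ x)‖ + ‖M (φ * θ) (M ψ x) - ψ t • M (φ * θ) x‖ := norm_sub_le _ _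
        _ ≤ ‖M (φ * θ) (M ψ x)‖ + ε * ‖x‖ := add_le_add le_rfl h2
    rw [norm_smul, Real.norm_eq_abs] at h3
    have h4 : |ψ t| * fsn M t x ≤ |ψ t| * ‖M (φ * θ) x‖ :=
      mul_le_mul_of_nonneg_left h1 (abs_nonneg _)
    have h5 := hmulθ θ φ (M ψ x) hθ
    have h6 : ε + ε * ‖x‖ ≤ δ := by
      have e : ε + ε * ‖x‖ = ε * (‖x‖ + 1) := by ring
      rw [e, hεdef, div_mul_cancel₀ _ hden.ne']
    linarith

/-- If all fiber seminorms of `x` are smaller than `c`, so is its norm. -/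
lemma norm_lt_of_forall_fsn_lt (hM : IsFunMod M) {x : X} {c : ℝ} (hc : 0 < c)
    (h : ∀ t, fsn M t x < c) : ‖x‖ < c := by
  obtain ⟨p, hpdef⟩ : ∃ p : Set K → Prop, p = fun S => ∃ φ : C(K, ℝ), (∀ s, 0 ≤ φ s) ∧
      (∀ s, φ s ≤ 1) ∧ (∃ V : Set K, IsOpen V ∧ S ⊆ V ∧ ∀ s ∈ V, φ s = 1) ∧ ‖M φ x‖ < c :=
    ⟨_, rfl⟩
  have key : p Set.univ := by
    refine isCompact_univ.induction_on (p := p) ?_ ?_ ?_ ?_
    · rw [hpdef]
      refine ⟨0, fun _ => le_rfl, fun _ => zero_le_one, ⟨∅, isOpen_empty, subset_rfl,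
        fun s hs => absurd hs (Set.notMem_empty s)⟩, ?_⟩
      rw [hM.map_zero', norm_zero]
      exact hc
    · intro S T hST hT
      rw [hpdef] at hT ⊢
      obtain ⟨φ, h0, h1, ⟨V, hV, hTV, hV1⟩, hlt⟩ := hT
      exact ⟨φ, h0, h1, ⟨V, hV, hST.trans hTV, hV1⟩, hlt⟩
    · intro S T hS hT
      rw [hpdef] at hS hT ⊢
      obtain ⟨φ₁, h0, h1, ⟨V, hV, hSV, hV1⟩, hlt⟩ := hS
      obtain ⟨φ₂, k0, k1, ⟨W, hW, hTW, hW1⟩, klt⟩ := hT
      refine ⟨φ₁ ⊔ φ₂, fun s => ?_, fun s => ?_, ⟨V ∪ W, hV.union hW,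
        Set.union_subset_union hSV hTW, fun s hs => ?_⟩, ?_⟩
      · rw [ContinuousMap.sup_apply]
        exact le_sup_of_le_left (h0 s)
      · rw [ContinuousMap.sup_apply]
        exact sup_le (h1 s) (k1 s)
      · rw [ContinuousMap.sup_apply]
        rcases hs with hs | hs
        · rw [hV1 s hs]
          exact sup_eq_left.mpr (k1 s)
        · rw [hW1 s hs]
          exact sup_eq_right.mpr (h1 s)
      · exact lt_of_le_of_lt (hM.norm_sup_le φ₁ φ₂ x) (max_lt hlt klt)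
    · intro t _
      obtain ⟨φ, ⟨h0, h1, V, hV, htV, hV1⟩, hlt⟩ := exists_of_fsn_lt (h t)
      refine ⟨V, mem_nhdsWithin_of_mem_nhds (hV.mem_nhds htV), ?_⟩
      rw [hpdef]
      exact ⟨φ, h0, h1, ⟨V, hV, subset_rfl, hV1⟩, hlt⟩
  rw [hpdef] at key
  obtain ⟨φ, -, -, ⟨V, -, hV, hV1⟩, hlt⟩ := key
  have e : φ = 1 := by
    ext s
    exact hV1 s (hV (Set.mem_univ s))
  rw [e, hM.map_one] at hlt
  exact hlt

/-- The norm of a nonzero vector is attained by its fiber seminorms. -/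
lemma exists_fsn_eq_norm (hM : IsFunMod M) {x : X} (hx : x ≠ 0) : ∃ t, fsn M t x = ‖x‖ := by
  by_contra hcon
  have h : ∀ t, fsn M t x < ‖x‖ := fun t =>
    lt_of_le_of_ne (fsn_le_norm hM t x) (fun he => hcon ⟨t, he⟩)
  exact lt_irrefl _ (norm_lt_of_forall_fsn_lt hM (norm_pos_iff.mpr hx) h)

/-- A bound for all fiber seminorms is a bound for the norm. -/
lemma norm_le_of_forall_fsn_le (hM : IsFunMod M) {x : X} {c : ℝ} (hc : 0 ≤ c)
    (h : ∀ t, fsn M t x ≤ c) : ‖x‖ ≤ c := by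
  rcases eq_or_ne x 0 with rfl | hx
  · rw [norm_zero]
    exact hc
  · obtain ⟨t, ht⟩ := exists_fsn_eq_norm hM hx
    rw [← ht]
    exact h t

/-- A vector all of whose fiber seminorms vanish is zero. -/
lemma eq_zero_of_forall_fsn (hM : IsFunMod M) {x : X} (h : ∀ t, fsn M t x = 0) : x = 0 :=
  norm_le_zero_iff.mp (norm_le_of_forall_fsn_le hM le_rfl fun t => (h t).le)

/-- Localisation: the norm of `M κ x` is controlled by the fiber seminorms of `x` where `κ`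
does not vanish. -/
lemma norm_map_le (hM : IsFunMod M) {κ : C(K, ℝ)} (hκ0 : ∀ s, 0 ≤ κ s) (hκ1 : ∀ s, κ s ≤ 1)
    {x : X} {c : ℝ} (hc : 0 ≤ c) (h : ∀ s, κ s ≠ 0 → fsn M s x ≤ c) : ‖M κ x‖ ≤ c := by
  apply norm_le_of_forall_fsn_le hM hc
  intro s
  rw [fsn_map hM, abs_of_nonneg (hκ0 s)]
  by_cases hs : κ s = 0
  · rw [hs, zero_mul]
    exact hc
  · calc κ s * fsn M s x ≤ 1 * c := mul_le_mul (hκ1 s) (h s hs) (fsn_nonneg M s x) zero_le_one
      _ = c := one_mul c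

end Fsn

end FMBase

end Vale.Agent.H23
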