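import Vale.Agent.H23.Clique

/-!
# Height functionals of convex subsets of the unit sphere

Let `G` restrict to a surjective isometry from the unit sphere of a real normed space `Z` onto
the unit sphere of a real normed space `Y`, and let `C` be a nonempty convex subset of the unit
sphere of `Z`. Then some functional of `Y` dominated by the norm takes the value `1` on `G '' C`
and the value `-1` on the image of `-C`.
-/

namespace Vale.Agent.H23

section FinAligned

variable {Y : Type*} [NormedAddCommGroup Y] [NormedSpace ℝ Y]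

/-- A set of unit vectors whose convex hull misses the open unit ball is contained in a level
set of a functional dominated by the norm. -/
lemma exists_functional_of_disjoint {P : Set Y} (hP1 : ∀ p ∈ P, ‖p‖ = 1)
    (hdisj : Disjoint (Metric.ball (0 : Y) 1) (convexHull ℝ P)) :
    ∃ ψ : Y →L[ℝ] ℝ, (∀ y, ψ y ≤ ‖y‖) ∧ ∀ p ∈ P, ψ p = 1 := by
  obtain ⟨f, u, hfu, huf⟩ :=
    geometric_hahn_banach_open (convex_ball (0 : Y) 1) Metric.isOpen_ball
      (convex_convexHull ℝ P) hdisj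
  have hu : 0 < u := by
    have := hfu 0 (by simp)
    rwa [map_zero] at this
  have hle : ∀ y : Y, f y ≤ u * ‖y‖ := by
    intro y
    by_contra hlt
    rw [not_le] at hlt
    have hy0 : 0 < ‖y‖ := by
      by_contra h0
      have h00 : ‖y‖ = 0 := le_antisymm (not_lt.mp h0) (norm_nonneg _)
      have hy : y = 0 := norm_eq_zero.mp h00
      rw [hy, map_zero, norm_zero, mul_zero] at hlt
      exact lt_irrefl _ hlt
    have hfy : 0 < f y := lt_trans (mul_pos hu hy0) hlt
    have hz : ‖(u / f y) • y‖ < 1 := by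
      rw [norm_smul, Real.norm_eq_abs, abs_of_pos (div_pos hu hfy), div_mul_eq_mul_div,
        div_lt_one hfy]
      exact hlt
    have h1 := hfu ((u / f y) • y) (by rwa [mem_ball_zero_iff])
    rw [map_smul, smul_eq_mul, div_mul_cancel₀ _ hfy.ne'] at h1
    exact lt_irrefl _ h1
  refine ⟨u⁻¹ • f, fun y => ?_, fun p hp => ?_⟩
  · rw [smul_apply, smul_eq_mul, inv_mul_le_iff₀ hu]
    exact hle y
  · have h1 : u ≤ f p := huf _ (subset_convexHull ℝ P hp)
    have h2 := hle p
    rw [hP1 p hp, mul_one] at h2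
    rw [smul_apply, smul_eq_mul, le_antisymm h2 h1, inv_mul_cancel₀ hu.ne']

/-- If every finite subset of a set `P` of unit vectors is aligned with some unit vector `p₀`
(every unit vector `w` with `‖w + p₀‖ = 2` satisfies `‖w + p‖ = 2` for all `p` of the finite
subset), then a functional dominated by the norm equals `1` on `P`. -/
lemma exists_functional_of_finitely_aligned {P : Set Y} (hP1 : ∀ p ∈ P, ‖p‖ = 1)
    (hfin : ∀ F : Finset Y, (∀ p ∈ F, p ∈ P) → ∃ p₀ : Y, ‖p₀‖ = 1 ∧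
      ∀ p ∈ F, ∀ w : Y, ‖w‖ = 1 → ‖w + p₀‖ = 2 → ‖w + p‖ = 2) :
    ∃ ψ : Y →L[ℝ] ℝ, (∀ y, ψ y ≤ ‖y‖) ∧ ∀ p ∈ P, ψ p = 1 := by
  classical
  refine exists_functional_of_disjoint hP1 ?_
  rw [Set.disjoint_left]
  intro w hw hwN
  rw [convexHull_eq] at hwN
  obtain ⟨ι, s, μ, z, hμ, hsum, hz, hcm⟩ := hwN
  obtain ⟨p₀, hp₀, hal⟩ := hfin (s.image z) (by
    intro p hp
    obtain ⟨i, hi, rfl⟩ := Finset.mem_image.mp hp
    exact hz i hi)
  have hP' : ∀ p ∈ (↑(s.image z) : Set Y),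
      ‖p‖ = 1 ∧ ∀ w : Y, ‖w‖ = 1 → ‖w + p₀‖ = 2 → ‖w + p‖ = 2 := by
    intro p hp
    have hp' : p ∈ s.image z := hp
    refine ⟨hP1 p ?_, hal p hp'⟩
    obtain ⟨i, hi, rfl⟩ := Finset.mem_image.mp hp'
    exact hz i hi
  have h := norm_sum_of_aligned hp₀ hP' s μ z hμ
    (fun i hi => Finset.mem_coe.mpr (Finset.mem_image_of_mem z hi)) 0 le_rfl
  rw [zero_smul, add_zero, add_zero, hsum] at h
  rw [Finset.centerMass_eq_of_sum_1 _ _ hsum] at hcm
  rw [hcm] at h
  rw [mem_ball_zero_iff, h] at hw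
  exact lt_irrefl _ hw

end FinAligned

section Height

variable {Z Y : Type*} [NormedAddCommGroup Z] [NormedSpace ℝ Z]
  [NormedAddCommGroup Y] [NormedSpace ℝ Y] {G : Z → Y}

/-- Height functionals: for a nonempty convex subset `C` of the unit sphere, a functional
dominated by the norm equal to `1` on the image of `C` and to `-1` on the image of `-C`. -/
lemma SIso.exists_height_of_convex (hG : SIso G) {C : Set Z} (hC : Convex ℝ C)
    (hC1 : ∀ u ∈ C, ‖u‖ = 1) (hne : C.Nonempty) :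
    ∃ ψ : Y →L[ℝ] ℝ, (∀ y, ψ y ≤ ‖y‖) ∧ (∀ u ∈ C, ψ (G u) = 1) ∧
      ∀ u ∈ C, ψ (G (-u)) = -1 := by
  classical
  obtain ⟨P, hPdef⟩ : ∃ P : Set Y, P = {p | ∃ u ∈ C, p = G u ∨ p = - G (-u)} := ⟨_, rfl⟩
  have hP1 : ∀ p ∈ P, ‖p‖ = 1 := by
    intro p hp
    rw [hPdef] at hp
    obtain ⟨u, hu, hpu⟩ := hp
    rcases hpu with rfl | rfl
    · exact hG.norm_map u (hC1 u hu)
    · rw [norm_neg]; exact hG.norm_map (-u) (by rw [norm_neg]; exact hC1 u hu)
  have hsel : ∀ p : Y, ∃ u : Z, p ∈ P → u ∈ C ∧ (p = G u ∨ p = - G (-u)) := by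
    intro p
    by_cases hp : p ∈ P
    · rw [hPdef] at hp
      obtain ⟨u, hu, hpu⟩ := hp
      exact ⟨u, fun _ => ⟨hu, hpu⟩⟩
    · exact ⟨0, fun h => absurd h hp⟩
  choose sel hselP using hsel
  have hfin : ∀ F : Finset Y, (∀ p ∈ F, p ∈ P) → ∃ p₀ : Y, ‖p₀‖ = 1 ∧
      ∀ p ∈ F, ∀ w : Y, ‖w‖ = 1 → ‖w + p₀‖ = 2 → ‖w + p‖ = 2 := by
    intro F hF
    rcases Finset.eq_empty_or_nonempty F with rfl | hFne
    · obtain ⟨c₀, hc₀⟩ := hne
      exact ⟨G c₀, hG.norm_map c₀ (hC1 c₀ hc₀), fun p hp => absurd hp (Finset.notMem_empty p)⟩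
    obtain ⟨n, hn⟩ : ∃ n : ℝ, n = (F.card : ℝ) := ⟨_, rfl⟩
    have hnpos : 0 < n := by
      rw [hn]; exact_mod_cast Finset.card_pos.mpr hFne
    obtain ⟨c, hcdef⟩ : ∃ c : Z, c = ∑ p ∈ F, (1 / n) • sel p := ⟨_, rfl⟩
    have hsum1 : ∑ _p ∈ F, (1 / n) = 1 := by
      rw [Finset.sum_const, nsmul_eq_mul, ← hn]
      field_simp
    have hcC : c ∈ C := by
      rw [hcdef]
      exact hC.sum_mem (fun p _ => by positivity) hsum1 (fun p hp => (hselP p (hF p hp)).1)
    have hc1 : ‖c‖ = 1 := hC1 c hcC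
    refine ⟨G c, hG.norm_map c hc1, ?_⟩
    intro p hp w hw hw2
    obtain ⟨v, hv, rfl⟩ := hG.surj w hw
    have hvc : ‖v + c‖ = 2 := (hG.norm_add_eq_two_iff hv hc1).mp hw2
    obtain ⟨φ, hφ1, hφ2⟩ := exists_dual_vector'' ℝ (v + c)
    have hφ2' : φ (v + c) = ‖v + c‖ := by simpa using hφ2
    have hφle : ∀ x : Z, φ x ≤ ‖x‖ := by
      intro x
      have h1 := φ.le_of_opNorm_le hφ1 x
      rw [one_mul] at h1
      exact (le_abs_self _).trans (by simpa [Real.norm_eq_abs] using h1)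
    have hφv := hφle v
    rw [hv] at hφv
    have hφc := hφle c
    rw [hc1] at hφc
    rw [map_add, hvc] at hφ2'
    have hφv1 : φ v = 1 := by linarith
    have hφc1 : φ c = 1 := by linarith
    have hφsel : ∀ q ∈ F, φ (sel q) = 1 := by
      have hz : ∑ q ∈ F, (1 / n) * (1 - φ (sel q)) = 0 := by
        have e1 : φ c = ∑ q ∈ F, (1 / n) * φ (sel q) := by
          rw [hcdef, map_sum]
          refine Finset.sum_congr rfl fun q _ => ?_
          rw [map_smul, smul_eq_mul]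
        have e2 : ∑ q ∈ F, (1 / n) * (1 - φ (sel q)) =
            ∑ _q ∈ F, (1 / n) - ∑ q ∈ F, (1 / n) * φ (sel q) := by
          rw [← Finset.sum_sub_distrib]
          refine Finset.sum_congr rfl fun q _ => ?_
          ring
        rw [e2, hsum1, ← e1, hφc1, sub_self]
      have hnn : ∀ q ∈ F, 0 ≤ (1 / n) * (1 - φ (sel q)) := by
        intro q hq
        have h1 := hφle (sel q)
        rw [hC1 _ (hselP q (hF q hq)).1] at h1
        have h2 : 0 ≤ 1 / n := by positivity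
        exact mul_nonneg h2 (by linarith)
      intro q hq
      have h3 := (Finset.sum_eq_zero_iff_of_nonneg hnn).mp hz q hq
      have h4 : 1 / n ≠ 0 := by positivity
      rcases mul_eq_zero.mp h3 with h5 | h5
      · exact absurd h5 h4
      · linarith
    have hsp := hselP p (hF p hp)
    have hs1 : ‖sel p‖ = 1 := hC1 _ hsp.1
    have hvs : ‖v + sel p‖ = 2 := by
      apply le_antisymm
      · have := norm_add_le v (sel p)
        linarith
      · have h1 := hφle (v + sel p)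
        rw [map_add, hφv1, hφsel p hp] at h1
        linarith
    rcases hsp.2 with hpe | hpe
    · rw [hpe]
      exact hG.norm_add_eq_two hv hs1 hvs
    · rw [hpe, ← sub_eq_add_neg, hG.dist_map v (-sel p) hv (by rw [norm_neg]; exact hs1),
        sub_neg_eq_add]
      exact hvs
  obtain ⟨ψ, hle, hψ⟩ := exists_functional_of_finitely_aligned hP1 hfin
  refine ⟨ψ, hle, fun u hu => hψ _ (by rw [hPdef]; exact ⟨u, hu, Or.inl rfl⟩), fun u hu => ?_⟩
  have h1 := hψ (- G (-u)) (by rw [hPdef]; exact ⟨u, hu, Or.inr rfl⟩)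
  rw [map_neg] at h1
  linarith

end Height

end Vale.Agent.H23
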