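import Vale.Agent.H23.Bisect

/-!
# Isometries of the unit sphere of an `ℓ¹`-sum of two strictly convex spaces

Core argument, phrased for a function of two variables `g : X₁ → X₂ → Y` which restricts to a
surjective isometry from `{(a, b) | ‖a‖ + ‖b‖ = 1}` (with the distance
`‖a - a'‖ + ‖b - b'‖`) onto the unit sphere of `Y`.
-/

namespace Vale.Agent.H23

section Ray

variable {E : Type*} [NormedAddCommGroup E] [NormedSpace ℝ E] [StrictConvexSpace ℝ E]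

/-- Equality in the triangle inequality `‖c - r • a‖ ≤ ‖c‖ + r`. -/
lemma eq_neg_smul_of_norm_sub_smul {c a : E} (ha : ‖a‖ = 1) {r : ℝ} (hr : 0 < r)
    (h : ‖c - r • a‖ = ‖c‖ + r) : c = -(‖c‖ • a) := by
  have hra : ‖-(r • a)‖ = r := by
    rw [norm_neg, norm_smul, ha, mul_one, Real.norm_eq_abs, abs_of_pos hr]
  have hray : SameRay ℝ c (-(r • a)) := by
    rw [sameRay_iff_norm_add, ← sub_eq_add_neg, h, hra]
  have h2 := hray.norm_smul_eq
  rw [hra] at h2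
  have h3 : r • c = r • (-(‖c‖ • a)) := by
    rw [← h2]; module
  exact smul_right_injective E hr.ne' h3

lemma eq_neg_smul_of_norm_sub {c a : E} (ha : ‖a‖ = 1) (h : ‖c - a‖ = ‖c‖ + 1) :
    c = -(‖c‖ • a) := by
  have := eq_neg_smul_of_norm_sub_smul (c := c) ha one_pos (by rw [one_smul]; exact h)
  exact this

/-- Equality in the triangle inequality `1 - ‖c‖ ≤ ‖c - a‖`. -/
lemma eq_smul_of_norm_sub {c a : E} (ha : ‖a‖ = 1) (h : ‖c - a‖ = 1 - ‖c‖) : c = ‖c‖ • a := by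
  have hray : SameRay ℝ (a - c) c := by
    rw [sameRay_iff_norm_add, sub_add_cancel, ha, norm_sub_rev, h]; ring
  have h2 := hray.norm_smul_eq
  rw [norm_sub_rev, h] at h2
  have h3 : c = ‖c‖ • a := by
    have : (1 - ‖c‖) • c = ‖c‖ • a - ‖c‖ • c := by rw [h2]; module
    have h4 : c - ‖c‖ • c = ‖c‖ • a - ‖c‖ • c := by rw [← this]; module
    exact sub_left_injective h4
  exact h3

end Ray

section Hext

variable {E Y : Type*} [NormedAddCommGroup E] [NormedSpace ℝ E]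
  [NormedAddCommGroup Y] [NormedSpace ℝ Y]

/-- The positively homogeneous extension of a map defined on unit vectors. -/
noncomputable def hext (k : E → Y) (a : E) : Y := ‖a‖ • k (‖a‖⁻¹ • a)

lemma hext_zero (k : E → Y) : hext k 0 = 0 := by simp [hext]

lemma hext_of_norm_one (k : E → Y) {a : E} (ha : ‖a‖ = 1) : hext k a = k a := by
  simp [hext, ha]

lemma norm_inv_smul_self {a : E} (ha : a ≠ 0) : ‖‖a‖⁻¹ • a‖ = 1 := by
  rw [norm_smul, norm_inv, norm_norm, inv_mul_cancel₀ (norm_ne_zero_iff.mpr ha)]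

lemma norm_smul_inv_smul_self (a : E) : ‖a‖ • (‖a‖⁻¹ • a) = a := by
  by_cases ha : a = 0
  · simp [ha]
  · rw [smul_smul, mul_inv_cancel₀ (norm_ne_zero_iff.mpr ha), one_smul]

lemma hext_smul_of_nonneg (k : E → Y) {a : E} (ha : ‖a‖ = 1) {t : ℝ} (ht : 0 ≤ t) :
    hext k (t • a) = t • k a := by
  rcases eq_or_lt_of_le ht with rfl | hpos
  · simp [hext]
  · unfold hext
    rw [norm_smul, ha, mul_one, Real.norm_eq_abs, abs_of_pos hpos, smul_smul,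
      inv_mul_cancel₀ hpos.ne', one_smul]

lemma hext_smul_unit {k : E → Y} (hodd : ∀ a, ‖a‖ = 1 → k (-a) = - k a) {a : E}
    (ha : ‖a‖ = 1) (t : ℝ) : hext k (t • a) = t • k a := by
  rcases le_total 0 t with ht | ht
  · exact hext_smul_of_nonneg k ha ht
  · have e : t • a = (-t) • (-a) := by simp
    rw [e, hext_smul_of_nonneg k (by rw [norm_neg]; exact ha) (by linarith), hodd a ha]
    simp

lemma hext_smul {k : E → Y} (hodd : ∀ a, ‖a‖ = 1 → k (-a) = - k a) (t : ℝ) (a : E) :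
    hext k (t • a) = t • hext k a := by
  by_cases ha : a = 0
  · simp [ha, hext_zero]
  · have h1 := norm_inv_smul_self ha
    have e : t • a = (t * ‖a‖) • (‖a‖⁻¹ • a) := by
      rw [mul_smul, norm_smul_inv_smul_self]
    rw [e, hext_smul_unit hodd h1]
    unfold hext
    rw [mul_smul]

lemma norm_hext {k : E → Y} (hnorm : ∀ a, ‖a‖ = 1 → ‖k a‖ = 1) (a : E) :
    ‖hext k a‖ = ‖a‖ := by
  by_cases ha : a = 0
  · simp [ha, hext_zero]
  · unfold hext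
    rw [norm_smul, norm_norm, hnorm _ (norm_inv_smul_self ha), mul_one]

end Hext

section L1

variable {X₁ X₂ Y : Type*} [NormedAddCommGroup X₁] [NormedSpace ℝ X₁] [StrictConvexSpace ℝ X₁]
  [NormedAddCommGroup X₂] [NormedSpace ℝ X₂] [StrictConvexSpace ℝ X₂]
  [NormedAddCommGroup Y] [NormedSpace ℝ Y]

/-- `g` restricts to a surjective isometry from the unit sphere of the `ℓ¹`-sum of `X₁` and
`X₂` onto the unit sphere of `Y`. -/
structure L1Iso (g : X₁ → X₂ → Y) : Prop where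
  norm_map : ∀ a b, ‖a‖ + ‖b‖ = 1 → ‖g a b‖ = 1
  dist_map : ∀ a b a' b', ‖a‖ + ‖b‖ = 1 → ‖a'‖ + ‖b'‖ = 1 →
    ‖g a b - g a' b'‖ = ‖a - a'‖ + ‖b - b'‖
  surj : ∀ w : Y, ‖w‖ = 1 → ∃ a b, ‖a‖ + ‖b‖ = 1 ∧ g a b = w

lemma L1Iso.swap {g : X₁ → X₂ → Y} (hg : L1Iso g) : L1Iso (fun b a => g a b) where
  norm_map b a h := hg.norm_map a b (by linarith)
  dist_map b a b' a' h h' := by
    rw [hg.dist_map a b a' b' (by linarith) (by linarith)]; ring
  surj w hw := by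
    obtain ⟨a, b, h, e⟩ := hg.surj w hw
    exact ⟨b, a, by linarith, e⟩

/-- Points at distance `2` from an interior point of a segment joining the two summands. -/
lemma antipode_aux {a : X₁} (ha : ‖a‖ = 1) {b : X₂} (hb : ‖b‖ = 1) {t : ℝ} (ht0 : 0 < t)
    (ht1 : t < 1) {c : X₁} {d : X₂} (h : ‖c‖ + ‖d‖ = 1)
    (h2 : ‖c - (1 - t) • a‖ + ‖d - t • b‖ = 2) :
    c = -(‖c‖ • a) ∧ d = -(‖d‖ • b) := by
  have h1t : 0 < 1 - t := by linarith
  have e1 : ‖c - (1 - t) • a‖ ≤ ‖c‖ + (1 - t) := by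
    have := norm_sub_le c ((1 - t) • a)
    rwa [norm_smul, ha, mul_one, Real.norm_eq_abs, abs_of_pos h1t] at this
  have e2 : ‖d - t • b‖ ≤ ‖d‖ + t := by
    have := norm_sub_le d (t • b)
    rwa [norm_smul, hb, mul_one, Real.norm_eq_abs, abs_of_pos ht0] at this
  exact ⟨eq_neg_smul_of_norm_sub_smul ha h1t (by linarith),
    eq_neg_smul_of_norm_sub_smul hb ht0 (by linarith)⟩

/-- Antipodal points of the first summand are mapped to antipodal points. -/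
lemma L1Iso.map_neg_fst {g : X₁ → X₂ → Y} (hg : L1Iso g) {a : X₁} (ha : ‖a‖ = 1) :
    g (-a) 0 = - g a 0 := by
  have ha0 : ‖a‖ + ‖(0 : X₂)‖ = 1 := by simp [ha]
  have hga : ‖g a 0‖ = 1 := hg.norm_map a 0 ha0
  obtain ⟨c, d, hcd, hgcd⟩ := hg.surj (- g a 0) (by rw [norm_neg]; exact hga)
  have hdist : ‖c - a‖ + ‖d‖ = 2 := by
    have h := hg.dist_map c d a 0 hcd ha0
    rw [hgcd, sub_zero] at h
    rw [← h]
    have : - g a 0 - g a 0 = (-2 : ℝ) • g a 0 := by module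
    rw [this, norm_smul, hga]; norm_num
  have hc : c = -(‖c‖ • a) := eq_neg_smul_of_norm_sub ha (by linarith)
  by_cases hd : d = 0
  · subst hd
    have hc1 : ‖c‖ = 1 := by simpa using hcd
    rw [hc1, one_smul] at hc
    rw [← hc, hgcd]
  · exfalso
    have hdpos : 0 < ‖d‖ := norm_pos_iff.mpr hd
    obtain ⟨s, hs⟩ : ∃ s : ℝ, s = ‖c‖ := ⟨_, rfl⟩
    rw [← hs] at hc hcd
    have hs1 : s < 1 := by linarith
    have hs0 : 0 ≤ s := by rw [hs]; exact norm_nonneg c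
    set b' : X₂ := ‖d‖⁻¹ • d with hb'
    have hb'1 : ‖b'‖ = 1 := norm_inv_smul_self hd
    have hdb : d = (1 - s) • b' := by
      have : (1 - s) = ‖d‖ := by linarith
      rw [this, hb', norm_smul_inv_smul_self]
    set t : ℝ := (1 - s) / 2 with ht
    have ht0 : 0 < t := by rw [ht]; linarith
    have ht1 : t < 1 := by rw [ht]; linarith
    have hx : ‖(1 - t) • a‖ + ‖t • b'‖ = 1 := by
      rw [norm_smul, norm_smul, ha, hb'1, Real.norm_eq_abs, Real.norm_eq_abs,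
        abs_of_pos (by linarith), abs_of_pos ht0]; ring
    have hgx := hg.norm_map _ _ hx
    obtain ⟨c₂, d₂, hcd₂, hg₂⟩ :=
      hg.surj (- g ((1 - t) • a) (t • b')) (by rw [norm_neg]; exact hgx)
    have hdist₂ : ‖c₂ - (1 - t) • a‖ + ‖d₂ - t • b'‖ = 2 := by
      rw [← hg.dist_map c₂ d₂ _ _ hcd₂ hx, hg₂]
      have : - g ((1 - t) • a) (t • b') - g ((1 - t) • a) (t • b')
          = (-2 : ℝ) • g ((1 - t) • a) (t • b') := by module
      rw [this, norm_smul, hgx]; norm_num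
    obtain ⟨hc₂, hd₂⟩ := antipode_aux ha hb'1 ht0 ht1 hcd₂ hdist₂
    obtain ⟨σ, hσ⟩ : ∃ σ : ℝ, σ = ‖c₂‖ := ⟨_, rfl⟩
    obtain ⟨σ₂, hσ₂⟩ : ∃ σ₂ : ℝ, σ₂ = ‖d₂‖ := ⟨_, rfl⟩
    rw [← hσ] at hc₂ hcd₂
    rw [← hσ₂] at hd₂ hcd₂
    have hσ0 : 0 ≤ σ := by rw [hσ]; exact norm_nonneg _
    have hσ₂0 : 0 ≤ σ₂ := by rw [hσ₂]; exact norm_nonneg _
    -- distance between the two antipodes
    have hD : ‖g c₂ d₂ - g c d‖ = 2 * t := by
      rw [hg₂, hgcd]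
      have : - g ((1 - t) • a) (t • b') - - g a 0 = g a 0 - g ((1 - t) • a) (t • b') := by abel
      rw [this, hg.dist_map a 0 _ _ ha0 hx]
      have e1 : a - (1 - t) • a = t • a := by module
      rw [e1, zero_sub, norm_neg, norm_smul, norm_smul, ha, hb'1, Real.norm_eq_abs,
        abs_of_pos ht0]; ring
    rw [hg.dist_map c₂ d₂ c d (by rw [← hσ, ← hσ₂]; exact hcd₂) (by rw [← hs]; exact hcd)] at hD
    have e2 : d₂ - d = (-(σ₂ + (1 - s))) • b' := by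
      rw [hd₂, hdb]; module
    have hn2 : ‖d₂ - d‖ = σ₂ + (1 - s) := by
      rw [e2, norm_smul, hb'1, mul_one, Real.norm_eq_abs, abs_neg, abs_of_nonneg (by linarith)]
    have e3 : c₂ - c = (s - σ) • a := by
      rw [hc₂, hc]; module
    have hn3 : ‖c₂ - c‖ = |s - σ| := by
      rw [e3, norm_smul, ha, mul_one, Real.norm_eq_abs]
    rw [hn2, hn3] at hD
    have := neg_abs_le (s - σ)
    have : 2 * t = 1 - s := by rw [ht]; ring
    linarith

lemma L1Iso.map_neg_snd {g : X₁ → X₂ → Y} (hg : L1Iso g) {b : X₂} (hb : ‖b‖ = 1) :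
    g 0 (-b) = - g 0 b :=
  hg.swap.map_neg_fst hb

/-- Segments joining the two summands are mapped affinely. -/
lemma L1Iso.map_segment {g : X₁ → X₂ → Y} (hg : L1Iso g) {a : X₁} {b : X₂} (ha : ‖a‖ = 1)
    (hb : ‖b‖ = 1) {t : ℝ} (ht0 : 0 ≤ t) (ht1 : t ≤ 1) :
    g ((1 - t) • a) (t • b) = (1 - t) • g a 0 + t • g 0 b := by
  have ha0 : ‖a‖ + ‖(0 : X₂)‖ = 1 := by simp [ha]
  have hb0 : ‖(0 : X₁)‖ + ‖b‖ = 1 := by simp [hb]
  have hnb0 : ‖(0 : X₁)‖ + ‖-b‖ = 1 := by simp [hb]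
  have hu : ‖g a 0‖ = 1 := hg.norm_map a 0 ha0
  have hv : ‖g 0 b‖ = 1 := hg.norm_map 0 b hb0
  have huv : ‖g a 0 + g 0 b‖ = 2 := by
    have h := hg.dist_map a 0 0 (-b) ha0 hnb0
    rw [hg.map_neg_snd hb, sub_neg_eq_add, sub_zero, zero_sub, neg_neg, ha, hb] at h
    rw [h]; norm_num
  have huv' : ‖g a 0 - g 0 b‖ = 2 := by
    have h := hg.dist_map a 0 0 b ha0 hb0
    rw [sub_zero, zero_sub, norm_neg, ha, hb] at h
    rw [h]; norm_num
  set m : Y := (1 - t) • g a 0 + t • g 0 b with hm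
  have hm1 : ‖m‖ = 1 := by
    have h1t : 0 ≤ 1 - t := by linarith
    have up : ‖m‖ ≤ 1 := by
      calc ‖m‖ ≤ ‖(1 - t) • g a 0‖ + ‖t • g 0 b‖ := norm_add_le _ _
        _ = 1 := by
          rw [norm_smul, norm_smul, hu, hv, Real.norm_eq_abs, Real.norm_eq_abs,
            abs_of_nonneg h1t, abs_of_nonneg ht0]; ring
    have up' : ‖t • g a 0 + (1 - t) • g 0 b‖ ≤ 1 := by
      calc ‖t • g a 0 + (1 - t) • g 0 b‖ ≤ ‖t • g a 0‖ + ‖(1 - t) • g 0 b‖ := norm_add_le _ _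
        _ = 1 := by
          rw [norm_smul, norm_smul, hu, hv, Real.norm_eq_abs, Real.norm_eq_abs,
            abs_of_nonneg h1t, abs_of_nonneg ht0]; ring
    have hsum : g a 0 + g 0 b = m + (t • g a 0 + (1 - t) • g 0 b) := by
      rw [hm]; module
    have : (2 : ℝ) ≤ ‖m‖ + ‖t • g a 0 + (1 - t) • g 0 b‖ := by
      rw [← huv, hsum]; exact norm_add_le _ _
    linarith
  obtain ⟨c, d, hcd, hgcd⟩ := hg.surj m hm1
  have h1 : ‖c - a‖ + ‖d‖ = 2 * t := by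
    have h := hg.dist_map c d a 0 hcd ha0
    rw [hgcd, sub_zero] at h
    rw [← h]
    have : m - g a 0 = (-t) • (g a 0 - g 0 b) := by rw [hm]; module
    rw [this, norm_smul, huv', Real.norm_eq_abs, abs_neg, abs_of_nonneg ht0]; ring
  have h2 : ‖c‖ + ‖d - b‖ = 2 * (1 - t) := by
    have h := hg.dist_map c d 0 b hcd hb0
    rw [hgcd, sub_zero] at h
    rw [← h]
    have : m - g 0 b = (1 - t) • (g a 0 - g 0 b) := by rw [hm]; module
    rw [this, norm_smul, huv', Real.norm_eq_abs, abs_of_nonneg (by linarith)]; ring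
  have h3 : 1 - ‖c‖ ≤ ‖c - a‖ := by
    have := norm_sub_norm_le a c
    rw [ha, norm_sub_rev] at this
    exact this
  have h4 : 1 - ‖d‖ ≤ ‖d - b‖ := by
    have := norm_sub_norm_le b d
    rw [hb, norm_sub_rev] at this
    exact this
  have hc_norm : ‖c‖ = 1 - t := by linarith
  have hd_norm : ‖d‖ = t := by linarith
  have hc : c = ‖c‖ • a := eq_smul_of_norm_sub ha (by linarith)
  have hd : d = ‖d‖ • b := eq_smul_of_norm_sub hb (by linarith)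
  rw [hc_norm] at hc
  rw [hd_norm] at hd
  rw [← hc, ← hd, hgcd]

/-- The homogeneous extension of the restriction of `g` to the first summand. -/
noncomputable def G₁ (g : X₁ → X₂ → Y) (a : X₁) : Y := hext (fun a => g a 0) a

/-- The homogeneous extension of the restriction of `g` to the second summand. -/
noncomputable def G₂ (g : X₁ → X₂ → Y) (b : X₂) : Y := hext (fun b => g 0 b) b

lemma L1Iso.G₁_smul {g : X₁ → X₂ → Y} (hg : L1Iso g) (t : ℝ) (a : X₁) :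
    G₁ g (t • a) = t • G₁ g a :=
  hext_smul (fun _ ha => hg.map_neg_fst ha) t a

lemma L1Iso.G₂_smul {g : X₁ → X₂ → Y} (hg : L1Iso g) (t : ℝ) (b : X₂) :
    G₂ g (t • b) = t • G₂ g b :=
  hext_smul (fun _ hb => hg.map_neg_snd hb) t b

lemma L1Iso.norm_G₁ {g : X₁ → X₂ → Y} (hg : L1Iso g) (a : X₁) : ‖G₁ g a‖ = ‖a‖ :=
  norm_hext (fun a ha => hg.norm_map a 0 (by simp [ha])) a

lemma L1Iso.norm_G₂ {g : X₁ → X₂ → Y} (hg : L1Iso g) (b : X₂) : ‖G₂ g b‖ = ‖b‖ :=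
  norm_hext (fun b hb => hg.norm_map 0 b (by simp [hb])) b

lemma G₁_zero (g : X₁ → X₂ → Y) : G₁ g 0 = 0 := hext_zero _

lemma G₂_zero (g : X₁ → X₂ → Y) : G₂ g 0 = 0 := hext_zero _

lemma G₁_of_norm_one (g : X₁ → X₂ → Y) {a : X₁} (ha : ‖a‖ = 1) : G₁ g a = g a 0 :=
  hext_of_norm_one _ ha

lemma G₂_of_norm_one (g : X₁ → X₂ → Y) {b : X₂} (hb : ‖b‖ = 1) : G₂ g b = g 0 b :=
  hext_of_norm_one _ hb

/-- On the unit sphere, `g` splits as the sum of `G₁` and `G₂`. -/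
lemma L1Iso.eq_G_add {g : X₁ → X₂ → Y} (hg : L1Iso g) {a : X₁} {b : X₂}
    (hab : ‖a‖ + ‖b‖ = 1) : g a b = G₁ g a + G₂ g b := by
  by_cases ha : a = 0
  · subst ha
    have hb : ‖b‖ = 1 := by simpa using hab
    rw [G₁_zero, zero_add, G₂_of_norm_one g hb]
  by_cases hb : b = 0
  · subst hb
    have ha1 : ‖a‖ = 1 := by simpa using hab
    rw [G₂_zero, add_zero, G₁_of_norm_one g ha1]
  have h := hg.map_segment (norm_inv_smul_self ha) (norm_inv_smul_self hb)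
    (norm_nonneg b) (by linarith [norm_nonneg a])
  have e1 : (1 - ‖b‖) • (‖a‖⁻¹ • a) = a := by
    have : 1 - ‖b‖ = ‖a‖ := by linarith
    rw [this, norm_smul_inv_smul_self]
  rw [e1, norm_smul_inv_smul_self] at h
  rw [h]
  have : 1 - ‖b‖ = ‖a‖ := by linarith
  rw [this]
  rfl

/-- The candidate linear extension. -/
noncomputable def Phi (g : X₁ → X₂ → Y) (a : X₁) (b : X₂) : Y := G₁ g a + G₂ g b

lemma L1Iso.Phi_smul {g : X₁ → X₂ → Y} (hg : L1Iso g) (t : ℝ) (a : X₁) (b : X₂) :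
    Phi g (t • a) (t • b) = t • Phi g a b := by
  unfold Phi
  rw [hg.G₁_smul, hg.G₂_smul, smul_add]

lemma L1Iso.Phi_eq {g : X₁ → X₂ → Y} (hg : L1Iso g) {a : X₁} {b : X₂} {r : ℝ} (hr : 0 < r)
    (hab : ‖a‖ + ‖b‖ = r) : Phi g a b = r • g (r⁻¹ • a) (r⁻¹ • b) := by
  have h1 : ‖r⁻¹ • a‖ + ‖r⁻¹ • b‖ = 1 := by
    rw [norm_smul, norm_smul, ← mul_add, hab, Real.norm_eq_abs, abs_of_pos (inv_pos.mpr hr),
      inv_mul_cancel₀ hr.ne']
  rw [hg.eq_G_add h1, hg.G₁_smul, hg.G₂_smul, ← smul_add, smul_smul, mul_inv_cancel₀ hr.ne',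
    one_smul]
  rfl

lemma L1Iso.norm_Phi {g : X₁ → X₂ → Y} (hg : L1Iso g) (a : X₁) (b : X₂) :
    ‖Phi g a b‖ = ‖a‖ + ‖b‖ := by
  rcases eq_or_lt_of_le (add_nonneg (norm_nonneg a) (norm_nonneg b)) with h0 | hpos
  · have ha : a = 0 := by
      have : ‖a‖ = 0 := by linarith [norm_nonneg a, norm_nonneg b]
      exact norm_eq_zero.mp this
    have hb : b = 0 := by
      have : ‖b‖ = 0 := by linarith [norm_nonneg a, norm_nonneg b]
      exact norm_eq_zero.mp this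
    subst ha; subst hb
    simp [Phi, G₁_zero, G₂_zero]
  · have h1 : ‖(‖a‖ + ‖b‖)⁻¹ • a‖ + ‖(‖a‖ + ‖b‖)⁻¹ • b‖ = 1 := by
      rw [norm_smul, norm_smul, ← mul_add, Real.norm_eq_abs, abs_of_pos (inv_pos.mpr hpos),
        inv_mul_cancel₀ hpos.ne']
    rw [hg.Phi_eq hpos rfl, norm_smul, hg.norm_map _ _ h1, mul_one, Real.norm_eq_abs,
      abs_of_pos hpos]

/-- `Phi` is an isometry on every sphere centred at the origin. -/
lemma L1Iso.dist_Phi {g : X₁ → X₂ → Y} (hg : L1Iso g) {a a' : X₁} {b b' : X₂}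
    (h : ‖a‖ + ‖b‖ = ‖a'‖ + ‖b'‖) :
    ‖Phi g a b - Phi g a' b'‖ = ‖a - a'‖ + ‖b - b'‖ := by
  rcases eq_or_lt_of_le (add_nonneg (norm_nonneg a) (norm_nonneg b)) with h0 | hpos
  · have ha : a = 0 := by
      have : ‖a‖ = 0 := by linarith [norm_nonneg a, norm_nonneg b]
      exact norm_eq_zero.mp this
    have hb : b = 0 := by
      have : ‖b‖ = 0 := by linarith [norm_nonneg a, norm_nonneg b]
      exact norm_eq_zero.mp this
    have ha' : a' = 0 := by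
      have : ‖a'‖ = 0 := by linarith [norm_nonneg a', norm_nonneg b']
      exact norm_eq_zero.mp this
    have hb' : b' = 0 := by
      have : ‖b'‖ = 0 := by linarith [norm_nonneg a', norm_nonneg b']
      exact norm_eq_zero.mp this
    subst ha; subst hb; subst ha'; subst hb'
    simp
  · set r := ‖a‖ + ‖b‖ with hr
    have h1 : ‖r⁻¹ • a‖ + ‖r⁻¹ • b‖ = 1 := by
      rw [norm_smul, norm_smul, ← mul_add, ← hr, Real.norm_eq_abs, abs_of_pos (inv_pos.mpr hpos),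
        inv_mul_cancel₀ hpos.ne']
    have h2 : ‖r⁻¹ • a'‖ + ‖r⁻¹ • b'‖ = 1 := by
      rw [norm_smul, norm_smul, ← mul_add, ← h, Real.norm_eq_abs, abs_of_pos (inv_pos.mpr hpos),
        inv_mul_cancel₀ hpos.ne']
    rw [hg.Phi_eq hpos rfl, hg.Phi_eq hpos h.symm, ← smul_sub, norm_smul,
      hg.dist_map _ _ _ _ h1 h2, ← smul_sub, ← smul_sub, norm_smul, norm_smul, Real.norm_eq_abs,
      Real.norm_eq_abs, abs_of_pos hpos, abs_of_pos (inv_pos.mpr hpos)]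
    field_simp

lemma L1Iso.Phi_surjective {g : X₁ → X₂ → Y} (hg : L1Iso g) (w : Y) :
    ∃ a b, Phi g a b = w := by
  by_cases hw : w = 0
  · exact ⟨0, 0, by simp [Phi, G₁_zero, G₂_zero, hw]⟩
  · obtain ⟨a, b, hab, hgab⟩ := hg.surj _ (norm_inv_smul_self hw)
    refine ⟨‖w‖ • a, ‖w‖ • b, ?_⟩
    rw [hg.Phi_smul]
    unfold Phi
    rw [← hg.eq_G_add hab, hgab, norm_smul_inv_smul_self]

/-- Sums of two elements of the same norm of the image of the first summand stay in it. -/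
lemma L1Iso.G₁_add_of_norm_eq {g : X₁ → X₂ → Y} (hg : L1Iso g) {a b : X₁}
    (hab : ‖a‖ = ‖b‖) : ∃ c, G₁ g a + G₁ g b = G₁ g c := by
  obtain ⟨c, d, hcd⟩ := hg.Phi_surjective (G₁ g a + G₁ g b)
  have hnorm1 : ‖G₁ g a + G₁ g b‖ = ‖c‖ + ‖d‖ := by rw [← hcd, hg.norm_Phi]
  have hnorm2 : ‖G₁ g a + G₁ g b‖ = ‖a + b‖ := by
    have h := hg.dist_Phi (a := a) (a' := -b) (b := 0) (b' := 0) (by simp [hab])
    have e : Phi g a 0 - Phi g (-b) 0 = G₁ g a + G₁ g b := by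
      unfold Phi
      have : G₁ g (-b) = - G₁ g b := by
        have := hg.G₁_smul (-1) b
        simpa using this
      rw [this, G₂_zero]; abel
    rw [e] at h
    rw [h]; simp
  -- the key estimate
  have hkey : ‖G₁ g c‖ = ‖a + b‖ + ‖d‖ := by
    have h := hg.dist_Phi (g := g) (a := a) (a' := -b) (b := (-(1 / 2 : ℝ)) • d)
      (b' := (1 / 2 : ℝ) • d) (by
        rw [norm_neg, norm_smul, norm_smul, hab]; simp)
    have e : Phi g a ((-(1 / 2 : ℝ)) • d) - Phi g (-b) ((1 / 2 : ℝ) • d) = G₁ g c := by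
      have h1 : G₁ g c = G₁ g a + G₁ g b - G₂ g d := by
        have : Phi g c d = G₁ g c + G₂ g d := rfl
        rw [← hcd, this]; abel
      unfold Phi
      have : G₁ g (-b) = - G₁ g b := by
        have := hg.G₁_smul (-1) b
        simpa using this
      rw [this, hg.G₂_smul, hg.G₂_smul, h1]
      module
    rw [e] at h
    rw [h]
    have e2 : (-(1 / 2 : ℝ)) • d - (1 / 2 : ℝ) • d = (-1 : ℝ) • d := by module
    rw [e2, norm_smul, sub_neg_eq_add]; simp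
  rw [hg.norm_G₁] at hkey
  have hd : d = 0 := by
    have : ‖d‖ = 0 := by linarith [norm_nonneg d]
    exact norm_eq_zero.mp this
  subst hd
  refine ⟨c, ?_⟩
  rw [← hcd]; simp [Phi, G₂_zero]

/-- The image of the first summand is closed. -/
lemma L1Iso.isClosed_range_G₁ {g : X₁ → X₂ → Y} (hg : L1Iso g) :
    IsClosed (Set.range (G₁ g)) := by
  apply isClosed_of_closure_subset
  intro y hy
  obtain ⟨c, d, hcd⟩ := hg.Phi_surjective y
  by_contra hne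
  have hd : d ≠ 0 := by
    rintro rfl
    apply hne
    exact ⟨c, by rw [← hcd]; simp [Phi, G₂_zero]⟩
  have hdpos : 0 < ‖d‖ := norm_pos_iff.mpr hd
  obtain ⟨y', ⟨c', rfl⟩, hdist⟩ := Metric.mem_closure_iff.mp hy (‖d‖ / 2) (by positivity)
  rw [dist_eq_norm] at hdist
  have hynorm : ‖y‖ = ‖c‖ + ‖d‖ := by rw [← hcd, hg.norm_Phi]
  have h1 : |‖y‖ - ‖c'‖| < ‖d‖ / 2 := by
    have := abs_norm_sub_norm_le y (G₁ g c')
    rw [hg.norm_G₁] at this
    linarith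
  by_cases hc' : c' = 0
  · subst hc'
    rw [norm_zero, sub_zero, abs_of_nonneg (norm_nonneg y)] at h1
    linarith [norm_nonneg c]
  · have hc'pos : 0 < ‖c'‖ := norm_pos_iff.mpr hc'
    set c'' : X₁ := (‖y‖ / ‖c'‖) • c' with hc''
    have hypos : 0 < ‖y‖ := by linarith [norm_nonneg c]
    have hn'' : ‖c''‖ = ‖y‖ := by
      rw [hc'', norm_smul, Real.norm_eq_abs, abs_of_pos (by positivity)]
      field_simp
    have h2 : ‖G₁ g c'' - G₁ g c'‖ = |‖y‖ - ‖c'‖| := by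
      rw [hc'', hg.G₁_smul]
      have : (‖y‖ / ‖c'‖) • G₁ g c' - G₁ g c' = ((‖y‖ - ‖c'‖) / ‖c'‖) • G₁ g c' := by
        have : (‖y‖ - ‖c'‖) / ‖c'‖ = ‖y‖ / ‖c'‖ - 1 := by field_simp
        rw [this]; module
      rw [this, norm_smul, hg.norm_G₁, Real.norm_eq_abs, abs_div, abs_of_pos hc'pos]
      field_simp
    have h3 : ‖y - G₁ g c''‖ = ‖c - c''‖ + ‖d‖ := by
      have h := hg.dist_Phi (g := g) (a := c) (a' := c'') (b := d) (b' := 0)
        (by rw [norm_zero, add_zero, hn'', hynorm])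
      rw [hcd] at h
      have : Phi g c'' 0 = G₁ g c'' := by simp [Phi, G₂_zero]
      rw [this, sub_zero] at h
      exact h
    have h4 : ‖y - G₁ g c''‖ ≤ ‖y - G₁ g c'‖ + ‖G₁ g c'' - G₁ g c'‖ := by
      have : y - G₁ g c'' = (y - G₁ g c') - (G₁ g c'' - G₁ g c') := by abel
      rw [this]; exact norm_sub_le _ _
    linarith [norm_nonneg (c - c'')]

/-- The image of the first summand is closed under addition. -/
lemma L1Iso.G₁_add {g : X₁ → X₂ → Y} (hg : L1Iso g) (a b : X₁) :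
    ∃ c, G₁ g a + G₁ g b = G₁ g c := by
  by_cases ha : a = 0
  · exact ⟨b, by rw [ha, G₁_zero, zero_add]⟩
  by_cases hb : b = 0
  · exact ⟨a, by rw [hb, G₁_zero, add_zero]⟩
  set U : Set Y := Set.range (G₁ g) ∩ {y | ‖y‖ = 1} with hU
  have hU1 : ∀ p ∈ U, ‖p‖ = 1 := fun p hp => hp.2
  have hUc : IsClosed U :=
    hg.isClosed_range_G₁.inter (isClosed_eq continuous_norm continuous_const)
  have hUsum : ∀ p ∈ U, ∀ q ∈ U, p + q ≠ 0 → ‖p + q‖⁻¹ • (p + q) ∈ U := by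
    rintro p ⟨⟨a', rfl⟩, hp⟩ q ⟨⟨b', rfl⟩, hq⟩ hne
    have ha' : ‖a'‖ = 1 := by rw [← hg.norm_G₁]; exact hp
    have hb' : ‖b'‖ = 1 := by rw [← hg.norm_G₁]; exact hq
    obtain ⟨c, hc⟩ := hg.G₁_add_of_norm_eq (a := a') (b := b') (by rw [ha', hb'])
    refine ⟨⟨‖G₁ g a' + G₁ g b'‖⁻¹ • c, ?_⟩, ?_⟩
    · rw [hg.G₁_smul, hc]
    · exact norm_inv_smul_self hne
  set p := G₁ g (‖a‖⁻¹ • a) with hp
  set q := G₁ g (‖b‖⁻¹ • b) with hq
  have hpU : p ∈ U := ⟨⟨_, rfl⟩, by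
    show ‖p‖ = 1
    rw [hp, hg.norm_G₁]; exact norm_inv_smul_self ha⟩
  have hqU : q ∈ U := ⟨⟨_, rfl⟩, by
    show ‖q‖ = 1
    rw [hq, hg.norm_G₁]; exact norm_inv_smul_self hb⟩
  have hap : G₁ g a = ‖a‖ • p := by rw [hp, ← hg.G₁_smul, norm_smul_inv_smul_self]
  have hbq : G₁ g b = ‖b‖ • q := by rw [hq, ← hg.G₁_smul, norm_smul_inv_smul_self]
  by_cases hpq : p + q = 0
  · have hq' : q = -p := eq_neg_of_add_eq_zero_right hpq
    refine ⟨(‖a‖ - ‖b‖) • (‖a‖⁻¹ • a), ?_⟩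
    rw [hg.G₁_smul, hap, hbq, hq', ← hp]; module
  · have hpos : 0 < ‖a‖ + ‖b‖ := by
      have := norm_pos_iff.mpr ha
      have := norm_nonneg b
      linarith
    have hmem := normalized_combo_mem hU1 hUc hUsum hpU hqU hpq (norm_nonneg a) (norm_nonneg b)
      hpos
    obtain ⟨⟨c, hc⟩, -⟩ := hmem
    refine ⟨‖‖a‖ • p + ‖b‖ • q‖ • c, ?_⟩
    rw [hg.G₁_smul, hc, hap, hbq, norm_smul_inv_smul_self]

/-- The image of the first summand, as a submodule of `Y`. -/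
noncomputable def L1Iso.range₁ {g : X₁ → X₂ → Y} (hg : L1Iso g) : Submodule ℝ Y where
  carrier := Set.range (G₁ g)
  add_mem' := by
    rintro _ _ ⟨a, rfl⟩ ⟨b, rfl⟩
    obtain ⟨c, hc⟩ := hg.G₁_add a b
    exact ⟨c, hc.symm⟩
  zero_mem' := ⟨0, G₁_zero g⟩
  smul_mem' := by
    rintro t _ ⟨a, rfl⟩
    exact ⟨t • a, hg.G₁_smul t a⟩

/-- If every surjective isometry from the unit sphere of `X₁` onto the unit sphere of a closed
subspace of `Y` is linear, then `G₁` is additive. -/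
lemma L1Iso.G₁_additive {g : X₁ → X₂ → Y} (hg : L1Iso g)
    (hM : ∀ (Z : Submodule ℝ Y), IsClosed (Z : Set Y) → ∀ k : X₁ → Z,
      (∀ a, ‖a‖ = 1 → ‖k a‖ = 1) → (∀ a b, ‖a‖ = 1 → ‖b‖ = 1 → ‖k a - k b‖ = ‖a - b‖) →
      (∀ w : Z, ‖w‖ = 1 → ∃ a, ‖a‖ = 1 ∧ k a = w) →
      ∃ T : X₁ ≃ₗᵢ[ℝ] Z, ∀ a, ‖a‖ = 1 → T a = k a) (a b : X₁) :
    G₁ g (a + b) = G₁ g a + G₁ g b := by
  let k : X₁ → hg.range₁ := fun a => ⟨G₁ g a, ⟨a, rfl⟩⟩
  have hk1 : ∀ a, ‖a‖ = 1 → ‖k a‖ = 1 := by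
    intro a ha
    rw [Submodule.coe_norm]
    show ‖G₁ g a‖ = 1
    rw [hg.norm_G₁, ha]
  have hk2 : ∀ a b, ‖a‖ = 1 → ‖b‖ = 1 → ‖k a - k b‖ = ‖a - b‖ := by
    intro a b ha hb
    rw [Submodule.coe_norm, Submodule.coe_sub]
    show ‖G₁ g a - G₁ g b‖ = ‖a - b‖
    rw [G₁_of_norm_one g ha, G₁_of_norm_one g hb,
      hg.dist_map a 0 b 0 (by simp [ha]) (by simp [hb])]
    simp
  have hk3 : ∀ w : hg.range₁, ‖w‖ = 1 → ∃ a, ‖a‖ = 1 ∧ k a = w := by
    rintro ⟨w, ⟨c, rfl⟩⟩ hw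
    refine ⟨c, ?_, rfl⟩
    rw [Submodule.coe_norm] at hw
    rw [← hg.norm_G₁]; exact hw
  obtain ⟨T, hT⟩ := hM hg.range₁ hg.isClosed_range_G₁ k hk1 hk2 hk3
  have hTG : ∀ a, ((T a : hg.range₁) : Y) = G₁ g a := by
    intro a
    by_cases ha : a = 0
    · simp [ha, G₁_zero]
    · have h1 := hT _ (norm_inv_smul_self ha)
      have h2 : T a = ‖a‖ • T (‖a‖⁻¹ • a) := by
        rw [← map_smul, norm_smul_inv_smul_self]
      rw [h2, h1, Submodule.coe_smul]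
      show ‖a‖ • G₁ g (‖a‖⁻¹ • a) = G₁ g a
      rw [← hg.G₁_smul, norm_smul_inv_smul_self]
  rw [← hTG, ← hTG, ← hTG, map_add, Submodule.coe_add]

/-- Core theorem for `ℓ¹`-sums. -/
theorem L1Iso.exists_linearIsometryEquiv {g : X₁ → X₂ → Y} (hg : L1Iso g)
    (hM₁ : ∀ (Z : Submodule ℝ Y), IsClosed (Z : Set Y) → ∀ k : X₁ → Z,
      (∀ a, ‖a‖ = 1 → ‖k a‖ = 1) → (∀ a b, ‖a‖ = 1 → ‖b‖ = 1 → ‖k a - k b‖ = ‖a - b‖) →
      (∀ w : Z, ‖w‖ = 1 → ∃ a, ‖a‖ = 1 ∧ k a = w) →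
      ∃ T : X₁ ≃ₗᵢ[ℝ] Z, ∀ a, ‖a‖ = 1 → T a = k a)
    (hM₂ : ∀ (Z : Submodule ℝ Y), IsClosed (Z : Set Y) → ∀ k : X₂ → Z,
      (∀ a, ‖a‖ = 1 → ‖k a‖ = 1) → (∀ a b, ‖a‖ = 1 → ‖b‖ = 1 → ‖k a - k b‖ = ‖a - b‖) →
      (∀ w : Z, ‖w‖ = 1 → ∃ a, ‖a‖ = 1 ∧ k a = w) →
      ∃ T : X₂ ≃ₗᵢ[ℝ] Z, ∀ a, ‖a‖ = 1 → T a = k a) :
    ∃ T : WithLp 1 (X₁ × X₂) ≃ₗᵢ[ℝ] Y,
      ∀ x : WithLp 1 (X₁ × X₂), ‖x‖ = 1 → T x = g x.fst x.snd := by
  have hadd₁ : ∀ a a', G₁ g (a + a') = G₁ g a + G₁ g a' := hg.G₁_additive hM₁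
  have hadd₂ : ∀ b b', G₂ g (b + b') = G₂ g b + G₂ g b' := hg.swap.G₁_additive hM₂
  have hsub₁ : ∀ a a', G₁ g (a - a') = G₁ g a - G₁ g a' := by
    intro a a'
    have := hadd₁ (a - a') a'
    rw [sub_add_cancel] at this
    rw [this]; abel
  have hsub₂ : ∀ b b', G₂ g (b - b') = G₂ g b - G₂ g b' := by
    intro b b'
    have := hadd₂ (b - b') b'
    rw [sub_add_cancel] at this
    rw [this]; abel
  let Ψ : WithLp 1 (X₁ × X₂) → Y := fun x => Phi g x.fst x.snd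
  have hΨ : ∀ x x', ‖Ψ x - Ψ x'‖ = ‖x - x'‖ := by
    intro x x'
    have e : Ψ x - Ψ x' = Phi g (x - x').fst (x - x').snd := by
      simp only [Ψ, Phi, WithLp.sub_fst, WithLp.sub_snd]
      rw [hsub₁, hsub₂]; abel
    rw [e, hg.norm_Phi, WithLp.prod_norm_eq_of_L1]
  have hiso : Isometry Ψ :=
    Isometry.of_dist_eq fun x x' => by rw [dist_eq_norm, dist_eq_norm]; exact hΨ x x'
  have hsurj : Function.Surjective Ψ := by
    intro w
    obtain ⟨a, b, hab⟩ := hg.Phi_surjective w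
    exact ⟨WithLp.toLp 1 (a, b), by simpa [Ψ] using hab⟩
  let e : WithLp 1 (X₁ × X₂) ≃ᵢ Y := IsometryEquiv.mk' Ψ (Function.surjInv hsurj)
    (Function.surjInv_eq hsurj) hiso
  have he0 : e 0 = 0 := by
    show Phi g (0 : WithLp 1 (X₁ × X₂)).fst (0 : WithLp 1 (X₁ × X₂)).snd = 0
    simp [Phi, G₁_zero, G₂_zero]
  refine ⟨e.toRealLinearIsometryEquivOfMapZero he0, fun x hx => ?_⟩
  rw [IsometryEquiv.coe_toRealLinearIsometryEquivOfMapZero]
  show Phi g x.fst x.snd = g x.fst x.snd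
  rw [WithLp.prod_norm_eq_of_L1] at hx
  rw [hg.eq_G_add hx]
  rfl

end L1

end Vale.Agent.H23
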