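import Vale.Agent.H23.FMTrunc
import Vale.Agent.H23.Height
import Vale.Agent.H23.L1Sum

/-!
# Sphere isometries of function modules: caps and heights

Let `X` be a function module over a compact Hausdorff space `K` and let `G` be a surjective
isometry from the unit sphere of `X` onto the unit sphere of a real normed space `Y`. A unit
vector `e` peaks at `t` if its fiber seminorm at `t` is `1`. The cap of such an `e` is the set
of the unit vectors which agree with `e` at `t`; it is a convex subset of the sphere. Its height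
functionals `ψ` satisfy `1 - fsn t (u - e) ≤ ψ (G u) ≤ fsn t (u + e) - 1`.
-/

namespace Vale.Agent.H23

section FMCap

variable {K X Y : Type*} [TopologicalSpace K] [CompactSpace K] [T2Space K]
  [NormedAddCommGroup X] [NormedSpace ℝ X] [NormedAddCommGroup Y] [NormedSpace ℝ Y]
  {M : C(K, ℝ) → X →ₗ[ℝ] X}

omit [CompactSpace K] [T2Space K] in
lemma fsn_zero (hM : IsFunMod M) (t : K) : fsn M t (0 : X) = 0 := map_zero (fsem hM t)

omit [CompactSpace K] [T2Space K] in
lemma fsn_neg (hM : IsFunMod M) (t : K) (x : X) : fsn M t (-x) = fsn M t x :=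
  map_neg_eq_map (fsem hM t) x

omit [CompactSpace K] [T2Space K] in
lemma fsn_sub_rev (hM : IsFunMod M) (t : K) (x y : X) : fsn M t (x - y) = fsn M t (y - x) :=
  map_sub_rev (fsem hM t) x y

omit [CompactSpace K] [T2Space K] in
lemma fsn_sub_le (hM : IsFunMod M) (t : K) (x y : X) :
    fsn M t (x - y) ≤ fsn M t x + fsn M t y := map_sub_le_add (fsem hM t) x y

omit [CompactSpace K] [T2Space K] in
/-- Vectors which agree at `t` have the same fiber seminorm at `t`. -/
lemma fsn_eq_of_sub (hM : IsFunMod M) {t : K} {x y : X} (h : fsn M t (x - y) = 0) :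
    fsn M t x = fsn M t y := by
  have h1 : fsn M t x ≤ fsn M t (x - y) + fsn M t y := by
    have := fsn_add_le hM t (x - y) y
    rwa [sub_add_cancel] at this
  have h2 : fsn M t y ≤ fsn M t (y - x) + fsn M t x := by
    have := fsn_add_le hM t (y - x) x
    rwa [sub_add_cancel] at this
  rw [fsn_sub_rev hM t y x] at h2
  linarith

omit [CompactSpace K] [T2Space K] in
/-- Replacing the second argument of a difference by a vector which agrees with it at `t`. -/
lemma fsn_sub_congr (hM : IsFunMod M) {t : K} (x : X) {y y' : X} (h : fsn M t (y - y') = 0) :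
    fsn M t (x - y) = fsn M t (x - y') := by
  apply fsn_eq_of_sub hM
  have e : x - y - (x - y') = -(y - y') := by abel
  rw [e, fsn_neg hM, h]

lemma fsn_map_sub_self (hM : IsFunMod M) (t : K) (κ : C(K, ℝ)) (x : X) :
    fsn M t (M κ x - x) = |κ t - 1| * fsn M t x := by
  have e : M κ x - x = M (κ - 1) x := by rw [hM.map_sub, hM.map_one]
  rw [e, fsn_map hM]
  rfl

/-- Every vector whose fiber seminorm at `t` is at most `1` agrees at `t` with a vector of norm
at most `1`. -/
lemma exists_rep (hM : IsFunMod M) {t : K} {x : X} (h : fsn M t x ≤ 1) :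
    ∃ A : X, ‖A‖ ≤ 1 ∧ fsn M t (A - x) = 0 := by
  obtain ⟨g, -, -, hgt, hg⟩ := exists_trunc hM h
  refine ⟨M g x, hg, ?_⟩
  rw [fsn_map_sub_self hM, hgt, sub_self, abs_zero, zero_mul]

/-- The unit vector `e` peaks at `t`. -/
def IsPeak (M : C(K, ℝ) → X →ₗ[ℝ] X) (t : K) (e : X) : Prop := ‖e‖ = 1 ∧ fsn M t e = 1

omit [CompactSpace K] [T2Space K] in
lemma IsPeak.neg (hM : IsFunMod M) {t : K} {e : X} (he : IsPeak M t e) : IsPeak M t (-e) :=
  ⟨by rw [norm_neg]; exact he.1, by rw [fsn_neg hM]; exact he.2⟩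

/-- Every vector whose fiber seminorm at `t` is `1` agrees at `t` with a unit vector peaking at
`t`. -/
lemma exists_peak (hM : IsFunMod M) {t : K} {x : X} (h : fsn M t x = 1) :
    ∃ e : X, IsPeak M t e ∧ fsn M t (e - x) = 0 := by
  obtain ⟨A, hA, hAx⟩ := exists_rep hM h.le
  have h1 : fsn M t A = 1 := by rw [fsn_eq_of_sub hM hAx, h]
  refine ⟨A, ⟨le_antisymm hA ?_, h1⟩, hAx⟩
  rw [← h1]
  exact fsn_le_norm hM t A

/-- A unit vector peaking at `t` in the direction of `u` at `t`. -/
lemma exists_peak_dir (hM : IsFunMod M) {t : K} {u : X} (hu : fsn M t u ≠ 0) :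
    ∃ e : X, IsPeak M t e ∧ fsn M t (u - fsn M t u • e) = 0 := by
  have hpos : 0 < fsn M t u := lt_of_le_of_ne (fsn_nonneg M t u) (Ne.symm hu)
  have h1 : fsn M t ((fsn M t u)⁻¹ • u) = 1 := by
    rw [fsn_smul, abs_of_pos (inv_pos.mpr hpos), inv_mul_cancel₀ hu]
  obtain ⟨e, he, hex⟩ := exists_peak hM h1
  refine ⟨e, he, ?_⟩
  have e1 : u - fsn M t u • e = (-fsn M t u) • (e - (fsn M t u)⁻¹ • u) := by
    rw [smul_sub, smul_smul, neg_mul, mul_inv_cancel₀ hu]
    module
  rw [e1, fsn_smul, hex, mul_zero]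

/-- `ψ` is a height functional of the cap of the unit vectors which agree with `e` at `t`. -/
def IsHeightF (M : C(K, ℝ) → X →ₗ[ℝ] X) (G : X → Y) (t : K) (e : X) (ψ : Y →L[ℝ] ℝ) : Prop :=
  (∀ y, ψ y ≤ ‖y‖) ∧ (∀ u, ‖u‖ = 1 → fsn M t (u - e) = 0 → ψ (G u) = 1) ∧
    ∀ u, ‖u‖ = 1 → fsn M t (u + e) = 0 → ψ (G u) = -1

variable {G : X → Y}

omit [CompactSpace K] [T2Space K] in
/-- Height functionals of caps exist. -/
lemma exists_isHeightF (hG : SIso G) (hM : IsFunMod M) {t : K} {e : X} (he : IsPeak M t e) :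
    ∃ ψ : Y →L[ℝ] ℝ, IsHeightF M G t e ψ := by
  obtain ⟨C, hCdef⟩ : ∃ C : Set X, C = {u | ‖u‖ = 1 ∧ fsn M t (u - e) = 0} := ⟨_, rfl⟩
  have hC : Convex ℝ C := by
    intro u hu v hv α β hα hβ hαβ
    rw [hCdef] at hu hv ⊢
    obtain ⟨hu1, hut⟩ := hu
    obtain ⟨hv1, hvt⟩ := hv
    have hval : fsn M t (α • u + β • v - e) = 0 := by
      have e1 : α • u + β • v - e = α • (u - e) + β • (v - e) := by
        rw [smul_sub, smul_sub]
        have : e = α • e + β • e := by rw [← add_smul, hαβ, one_smul]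
        nth_rewrite 1 [this]
        abel
      apply le_antisymm _ (fsn_nonneg M t _)
      rw [e1]
      calc fsn M t (α • (u - e) + β • (v - e))
          ≤ fsn M t (α • (u - e)) + fsn M t (β • (v - e)) := fsn_add_le hM t _ _
        _ = 0 := by rw [fsn_smul, fsn_smul, hut, hvt, mul_zero, mul_zero, add_zero]
    refine ⟨?_, hval⟩
    apply le_antisymm
    · calc ‖α • u + β • v‖ ≤ ‖α • u‖ + ‖β • v‖ := norm_add_le _ _
        _ = α + β := by
          rw [norm_smul, norm_smul, hu1, hv1, Real.norm_eq_abs, Real.norm_eq_abs,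
            abs_of_nonneg hα, abs_of_nonneg hβ, mul_one, mul_one]
        _ = 1 := hαβ
    · have h1 := fsn_le_norm hM t (α • u + β • v)
      rw [fsn_eq_of_sub hM hval, he.2] at h1
      exact h1
  have hne : C.Nonempty := by
    refine ⟨e, ?_⟩
    rw [hCdef]
    exact ⟨he.1, by rw [sub_self, fsn_zero hM]⟩
  obtain ⟨ψ, hle, h1, h2⟩ := hG.exists_height_of_convex hC
    (fun u hu => by rw [hCdef] at hu; exact hu.1) hne
  refine ⟨ψ, hle, fun u hu1 hut => h1 u (by rw [hCdef]; exact ⟨hu1, hut⟩),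
    fun u hu1 hut => ?_⟩
  have h3 := h2 (-u) (by
    rw [hCdef]
    refine ⟨by rw [norm_neg]; exact hu1, ?_⟩
    have e1 : -u - e = -(u + e) := by abel
    rw [e1, fsn_neg hM, hut])
  rwa [neg_neg] at h3

/-- A unit vector can be moved into a cap at a cost close to `fsn t (u - e)`. -/
lemma exists_cap_nearF (hM : IsFunMod M) {t : K} {e : X} (he : IsPeak M t e) {u : X}
    (hu1 : ‖u‖ = 1) {ε : ℝ} (hε : 0 < ε) :
    ∃ v : X, ‖v‖ = 1 ∧ fsn M t (v - e) = 0 ∧ ‖u - v‖ ≤ fsn M t (u - e) + ε := by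
  obtain ⟨κ, hκt, hκ0, hκ1, hκU⟩ := exists_bump
    (isOpen_fsn_lt M (u - e) (fsn M t (u - e) + ε)) (t := t) (by
      show fsn M t (u - e) < fsn M t (u - e) + ε
      linarith)
  obtain ⟨v, hvdef⟩ : ∃ v : X, v = u - M κ (u - e) := ⟨_, rfl⟩
  have hve : fsn M t (v - e) = 0 := by
    have e1 : v - e = -(M κ (u - e) - (u - e)) := by rw [hvdef]; abel
    rw [e1, fsn_neg hM, fsn_map_sub_self hM, hκt, sub_self, abs_zero, zero_mul]
  refine ⟨v, ?_, hve, ?_⟩
  · apply le_antisymm
    · have e2 : v = M (1 - κ) u + M κ e := by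
        rw [hvdef, hM.map_sub, hM.map_one, map_sub]
        abel
      have h1 := hM.mp (1 - κ) κ u e (fun s => by
        rw [ContinuousMap.sub_apply, ContinuousMap.one_apply]
        linarith [hκ1 s]) hκ0 (fun s => by
        rw [ContinuousMap.sub_apply, ContinuousMap.one_apply]
        linarith)
      rw [hu1, he.1, max_self] at h1
      rw [e2]
      exact h1
    · have h1 := fsn_le_norm hM t v
      rw [fsn_eq_of_sub hM hve, he.2] at h1
      exact h1
  · have e3 : u - v = M κ (u - e) := by rw [hvdef]; abel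
    rw [e3]
    apply norm_map_le hM hκ0 hκ1 (by linarith [fsn_nonneg M t (u - e)])
    intro s hs
    by_contra hcon
    have hsU : s ∉ {s : K | fsn M s (u - e) < fsn M t (u - e) + ε} :=
      fun hmem => hcon (le_of_lt hmem)
    exact hs (hκU s hsU)

/-- Bounds for the height functionals of a cap. -/
lemma height_boundsF (hG : SIso G) (hM : IsFunMod M) {t : K} {e : X} (he : IsPeak M t e)
    {ψ : Y →L[ℝ] ℝ} (hψ : IsHeightF M G t e ψ) {u : X} (hu1 : ‖u‖ = 1) :
    1 - fsn M t (u - e) ≤ ψ (G u) ∧ ψ (G u) ≤ fsn M t (u + e) - 1 := by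
  obtain ⟨hle, htop, hbot⟩ := hψ
  constructor
  · have key : ∀ ε : ℝ, 0 < ε → 1 - fsn M t (u - e) ≤ ψ (G u) + ε := by
      intro ε hε
      obtain ⟨v, hv1, hvt, hd⟩ := exists_cap_nearF hM he hu1 hε
      have h1 := hle (G v - G u)
      rw [hG.dist_map v u hv1 hu1, map_sub, htop v hv1 hvt, norm_sub_rev] at h1
      linarith
    exact le_of_forall_pos_le_add key
  · have key : ∀ ε : ℝ, 0 < ε → ψ (G u) ≤ fsn M t (u + e) - 1 + ε := by
      intro ε hε
      obtain ⟨v, hv1, hvt, hd⟩ := exists_cap_nearF hM (he.neg hM) hu1 hε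
      rw [sub_neg_eq_add] at hvt hd
      have h1 := hle (G u - G v)
      rw [hG.dist_map u v hu1 hv1, map_sub, hbot v hv1 hvt] at h1
      linarith
    exact le_of_forall_pos_le_add key

/-- Height functionals at `t` vanish on the images of unit vectors vanishing at `t`. -/
lemma height_zeroF (hG : SIso G) (hM : IsFunMod M) {t : K} {e : X} (he : IsPeak M t e)
    {ψ : Y →L[ℝ] ℝ} (hψ : IsHeightF M G t e ψ) {u : X} (hu1 : ‖u‖ = 1)
    (hut : fsn M t u = 0) : ψ (G u) = 0 := by
  have h := height_boundsF hG hM he hψ hu1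
  have h1 : fsn M t (u - e) = 1 := by
    have e1 : u - e - -e = u := by abel
    rw [fsn_eq_of_sub hM (x := u - e) (y := -e) (by rw [e1, hut]), fsn_neg hM, he.2]
  have h2 : fsn M t (u + e) = 1 := by
    have e1 : u + e - e = u := by abel
    rw [fsn_eq_of_sub hM (x := u + e) (y := e) (by rw [e1, hut]), he.2]
  rw [h1, h2] at h
  linarith [h.1, h.2]

/-- The height functional of a peak in the direction of `u` at `t` is at least `fsn t u` at
`G u`. -/
lemma height_geF (hG : SIso G) (hM : IsFunMod M) {t : K} {e : X} (he : IsPeak M t e)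
    {ψ : Y →L[ℝ] ℝ} (hψ : IsHeightF M G t e ψ) {u : X} (hu1 : ‖u‖ = 1)
    (hue : fsn M t (u - fsn M t u • e) = 0) : fsn M t u ≤ ψ (G u) := by
  have h1 := (height_boundsF hG hM he hψ hu1).1
  have hρ1 : fsn M t u ≤ 1 := by
    have := fsn_le_norm hM t u
    rwa [hu1] at this
  have h2 : fsn M t (u - e) = 1 - fsn M t u := by
    have e1 : u - e - (fsn M t u • e - e) = u - fsn M t u • e := by abel
    rw [fsn_eq_of_sub hM (x := u - e) (y := fsn M t u • e - e) (by rw [e1, hue])]
    have e2 : fsn M t u • e - e = (fsn M t u - 1) • e := by rw [sub_smul, one_smul]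
    rw [e2, fsn_smul, he.2, mul_one, abs_of_nonpos (by linarith)]
    ring
  rw [h2] at h1
  linarith

/-- The positively homogeneous extension of `G` is killed at vectors vanishing at `t` by the
height functionals at `t`. -/
lemma height_hext_zeroF (hG : SIso G) (hM : IsFunMod M) {t : K} {e : X} (he : IsPeak M t e)
    {ψ : Y →L[ℝ] ℝ} (hψ : IsHeightF M G t e ψ) {v : X} (hvt : fsn M t v = 0) :
    ψ (hext G v) = 0 := by
  unfold hext
  rcases eq_or_ne v 0 with rfl | hne
  · rw [norm_zero, zero_smul, map_zero]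
  · rw [map_smul, height_zeroF hG hM he hψ (norm_inv_smul_self hne)
      (by rw [fsn_smul, hvt, mul_zero]), smul_zero]

/-- The height functionals are at most the norm on the homogeneous extension of `G`. -/
lemma height_hext_leF (hG : SIso G) {ψ : Y →L[ℝ] ℝ} (hle : ∀ y, ψ y ≤ ‖y‖) (v : X) :
    ψ (hext G v) ≤ ‖v‖ := by
  rcases eq_or_ne v 0 with h0 | hne0
  · rw [h0, hext_zero, map_zero, norm_zero]
  · unfold hext
    rw [map_smul, smul_eq_mul]
    have h1 := hle (G (‖v‖⁻¹ • v))
    rw [hG.norm_map _ (norm_inv_smul_self hne0)] at h1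
    calc ‖v‖ * ψ (G (‖v‖⁻¹ • v)) ≤ ‖v‖ * 1 := mul_le_mul_of_nonneg_left h1 (norm_nonneg _)
      _ = ‖v‖ := mul_one _

end FMCap

end Vale.Agent.H23
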