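import Mathlib.Analysis.Seminorm
import Vale.Agent.H23.Bisect

/-!
# Vectors are determined up to a seminorm by truncated seminorm distances

Let `p` be a seminorm on a real vector space. If `z`, `z''` have seminorm at most `1` and
`max (p (z - a)) 1 = max (p (z'' - a)) 1` for all `a` with `p a ≤ 1`, then `p (z'' - z) = 0`.
If `a`, `a'` have seminorm `1` and the same truncated distances to all vectors of seminorm `1`,
then `p (a' - a) = 0`.
-/

namespace Vale.Agent.H23

section FMSem

variable {V : Type*} [AddCommGroup V] [Module ℝ V]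

/-- One half of the comparison of two vectors of the unit ball of a seminorm with the same
truncated distances to all vectors of the unit ball. -/
lemma sem_sub_dir_le (p : Seminorm ℝ V) {z z'' : V} (hz : p z ≤ 1) (hz'' : p z'' ≤ 1)
    (hne : p (z'' - z) ≠ 0)
    (h : ∀ a : V, p a ≤ 1 → max (p (z - a)) 1 = max (p (z'' - a)) 1) :
    p (z - (p (z'' - z))⁻¹ • (z'' - z)) ≤ 1 := by
  obtain ⟨η, hηdef⟩ : ∃ η : ℝ, η = p (z'' - z) := ⟨_, rfl⟩
  have hη : 0 < η := by
    rw [hηdef]
    exact lt_of_le_of_ne (apply_nonneg p _) (Ne.symm hne)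
  obtain ⟨d, hd⟩ : ∃ d : V, d = η⁻¹ • (z'' - z) := ⟨_, rfl⟩
  have hd1 : p d = 1 := by
    rw [hd, map_smul_eq_mul, norm_inv, Real.norm_eq_abs, abs_of_pos hη, ← hηdef,
      inv_mul_cancel₀ hη.ne']
  have hz''eq : z'' = z + η • d := by
    rw [hd, smul_smul, mul_inv_cancel₀ hη.ne', one_smul]; abel
  have key : ∀ k : ℕ, ∀ μ : ℝ, -1 ≤ μ → μ ≤ η → -(k : ℝ) * η ≤ μ → p (z + μ • d) ≤ 1 := by
    intro k
    induction k with
    | zero =>
      intro μ _ hμη hμ0
      rw [Nat.cast_zero, neg_zero, zero_mul] at hμ0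
      have e : z + μ • d = (1 - μ / η) • z + (μ / η) • z'' := by
        rw [hz''eq, smul_add, smul_smul, div_mul_cancel₀ _ hη.ne']
        module
      have h1 : 0 ≤ μ / η := div_nonneg hμ0 hη.le
      have h2 : μ / η ≤ 1 := (div_le_one hη).mpr hμη
      rw [e]
      calc p ((1 - μ / η) • z + (μ / η) • z'') ≤ p ((1 - μ / η) • z) + p ((μ / η) • z'') :=
            map_add_le_add p _ _
        _ = (1 - μ / η) * p z + (μ / η) * p z'' := by
          rw [map_smul_eq_mul, map_smul_eq_mul, Real.norm_eq_abs, Real.norm_eq_abs,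
            abs_of_nonneg h1, abs_of_nonneg (sub_nonneg.mpr h2)]
        _ ≤ (1 - μ / η) * 1 + (μ / η) * 1 :=
          add_le_add (mul_le_mul_of_nonneg_left hz (sub_nonneg.mpr h2))
            (mul_le_mul_of_nonneg_left hz'' h1)
        _ = 1 := by ring
    | succ k ih =>
      intro μ hμ1 hμη hμk
      by_cases hc : -(k : ℝ) * η ≤ μ
      · exact ih μ hμ1 hμη hc
      · rw [not_le] at hc
        have hk0 : (0 : ℝ) ≤ (k : ℝ) := Nat.cast_nonneg k
        have hμneg : μ < 0 := by nlinarith
        have h1 := ih (μ + η) (by linarith) (by linarith) (by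
          rw [Nat.cast_succ] at hμk
          nlinarith)
        have ha : p ((-μ) • d) ≤ 1 := by
          rw [map_smul_eq_mul, hd1, mul_one, Real.norm_eq_abs, abs_of_nonneg (by linarith)]
          linarith
        have h2 := h ((-μ) • d) ha
        have e1 : z - (-μ) • d = z + μ • d := by module
        have e2 : z'' - (-μ) • d = z + (μ + η) • d := by rw [hz''eq]; module
        rw [e1, e2, max_eq_right h1] at h2
        rw [← h2]
        exact le_max_left _ _
  obtain ⟨k, hk⟩ := exists_nat_gt (1 / η)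
  have hk1 : 1 < (k : ℝ) * η := by
    rw [div_lt_iff₀ hη] at hk
    exact hk
  have h3 := key k (-1) le_rfl (by linarith) (by linarith)
  have e3 : z - (p (z'' - z))⁻¹ • (z'' - z) = z + (-1 : ℝ) • d := by
    rw [hd, ← hηdef]; module
  rw [e3]
  exact h3

/-- Two vectors of the unit ball of a seminorm with the same truncated distances to all vectors
of the unit ball have distance zero. -/
lemma sem_eq_of_trunc_dist_ball (p : Seminorm ℝ V) {z z'' : V} (hz : p z ≤ 1) (hz'' : p z'' ≤ 1)
    (h : ∀ a : V, p a ≤ 1 → max (p (z - a)) 1 = max (p (z'' - a)) 1) : p (z'' - z) = 0 := by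
  by_contra hne
  have hne' : p (z - z'') ≠ 0 := by rw [map_sub_rev]; exact hne
  have h1 := sem_sub_dir_le p hz hz'' hne h
  have h2 := sem_sub_dir_le p hz'' hz hne' (fun a ha => (h a ha).symm)
  obtain ⟨η, hηdef⟩ : ∃ η : ℝ, η = p (z'' - z) := ⟨_, rfl⟩
  have hη : 0 < η := by
    rw [hηdef]
    exact lt_of_le_of_ne (apply_nonneg p _) (Ne.symm hne)
  have hη' : p (z - z'') = η := by rw [hηdef, map_sub_rev]
  rw [← hηdef] at h1
  rw [hη'] at h2
  have e : (z'' - η⁻¹ • (z - z'')) - (z - η⁻¹ • (z'' - z)) = (1 + 2 * η⁻¹) • (z'' - z) := by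
    module
  have h3 : p ((z'' - η⁻¹ • (z - z'')) - (z - η⁻¹ • (z'' - z))) ≤ 1 + 1 :=
    (map_sub_le_add p _ _).trans (add_le_add h2 h1)
  rw [e, map_smul_eq_mul, ← hηdef, Real.norm_eq_abs, abs_of_pos (by positivity)] at h3
  have e2 : (1 + 2 * η⁻¹) * η = η + 2 := by field_simp
  rw [e2] at h3
  linarith

/-- Two vectors of seminorm `1` with the same truncated distances to every vector of seminorm
`1` have distance zero. -/
lemma sem_eq_of_max_dist_sphere (p : Seminorm ℝ V) {a a' : V} (ha : p a = 1) (ha' : p a' = 1)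
    {μ : ℝ} (hμ0 : 0 ≤ μ) (hμ1 : μ ≤ 1)
    (h : ∀ x : V, p x = 1 → max (p (a' - x)) μ = max (p (a - x)) μ) : p (a' - a) = 0 := by
  by_contra hne
  obtain ⟨η, hηdef⟩ : ∃ η : ℝ, η = p (a' - a) := ⟨_, rfl⟩
  have hη : 0 < η := by
    rw [hηdef]
    exact lt_of_le_of_ne (apply_nonneg p _) (Ne.symm hne)
  have hημ : η ≤ μ := by
    have h1 := h a ha
    rw [sub_self, map_zero, max_eq_right hμ0] at h1
    rw [hηdef, ← h1]; exact le_max_left _ _
  have hη1 : η ≤ 1 := le_trans hημ hμ1
  obtain ⟨d, hd⟩ : ∃ d : V, d = η⁻¹ • (a' - a) := ⟨_, rfl⟩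
  have hd1 : p d = 1 := by
    rw [hd, map_smul_eq_mul, norm_inv, Real.norm_eq_abs, abs_of_pos hη, ← hηdef,
      inv_mul_cancel₀ hη.ne']
  have ha'd : a' = a + η • d := by
    rw [hd, smul_smul, mul_inv_cancel₀ hη.ne', one_smul]; abel
  have hnd : p (-d) = 1 := by rw [map_neg_eq_map]; exact hd1
  have ha'n : p (a + η • d) = 1 := by rw [← ha'd]; exact ha'
  have F1 : 1 ≤ p (a + (1 + η) • d) := by
    have e : (1 + η) • (a + η • d) = a + η • (a + (1 + η) • d) := by module
    have h1 : p ((1 + η) • (a + η • d)) ≤ p a + p (η • (a + (1 + η) • d)) := by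
      rw [e]; exact map_add_le_add p _ _
    rw [map_smul_eq_mul, map_smul_eq_mul, ha'n, ha, Real.norm_eq_abs, Real.norm_eq_abs,
      abs_of_pos (by linarith), abs_of_pos hη] at h1
    nlinarith
  have F2 : 1 ≤ p (a + d) := by
    have e : a + η • d = (1 - η) • a + η • (a + d) := by module
    have h1 : p (a + η • d) ≤ p ((1 - η) • a) + p (η • (a + d)) := by
      rw [e]; exact map_add_le_add p _ _
    rw [map_smul_eq_mul, map_smul_eq_mul, ha'n, ha, Real.norm_eq_abs, Real.norm_eq_abs,
      abs_of_nonneg (by linarith), abs_of_pos hη] at h1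
    nlinarith
  have F3 : 1 ≤ p (a - d) := by
    have e : (1 + η) • a = η • (a - d) + (a + η • d) := by module
    have h1 : p ((1 + η) • a) ≤ p (η • (a - d)) + p (a + η • d) := by
      rw [e]; exact map_add_le_add p _ _
    rw [map_smul_eq_mul, map_smul_eq_mul, ha'n, ha, Real.norm_eq_abs, Real.norm_eq_abs,
      abs_of_pos (by linarith), abs_of_pos hη] at h1
    nlinarith
  have F4 : 1 ≤ p (a + (η - 1) • d) := by
    have e : a = η • (a + (η - 1) • d) + (1 - η) • (a + η • d) := by module
    have h1 : p a ≤ p (η • (a + (η - 1) • d)) + p ((1 - η) • (a + η • d)) := by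
      nth_rewrite 1 [e]; exact map_add_le_add p _ _
    rw [map_smul_eq_mul, map_smul_eq_mul, ha'n, ha, Real.norm_eq_abs, Real.norm_eq_abs,
      abs_of_pos hη, abs_of_nonneg (by linarith : (0 : ℝ) ≤ 1 - η)] at h1
    nlinarith
  have T1 : p (a + (1 + η) • d) = p (a + d) := by
    have h1 := h (-d) hnd
    have e1 : a' - -d = a + (1 + η) • d := by rw [ha'd]; module
    have e2 : a - -d = a + d := by abel
    rw [e1, e2, max_eq_left (le_trans hμ1 F1), max_eq_left (le_trans hμ1 F2)] at h1
    exact h1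
  have T2 : p (a + (η - 1) • d) = p (a - d) := by
    have h1 := h d hd1
    have e1 : a' - d = a + (η - 1) • d := by rw [ha'd]; module
    rw [e1, max_eq_left (le_trans hμ1 F4), max_eq_left (le_trans hμ1 F3)] at h1
    exact h1
  have F5 : p (a + d) ≤ 1 := by
    have e : (1 + η) • (a + d) = η • a + (a + (1 + η) • d) := by module
    have h1 : p ((1 + η) • (a + d)) ≤ p (η • a) + p (a + (1 + η) • d) := by
      rw [e]; exact map_add_le_add p _ _
    rw [map_smul_eq_mul, map_smul_eq_mul, ha, T1, Real.norm_eq_abs, Real.norm_eq_abs,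
      abs_of_pos (by linarith), abs_of_pos hη] at h1
    nlinarith
  have F6 : p (a + (η - 1) • d) ≤ 1 := by
    have e : (1 + η) • (a + (η - 1) • d) = (a - d) + η • (a + η • d) := by module
    have h1 : p ((1 + η) • (a + (η - 1) • d)) ≤ p (a - d) + p (η • (a + η • d)) := by
      rw [e]; exact map_add_le_add p _ _
    rw [map_smul_eq_mul, map_smul_eq_mul, ha'n, ← T2, Real.norm_eq_abs, Real.norm_eq_abs,
      abs_of_pos (by linarith), abs_of_pos hη] at h1
    nlinarith
  have e : (2 + η) • d = (a + (1 + η) • d) - (a - d) := by module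
  have h1 : p ((2 + η) • d) ≤ p (a + (1 + η) • d) + p (a - d) := by
    rw [e]; exact map_sub_le_add p _ _
  rw [map_smul_eq_mul, hd1, Real.norm_eq_abs, abs_of_pos (by linarith), T1, ← T2] at h1
  linarith

end FMSem

end Vale.Agent.H23
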