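import Vale.Agent.H23.FMBand
import Vale.Agent.H23.FMSem

/-!
# Vectors of a function module are determined by their distances to cut vectors

Let `X` be a function module over a compact Hausdorff space `K` such that every point of `K` can
be separated by a continuous scalar function from a point where some fiber seminorm does not
vanish. If two unit vectors `u`, `u''` have the same distance to every unit vector whose fiber
seminorms vanish on the band of some cutting scalar function, then `u'' = u`.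
-/

namespace Vale.Agent.H23

section FMDet

variable {K X : Type*} [TopologicalSpace K] [CompactSpace K] [T2Space K]
  [NormedAddCommGroup X] [NormedSpace ℝ X] {M : C(K, ℝ) → X →ₗ[ℝ] X}

/-- A cutting function adapted to a point `t` and an open neighbourhood `U` of `t`, together
with two scalar functions `η ≤ β` with values in `[0, 1]`, equal to `1` at `t` and living in
`U`; on the band, `β = 1` and `η = 0`. -/
lemma exists_cut_packageF
    (hK : ∀ t : K, ∃ d : C(K, ℝ), d t = 0 ∧ ∃ t' x, 1 ≤ d t' ∧ fsn M t' x ≠ 0)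
    {t : K} (ht : ∃ x, fsn M t x ≠ 0) {U : Set K} (hU : IsOpen U) (htU : t ∈ U) :
    ∃ h β η : C(K, ℝ), IsCutterF M h ∧ β t = 1 ∧ η t = 1 ∧ (∀ s, 0 ≤ η s) ∧
      (∀ s, η s ≤ β s) ∧ (∀ s, β s ≤ 1) ∧ (∀ s ∈ bandSet h, β s = 1 ∧ η s = 0) ∧
      (∀ s, β s = 1 ∨ η s = 0) ∧ ∀ s, β s ≠ 0 → s ∈ U := by
  obtain ⟨d, hdt, t', x', hdt', hx'⟩ := hK t
  obtain ⟨x₀, hx₀⟩ := ht
  obtain ⟨κ, hκt, hκ0, hκ1, hκU⟩ := exists_bump hU htU
  obtain ⟨g, hgdef⟩ : ∃ g : C(K, ℝ), ∀ s, g s = max (d s) (1 - κ s) :=
    ⟨⟨fun s => max (d s) (1 - κ s), d.continuous.max (continuous_const.sub κ.continuous)⟩,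
      fun s => rfl⟩
  have hgt : g t = 0 := by rw [hgdef, hdt, hκt, sub_self, max_self]
  have hgt' : 1 ≤ g t' := by
    rw [hgdef]
    exact le_max_of_le_left hdt'
  obtain ⟨h, hhdef⟩ : ∃ h : C(K, ℝ), ∀ s, h s = 2 - 3 * g s :=
    ⟨⟨fun s => 2 - 3 * g s, continuous_const.sub (continuous_const.mul g.continuous)⟩,
      fun s => rfl⟩
  obtain ⟨hβ, hhβdef⟩ : ∃ hβ : C(K, ℝ), ∀ s, hβ s = 3 - 3 * g s :=
    ⟨⟨fun s => 3 - 3 * g s, continuous_const.sub (continuous_const.mul g.continuous)⟩,
      fun s => rfl⟩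
  obtain ⟨hη, hhηdef⟩ : ∃ hη : C(K, ℝ), ∀ s, hη s = 1 - 3 * g s :=
    ⟨⟨fun s => 1 - 3 * g s, continuous_const.sub (continuous_const.mul g.continuous)⟩,
      fun s => rfl⟩
  have hβ1 : ∀ s, g s ≤ 2 / 3 → clampFn hβ s = 1 := by
    intro s hs
    apply clampFn_of_one_le
    rw [hhβdef]
    linarith
  have hη0 : ∀ s, 1 / 3 ≤ g s → clampFn hη s = 0 := by
    intro s hs
    apply clampFn_of_nonpos
    rw [hhηdef]
    linarith
  refine ⟨h, clampFn hβ, clampFn hη, ⟨⟨t', x', ?_, hx'⟩, ⟨t, x₀, ?_, hx₀⟩⟩, ?_, ?_,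
    fun s => clampFn_nonneg _ s, fun s => ?_, fun s => clampFn_le_one _ s, fun s hs => ?_,
    fun s => ?_, fun s hs => ?_⟩
  · rw [hhdef]
    linarith
  · rw [hhdef, hgt]
    norm_num
  · apply hβ1
    rw [hgt]
    norm_num
  · apply clampFn_of_one_le
    rw [hhηdef, hgt]
    norm_num
  · apply clampFn_mono
    rw [hhηdef, hhβdef]
    linarith
  · have h1 : 0 ≤ h s := hs.1
    have h2 : h s ≤ 1 := hs.2
    rw [hhdef] at h1 h2
    exact ⟨hβ1 s (by linarith), hη0 s (by linarith)⟩
  · rcases le_or_gt (g s) (2 / 3) with h1 | h1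
    · exact Or.inl (hβ1 s h1)
    · exact Or.inr (hη0 s (by linarith))
  · by_contra hsU
    have h1 : 1 ≤ g s := by
      rw [hgdef, hκU s hsU, sub_zero]
      exact le_max_right _ _
    apply hs
    apply clampFn_of_nonpos
    rw [hhβdef]
    linarith

/-- Comparison at `t` of two unit vectors with the same distances to all cut unit vectors. -/
lemma local_leF (hM : IsFunMod M)
    (hK : ∀ t : K, ∃ d : C(K, ℝ), d t = 0 ∧ ∃ t' x, 1 ≤ d t' ∧ fsn M t' x ≠ 0)
    {u u'' : X} (hu1 : ‖u‖ = 1)
    (hdist : ∀ (h : C(K, ℝ)) (w : X), IsCutterF M h → w ∈ bandIdealF hM h →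
      ‖w‖ = 1 → ‖u - w‖ = ‖u'' - w‖)
    {t : K} (ht : ∃ x, fsn M t x ≠ 0) {A : X} (hA : ‖A‖ ≤ 1)
    (hcase : fsn M t A = 1 ∨ fsn M t u < 1) :
    fsn M t (u'' - A) ≤ max (fsn M t u) (fsn M t (u - A)) := by
  have key : ∀ ε : ℝ, 0 < ε → (fsn M t A = 1 ∨ fsn M t u + ε < 1) →
      fsn M t (u'' - A) ≤ max (fsn M t u) (fsn M t (u - A)) + ε := by
    intro ε hε hcase'
    obtain ⟨U, hUdef⟩ : ∃ U : Set K, U = {s | fsn M s u < fsn M t u + ε} ∩
        {s | fsn M s (u - A) < fsn M t (u - A) + ε} := ⟨_, rfl⟩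
    have hUo : IsOpen U := by
      rw [hUdef]
      exact (isOpen_fsn_lt M u _).inter (isOpen_fsn_lt M (u - A) _)
    have htU : t ∈ U := by
      rw [hUdef]
      exact ⟨by show fsn M t u < fsn M t u + ε; linarith,
        by show fsn M t (u - A) < fsn M t (u - A) + ε; linarith⟩
    obtain ⟨h, β, η, hcut, hβt, hηt, hη0, hηβ, hβ1, hband, hor, hnear⟩ :=
      exists_cut_packageF hK ht hUo htU
    have hβ0 : ∀ s, 0 ≤ β s := fun s => (hη0 s).trans (hηβ s)
    have hnear' : ∀ s, β s ≠ 0 → fsn M s u < fsn M t u + ε ∧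
        fsn M s (u - A) < fsn M t (u - A) + ε := by
      intro s hs
      have h1 := hnear s hs
      rw [hUdef] at h1
      exact h1
    obtain ⟨w, hwdef⟩ : ∃ w : X, w = u - M β u + M η A := ⟨_, rfl⟩
    -- fiber seminorms of the two pieces of `w`
    have hp1 : ∀ s, fsn M s (u - M β u) = (1 - β s) * fsn M s u := by
      intro s
      rw [fsn_sub_rev hM, fsn_map_sub_self hM, abs_of_nonpos (by linarith [hβ1 s])]
      ring
    have hp2 : ∀ s, fsn M s (M η A) = η s * fsn M s A := by
      intro s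
      rw [fsn_map hM, abs_of_nonneg (hη0 s)]
    have hwband : w ∈ bandIdealF hM h := by
      intro s hs
      apply le_antisymm _ (fsn_nonneg M s _)
      rw [hwdef]
      calc fsn M s (u - M β u + M η A) ≤ fsn M s (u - M β u) + fsn M s (M η A) :=
            fsn_add_le hM s _ _
        _ = 0 := by
          rw [hp1, hp2, (hband s hs).1, (hband s hs).2]
          ring
    have hwA : fsn M t (w - A) = 0 := by
      apply le_antisymm _ (fsn_nonneg M t _)
      have e : w - A = (u - M β u) + (M η A - A) := by rw [hwdef]; abel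
      rw [e]
      calc fsn M t (u - M β u + (M η A - A)) ≤ fsn M t (u - M β u) + fsn M t (M η A - A) :=
            fsn_add_le hM t _ _
        _ = 0 := by
          rw [hp1, fsn_map_sub_self hM, hβt, hηt]
          simp
    have hwle : ‖w‖ ≤ 1 := by
      have e : w = M (1 - β) u + M η A := by
        rw [hwdef, hM.map_sub, hM.map_one]
      have h1 := hM.mp (1 - β) η u A (fun s => by
        rw [ContinuousMap.sub_apply, ContinuousMap.one_apply]
        linarith [hβ1 s]) hη0 (fun s => by
        rw [ContinuousMap.sub_apply, ContinuousMap.one_apply]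
        linarith [hηβ s])
      rw [e]
      exact h1.trans (max_le hu1.le hA)
    have hw1 : ‖w‖ = 1 := by
      apply le_antisymm hwle
      rcases hcase' with hc | hc
      · have h1 := fsn_le_norm hM t w
        rw [fsn_eq_of_sub hM hwA, hc] at h1
        exact h1
      · have hune : u ≠ 0 := by
          intro h0
          rw [h0, norm_zero] at hu1
          exact zero_ne_one hu1
        obtain ⟨s₀, hs₀⟩ := exists_fsn_eq_norm hM hune
        rw [hu1] at hs₀
        have hβs₀ : β s₀ = 0 := by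
          by_contra hne
          have h2 := (hnear' s₀ hne).1
          rw [hs₀] at h2
          linarith
        have hηs₀ : η s₀ = 0 := le_antisymm (by rw [← hβs₀]; exact hηβ s₀) (hη0 s₀)
        have hwu : fsn M s₀ (w - u) = 0 := by
          apply le_antisymm _ (fsn_nonneg M s₀ _)
          have e : w - u = M η A - M β u := by rw [hwdef]; abel
          rw [e]
          calc fsn M s₀ (M η A - M β u) ≤ fsn M s₀ (M η A) + fsn M s₀ (M β u) :=
                fsn_sub_le hM s₀ _ _
            _ = 0 := by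
              rw [fsn_map hM, fsn_map hM, hβs₀, hηs₀]
              simp
        have h1 := fsn_le_norm hM s₀ w
        rw [fsn_eq_of_sub hM hwu, hs₀] at h1
        exact h1
    have hD1 : fsn M t (u'' - A) ≤ ‖u'' - w‖ := by
      have h1 := fsn_le_norm hM t (u'' - w)
      rw [fsn_sub_congr hM u'' hwA] at h1
      exact h1
    have hM0 : 0 ≤ max (fsn M t u) (fsn M t (u - A)) := le_max_of_le_left (fsn_nonneg M t u)
    have hD2 : ‖u - w‖ ≤ max (fsn M t u) (fsn M t (u - A)) + ε := by
      apply norm_le_of_forall_fsn_le hM (by linarith)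
      intro s
      have e : u - w = M (β - η) u + M η (u - A) := by
        rw [hwdef, hM.map_sub, map_sub]
        abel
      rw [e]
      have h1 : fsn M s (M (β - η) u + M η (u - A)) ≤
          (β s - η s) * fsn M s u + η s * fsn M s (u - A) := by
        calc fsn M s (M (β - η) u + M η (u - A))
            ≤ fsn M s (M (β - η) u) + fsn M s (M η (u - A)) := fsn_add_le hM s _ _
          _ = (β s - η s) * fsn M s u + η s * fsn M s (u - A) := by
            rw [fsn_map hM, fsn_map hM, abs_of_nonneg (hη0 s)]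
            have : |(β - η) s| = β s - η s := by
              rw [ContinuousMap.sub_apply, abs_of_nonneg (sub_nonneg.mpr (hηβ s))]
            rw [this]
      by_cases hs : β s = 0
      · have hη : η s = 0 := le_antisymm (by rw [← hs]; exact hηβ s) (hη0 s)
        rw [hs, hη] at h1
        have : (0 - 0) * fsn M s u + 0 * fsn M s (u - A) = 0 := by ring
        rw [this] at h1
        linarith
      · obtain ⟨h3, h4⟩ := hnear' s hs
        have b1 : (β s - η s) * fsn M s u ≤
            (β s - η s) * (max (fsn M t u) (fsn M t (u - A)) + ε) :=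
          mul_le_mul_of_nonneg_left (by linarith [le_max_left (fsn M t u) (fsn M t (u - A))])
            (sub_nonneg.mpr (hηβ s))
        have b2 : η s * fsn M s (u - A) ≤ η s * (max (fsn M t u) (fsn M t (u - A)) + ε) :=
          mul_le_mul_of_nonneg_left (by linarith [le_max_right (fsn M t u) (fsn M t (u - A))])
            (hη0 s)
        have b3 : β s * (max (fsn M t u) (fsn M t (u - A)) + ε) ≤
            1 * (max (fsn M t u) (fsn M t (u - A)) + ε) :=
          mul_le_mul_of_nonneg_right (hβ1 s) (by linarith)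
        nlinarith [h1, b1, b2, b3]
    calc fsn M t (u'' - A) ≤ ‖u'' - w‖ := hD1
      _ = ‖u - w‖ := (hdist h w hcut hwband hw1).symm
      _ ≤ max (fsn M t u) (fsn M t (u - A)) + ε := hD2
  apply le_of_forall_pos_le_add
  intro δ hδ
  rcases hcase with hc | hc
  · exact key δ hδ (Or.inl hc)
  · have hpos : 0 < min δ ((1 - fsn M t u) / 2) := lt_min hδ (by linarith)
    have h1 := key (min δ ((1 - fsn M t u) / 2)) hpos (Or.inr (by
      have := min_le_right δ ((1 - fsn M t u) / 2)
      linarith))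
    have h2 := min_le_left δ ((1 - fsn M t u) / 2)
    linarith

/-- Two unit vectors with the same distances to all cut unit vectors coincide. -/
lemma eq_of_dist_cutF (hM : IsFunMod M)
    (hK : ∀ t : K, ∃ d : C(K, ℝ), d t = 0 ∧ ∃ t' x, 1 ≤ d t' ∧ fsn M t' x ≠ 0)
    {u u'' : X} (hu1 : ‖u‖ = 1) (hu''1 : ‖u''‖ = 1)
    (hdist : ∀ (h : C(K, ℝ)) (w : X), IsCutterF M h → w ∈ bandIdealF hM h →
      ‖w‖ = 1 → ‖u - w‖ = ‖u'' - w‖) : u'' = u := by
  rw [← sub_eq_zero]
  apply eq_zero_of_forall_fsn hM
  intro t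
  by_cases ht : ∃ x, fsn M t x ≠ 0
  swap
  · by_contra hne
    exact ht ⟨_, hne⟩
  have hdist' : ∀ (h : C(K, ℝ)) (w : X), IsCutterF M h → w ∈ bandIdealF hM h →
      ‖w‖ = 1 → ‖u'' - w‖ = ‖u - w‖ := fun h w hc hw hw1 => (hdist h w hc hw hw1).symm
  -- comparison with arbitrary vectors of fiber seminorm at most `1`
  have hL1 : ∀ a : X, fsn M t a ≤ 1 → (fsn M t a = 1 ∨ fsn M t u < 1) →
      fsn M t (u'' - a) ≤ max (fsn M t u) (fsn M t (u - a)) := by
    intro a ha hc
    obtain ⟨A, hA, hAa⟩ := exists_rep hM ha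
    have h1 := local_leF hM hK hu1 hdist ht hA (by
      rw [fsn_eq_of_sub hM hAa]
      exact hc)
    rw [fsn_sub_congr hM u'' hAa, fsn_sub_congr hM u hAa] at h1
    exact h1
  have hL2 : ∀ a : X, fsn M t a ≤ 1 → (fsn M t a = 1 ∨ fsn M t u'' < 1) →
      fsn M t (u - a) ≤ max (fsn M t u'') (fsn M t (u'' - a)) := by
    intro a ha hc
    obtain ⟨A, hA, hAa⟩ := exists_rep hM ha
    have h1 := local_leF hM hK hu''1 hdist' ht hA (by
      rw [fsn_eq_of_sub hM hAa]
      exact hc)
    rw [fsn_sub_congr hM u hAa, fsn_sub_congr hM u'' hAa] at h1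
    exact h1
  have hz : fsn M t u ≤ 1 := by
    have := fsn_le_norm hM t u
    rwa [hu1] at this
  have hz'' : fsn M t u'' ≤ 1 := by
    have := fsn_le_norm hM t u''
    rwa [hu''1] at this
  have hsph : ∀ a : X, fsn M t a = 1 →
      max (fsn M t (u - a)) 1 = max (fsn M t (u'' - a)) 1 := by
    intro a ha
    apply le_antisymm
    · apply max_le _ (le_max_right _ _)
      exact (hL2 a ha.le (Or.inl ha)).trans (max_le (hz''.trans (le_max_right _ _))
        (le_max_left _ _))
    · apply max_le _ (le_max_right _ _)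
      exact (hL1 a ha.le (Or.inl ha)).trans (max_le (hz.trans (le_max_right _ _))
        (le_max_left _ _))
  -- the case of a unit value
  have hunit : ∀ {z z'' : X}, fsn M t z = 1 → fsn M t z'' ≤ 1 →
      (∀ a : X, fsn M t a = 1 → max (fsn M t (z - a)) 1 = max (fsn M t (z'' - a)) 1) →
      fsn M t (z'' - z) = 0 := by
    intro z z'' hz1 hz''le hmax
    have hz''1 : fsn M t z'' = 1 := by
      apply le_antisymm hz''le
      have h1 := hmax (-z) (by rw [fsn_neg hM]; exact hz1)
      have e1 : z - -z = (2 : ℝ) • z := by rw [two_smul]; abel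
      rw [e1, fsn_smul, hz1, sub_neg_eq_add] at h1
      have e2 : |(2 : ℝ)| * 1 = 2 := by norm_num
      rw [e2, max_eq_left (by norm_num : (1 : ℝ) ≤ 2)] at h1
      have h2 : fsn M t (z'' + z) = 2 := by
        rcases max_choice (fsn M t (z'' + z)) 1 with h3 | h3
        · rw [h3] at h1
          exact h1.symm
        · rw [h3] at h1
          norm_num at h1
      have h4 := fsn_add_le hM t z'' z
      linarith
    exact sem_eq_of_max_dist_sphere (fsem hM t) (a := z) (a' := z'') hz1 hz''1
      zero_le_one le_rfl (fun x hx => (hmax x hx).symm)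
  by_cases hut : fsn M t u = 1
  · exact hunit hut hz'' hsph
  by_cases hut'' : fsn M t u'' = 1
  · rw [fsn_sub_rev hM]
    exact hunit hut'' hz (fun a ha => (hsph a ha).symm)
  have hlt : fsn M t u < 1 := lt_of_le_of_ne hz hut
  have hlt'' : fsn M t u'' < 1 := lt_of_le_of_ne hz'' hut''
  exact sem_eq_of_trunc_dist_ball (fsem hM t) (z := u) (z'' := u'') hz hz'' (fun a ha => by
    show max (fsn M t (u - a)) 1 = max (fsn M t (u'' - a)) 1
    have ha' : fsn M t a ≤ 1 := ha
    apply le_antisymm
    · apply max_le _ (le_max_right _ _)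
      exact (hL2 a ha' (Or.inr hlt'')).trans (max_le (hz''.trans (le_max_right _ _))
        (le_max_left _ _))
    · apply max_le _ (le_max_right _ _)
      exact (hL1 a ha' (Or.inr hlt)).trans (max_le (hz.trans (le_max_right _ _))
        (le_max_left _ _)))

end FMDet

end Vale.Agent.H23
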