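import Vale.Agent.H23.FMDet
import Vale.Agent.H23.L1Main

/-!
# Tingley's problem for function modules

Let `K` be a compact Hausdorff space and `X` a real normed space on which the algebra `C(K, ℝ)`
acts by linear maps `M φ`, multiplicatively and unitally, in such a way that
`‖M φ x + M ψ y‖ ≤ max ‖x‖ ‖y‖` whenever `φ, ψ ≥ 0` and `φ + ψ ≤ 1`. Assume that some `M φ`
is not a scalar multiple of the identity. Then for every real Banach space `Y`, every surjective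
isometry from the unit sphere of `X` onto the unit sphere of `Y` is the restriction of a
surjective real-linear isometry.
-/

namespace Vale.Agent.H23

section FMMain

variable {K X Y : Type*} [TopologicalSpace K] [CompactSpace K] [T2Space K]
  [NormedAddCommGroup X] [NormedSpace ℝ X] [NormedAddCommGroup Y] [NormedSpace ℝ Y]
  {M : C(K, ℝ) → X →ₗ[ℝ] X} {G : X → Y}

/-- A linear map on a subspace agreeing with `G` on unit vectors is the positively homogeneous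
extension of `G`. -/
lemma linear_eq_hext_subF {W : Submodule ℝ X} (Λ : W →ₗ[ℝ] Y)
    (hΛ : ∀ u, ‖u‖ = 1 → Λ u = G (u : X)) (u : W) : Λ u = hext G (u : X) := by
  rcases eq_or_ne u 0 with rfl | hne
  · rw [map_zero, Submodule.coe_zero, hext_zero]
  · have h1 : ‖‖u‖⁻¹ • u‖ = 1 := norm_inv_smul_self hne
    have h2 := hΛ _ h1
    rw [map_smul, Submodule.coe_smul] at h2
    unfold hext
    rw [← Submodule.coe_norm, ← h2, smul_smul, mul_inv_cancel₀ (norm_ne_zero_iff.mpr hne),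
      one_smul]

/-- Two cutting functions with disjoint bands and a scalar function equal to `0` on the first
band and to `1` on the second. -/
lemma exists_two_cuttersF {h₀ : C(K, ℝ)} {t₁ t₂ : K} (h0t₁ : h₀ t₁ = 0) (h0t₂ : h₀ t₂ = 1)
    (ht₁ : ∃ x, fsn M t₁ x ≠ 0) (ht₂ : ∃ x, fsn M t₂ x ≠ 0) :
    ∃ h₁ h₂ φ : C(K, ℝ), IsCutterF M h₁ ∧ IsCutterF M h₂ ∧
      (∀ s ∈ bandSet h₁, φ s = 0) ∧ ∀ s ∈ bandSet h₂, φ s = 1 := by
  obtain ⟨x₁, hx₁⟩ := ht₁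
  obtain ⟨x₂, hx₂⟩ := ht₂
  refine ⟨⟨fun s => 5 * h₀ s - 1, (continuous_const.mul h₀.continuous).sub continuous_const⟩,
    ⟨fun s => 5 * h₀ s - 3, (continuous_const.mul h₀.continuous).sub continuous_const⟩,
    clampFn ⟨fun s => 5 * h₀ s - 2, (continuous_const.mul h₀.continuous).sub continuous_const⟩,
    ⟨⟨t₁, x₁, ?_, hx₁⟩, ⟨t₂, x₂, ?_, hx₂⟩⟩, ⟨⟨t₁, x₁, ?_, hx₁⟩, ⟨t₂, x₂, ?_, hx₂⟩⟩, ?_, ?_⟩
  · show 5 * h₀ t₁ - 1 < 0
    rw [h0t₁]; norm_num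
  · show 1 < 5 * h₀ t₂ - 1
    rw [h0t₂]; norm_num
  · show 5 * h₀ t₁ - 3 < 0
    rw [h0t₁]; norm_num
  · show 1 < 5 * h₀ t₂ - 3
    rw [h0t₂]; norm_num
  · intro s hs
    have h2 : 5 * h₀ s - 1 ≤ 1 := hs.2
    apply clampFn_of_nonpos
    show 5 * h₀ s - 2 ≤ 0
    linarith
  · intro s hs
    have h1 : 0 ≤ 5 * h₀ s - 3 := hs.1
    apply clampFn_of_one_le
    show 1 ≤ 5 * h₀ s - 2
    linarith

omit [CompactSpace K] [T2Space K] in
/-- Every point is separated by a continuous scalar function from a point where some fiber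
seminorm does not vanish. -/
lemma exists_farF {h₀ : C(K, ℝ)} {t₁ t₂ : K} (h0t₁ : h₀ t₁ = 0) (h0t₂ : h₀ t₂ = 1)
    (ht₁ : ∃ x, fsn M t₁ x ≠ 0) (ht₂ : ∃ x, fsn M t₂ x ≠ 0) (t : K) :
    ∃ d : C(K, ℝ), d t = 0 ∧ ∃ t' x, 1 ≤ d t' ∧ fsn M t' x ≠ 0 := by
  obtain ⟨x₁, hx₁⟩ := ht₁
  obtain ⟨x₂, hx₂⟩ := ht₂
  refine ⟨⟨fun s => 2 * |h₀ s - h₀ t|,
    continuous_const.mul (continuous_abs.comp (h₀.continuous.sub continuous_const))⟩, ?_, ?_⟩
  · show 2 * |h₀ t - h₀ t| = 0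
    rw [sub_self, abs_zero, mul_zero]
  · rcases le_or_gt (h₀ t) (1 / 2) with h1 | h1
    · refine ⟨t₂, x₂, ?_, hx₂⟩
      show 1 ≤ 2 * |h₀ t₂ - h₀ t|
      rw [h0t₂, abs_of_nonneg (by linarith)]
      linarith
    · refine ⟨t₁, x₁, ?_, hx₁⟩
      show 1 ≤ 2 * |h₀ t₁ - h₀ t|
      rw [h0t₁, zero_sub, abs_neg, abs_of_nonneg (by linarith)]
      linarith

/-- Gluing: a linear map on `X` which agrees with the homogeneous extension of `G` on all cut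
vectors, and which is killed at vectors vanishing at `t` by the height functionals at `t`. -/
lemma exists_glueF [CompleteSpace Y] (hG : SIso G) (hM : IsFunMod M)
    {h₀ : C(K, ℝ)} {t₁ t₂ : K} (h0t₁ : h₀ t₁ = 0) (h0t₂ : h₀ t₂ = 1)
    (ht₁ : ∃ x, fsn M t₁ x ≠ 0) (ht₂ : ∃ x, fsn M t₂ x ≠ 0) :
    ∃ Lm : X →ₗ[ℝ] Y,
      (∀ (h : C(K, ℝ)) (u : X), IsCutterF M h → u ∈ bandIdealF hM h → Lm u = hext G u) ∧
      ∀ (t : K) (e : X) (ψ : Y →L[ℝ] ℝ) (u : X), IsPeak M t e → IsHeightF M G t e ψ →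
        fsn M t u = 0 → ψ (Lm u) = 0 := by
  obtain ⟨h₁, h₂, φ, hc₁, hc₂, hφ₁, hφ₂⟩ := exists_two_cuttersF h0t₁ h0t₂ ht₁ ht₂
  obtain ⟨Λ₁, -, hΛ₁⟩ := exists_band_linearF hG hM hc₁
  obtain ⟨Λ₂, -, hΛ₂⟩ := exists_band_linearF hG hM hc₂
  have hm₁ : ∀ u : X, M φ u ∈ bandIdealF hM h₁ := by
    intro u s hs
    rw [fsn_map hM, hφ₁ s hs, abs_zero, zero_mul]
  have hm₂ : ∀ u : X, ((LinearMap.id : X →ₗ[ℝ] X) - M φ) u ∈ bandIdealF hM h₂ := by
    intro u s hs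
    show fsn M s (u - M φ u) = 0
    rw [fsn_sub_rev hM, fsn_map_sub_self hM, hφ₂ s hs, sub_self, abs_zero, zero_mul]
  obtain ⟨Lm, hLdef⟩ : ∃ Lm : X →ₗ[ℝ] Y,
      Lm = Λ₁.comp (LinearMap.codRestrict _ (M φ) hm₁) +
        Λ₂.comp (LinearMap.codRestrict _ ((LinearMap.id : X →ₗ[ℝ] X) - M φ) hm₂) :=
    ⟨_, rfl⟩
  have hLval : ∀ u : X, Lm u = hext G (M φ u) + hext G (u - M φ u) := by
    intro u
    rw [hLdef, LinearMap.add_apply, LinearMap.comp_apply, LinearMap.comp_apply,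
      linear_eq_hext_subF Λ₁ hΛ₁, linear_eq_hext_subF Λ₂ hΛ₂]
    rfl
  refine ⟨Lm, ?_, ?_⟩
  · intro h u hcut hu
    obtain ⟨Λ, -, hΛ⟩ := exists_band_linearF hG hM hcut
    have hv : M φ u ∈ bandIdealF hM h := by
      intro s hs
      rw [fsn_map hM, hu s hs, mul_zero]
    have hw : u - M φ u ∈ bandIdealF hM h := (bandIdealF hM h).sub_mem hu hv
    have e1 := linear_eq_hext_subF Λ hΛ ⟨_, hv⟩
    have e2 := linear_eq_hext_subF Λ hΛ ⟨_, hw⟩
    have e3 := linear_eq_hext_subF Λ hΛ ⟨_, hu⟩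
    have e4 : (⟨_, hv⟩ : bandIdealF hM h) + ⟨_, hw⟩ = ⟨_, hu⟩ := by
      apply Subtype.ext
      show M φ u + (u - M φ u) = u
      abel
    rw [hLval, ← e1, ← e2, ← map_add, e4, e3]
  · intro t e ψ u he hψ hut
    rw [hLval, map_add,
      height_hext_zeroF hG hM he hψ (v := M φ u) (by rw [fsn_map hM, hut, mul_zero]),
      height_hext_zeroF hG hM he hψ (v := u - M φ u)
        (by rw [fsn_sub_rev hM, fsn_map_sub_self hM, hut, mul_zero]), add_zero]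

/-- Values of the height functionals at `t` on the glued linear map: they only depend on the
vector at `t`. -/
lemma glue_heightF (hG : SIso G) (hM : IsFunMod M)
    (hK : ∀ t : K, ∃ d : C(K, ℝ), d t = 0 ∧ ∃ t' x, 1 ≤ d t' ∧ fsn M t' x ≠ 0)
    {Lm : X →ₗ[ℝ] Y}
    (hL1 : ∀ (h : C(K, ℝ)) (u : X), IsCutterF M h → u ∈ bandIdealF hM h → Lm u = hext G u)
    (hL2 : ∀ (t : K) (e : X) (ψ : Y →L[ℝ] ℝ) (u : X), IsPeak M t e → IsHeightF M G t e ψ →
      fsn M t u = 0 → ψ (Lm u) = 0)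
    {t : K} {e : X} (he : IsPeak M t e) {ψ : Y →L[ℝ] ℝ} (hψ : IsHeightF M G t e ψ) (u : X) :
    ψ (Lm u) ≤ fsn M t u ∧
      ∀ ρ : ℝ, 0 ≤ ρ → fsn M t (u - ρ • e) = 0 → ψ (Lm u) = ρ := by
  have ht : ∃ x, fsn M t x ≠ 0 := ⟨e, by rw [he.2]; exact one_ne_zero⟩
  -- a cut bump at `t` on whose support `u` is almost as small as at `t`
  have hpack : ∀ ε : ℝ, 0 < ε → ∃ h η : C(K, ℝ), IsCutterF M h ∧ η t = 1 ∧
      M η u ∈ bandIdealF hM h ∧ ‖M η u‖ ≤ fsn M t u + ε := by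
    intro ε hε
    obtain ⟨h, β, η, hcut, -, hηt, hη0, hηβ, hβ1, hband, -, hnear⟩ :=
      exists_cut_packageF hK ht (isOpen_fsn_lt M u (fsn M t u + ε)) (t := t) (by
        show fsn M t u < fsn M t u + ε
        linarith)
    refine ⟨h, η, hcut, hηt, fun s hs => ?_, ?_⟩
    · rw [fsn_map hM, (hband s hs).2, abs_zero, zero_mul]
    · apply norm_map_le hM hη0 (fun s => (hηβ s).trans (hβ1 s))
        (by linarith [fsn_nonneg M t u])
      intro s hs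
      have hβs : β s ≠ 0 := by
        intro h0
        exact hs (le_antisymm (by rw [← h0]; exact hηβ s) (hη0 s))
      exact le_of_lt (hnear s hβs)
  -- reduction to the bump
  have hred : ∀ η : C(K, ℝ), η t = 1 → ψ (Lm u) = ψ (Lm (M η u)) := by
    intro η hηt
    have e1 : u = (u - M η u) + M η u := by rw [sub_add_cancel]
    have h0 : ψ (Lm (u - M η u)) = 0 := by
      apply hL2 t e ψ _ he hψ
      rw [fsn_sub_rev hM, fsn_map_sub_self hM, hηt, sub_self, abs_zero, zero_mul]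
    conv_lhs => rw [e1]
    rw [map_add, map_add, h0, zero_add]
  have hle : ∀ y, ψ y ≤ ‖y‖ := hψ.1
  have hfirst : ψ (Lm u) ≤ fsn M t u := by
    apply le_of_forall_pos_le_add
    intro ε hε
    obtain ⟨h, η, hcut, hηt, hmem, hnorm⟩ := hpack ε hε
    rw [hred η hηt, hL1 h _ hcut hmem]
    exact (height_hext_leF hG hle _).trans hnorm
  refine ⟨hfirst, fun ρ hρ hut => ?_⟩
  have hnormt : fsn M t u = ρ := by
    rw [fsn_eq_of_sub hM hut, fsn_smul, he.2, mul_one, abs_of_nonneg hρ]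
  apply le_antisymm
  · rw [← hnormt]
    exact hfirst
  · rcases eq_or_lt_of_le hρ with h0 | hpos
    · rw [← h0]
      rw [← h0] at hnormt
      exact (hL2 t e ψ u he hψ hnormt).ge
    · obtain ⟨h, η, hcut, hηt, hmem, -⟩ := hpack 1 one_pos
      obtain ⟨v, hvdef⟩ : ∃ v : X, v = M η u := ⟨_, rfl⟩
      have hvu : fsn M t (v - u) = 0 := by
        rw [hvdef, fsn_map_sub_self hM, hηt, sub_self, abs_zero, zero_mul]
      have hvt : fsn M t v = ρ := by rw [fsn_eq_of_sub hM hvu, hnormt]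
      have hNρ : ρ ≤ ‖v‖ := by
        rw [← hvt]
        exact fsn_le_norm hM t v
      have hNpos : 0 < ‖v‖ := lt_of_lt_of_le hpos hNρ
      have hvne : v ≠ 0 := norm_pos_iff.mp hNpos
      rw [hred η hηt, hL1 h _ hcut hmem, ← hvdef]
      unfold hext
      rw [map_smul, smul_eq_mul]
      have h2 := (height_boundsF hG hM he hψ (norm_inv_smul_self hvne)).1
      have hle1 : ‖v‖⁻¹ * ρ ≤ 1 := by
        rw [inv_mul_le_iff₀ hNpos, mul_one]
        exact hNρ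
      have h3 : fsn M t (‖v‖⁻¹ • v - e) = 1 - ‖v‖⁻¹ * ρ := by
        have e2 : ‖v‖⁻¹ • v - e - ((‖v‖⁻¹ * ρ - 1) • e) =
            ‖v‖⁻¹ • ((v - u) + (u - ρ • e)) := by
          module
        have h4 : fsn M t (‖v‖⁻¹ • v - e - ((‖v‖⁻¹ * ρ - 1) • e)) = 0 := by
          rw [e2, fsn_smul]
          have h5 : fsn M t ((v - u) + (u - ρ • e)) = 0 := by
            apply le_antisymm _ (fsn_nonneg M t _)
            calc fsn M t ((v - u) + (u - ρ • e)) ≤ fsn M t (v - u) + fsn M t (u - ρ • e) :=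
                  fsn_add_le hM t _ _
              _ = 0 := by rw [hvu, hut, add_zero]
          rw [h5, mul_zero]
        rw [fsn_eq_of_sub hM h4, fsn_smul, he.2, mul_one, abs_of_nonpos (by linarith)]
        ring
      rw [h3] at h2
      have h6 : ‖v‖⁻¹ * ρ ≤ ψ (G (‖v‖⁻¹ • v)) := by linarith
      calc ρ = ‖v‖ * (‖v‖⁻¹ * ρ) := by
            rw [← mul_assoc, mul_inv_cancel₀ hNpos.ne', one_mul]
        _ ≤ ‖v‖ * ψ (G (‖v‖⁻¹ • v)) := mul_le_mul_of_nonneg_left h6 hNpos.le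

/-- The glued linear map is an isometry. -/
lemma glue_normF (hG : SIso G) (hM : IsFunMod M)
    (hK : ∀ t : K, ∃ d : C(K, ℝ), d t = 0 ∧ ∃ t' x, 1 ≤ d t' ∧ fsn M t' x ≠ 0)
    {Lm : X →ₗ[ℝ] Y}
    (hL1 : ∀ (h : C(K, ℝ)) (u : X), IsCutterF M h → u ∈ bandIdealF hM h → Lm u = hext G u)
    (hL2 : ∀ (t : K) (e : X) (ψ : Y →L[ℝ] ℝ) (u : X), IsPeak M t e → IsHeightF M G t e ψ →
      fsn M t u = 0 → ψ (Lm u) = 0)
    (u : X) : ‖Lm u‖ = ‖u‖ := by
  apply le_antisymm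
  · rcases eq_or_ne (Lm u) 0 with h0 | hne0
    · rw [h0, norm_zero]
      exact norm_nonneg _
    · obtain ⟨v, hv1, hGv⟩ := hG.surj _ (norm_inv_smul_self hne0)
      have hvne : v ≠ 0 := by
        intro h0
        rw [h0, norm_zero] at hv1
        exact zero_ne_one hv1
      obtain ⟨t, ht⟩ := exists_fsn_eq_norm hM hvne
      rw [hv1] at ht
      have hpeak : IsPeak M t v := ⟨hv1, ht⟩
      obtain ⟨ψ, hψ⟩ := exists_isHeightF hG hM hpeak
      have h1 : ψ (G v) = 1 := hψ.2.1 v hv1 (by rw [sub_self, fsn_zero hM])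
      have h2 : ψ (Lm u) = ‖Lm u‖ := by
        have e : ψ (Lm u) = ψ (‖Lm u‖ • (‖Lm u‖⁻¹ • Lm u)) := by rw [norm_smul_inv_smul_self]
        rw [e, map_smul, ← hGv, h1, smul_eq_mul, mul_one]
      have h3 := (glue_heightF hG hM hK hL1 hL2 hpeak hψ u).1
      rw [h2] at h3
      exact h3.trans (fsn_le_norm hM t u)
  · rcases eq_or_ne u 0 with rfl | hne0
    · rw [norm_zero]
      exact norm_nonneg _
    · obtain ⟨t, ht⟩ := exists_fsn_eq_norm hM hne0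
      have hpos : 0 < ‖u‖ := norm_pos_iff.mpr hne0
      have hpeak : IsPeak M t (‖u‖⁻¹ • u) :=
        ⟨norm_inv_smul_self hne0, by
          rw [fsn_smul, ht, abs_of_pos (inv_pos.mpr hpos), inv_mul_cancel₀ hpos.ne']⟩
      obtain ⟨ψ, hψ⟩ := exists_isHeightF hG hM hpeak
      have h3 := (glue_heightF hG hM hK hL1 hL2 hpeak hψ u).2 ‖u‖ (norm_nonneg _) (by
        rw [norm_smul_inv_smul_self, sub_self, fsn_zero hM])
      have h4 := hψ.1 (Lm u)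
      rw [h3] at h4
      exact h4

/-- Main theorem in function form: `G` agrees on the unit sphere of `X` with a linear
isometry. -/
theorem exists_linearF [CompleteSpace Y] (hG : SIso G) (hM : IsFunMod M)
    {h₀ : C(K, ℝ)} {t₁ t₂ : K} (h0t₁ : h₀ t₁ = 0) (h0t₂ : h₀ t₂ = 1)
    (ht₁ : ∃ x, fsn M t₁ x ≠ 0) (ht₂ : ∃ x, fsn M t₂ x ≠ 0) :
    ∃ Lm : X →ₗ[ℝ] Y, (∀ u, ‖Lm u‖ = ‖u‖) ∧ ∀ u : X, ‖u‖ = 1 → Lm u = G u := by
  have hK : ∀ t : K, ∃ d : C(K, ℝ), d t = 0 ∧ ∃ t' x, 1 ≤ d t' ∧ fsn M t' x ≠ 0 :=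
    exists_farF h0t₁ h0t₂ ht₁ ht₂
  obtain ⟨Lm, hL1, hL2⟩ := exists_glueF hG hM h0t₁ h0t₂ ht₁ ht₂
  have hnorm : ∀ u, ‖Lm u‖ = ‖u‖ := fun u => glue_normF hG hM hK hL1 hL2 u
  refine ⟨Lm, hnorm, fun u hu1 => ?_⟩
  obtain ⟨u'', hu''1, hGu''⟩ := hG.surj (Lm u) (by rw [hnorm, hu1])
  have hdist : ∀ (h : C(K, ℝ)) (w : X), IsCutterF M h → w ∈ bandIdealF hM h →
      ‖w‖ = 1 → ‖u - w‖ = ‖u'' - w‖ := by
    intro h w hcut hw hw1
    have e1 : Lm w = G w := by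
      rw [hL1 h w hcut hw]
      exact hext_of_norm_one G hw1
    have e2 : ‖u - w‖ = ‖Lm (u - w)‖ := by rw [hnorm]
    rw [e2, map_sub, e1, ← hGu'']
    exact hG.dist_map u'' w hu''1 hw1
  have hfin := eq_of_dist_cutF hM hK hu1 hu''1 hdist
  rw [← hGu'', hfin]

/-- Let `K` be a compact Hausdorff space and let the algebra `C(K, ℝ)` act on the real normed
space `X` through an algebra homomorphism `M` into the linear endomorphisms of `X` such that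
`‖M φ x + M ψ y‖ ≤ max ‖x‖ ‖y‖` whenever `φ, ψ ≥ 0` and `φ + ψ ≤ 1`. If some `M φ` is not a
scalar multiple of the identity, then for every real Banach space `Y`, every surjective isometry
from the unit sphere of `X` onto the unit sphere of `Y` is the restriction of a surjective
real-linear isometry. -/
theorem exists_linearIsometryEquiv_funMod [CompleteSpace Y]
    (M : C(K, ℝ) →ₐ[ℝ] Module.End ℝ X)
    (hmp : ∀ (φ ψ : C(K, ℝ)) (x y : X), (∀ t, 0 ≤ φ t) → (∀ t, 0 ≤ ψ t) →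
      (∀ t, φ t + ψ t ≤ 1) → ‖M φ x + M ψ y‖ ≤ max ‖x‖ ‖y‖)
    (hnt : ∃ φ : C(K, ℝ), ∀ c : ℝ, ∃ x : X, M φ x ≠ c • x)
    (f : Metric.sphere (0 : X) 1 → Metric.sphere (0 : Y) 1) (hf : Isometry f)
    (hsurj : Function.Surjective f) :
    ∃ T : X ≃ₗᵢ[ℝ] Y, ∀ p : Metric.sphere (0 : X) 1, T (p : X) = (f p : Y) := by
  have hM : IsFunMod (fun φ => (M φ : X →ₗ[ℝ] X)) := by
    refine ⟨fun x => ?_, fun φ ψ x => ?_, fun φ ψ x => ?_, fun c φ x => ?_, hmp⟩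
    · show M 1 x = x
      rw [map_one]
      rfl
    · show M (φ * ψ) x = M φ (M ψ x)
      rw [map_mul]
      rfl
    · show M (φ + ψ) x = M φ x + M ψ x
      rw [map_add]
      rfl
    · show M (c • φ) x = c • M φ x
      rw [map_smul]
      rfl
  obtain ⟨φ, hφ⟩ := hnt
  -- a first point of the support
  obtain ⟨x₀, hx₀⟩ := hφ 0
  have hx₀ne : x₀ ≠ 0 := by
    intro h0
    apply hx₀
    rw [h0, map_zero, smul_zero]
  obtain ⟨t₁, ht₁⟩ := exists_fsn_eq_norm hM hx₀ne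
  have hx₀t₁ : fsn (fun φ => (M φ : X →ₗ[ℝ] X)) t₁ x₀ ≠ 0 := by
    rw [ht₁]
    exact norm_ne_zero_iff.mpr hx₀ne
  -- a second point of the support where `φ` takes another value
  obtain ⟨x₁, hx₁⟩ := hφ (φ t₁)
  have hdne : M φ x₁ - φ t₁ • x₁ ≠ 0 := sub_ne_zero.mpr hx₁
  obtain ⟨t₂, ht₂⟩ := exists_fsn_eq_norm hM hdne
  have e1 : M φ x₁ - φ t₁ • x₁ = M (φ - φ t₁ • (1 : C(K, ℝ))) x₁ := by
    rw [map_sub, map_smul, map_one]
    rfl
  have h2 : |φ t₂ - φ t₁| * fsn (fun φ => (M φ : X →ₗ[ℝ] X)) t₂ x₁ ≠ 0 := by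
    have h3 := fsn_map hM t₂ (φ - φ t₁ • (1 : C(K, ℝ))) x₁
    have e2 : (φ - φ t₁ • (1 : C(K, ℝ))) t₂ = φ t₂ - φ t₁ := by simp
    rw [e2] at h3
    rw [← h3]
    show fsn (fun φ => (M φ : X →ₗ[ℝ] X)) t₂ (M (φ - φ t₁ • (1 : C(K, ℝ))) x₁) ≠ 0
    rw [← e1, ht₂]
    exact norm_ne_zero_iff.mpr hdne
  have hval : φ t₂ - φ t₁ ≠ 0 := by
    intro h0
    apply h2
    rw [h0, abs_zero, zero_mul]
  have hx₁t₂ : fsn (fun φ => (M φ : X →ₗ[ℝ] X)) t₂ x₁ ≠ 0 := by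
    intro h0
    apply h2
    rw [h0, mul_zero]
  obtain ⟨hn, hndef⟩ : ∃ hn : C(K, ℝ), ∀ s, hn s = (φ s - φ t₁) / (φ t₂ - φ t₁) :=
    ⟨⟨fun s => (φ s - φ t₁) / (φ t₂ - φ t₁), (φ.continuous.sub continuous_const).div_const _⟩,
      fun s => rfl⟩
  have hn1 : hn t₁ = 0 := by rw [hndef, sub_self, zero_div]
  have hn2 : hn t₂ = 1 := by rw [hndef, div_self hval]
  obtain ⟨G, h1, h2', h3, h4⟩ := exists_fun_of_sphere_map f hf hsurj
  have hG : SIso G := ⟨h1, h2', h3⟩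
  obtain ⟨Lm, hnorm, hLG⟩ := exists_linearF hG hM hn1 hn2 ⟨x₀, hx₀t₁⟩ ⟨x₁, hx₁t₂⟩
  let T₀ : X →ₗᵢ[ℝ] Y := ⟨Lm, hnorm⟩
  have hT₀ : Function.Surjective T₀ := by
    intro y
    rcases eq_or_ne y 0 with rfl | hy
    · exact ⟨0, map_zero _⟩
    · obtain ⟨u, hu1, hgu⟩ := h3 _ (norm_inv_smul_self hy)
      refine ⟨‖y‖ • u, ?_⟩
      show Lm (‖y‖ • u) = y
      rw [map_smul, hLG u hu1, hgu, norm_smul_inv_smul_self]
  refine ⟨LinearIsometryEquiv.ofSurjective T₀ hT₀, fun p => ?_⟩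
  show Lm (p : X) = (f p : Y)
  rw [hLG _ (mem_sphere_zero_iff_norm.mp p.2), h4]

end FMMain

end Vale.Agent.H23
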