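import Vale.Agent.H23.FMBase

/-!
# Function modules: truncation

In a function module over a compact Hausdorff space `K`, let the fiber seminorm of `x` at `t` be
at most `1`. Then there is a continuous function `g` with values in `[0, 1]` and `g t = 1` such
that `M g x` has norm at most `1`. The function `g` is a series of bumps at `t` living in
smaller and smaller neighbourhoods of `t`.
-/

namespace Vale.Agent.H23

section FMTrunc

variable {K X : Type*} [TopologicalSpace K] [CompactSpace K] [T2Space K]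
  [NormedAddCommGroup X] [NormedSpace ℝ X] {M : C(K, ℝ) → X →ₗ[ℝ] X}

lemma geom_partial (n : ℕ) : ∑ k ∈ Finset.range n, (1 : ℝ) / 2 / 2 ^ k = 1 - (1 / 2) ^ n := by
  induction n with
  | zero => simp
  | succ n ih =>
    have e : (1 : ℝ) / 2 / 2 ^ n = (1 / 2) ^ n * (1 / 2) := by
      rw [one_div_pow]
      ring
    rw [Finset.sum_range_succ, ih, e, pow_succ]
    ring

/-- Truncation: a vector whose fiber seminorm at `t` is at most `1` can be multiplied by a
function with values in `[0, 1]`, equal to `1` at `t`, so as to have norm at most `1`. -/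
lemma exists_trunc (hM : IsFunMod M) {t : K} {x : X} (h : fsn M t x ≤ 1) :
    ∃ g : C(K, ℝ), (∀ s, 0 ≤ g s) ∧ (∀ s, g s ≤ 1) ∧ g t = 1 ∧ ‖M g x‖ ≤ 1 := by
  classical
  obtain ⟨U, hUdef⟩ : ∃ U : ℕ → Set K,
      ∀ m s, s ∈ U m ↔ fsn M s x * (1 - (1 / 2) ^ m) < 1 :=
    ⟨fun m => {s | fsn M s x * (1 - (1 / 2) ^ m) < 1}, fun m s => Iff.rfl⟩
  have hUopen : ∀ m, IsOpen (U m) := by
    intro m
    rcases Nat.eq_zero_or_pos m with rfl | hm
    · have e : U 0 = Set.univ := by
        ext s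
        rw [hUdef]
        simp
      rw [e]
      exact isOpen_univ
    · have hpos : 0 < 1 - (1 / 2 : ℝ) ^ m := by
        have : (1 / 2 : ℝ) ^ m < 1 := pow_lt_one₀ (by norm_num) (by norm_num) hm.ne'
        linarith
      have e : U m = {s | fsn M s x < 1 / (1 - (1 / 2) ^ m)} := by
        ext s
        rw [hUdef]
        show fsn M s x * (1 - (1 / 2) ^ m) < 1 ↔ fsn M s x < 1 / (1 - (1 / 2) ^ m)
        rw [lt_div_iff₀ hpos]
      rw [e]
      exact isOpen_fsn_lt M x _
  have htU : ∀ m, t ∈ U m := by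
    intro m
    rw [hUdef]
    have h1 : (0 : ℝ) < (1 / 2) ^ m := by positivity
    have h2 : (1 / 2 : ℝ) ^ m ≤ 1 := pow_le_one₀ (by norm_num) (by norm_num)
    have h3 := mul_le_mul_of_nonneg_right h (sub_nonneg.mpr h2)
    linarith
  have hUanti : ∀ m, U (m + 1) ⊆ U m := by
    intro m s hs
    rw [hUdef] at hs ⊢
    have h3 := fsn_nonneg M s x
    have h4 : (1 / 2 : ℝ) ^ (m + 1) ≤ (1 / 2) ^ m := by
      rw [pow_succ]
      have : (0 : ℝ) ≤ (1 / 2) ^ m := by positivity
      nlinarith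
    nlinarith
  have hUanti' : ∀ m n, m ≤ n → U n ⊆ U m := by
    intro m n hmn
    induction n, hmn using Nat.le_induction with
    | base => exact subset_rfl
    | succ n _ ih => exact (hUanti n).trans ih
  have hbump : ∀ m, ∃ κ : C(K, ℝ), κ t = 1 ∧ (∀ s, 0 ≤ κ s) ∧ (∀ s, κ s ≤ 1) ∧
      ∀ s, s ∉ U m → κ s = 0 := fun m => exists_bump (hUopen m) (htU m)
  choose κ hκt hκ0 hκ1 hκU using hbump
  obtain ⟨w, hwdef⟩ : ∃ w : ℕ → ℝ, w = fun k => 1 / 2 / 2 ^ k := ⟨_, rfl⟩
  have hw0 : ∀ k, 0 ≤ w k := fun k => by rw [hwdef]; positivity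
  have hwsum : HasSum w 1 := by rw [hwdef]; exact hasSum_geometric_two' 1
  have hle : ∀ k s, w k * κ (k + 1) s ≤ w k := by
    intro k s
    calc w k * κ (k + 1) s ≤ w k * 1 := mul_le_mul_of_nonneg_left (hκ1 _ s) (hw0 k)
      _ = w k := mul_one _
  have hterm : ∀ k s, ‖w k * κ (k + 1) s‖ ≤ w k := by
    intro k s
    rw [Real.norm_eq_abs, abs_of_nonneg (mul_nonneg (hw0 k) (hκ0 _ s))]
    exact hle k s
  have hcont : Continuous fun s => ∑' k, w k * κ (k + 1) s :=
    continuous_tsum (fun k => continuous_const.mul (κ (k + 1)).continuous) hwsum.summable hterm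
  obtain ⟨g, hgdef⟩ : ∃ g : C(K, ℝ), ∀ s, g s = ∑' k, w k * κ (k + 1) s :=
    ⟨⟨_, hcont⟩, fun s => rfl⟩
  have hsumm : ∀ s, Summable fun k => w k * κ (k + 1) s := fun s =>
    Summable.of_nonneg_of_le (fun k => mul_nonneg (hw0 k) (hκ0 _ s)) (fun k => hle k s)
      hwsum.summable
  have hg0 : ∀ s, 0 ≤ g s := fun s => by
    rw [hgdef]
    exact tsum_nonneg fun k => mul_nonneg (hw0 k) (hκ0 _ s)
  have hg1 : ∀ s, g s ≤ 1 := by
    intro s
    rw [hgdef, ← hwsum.tsum_eq]
    exact (hsumm s).tsum_le_tsum (fun k => hle k s) hwsum.summable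
  have hgt : g t = 1 := by
    rw [hgdef]
    have e : (fun k => w k * κ (k + 1) t) = w := by
      funext k
      rw [hκt, mul_one]
    rw [e]
    exact hwsum.tsum_eq
  refine ⟨g, hg0, hg1, hgt, ?_⟩
  apply norm_le_of_forall_fsn_le hM zero_le_one
  intro s
  rw [fsn_map hM, abs_of_nonneg (hg0 s)]
  by_cases hall : ∀ m, s ∈ U m
  · have hle1 : fsn M s x ≤ 1 := by
      by_contra hgt1
      have hgt1' : 1 < fsn M s x := not_le.mp hgt1
      have hfpos : 0 < fsn M s x := by linarith
      have hpos : 0 < (fsn M s x - 1) / fsn M s x := div_pos (by linarith) hfpos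
      obtain ⟨m, hm⟩ := exists_pow_lt_of_lt_one hpos (by norm_num : (1 / 2 : ℝ) < 1)
      have h6 := (hUdef m s).mp (hall m)
      have h7 : (1 / 2 : ℝ) ^ m * fsn M s x < fsn M s x - 1 := (lt_div_iff₀ hfpos).mp hm
      nlinarith
    calc g s * fsn M s x ≤ 1 * 1 := mul_le_mul (hg1 s) hle1 (fsn_nonneg M s x) zero_le_one
      _ = 1 := one_mul 1
  · have hex : ∃ m, s ∉ U m := by
      by_contra hcon
      exact hall fun m => by
        by_contra hm
        exact hcon ⟨m, hm⟩
    have hn : s ∉ U (Nat.find hex) := Nat.find_spec hex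
    have hmin : ∀ m, m < Nat.find hex → s ∈ U m := fun m hm => by
      by_contra hc
      exact Nat.find_min hex hm hc
    have hn0 : Nat.find hex ≠ 0 := by
      intro h0
      rw [h0] at hn
      apply hn
      rw [hUdef]
      simp
    obtain ⟨n, hnn⟩ := Nat.exists_eq_succ_of_ne_zero hn0
    rw [hnn] at hn hmin
    have hsn : s ∈ U n := hmin n (Nat.lt_succ_self n)
    have hzero : ∀ k, k ∉ Finset.range n → w k * κ (k + 1) s = 0 := by
      intro k hk
      have hk' : n ≤ k := by simpa using hk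
      have hnot : s ∉ U (k + 1) := fun hc => hn (hUanti' (n + 1) (k + 1) (by omega) hc)
      rw [hκU (k + 1) s hnot, mul_zero]
    have hgs : g s ≤ 1 - (1 / 2) ^ n := by
      rw [hgdef, tsum_eq_sum hzero, ← geom_partial n]
      apply Finset.sum_le_sum
      intro k _
      have h10 := hle k s
      rw [hwdef] at h10 ⊢
      exact h10
    have h8 := (hUdef n s).mp hsn
    have h9 := fsn_nonneg M s x
    calc g s * fsn M s x ≤ (1 - (1 / 2) ^ n) * fsn M s x := mul_le_mul_of_nonneg_right hgs h9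
      _ = fsn M s x * (1 - (1 / 2) ^ n) := mul_comm _ _
      _ ≤ 1 := h8.le

end FMTrunc

end Vale.Agent.H23
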