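import Vale.Agent.H23.L1Core
import Vale.Agent.H23.ExtremeOp

/-!
# The segment property at extreme poles

For a pole `(0, b₀)` with `b₀` an extreme point of the unit ball of `X₂` (in the metric form
`MExt`), the straight segments from the images of the poles of `X₁` to the image of `(0, b₀)` are
the images of the segments `[(κ a, 0), (0, b₀)]` for an isometric self-embedding `κ` of the unit
sphere of `X₁` with `‖(1 - t) • κ a - a‖ = t`. Whenever such a `κ` is forced to be the identity,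
`g` maps the segments from the first summand to `(0, b₀)` affinely.
-/

namespace Vale.Agent.H23

section MExtDef

variable {E : Type*} [NormedAddCommGroup E] [NormedSpace ℝ E]

/-- `b` is a unit vector such that every point metrically between `0` and `b` lies on the
segment `[0, b]` (equivalently, `b` is an extreme point of the closed unit ball). -/
def MExt (b : E) : Prop := ‖b‖ = 1 ∧ ∀ d : E, ‖d‖ + ‖b - d‖ = 1 → d = ‖d‖ • b

lemma MExt.neg {b : E} (hb : MExt b) : MExt (-b) := by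
  refine ⟨by rw [norm_neg]; exact hb.1, fun d hd => ?_⟩
  have h := hb.2 (-d) (by
    rw [norm_neg]
    have : b - -d = -(-b - d) := by abel
    rw [this, norm_neg]; exact hd)
  rw [norm_neg] at h
  rw [smul_neg, ← h, neg_neg]

/-- In a strictly convex space every unit vector is extreme. -/
lemma mext_of_strictConvex [StrictConvexSpace ℝ E] {b : E} (hb : ‖b‖ = 1) : MExt b := by
  refine ⟨hb, fun d hd => ?_⟩
  exact eq_smul_of_norm_sub hb (by rw [norm_sub_rev]; linarith)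

/-- A linear isometry `T` with `‖s • T a - a‖ = 1 - s` on the unit sphere is the identity. -/
theorem linearIsometry_eq_self (T : E →ₗᵢ[ℝ] E) {s : ℝ} (hs0 : 0 < s) (hs1 : s < 1)
    (h : ∀ a : E, ‖a‖ = 1 → ‖s • T a - a‖ = 1 - s) (a : E) : T a = a := by
  have h1s : 0 < 1 - s := by linarith
  have hall : ∀ y : E, ‖s • T y - y‖ = (1 - s) * ‖y‖ := by
    intro y
    by_cases hy : y = 0
    · simp [hy]
    · have h1 := h _ (norm_inv_smul_self hy)
      have hyy : ‖y‖ * ‖y‖⁻¹ = 1 := mul_inv_cancel₀ (norm_ne_zero_iff.mpr hy)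
      have a1 : ‖y‖ • (s • T (‖y‖⁻¹ • y)) = s • T y := by
        rw [map_smul, smul_comm s, smul_smul, hyy, one_smul]
      have a2 : ‖y‖ • (‖y‖⁻¹ • y) = y := by rw [smul_smul, hyy, one_smul]
      have e : s • T y - y = ‖y‖ • (s • T (‖y‖⁻¹ • y) - ‖y‖⁻¹ • y) := by
        rw [smul_sub, a1, a2]
      rw [e, norm_smul, h1, norm_norm]; ring
  obtain ⟨A, hA⟩ : ∃ A : E →L[ℝ] E, A = T.toContinuousLinearMap := ⟨_, rfl⟩
  obtain ⟨B, hB⟩ : ∃ B : E →L[ℝ] E, B = (1 - s)⁻¹ • (1 - s • A) := ⟨_, rfl⟩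
  have hAy : ∀ y, A y = T y := fun y => by rw [hA]; rfl
  have hAle : ∀ y, ‖A y‖ ≤ ‖y‖ := fun y => by rw [hAy, T.norm_map]
  have hBle : ∀ y, ‖B y‖ ≤ ‖y‖ := by
    intro y
    have e : B y = (1 - s)⁻¹ • (y - s • T y) := by
      rw [hB]
      simp [hAy]
    rw [e, norm_smul, norm_sub_rev, hall, Real.norm_eq_abs, abs_of_pos (inv_pos.mpr h1s),
      ← mul_assoc, inv_mul_cancel₀ h1s.ne', one_mul]
  have hsum : s • A + (1 - s) • B = 1 := by
    rw [hB, smul_smul, mul_inv_cancel₀ h1s.ne', one_smul]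
    abel
  have := eq_one_of_convex_combo A B hAle hBle hs0 hs1 hsum
  rw [← hAy, this]
  rfl

end MExtDef

section Compact

/-- An isometric self-embedding of a compact metric space is surjective. -/
theorem isometry_surjective_of_compact {α : Type*} [MetricSpace α] [CompactSpace α] (f : α → α)
    (hf : Isometry f) : Function.Surjective f := by
  by_contra hns
  obtain ⟨p, hp⟩ := not_forall.mp hns
  have hclosed : IsClosed (Set.range f) := (isCompact_range hf.continuous).isClosed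
  have hpc : p ∈ (Set.range f)ᶜ := hp
  obtain ⟨ε, hε, hball⟩ := Metric.isOpen_iff.mp hclosed.isOpen_compl p hpc
  have hiter : ∀ (m : ℕ) (x y : α), dist (f^[m] x) (f^[m] y) = dist x y := by
    intro m
    induction m with
    | zero => intro x y; rfl
    | succ m ih =>
      intro x y
      rw [Function.iterate_succ_apply', Function.iterate_succ_apply', hf.dist_eq, ih]
  have hsep : ∀ m n : ℕ, m < n → ε ≤ dist (f^[m] p) (f^[n] p) := by
    intro m n hmn
    obtain ⟨k, rfl⟩ : ∃ k, n = m + (k + 1) := ⟨n - m - 1, by omega⟩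
    have e : f^[m + (k + 1)] p = f^[m] (f^[k + 1] p) := by
      rw [Function.iterate_add_apply]
    rw [e, hiter]
    by_contra hlt
    have hmem : f^[k + 1] p ∈ Metric.ball p ε := by
      rw [Metric.mem_ball, dist_comm]
      exact not_le.mp hlt
    apply hball hmem
    rw [Function.iterate_succ_apply']
    exact ⟨_, rfl⟩
  obtain ⟨a, φ, hφ, hlim⟩ := CompactSpace.tendsto_subseq (fun n => f^[n] p)
  obtain ⟨N, hN⟩ := (Metric.tendsto_atTop.mp hlim) (ε / 2) (by positivity)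
  have h1 := hN N (le_refl N)
  have h2 := hN (N + 1) (Nat.le_succ N)
  have h3 := hsep (φ N) (φ (N + 1)) (hφ (Nat.lt_succ_self N))
  have h4 := dist_triangle_right (f^[φ N] p) (f^[φ (N + 1)] p) a
  simp only [Function.comp_apply] at h1 h2
  linarith

end Compact

section Rigid

variable {E : Type*} [NormedAddCommGroup E] [NormedSpace ℝ E]

/-- In a finite-dimensional space, an isometric self-embedding of the unit sphere is
surjective. -/
lemma sphere_embedding_surjective [FiniteDimensional ℝ E] (κ : E → E)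
    (h1 : ∀ a, ‖a‖ = 1 → ‖κ a‖ = 1)
    (h2 : ∀ a a', ‖a‖ = 1 → ‖a'‖ = 1 → ‖κ a - κ a'‖ = ‖a - a'‖) :
    ∀ w : E, ‖w‖ = 1 → ∃ a, ‖a‖ = 1 ∧ κ a = w := by
  let f : Metric.sphere (0 : E) 1 → Metric.sphere (0 : E) 1 := fun x =>
    ⟨κ (x : E), mem_sphere_zero_iff_norm.mpr (h1 _ (mem_sphere_zero_iff_norm.mp x.2))⟩
  have hf : Isometry f := by
    apply Isometry.of_dist_eq
    intro x y
    rw [Subtype.dist_eq, Subtype.dist_eq, dist_eq_norm, dist_eq_norm]
    exact h2 _ _ (mem_sphere_zero_iff_norm.mp x.2) (mem_sphere_zero_iff_norm.mp y.2)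
  have hs := isometry_surjective_of_compact f hf
  intro w hw
  obtain ⟨x, hx⟩ := hs ⟨w, mem_sphere_zero_iff_norm.mpr hw⟩
  exact ⟨x, mem_sphere_zero_iff_norm.mp x.2, congrArg Subtype.val hx⟩

/-- Rigidity from the Mazur-Ulam property for self-maps: a surjective isometry `κ` of the unit
sphere with `‖(1 - t) • κ a - a‖ = t` is the identity. -/
lemma rigid_of_self
    (hS : ∀ k : E → E, (∀ a, ‖a‖ = 1 → ‖k a‖ = 1) →
      (∀ a b, ‖a‖ = 1 → ‖b‖ = 1 → ‖k a - k b‖ = ‖a - b‖) →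
      (∀ w : E, ‖w‖ = 1 → ∃ a, ‖a‖ = 1 ∧ k a = w) →
      ∃ T : E ≃ₗᵢ[ℝ] E, ∀ a, ‖a‖ = 1 → T a = k a)
    {t : ℝ} (ht0 : 0 < t) (ht1 : t < 1) (κ : E → E) (h1 : ∀ a, ‖a‖ = 1 → ‖κ a‖ = 1)
    (h2 : ∀ a a', ‖a‖ = 1 → ‖a'‖ = 1 → ‖κ a - κ a'‖ = ‖a - a'‖)
    (h3 : ∀ a, ‖a‖ = 1 → ‖(1 - t) • κ a - a‖ = t)
    (hsurj : ∀ w : E, ‖w‖ = 1 → ∃ a, ‖a‖ = 1 ∧ κ a = w) (a : E) (ha : ‖a‖ = 1) : κ a = a := by
  obtain ⟨T, hT⟩ := hS κ h1 h2 hsurj
  have h := linearIsometry_eq_self T.toLinearIsometry (s := 1 - t) (by linarith) (by linarith)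
    (fun a ha => by
      have e : T.toLinearIsometry a = κ a := hT a ha
      rw [e, h3 a ha]; ring) a
  rw [← hT a ha]
  exact h

/-- Rigidity in strictly convex spaces. -/
lemma rigid_of_strictConvex [StrictConvexSpace ℝ E] {t : ℝ} (ht1 : t < 1)
    (κ : E → E) (h1 : ∀ a, ‖a‖ = 1 → ‖κ a‖ = 1)
    (h3 : ∀ a, ‖a‖ = 1 → ‖(1 - t) • κ a - a‖ = t) (a : E) (ha : ‖a‖ = 1) : κ a = a := by
  have hn : ‖(1 - t) • κ a‖ = 1 - t := by
    rw [norm_smul, h1 a ha, mul_one, Real.norm_eq_abs, abs_of_pos (by linarith)]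
  have h := eq_smul_of_norm_sub (c := (1 - t) • κ a) ha (by rw [hn, h3 a ha]; ring)
  rw [hn] at h
  exact smul_right_injective E (by linarith : (1 - t) ≠ 0) h

end Rigid

section Kappa

variable {X₁ X₂ Y : Type*} [NormedAddCommGroup X₁] [NormedSpace ℝ X₁]
  [NormedAddCommGroup X₂] [NormedSpace ℝ X₂] [NormedAddCommGroup Y] [NormedSpace ℝ Y]
  [Nontrivial X₁] [Nontrivial X₂] {g : X₁ → X₂ → Y}

/-- The point of the straight segment from `g a 0` to `g 0 b₀` at parameter `t` is the image of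
a point `((1 - t) • a', t • b₀)`. -/
lemma L1Iso.exists_kappa (hg : L1Iso g) {b₀ : X₂} (hb : MExt b₀) {a : X₁} (ha : ‖a‖ = 1)
    {t : ℝ} (ht0 : 0 < t) (ht1 : t < 1) :
    ∃ a' : X₁, ‖a'‖ = 1 ∧ ‖(1 - t) • a' - a‖ = t ∧
      g ((1 - t) • a') (t • b₀) = (1 - t) • g a 0 + t • g 0 b₀ := by
  have hb1 := hb.1
  have h1t : 0 < 1 - t := by linarith
  have hu : ‖g a 0‖ = 1 := hg.norm_map a 0 (by simp [ha])
  have hv : ‖g 0 b₀‖ = 1 := hg.norm_map 0 b₀ (by simp [hb1])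
  have hn : ‖(1 - t) • g a 0 + t • g 0 b₀‖ = 1 := by
    rw [norm_nonneg_combo hu hv (hg.norm_pole_add ha hb1) h1t.le ht0.le]; ring
  obtain ⟨c, d, hcd, hgcd⟩ := hg.surj _ hn
  have huv : ‖g 0 b₀ - g a 0‖ = 2 := by
    rw [hg.dist_map 0 b₀ a 0 (by simp [hb1]) (by simp [ha]), zero_sub, norm_neg, sub_zero, ha,
      hb1]; norm_num
  have hd1 : ‖c - a‖ + ‖d‖ = 2 * t := by
    have h := hg.dist_map c d a 0 hcd (by simp [ha])
    rw [hgcd, sub_zero] at h
    rw [← h]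
    have e : (1 - t) • g a 0 + t • g 0 b₀ - g a 0 = t • (g 0 b₀ - g a 0) := by module
    rw [e, norm_smul, huv, Real.norm_eq_abs, abs_of_pos ht0]; ring
  have hd2 : ‖c‖ + ‖d - b₀‖ = 2 * (1 - t) := by
    have h := hg.dist_map c d 0 b₀ hcd (by simp [hb1])
    rw [hgcd, sub_zero] at h
    rw [← h]
    have e : (1 - t) • g a 0 + t • g 0 b₀ - g 0 b₀ = (-(1 - t)) • (g 0 b₀ - g a 0) := by module
    rw [e, norm_smul, huv, Real.norm_eq_abs, abs_neg, abs_of_pos h1t]; ring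
  have e1 : 1 - ‖c‖ ≤ ‖c - a‖ := by
    have := norm_sub_norm_le a c
    rw [ha, norm_sub_rev] at this
    exact this
  have e2 : 1 - ‖d‖ ≤ ‖d - b₀‖ := by
    have := norm_sub_norm_le b₀ d
    rw [hb1, norm_sub_rev] at this
    exact this
  have hdn : ‖d‖ = t := by linarith
  have hcn : ‖c‖ = 1 - t := by linarith
  have hd : d = t • b₀ := by
    have := hb.2 d (by rw [norm_sub_rev]; linarith)
    rwa [hdn] at this
  refine ⟨(1 - t)⁻¹ • c, ?_, ?_, ?_⟩
  · rw [norm_smul, hcn, Real.norm_eq_abs, abs_of_pos (inv_pos.mpr h1t), inv_mul_cancel₀ h1t.ne']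
  · rw [smul_smul, mul_inv_cancel₀ h1t.ne', one_smul]; linarith
  · rw [smul_smul, mul_inv_cancel₀ h1t.ne', one_smul, ← hd, hgcd]

/-- If every isometric self-embedding `κ` of the unit sphere of `X₁` arising from the segments
to the extreme pole `(0, b₀)` is the identity, then `g` maps these segments affinely. -/
lemma L1Iso.segAt_of_mext (hg : L1Iso g) {b₀ : X₂} (hb : MExt b₀)
    (hrig : ∀ t : ℝ, 0 < t → t < 1 → ∀ κ : X₁ → X₁, (∀ a, ‖a‖ = 1 → ‖κ a‖ = 1) →
      (∀ a a', ‖a‖ = 1 → ‖a'‖ = 1 → ‖κ a - κ a'‖ = ‖a - a'‖) →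
      (∀ a, ‖a‖ = 1 → ‖(1 - t) • κ a - a‖ = t) →
      (∀ a, ‖a‖ = 1 → g ((1 - t) • κ a) (t • b₀) = (1 - t) • g a 0 + t • g 0 b₀) →
      ∀ a, ‖a‖ = 1 → κ a = a)
    (a : X₁) (ha : ‖a‖ = 1) : SegAt g a b₀ := by
  intro t ht0 ht1
  rcases eq_or_lt_of_le ht0 with h0 | h0
  · rw [← h0]; simp
  rcases eq_or_lt_of_le ht1 with h1 | h1
  · rw [h1]; simp
  have hex : ∀ a : X₁, ‖a‖ = 1 → ∃ a' : X₁, ‖a'‖ = 1 ∧ ‖(1 - t) • a' - a‖ = t ∧
      g ((1 - t) • a') (t • b₀) = (1 - t) • g a 0 + t • g 0 b₀ :=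
    fun a ha => hg.exists_kappa hb ha h0 h1
  choose! κ hκ1 hκ3 hκ4 using hex
  have h1t : 0 < 1 - t := by linarith
  have hκ2 : ∀ a a', ‖a‖ = 1 → ‖a'‖ = 1 → ‖κ a - κ a'‖ = ‖a - a'‖ := by
    intro a a' ha ha'
    have hs : ∀ a, ‖a‖ = 1 → ‖(1 - t) • κ a‖ + ‖t • b₀‖ = 1 := by
      intro a ha
      rw [norm_smul, norm_smul, hκ1 a ha, hb.1, Real.norm_eq_abs, Real.norm_eq_abs,
        abs_of_pos h1t, abs_of_pos h0]; ring
    have h := hg.dist_map _ _ _ _ (hs a ha) (hs a' ha')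
    rw [hκ4 a ha, hκ4 a' ha', sub_self, norm_zero, add_zero] at h
    have e1 : (1 - t) • g a 0 + t • g 0 b₀ - ((1 - t) • g a' 0 + t • g 0 b₀)
        = (1 - t) • (g a 0 - g a' 0) := by module
    have e2 : (1 - t) • κ a - (1 - t) • κ a' = (1 - t) • (κ a - κ a') := by module
    rw [e1, e2, norm_smul, norm_smul, hg.dist_map a 0 a' 0 (by simp [ha]) (by simp [ha']),
      sub_self, norm_zero, add_zero] at h
    have h5 : ‖(1 - t : ℝ)‖ ≠ 0 := by
      rw [Real.norm_eq_abs, abs_of_pos h1t]; exact h1t.ne'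
    exact (mul_left_cancel₀ h5 h).symm
  have hid := hrig t h0 h1 κ hκ1 hκ2 hκ3 hκ4 a ha
  have := hκ4 a ha
  rwa [hid] at this

end Kappa

end Vale.Agent.H23
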