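import Vale.Agent.H23.RangeAdd

/-!
# Isometries of the unit sphere of a finite `ℓ¹`-sum of strictly convex spaces

Core argument for `PiLp 1 X`, `X : ι → Type*` a finite family of strictly convex real normed
spaces, phrased for a total function `g : PiLp 1 X → Y` which restricts to a surjective isometry
from the unit sphere of `PiLp 1 X` onto the unit sphere of `Y`.
-/

namespace Vale.Agent.H23

section Generic

variable {E Y : Type*} [NormedAddCommGroup E] [NormedSpace ℝ E]
  [NormedAddCommGroup Y] [NormedSpace ℝ Y]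

/-- `g` restricts to a surjective isometry from the unit sphere of `E` onto the unit sphere of
`Y`. -/
structure SphIso (g : E → Y) : Prop where
  norm_map : ∀ x, ‖x‖ = 1 → ‖g x‖ = 1
  dist_map : ∀ x y, ‖x‖ = 1 → ‖y‖ = 1 → ‖g x - g y‖ = ‖x - y‖
  surj : ∀ w : Y, ‖w‖ = 1 → ∃ x, ‖x‖ = 1 ∧ g x = w

/-- If the norm is additive on `u, v`, it is additive on `u, t • v` for `t ≥ 0`. -/
lemma norm_add_smul_ge {u v : E} (h : ‖u + v‖ = ‖u‖ + ‖v‖) {t : ℝ} (ht : 0 ≤ t) :
    ‖u‖ + t * ‖v‖ ≤ ‖u + t • v‖ := by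
  rcases le_total t 1 with h1 | h1
  · have e : u + v = (u + t • v) + (1 - t) • v := by module
    have h2 : ‖u + v‖ ≤ ‖u + t • v‖ + ‖(1 - t) • v‖ := by
      rw [e]; exact norm_add_le _ _
    rw [norm_smul, Real.norm_eq_abs, abs_of_nonneg (by linarith)] at h2
    nlinarith [norm_nonneg v]
  · have e : t • (u + v) = (u + t • v) + (t - 1) • u := by module
    have h2 : ‖t • (u + v)‖ ≤ ‖u + t • v‖ + ‖(t - 1) • u‖ := by
      rw [e]; exact norm_add_le _ _
    rw [norm_smul, norm_smul, Real.norm_eq_abs, Real.norm_eq_abs, abs_of_nonneg ht,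
      abs_of_nonneg (by linarith), h] at h2
    nlinarith [norm_nonneg u, norm_nonneg v]

/-- Convex combinations of two unit vectors whose sum has norm `2` are unit vectors. -/
lemma norm_combo_of_norm_add {u v : E} (hu : ‖u‖ = 1) (hv : ‖v‖ = 1) (huv : ‖u + v‖ = 2)
    {s : ℝ} (hs0 : 0 ≤ s) (hs1 : s ≤ 1) : ‖s • u + (1 - s) • v‖ = 1 := by
  have h1s : 0 ≤ 1 - s := by linarith
  have up : ‖s • u + (1 - s) • v‖ ≤ 1 := by
    calc ‖s • u + (1 - s) • v‖ ≤ ‖s • u‖ + ‖(1 - s) • v‖ := norm_add_le _ _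
      _ = 1 := by
        rw [norm_smul, norm_smul, hu, hv, Real.norm_eq_abs, Real.norm_eq_abs,
          abs_of_nonneg h1s, abs_of_nonneg hs0]; ring
  have up' : ‖(1 - s) • u + s • v‖ ≤ 1 := by
    calc ‖(1 - s) • u + s • v‖ ≤ ‖(1 - s) • u‖ + ‖s • v‖ := norm_add_le _ _
      _ = 1 := by
        rw [norm_smul, norm_smul, hu, hv, Real.norm_eq_abs, Real.norm_eq_abs,
          abs_of_nonneg h1s, abs_of_nonneg hs0]; ring
  have hsum : u + v = (s • u + (1 - s) • v) + ((1 - s) • u + s • v) := by module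
  have : (2 : ℝ) ≤ ‖s • u + (1 - s) • v‖ + ‖(1 - s) • u + s • v‖ := by
    rw [← huv, hsum]; exact norm_add_le _ _
  linarith

/-- The homogeneous extension of a sphere isometry is an isometry on every sphere centred at
the origin. -/
lemma SphIso.hext_dist {g : E → Y} (hg : SphIso g) {x x' : E} (h : ‖x‖ = ‖x'‖) :
    ‖hext g x - hext g x'‖ = ‖x - x'‖ := by
  by_cases hx : x = 0
  · have hx' : x' = 0 := by
      rw [hx, norm_zero] at h
      exact norm_eq_zero.mp h.symm
    subst hx; subst hx'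
    simp [hext_zero]
  · have hpos : 0 < ‖x‖ := norm_pos_iff.mpr hx
    have hx' : x' ≠ 0 := by
      intro h0
      rw [h0, norm_zero] at h
      exact hx (norm_eq_zero.mp h)
    have h1 : ‖‖x‖⁻¹ • x‖ = 1 := norm_inv_smul_self hx
    have h2 : ‖‖x‖⁻¹ • x'‖ = 1 := by rw [h]; exact norm_inv_smul_self hx'
    have e : hext g x - hext g x' = ‖x‖ • (g (‖x‖⁻¹ • x) - g (‖x‖⁻¹ • x')) := by
      unfold hext
      rw [← h]; module
    rw [e, norm_smul, hg.dist_map _ _ h1 h2, ← smul_sub, norm_smul, Real.norm_eq_abs,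
      Real.norm_eq_abs, abs_of_pos hpos, abs_of_pos (inv_pos.mpr hpos)]
    field_simp

lemma SphIso.hext_surj {g : E → Y} (hg : SphIso g) (w : Y) : ∃ x, hext g x = w := by
  by_cases hw : w = 0
  · exact ⟨0, by rw [hext_zero, hw]⟩
  · obtain ⟨x, hx, hgx⟩ := hg.surj _ (norm_inv_smul_self hw)
    refine ⟨‖w‖ • x, ?_⟩
    have hpos : 0 < ‖w‖ := norm_pos_iff.mpr hw
    unfold hext
    rw [norm_smul, hx, mul_one, Real.norm_eq_abs, abs_of_pos hpos, smul_smul,
      inv_mul_cancel₀ hpos.ne', one_smul, hgx, norm_smul_inv_smul_self]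

end Generic

section Pi

variable {ι : Type*} [Fintype ι] [DecidableEq ι] {X : ι → Type*}
  [∀ i, NormedAddCommGroup (X i)] [∀ i, NormedSpace ℝ (X i)]
  {Y : Type*} [NormedAddCommGroup Y] [NormedSpace ℝ Y]

lemma norm_sub_single (z : PiLp 1 X) (j : ι) (a : X j) :
    ‖z - PiLp.single 1 j a‖ = ‖z j - a‖ + (‖z‖ - ‖z j‖) := by
  rw [PiLp.norm_eq_of_L1, PiLp.norm_eq_of_L1,
    ← Finset.add_sum_erase Finset.univ _ (Finset.mem_univ j),
    ← Finset.add_sum_erase Finset.univ (fun i => ‖z i‖) (Finset.mem_univ j)]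
  have : ∀ k ∈ Finset.univ.erase j, ‖(z - PiLp.single 1 j a) k‖ = ‖z k‖ := by
    intro k hk
    rw [PiLp.sub_apply, PiLp.single_eq_of_ne 1 (Finset.ne_of_mem_erase hk), sub_zero]
  rw [Finset.sum_congr rfl this, PiLp.sub_apply, PiLp.single_eq_same 1]
  ring

lemma norm_add_single (z : PiLp 1 X) (j : ι) (a : X j) :
    ‖z + PiLp.single 1 j a‖ = ‖z j + a‖ + (‖z‖ - ‖z j‖) := by
  have := norm_sub_single z j (-a)
  rw [PiLp.single_neg, sub_neg_eq_add, sub_neg_eq_add] at this
  exact this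

lemma norm_sub_single_self (z : PiLp 1 X) (j : ι) :
    ‖z - PiLp.single 1 j (z j)‖ = ‖z‖ - ‖z j‖ := by
  rw [norm_sub_single, sub_self, norm_zero, zero_add]

lemma eq_single_of_norm_eq {z : PiLp 1 X} {j : ι} (h : ‖z j‖ = ‖z‖) :
    z = PiLp.single 1 j (z j) := by
  have := norm_sub_single_self z j
  rw [h, sub_self] at this
  exact sub_eq_zero.mp (norm_eq_zero.mp this)

end Pi

section PiSC

variable {ι : Type*} [Fintype ι] [DecidableEq ι] {X : ι → Type*}
  [∀ i, NormedAddCommGroup (X i)] [∀ i, NormedSpace ℝ (X i)] [∀ i, StrictConvexSpace ℝ (X i)]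
  {Y : Type*} [NormedAddCommGroup Y] [NormedSpace ℝ Y]

/-- Antipodal points of a single summand are mapped to antipodal points. -/
lemma SphIso.map_neg_single {g : PiLp 1 X → Y} (hg : SphIso g) (i : ι) {a : X i}
    (ha : ‖a‖ = 1) : g (PiLp.single 1 i (-a)) = - g (PiLp.single 1 i a) := by
  have hp : ‖PiLp.single 1 i a‖ = 1 := by rw [PiLp.norm_single, ha]
  have hgp := hg.norm_map _ hp
  obtain ⟨z, hz, hgz⟩ := hg.surj (- g (PiLp.single 1 i a)) (by rw [norm_neg]; exact hgp)
  have hdist : ‖z - PiLp.single 1 i a‖ = 2 := by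
    rw [← hg.dist_map z _ hz hp, hgz]
    have : - g (PiLp.single 1 i a) - g (PiLp.single 1 i a)
        = (-2 : ℝ) • g (PiLp.single 1 i a) := by module
    rw [this, norm_smul, hgp]; norm_num
  rw [norm_sub_single, hz] at hdist
  have hzi : z i = -(‖z i‖ • a) := eq_neg_smul_of_norm_sub ha (by linarith)
  have hzle : ‖z i‖ ≤ 1 := by rw [← hz]; exact PiLp.norm_apply_le z i
  by_cases hr : ‖z i‖ = 1
  · have hzs : z = PiLp.single 1 i (z i) := eq_single_of_norm_eq (by rw [hr, hz])
    rw [hr, one_smul] at hzi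
    rw [← hzi, ← hzs, hgz]
  · exfalso
    obtain ⟨r, hrdef⟩ : ∃ r : ℝ, r = 1 - ‖z i‖ := ⟨_, rfl⟩
    have hrpos : 0 < r := by
      rw [hrdef]
      rcases lt_or_eq_of_le hzle with h | h
      · linarith
      · exact absurd h hr
    have hr1 : r ≤ 1 := by rw [hrdef]; linarith [norm_nonneg (z i)]
    obtain ⟨s, hsdef⟩ : ∃ s : ℝ, s = r / 4 := ⟨_, rfl⟩
    have hs0 : 0 < s := by rw [hsdef]; linarith
    have hs1 : s < 1 := by rw [hsdef]; linarith
    set w : PiLp 1 X := z - PiLp.single 1 i (z i) with hw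
    have hwn : ‖w‖ = r := by rw [hw, norm_sub_single_self, hz, hrdef]
    have hwi : w i = 0 := by rw [hw, PiLp.sub_apply, PiLp.single_eq_same 1, sub_self]
    have hwk : ∀ k, k ≠ i → w k = z k := by
      intro k hk
      rw [hw, PiLp.sub_apply, PiLp.single_eq_of_ne 1 hk, sub_zero]
    set x : PiLp 1 X := (s / r) • w + PiLp.single 1 i ((1 - s) • a) with hx
    have hxi : x i = (1 - s) • a := by
      rw [hx, PiLp.add_apply, PiLp.smul_apply, hwi, smul_zero, zero_add, PiLp.single_eq_same 1]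
    have hxk : ∀ k, k ≠ i → x k = (s / r) • z k := by
      intro k hk
      rw [hx, PiLp.add_apply, PiLp.smul_apply, hwk k hk, PiLp.single_eq_of_ne 1 hk, add_zero]
    have hxin : ‖x i‖ = 1 - s := by
      rw [hxi, norm_smul, ha, mul_one, Real.norm_eq_abs, abs_of_pos (by linarith)]
    have hxn : ‖x‖ = 1 := by
      rw [hx, norm_add_single, PiLp.smul_apply, hwi, smul_zero, zero_add, norm_zero, sub_zero,
        norm_smul, norm_smul, ha, hwn, Real.norm_eq_abs, Real.norm_eq_abs,
        abs_of_pos (by linarith), abs_of_pos (div_pos hs0 hrpos)]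
      field_simp
      ring
    have hgx := hg.norm_map x hxn
    obtain ⟨z', hz', hgz'⟩ := hg.surj (- g x) (by rw [norm_neg]; exact hgx)
    have hdist' : ‖z' - x‖ = 2 := by
      rw [← hg.dist_map z' x hz' hxn, hgz']
      have : - g x - g x = (-2 : ℝ) • g x := by module
      rw [this, norm_smul, hgx]; norm_num
    have hterm : ∀ k, ‖z' k - x k‖ = ‖z' k‖ + ‖x k‖ := by
      have hle : ∀ k ∈ Finset.univ, ‖(z' - x) k‖ ≤ ‖z' k‖ + ‖x k‖ := by
        intro k _
        rw [PiLp.sub_apply]; exact norm_sub_le _ _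
      have hsum : ∑ k, ‖(z' - x) k‖ = ∑ k, (‖z' k‖ + ‖x k‖) := by
        rw [← PiLp.norm_eq_of_L1, hdist', Finset.sum_add_distrib, ← PiLp.norm_eq_of_L1,
          ← PiLp.norm_eq_of_L1, hz', hxn]; norm_num
      intro k
      have := (Finset.sum_eq_sum_iff_of_le hle).mp hsum k (Finset.mem_univ k)
      rw [PiLp.sub_apply] at this
      exact this
    have h2s : ‖z' - z‖ = 2 * s := by
      rw [← hg.dist_map z' z hz' hz, hgz', hgz]
      have : - g x - - g (PiLp.single 1 i a) = -(g x - g (PiLp.single 1 i a)) := by abel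
      rw [this, norm_neg, hg.dist_map x _ hxn hp, norm_sub_single, hxn, hxin, hxi]
      have e : (1 - s) • a - a = (-s) • a := by module
      rw [e, norm_smul, ha, mul_one, Real.norm_eq_abs, abs_neg, abs_of_pos hs0]; ring
    have hlow : r ≤ ‖z' - z‖ := by
      have h1 : ∑ k ∈ Finset.univ.erase i, ‖z k‖ ≤ ∑ k ∈ Finset.univ.erase i, ‖(z' - z) k‖ := by
        apply Finset.sum_le_sum
        intro k hk
        have hki : k ≠ i := Finset.ne_of_mem_erase hk
        have hzk : z k = (r / s) • x k := by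
          rw [hxk k hki, smul_smul]
          have : r / s * (s / r) = 1 := by field_simp
          rw [this, one_smul]
        have hadd : ‖z' k + -x k‖ = ‖z' k‖ + ‖-x k‖ := by
          rw [← sub_eq_add_neg, norm_neg]; exact hterm k
        have h3 := norm_add_smul_ge hadd (t := r / s) (div_pos hrpos hs0).le
        have e : z' k + (r / s) • -x k = (z' - z) k := by
          rw [PiLp.sub_apply, hzk]; module
        rw [e, norm_neg] at h3
        have h4 : ‖z k‖ = r / s * ‖x k‖ := by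
          rw [hzk, norm_smul, Real.norm_eq_abs, abs_of_pos (div_pos hrpos hs0)]
        linarith [norm_nonneg (z' k)]
      have h2 : ∑ k ∈ Finset.univ.erase i, ‖z k‖ = r := by
        have := PiLp.norm_eq_of_L1 z
        rw [hz, ← Finset.add_sum_erase Finset.univ _ (Finset.mem_univ i)] at this
        rw [hrdef]; linarith
      have h3 : ∑ k ∈ Finset.univ.erase i, ‖(z' - z) k‖ ≤ ‖z' - z‖ := by
        rw [PiLp.norm_eq_of_L1]
        exact Finset.sum_le_sum_of_subset_of_nonneg (Finset.erase_subset _ _)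
          (fun k _ _ => norm_nonneg _)
      linarith
    rw [h2s, hsdef] at hlow
    linarith

/-- A sphere isometry on a finite `ℓ¹`-sum of strictly convex spaces is odd. -/
lemma SphIso.map_neg {g : PiLp 1 X → Y} (hg : SphIso g) {x : PiLp 1 X} (hx : ‖x‖ = 1) :
    g (-x) = - g x := by
  have hgx := hg.norm_map x hx
  obtain ⟨z, hz, hgz⟩ := hg.surj (- g x) (by rw [norm_neg]; exact hgx)
  have hdist : ‖z - x‖ = 2 := by
    rw [← hg.dist_map z x hz hx, hgz]
    have : - g x - g x = (-2 : ℝ) • g x := by module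
    rw [this, norm_smul, hgx]; norm_num
  have hterm : ∀ k, ‖z k - x k‖ = ‖z k‖ + ‖x k‖ := by
    have hle : ∀ k ∈ Finset.univ, ‖(z - x) k‖ ≤ ‖z k‖ + ‖x k‖ := by
      intro k _
      rw [PiLp.sub_apply]; exact norm_sub_le _ _
    have hsum : ∑ k, ‖(z - x) k‖ = ∑ k, (‖z k‖ + ‖x k‖) := by
      rw [← PiLp.norm_eq_of_L1, hdist, Finset.sum_add_distrib, ← PiLp.norm_eq_of_L1,
        ← PiLp.norm_eq_of_L1, hz, hx]; norm_num
    intro k
    have := (Finset.sum_eq_sum_iff_of_le hle).mp hsum k (Finset.mem_univ k)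
    rw [PiLp.sub_apply] at this
    exact this
  -- on the support of `x`, `z k` is a nonpositive multiple of `x k`
  have hray : ∀ k, x k ≠ 0 → z k = -(‖z k‖ • (‖x k‖⁻¹ • x k)) := by
    intro k hxk
    exact eq_neg_smul_of_norm_sub_smul (norm_inv_smul_self hxk) (norm_pos_iff.mpr hxk)
      (by rw [norm_smul_inv_smul_self]; exact hterm k)
  have hnorm : ∀ k ∈ Finset.univ, ‖x k‖ ≤ ‖z k‖ := by
    intro k _
    by_cases hxk : x k = 0
    · rw [hxk, norm_zero]; exact norm_nonneg _
    · obtain ⟨a, hadef⟩ : ∃ a : X k, a = ‖x k‖⁻¹ • x k := ⟨_, rfl⟩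
      have ha : ‖a‖ = 1 := by rw [hadef]; exact norm_inv_smul_self hxk
      have hzk : z k = -(‖z k‖ • a) := by rw [hadef]; exact hray k hxk
      have hxka : x k = ‖x k‖ • a := by rw [hadef, norm_smul_inv_smul_self]
      have hpa : ‖PiLp.single 1 k a‖ = 1 := by rw [PiLp.norm_single, ha]
      have hpa' : ‖PiLp.single 1 k (-a)‖ = 1 := by rw [PiLp.norm_single, norm_neg, ha]
      have h1 : ‖z - PiLp.single 1 k (-a)‖ = ‖x - PiLp.single 1 k a‖ := by
        rw [← hg.dist_map z _ hz hpa', ← hg.dist_map x _ hx hpa, hgz, hg.map_neg_single k ha]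
        have : - g x - - g (PiLp.single 1 k a) = -(g x - g (PiLp.single 1 k a)) := by abel
        rw [this, norm_neg]
      rw [norm_sub_single, norm_sub_single, hz, hx] at h1
      have hzle : ‖z k‖ ≤ 1 := by rw [← hz]; exact PiLp.norm_apply_le z k
      have hxle : ‖x k‖ ≤ 1 := by rw [← hx]; exact PiLp.norm_apply_le x k
      have e1 : ‖z k - -a‖ = 1 - ‖z k‖ := by
        have : z k - -a = (1 - ‖z k‖) • a := by
          rw [sub_neg_eq_add]; nth_rewrite 1 [hzk]; module
        rw [this, norm_smul, ha, mul_one, Real.norm_eq_abs, abs_of_nonneg (by linarith)]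
      have e2 : ‖x k - a‖ = 1 - ‖x k‖ := by
        have : x k - a = -((1 - ‖x k‖) • a) := by
          nth_rewrite 1 [hxka]; module
        rw [this, norm_neg, norm_smul, ha, mul_one, Real.norm_eq_abs,
          abs_of_nonneg (by linarith)]
      rw [e1, e2] at h1
      linarith
  have hnormeq : ∀ k, ‖x k‖ = ‖z k‖ := by
    have hs : ∑ k, ‖x k‖ = ∑ k, ‖z k‖ := by
      rw [← PiLp.norm_eq_of_L1, ← PiLp.norm_eq_of_L1, hx, hz]
    intro k
    exact (Finset.sum_eq_sum_iff_of_le hnorm).mp hs k (Finset.mem_univ k)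
  have hzx : z = -x := by
    ext k
    rw [PiLp.neg_apply]
    by_cases hxk : x k = 0
    · have := hnormeq k
      rw [hxk, norm_zero] at this
      rw [hxk, neg_zero]
      exact norm_eq_zero.mp this.symm
    · rw [hray k hxk, ← hnormeq k, norm_smul_inv_smul_self]
  rw [← hzx, hgz]

/-- The homogeneous extension of the restriction of `g` to the `i`-th summand. -/
noncomputable def Gc (g : PiLp 1 X → Y) (i : ι) (a : X i) : Y :=
  hext (fun a => g (PiLp.single 1 i a)) a

lemma SphIso.Gc_smul {g : PiLp 1 X → Y} (hg : SphIso g) (i : ι) (t : ℝ) (a : X i) :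
    Gc g i (t • a) = t • Gc g i a :=
  hext_smul (fun _ ha => hg.map_neg_single i ha) t a

lemma SphIso.norm_Gc {g : PiLp 1 X → Y} (hg : SphIso g) (i : ι) (a : X i) :
    ‖Gc g i a‖ = ‖a‖ :=
  norm_hext (fun a ha => hg.norm_map _ (by rw [PiLp.norm_single, ha])) a

omit [∀ i, StrictConvexSpace ℝ (X i)] in
lemma Gc_zero (g : PiLp 1 X → Y) (i : ι) : Gc g i (0 : X i) = 0 := hext_zero _

omit [∀ i, StrictConvexSpace ℝ (X i)] in
lemma Gc_of_norm_one (g : PiLp 1 X → Y) (i : ι) {a : X i} (ha : ‖a‖ = 1) :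
    Gc g i a = g (PiLp.single 1 i a) := hext_of_norm_one _ ha

omit [∀ i, StrictConvexSpace ℝ (X i)] in
lemma Gc_eq (g : PiLp 1 X → Y) (i : ι) (a : X i) :
    Gc g i a = ‖a‖ • g (PiLp.single 1 i (‖a‖⁻¹ • a)) := rfl

/-- On the unit sphere, `g` is the sum of the homogeneous extensions of its restrictions to the
summands (induction on the size of a set containing the support). -/
lemma SphIso.eq_sum_Gc_aux {g : PiLp 1 X → Y} (hg : SphIso g) :
    ∀ (n : ℕ) (S : Finset ι) (x : PiLp 1 X), S.card ≤ n → (∀ i, i ∉ S → x i = 0) → ‖x‖ = 1 →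
      g x = ∑ i, Gc g i (x i) := by
  intro n
  induction n with
  | zero =>
    intro S x hcard hS hx
    exfalso
    have hempty : S = ∅ := Finset.card_eq_zero.mp (Nat.le_zero.mp hcard)
    have h0 : ∀ i, x i = 0 := fun i => hS i (by rw [hempty]; exact Finset.notMem_empty i)
    rw [PiLp.norm_eq_of_L1] at hx
    simp [h0] at hx
  | succ n ih =>
    intro S x hcard hS hx
    by_cases hA : ∃ j, ‖x j‖ = 1
    · obtain ⟨j, hj⟩ := hA
      have hxs : x = PiLp.single 1 j (x j) := eq_single_of_norm_eq (by rw [hj, hx])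
      have hsum : ∑ i, Gc g i (x i) = Gc g j (x j) := by
        rw [← Finset.add_sum_erase Finset.univ _ (Finset.mem_univ j)]
        have : ∀ k ∈ Finset.univ.erase j, Gc g k (x k) = 0 := by
          intro k hk
          have : x k = 0 := by
            rw [hxs, PiLp.single_eq_of_ne 1 (Finset.ne_of_mem_erase hk)]
          rw [this, Gc_zero]
        rw [Finset.sum_eq_zero this, add_zero]
      rw [hsum, Gc_of_norm_one g j hj, ← hxs]
    · have hA' : ∀ j, ¬ ‖x j‖ = 1 := not_exists.mp hA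
      have hlt : ∀ j, ‖x j‖ < 1 := fun j =>
        lt_of_le_of_ne (by rw [← hx]; exact PiLp.norm_apply_le x j) (hA' j)
      obtain ⟨m, hm⟩ : ∃ m : Y, m = ∑ i, Gc g i (x i) := ⟨_, rfl⟩
      have key : ∀ j, x j ≠ 0 → ∃ v : Y, ‖v‖ = 1 ∧
          ‖g (PiLp.single 1 j (‖x j‖⁻¹ • x j)) + v‖ = 2 ∧
          ‖g (PiLp.single 1 j (‖x j‖⁻¹ • x j)) - v‖ = 2 ∧
          m = ‖x j‖ • g (PiLp.single 1 j (‖x j‖⁻¹ • x j)) + (1 - ‖x j‖) • v := by
        intro j hxj
        have hjS : j ∈ S := by
          by_contra hj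
          exact hxj (hS j hj)
        obtain ⟨s, hs⟩ : ∃ s : ℝ, s = ‖x j‖ := ⟨_, rfl⟩
        have hs0 : 0 < s := by rw [hs]; exact norm_pos_iff.mpr hxj
        have hs1 : s < 1 := by rw [hs]; exact hlt j
        have h1s : 0 < 1 - s := by linarith
        obtain ⟨a, hadef⟩ : ∃ a : X j, a = ‖x j‖⁻¹ • x j := ⟨_, rfl⟩
        have ha : ‖a‖ = 1 := by rw [hadef]; exact norm_inv_smul_self hxj
        have hpa : ‖PiLp.single 1 j a‖ = 1 := by rw [PiLp.norm_single, ha]
        set x' : PiLp 1 X := (1 - s)⁻¹ • (x - PiLp.single 1 j (x j)) with hx'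
        have hx'n : ‖x'‖ = 1 := by
          rw [hx', norm_smul, norm_sub_single_self, hx, ← hs, Real.norm_eq_abs,
            abs_of_pos (inv_pos.mpr h1s), inv_mul_cancel₀ h1s.ne']
        have hx'j : x' j = 0 := by
          rw [hx', PiLp.smul_apply, PiLp.sub_apply, PiLp.single_eq_same 1, sub_self, smul_zero]
        have hx'k : ∀ k, k ≠ j → x' k = (1 - s)⁻¹ • x k := by
          intro k hk
          rw [hx', PiLp.smul_apply, PiLp.sub_apply, PiLp.single_eq_of_ne 1 hk, sub_zero]
        have hcard' : (S.erase j).card ≤ n := by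
          rw [Finset.card_erase_of_mem hjS]
          omega
        have hS' : ∀ i, i ∉ S.erase j → x' i = 0 := by
          intro i hi
          by_cases hij : i = j
          · rw [hij]; exact hx'j
          · have : i ∉ S := fun h => hi (Finset.mem_erase.mpr ⟨hij, h⟩)
            rw [hx'k i hij, hS i this, smul_zero]
        have hgx' := ih (S.erase j) x' hcard' hS' hx'n
        refine ⟨g x', hg.norm_map x' hx'n, ?_, ?_, ?_⟩
        · have h1 : g (PiLp.single 1 j a) + g x' = g (PiLp.single 1 j a) - g (-x') := by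
            rw [hg.map_neg hx'n]; abel
          have hnx' : ‖-x'‖ = 1 := by rw [norm_neg, hx'n]
          rw [← hadef, h1, hg.dist_map _ _ hpa hnx']
          have h2 : PiLp.single 1 j a - -x' = x' + PiLp.single 1 j a := by abel
          rw [h2, norm_add_single, hx'j, zero_add, ha, hx'n, norm_zero]; norm_num
        · rw [← hadef, hg.dist_map _ _ hpa hx'n, norm_sub_rev, norm_sub_single, hx'j, zero_sub,
            norm_neg, ha, hx'n, norm_zero]; norm_num
        · rw [← hadef, ← hs, hm, ← Finset.add_sum_erase Finset.univ _ (Finset.mem_univ j), hgx',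
            ← Finset.add_sum_erase Finset.univ (fun i => Gc g i (x' i)) (Finset.mem_univ j),
            hx'j, Gc_zero, zero_add, Finset.smul_sum]
          have e1 : Gc g j (x j) = s • g (PiLp.single 1 j a) := by
            rw [Gc_eq, ← hadef, ← hs]
          have e2 : ∀ k ∈ Finset.univ.erase j, Gc g k (x k) = (1 - s) • Gc g k (x' k) := by
            intro k hk
            rw [hx'k k (Finset.ne_of_mem_erase hk), hg.Gc_smul, smul_smul,
              mul_inv_cancel₀ h1s.ne', one_smul]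
          rw [e1, Finset.sum_congr rfl e2]
      -- the support is nonempty
      obtain ⟨j₀, hj₀⟩ : ∃ j, x j ≠ 0 := by
        by_contra hcon
        have hcon' : ∀ j, x j = 0 := fun j => by
          by_contra h
          exact hcon ⟨j, h⟩
        rw [PiLp.norm_eq_of_L1] at hx
        simp [hcon'] at hx
      have hm1 : ‖m‖ = 1 := by
        obtain ⟨v, hv, huv, -, hmv⟩ := key j₀ hj₀
        rw [hmv]
        exact norm_combo_of_norm_add
          (hg.norm_map _ (by rw [PiLp.norm_single]; exact norm_inv_smul_self hj₀)) hv huv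
          (norm_nonneg _) (hlt j₀).le
      obtain ⟨z, hz, hgz⟩ := hg.surj m hm1
      have hfact : ∀ j, x j ≠ 0 →
          ‖z j - ‖x j‖⁻¹ • x j‖ + (1 - ‖z j‖) = 2 * (1 - ‖x j‖) := by
        intro j hxj
        obtain ⟨v, hv, -, huv, hmv⟩ := key j hxj
        have hpa : ‖PiLp.single 1 j (‖x j‖⁻¹ • x j)‖ = 1 := by
          rw [PiLp.norm_single]; exact norm_inv_smul_self hxj
        have h1 := hg.dist_map z _ hz hpa
        rw [norm_sub_single, hz, hgz] at h1
        rw [← h1]
        have e : m - g (PiLp.single 1 j (‖x j‖⁻¹ • x j))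
            = (-(1 - ‖x j‖)) • (g (PiLp.single 1 j (‖x j‖⁻¹ • x j)) - v) := by
          rw [hmv]; module
        rw [e, norm_smul, huv, Real.norm_eq_abs, abs_neg, abs_of_pos (by linarith [hlt j])]
        ring
      have hge : ∀ j ∈ Finset.univ, ‖x j‖ ≤ ‖z j‖ := by
        intro j _
        by_cases hxj : x j = 0
        · rw [hxj, norm_zero]; exact norm_nonneg _
        · have h1 := hfact j hxj
          have h2 := norm_sub_norm_le (‖x j‖⁻¹ • x j) (z j)
          rw [norm_inv_smul_self hxj, norm_sub_rev] at h2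
          linarith
      have heq : ∀ j, ‖x j‖ = ‖z j‖ := by
        have hs : ∑ k, ‖x k‖ = ∑ k, ‖z k‖ := by
          rw [← PiLp.norm_eq_of_L1, ← PiLp.norm_eq_of_L1, hx, hz]
        intro k
        exact (Finset.sum_eq_sum_iff_of_le hge).mp hs k (Finset.mem_univ k)
      have hzx : z = x := by
        ext j
        by_cases hxj : x j = 0
        · have := heq j
          rw [hxj, norm_zero] at this
          rw [hxj]
          exact norm_eq_zero.mp this.symm
        · have h1 := hfact j hxj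
          have h2 : z j = ‖z j‖ • (‖x j‖⁻¹ • x j) :=
            eq_smul_of_norm_sub (norm_inv_smul_self hxj) (by rw [← heq j] at h1 ⊢; linarith)
          rw [h2, ← heq j, norm_smul_inv_smul_self]
      rw [← hzx, hgz, hm, hzx]

lemma SphIso.eq_sum_Gc {g : PiLp 1 X → Y} (hg : SphIso g) {x : PiLp 1 X} (hx : ‖x‖ = 1) :
    g x = ∑ i, Gc g i (x i) :=
  hg.eq_sum_Gc_aux (Finset.univ : Finset ι).card Finset.univ x le_rfl
    (fun i hi => absurd (Finset.mem_univ i) hi) hx

/-- The homogeneous extension of `g`, written as a sum over the summands. -/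
lemma SphIso.hext_eq_sum {g : PiLp 1 X → Y} (hg : SphIso g) (x : PiLp 1 X) :
    hext g x = ∑ i, Gc g i (x i) := by
  by_cases hx : x = 0
  · subst hx
    rw [hext_zero]
    simp [Gc_zero]
  · unfold hext
    rw [hg.eq_sum_Gc (norm_inv_smul_self hx), Finset.smul_sum]
    apply Finset.sum_congr rfl
    intro i _
    rw [PiLp.smul_apply, hg.Gc_smul, smul_smul, mul_inv_cancel₀ (norm_ne_zero_iff.mpr hx),
      one_smul]

lemma SphIso.hext_add_single {g : PiLp 1 X → Y} (hg : SphIso g) {w : PiLp 1 X} {i : ι}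
    (hwi : w i = 0) (c : X i) :
    hext g (w + PiLp.single 1 i c) = hext g w + Gc g i c := by
  rw [hg.hext_eq_sum, hg.hext_eq_sum,
    ← Finset.add_sum_erase Finset.univ _ (Finset.mem_univ i),
    ← Finset.add_sum_erase Finset.univ (fun k => Gc g k (w k)) (Finset.mem_univ i)]
  have e : ∀ k ∈ Finset.univ.erase i, Gc g k ((w + PiLp.single 1 i c) k) = Gc g k (w k) := by
    intro k hk
    rw [PiLp.add_apply, PiLp.single_eq_of_ne 1 (Finset.ne_of_mem_erase hk), add_zero]
  rw [Finset.sum_congr rfl e, PiLp.add_apply, PiLp.single_eq_same 1, hwi, zero_add, Gc_zero,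
    zero_add, add_comm]

lemma SphIso.hext_single {g : PiLp 1 X → Y} (hg : SphIso g) (i : ι) (c : X i) :
    hext g (PiLp.single 1 i c) = Gc g i c := by
  have := hg.hext_add_single (w := 0) (i := i) rfl c
  rw [zero_add, hext_zero, zero_add] at this
  exact this

omit [∀ i, StrictConvexSpace ℝ (X i)] in
lemma norm_add_single_of_apply_eq_zero {w : PiLp 1 X} {i : ι} (hwi : w i = 0) (c : X i) :
    ‖w + PiLp.single 1 i c‖ = ‖w‖ + ‖c‖ := by
  rw [norm_add_single, hwi, zero_add, norm_zero, sub_zero, add_comm]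

/-- Sums of two elements of the same norm of the image of a summand stay in it. -/
lemma SphIso.Gc_add_of_norm_eq {g : PiLp 1 X → Y} (hg : SphIso g) (i : ι) {a b : X i}
    (hab : ‖a‖ = ‖b‖) : ∃ c, Gc g i a + Gc g i b = Gc g i c := by
  obtain ⟨z, hz⟩ := hg.hext_surj (Gc g i a + Gc g i b)
  have hodd : ∀ x : PiLp 1 X, ‖x‖ = 1 → g (-x) = - g x := fun x hx => hg.map_neg hx
  have hnegb : Gc g i (-b) = - Gc g i b := by
    have := hg.Gc_smul i (-1) b
    simpa using this
  have hnorm1 : ‖Gc g i a + Gc g i b‖ = ‖z‖ := by rw [← hz, norm_hext hg.norm_map]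
  have hnorm2 : ‖Gc g i a + Gc g i b‖ = ‖a + b‖ := by
    have h := hg.hext_dist (x := PiLp.single 1 i a) (x' := PiLp.single 1 i (-b))
      (by rw [PiLp.norm_single, PiLp.norm_single, norm_neg, hab])
    rw [hg.hext_single, hg.hext_single, hnegb, sub_neg_eq_add, ← PiLp.single_sub,
      sub_neg_eq_add, PiLp.norm_single] at h
    exact h
  set w : PiLp 1 X := z - PiLp.single 1 i (z i) with hw
  have hwi : w i = 0 := by rw [hw, PiLp.sub_apply, PiLp.single_eq_same 1, sub_self]
  have hwn : ‖w‖ = ‖z‖ - ‖z i‖ := by rw [hw, norm_sub_single_self]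
  have hzw : w + PiLp.single 1 i (z i) = z := by rw [hw]; abel
  have hsplit : hext g z = hext g w + Gc g i (z i) := by
    have := hg.hext_add_single hwi (z i)
    rw [hzw] at this
    exact this
  have hP : hext g ((-(1 / 2 : ℝ)) • w + PiLp.single 1 i a)
      = (-(1 / 2 : ℝ)) • hext g w + Gc g i a := by
    rw [hg.hext_add_single (by rw [PiLp.smul_apply, hwi, smul_zero]), hext_smul hodd]
  have hQ : hext g ((1 / 2 : ℝ) • w + PiLp.single 1 i (-b))
      = (1 / 2 : ℝ) • hext g w - Gc g i b := by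
    rw [hg.hext_add_single (by rw [PiLp.smul_apply, hwi, smul_zero]), hext_smul hodd, hnegb]
    abel
  have hkey : ‖Gc g i (z i)‖ = ‖a + b‖ + ‖w‖ := by
    have h := hg.hext_dist (x := (-(1 / 2 : ℝ)) • w + PiLp.single 1 i a)
      (x' := (1 / 2 : ℝ) • w + PiLp.single 1 i (-b)) (by
        rw [norm_add_single_of_apply_eq_zero (by rw [PiLp.smul_apply, hwi, smul_zero]),
          norm_add_single_of_apply_eq_zero (by rw [PiLp.smul_apply, hwi, smul_zero]),
          norm_smul, norm_smul, norm_neg, hab]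
        norm_num)
    have e1 : (-(1 / 2 : ℝ)) • hext g w + Gc g i a - ((1 / 2 : ℝ) • hext g w - Gc g i b)
        = Gc g i (z i) := by
      have : Gc g i (z i) = Gc g i a + Gc g i b - hext g w := by
        rw [← hz, hsplit]; abel
      rw [this]; module
    have e2 : (-(1 / 2 : ℝ)) • w + PiLp.single 1 i a - ((1 / 2 : ℝ) • w + PiLp.single 1 i (-b))
        = (-1 : ℝ) • w + PiLp.single 1 i (a + b) := by
      rw [PiLp.single_neg, PiLp.single_add]; module
    rw [hP, hQ, e1, e2,
      norm_add_single_of_apply_eq_zero (by rw [PiLp.smul_apply, hwi, smul_zero]), norm_smul] at h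
    rw [h]; simp [add_comm]
  rw [hg.norm_Gc] at hkey
  have hzle : ‖z i‖ ≤ ‖z‖ := PiLp.norm_apply_le z i
  have hw0 : w = 0 := by
    have : ‖w‖ = 0 := by linarith [norm_nonneg w]
    exact norm_eq_zero.mp this
  refine ⟨z i, ?_⟩
  rw [← hz, hsplit, hw0, hext_zero, zero_add]

/-- The image of a summand is closed. -/
lemma SphIso.isClosed_range_Gc {g : PiLp 1 X → Y} (hg : SphIso g) (i : ι) :
    IsClosed (Set.range (Gc g i)) := by
  apply isClosed_of_closure_subset
  intro y hy
  obtain ⟨z, hz⟩ := hg.hext_surj y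
  set w : PiLp 1 X := z - PiLp.single 1 i (z i) with hw
  have hwi : w i = 0 := by rw [hw, PiLp.sub_apply, PiLp.single_eq_same 1, sub_self]
  have hwn : ‖w‖ = ‖z‖ - ‖z i‖ := by rw [hw, norm_sub_single_self]
  have hzw : w + PiLp.single 1 i (z i) = z := by rw [hw]; abel
  have hsplit : hext g z = hext g w + Gc g i (z i) := by
    have := hg.hext_add_single hwi (z i)
    rw [hzw] at this
    exact this
  by_contra hne
  have hw0 : w ≠ 0 := by
    intro h0
    apply hne
    exact ⟨z i, by rw [← hz, hsplit, h0, hext_zero, zero_add]⟩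
  have hwpos : 0 < ‖w‖ := norm_pos_iff.mpr hw0
  obtain ⟨y', ⟨c', rfl⟩, hdist⟩ := Metric.mem_closure_iff.mp hy (‖w‖ / 2) (by positivity)
  rw [dist_eq_norm] at hdist
  have hynorm : ‖y‖ = ‖z‖ := by rw [← hz, norm_hext hg.norm_map]
  have hzi0 : 0 ≤ ‖z i‖ := norm_nonneg _
  have h1 : |‖y‖ - ‖c'‖| < ‖w‖ / 2 := by
    have := abs_norm_sub_norm_le y (Gc g i c')
    rw [hg.norm_Gc] at this
    linarith
  by_cases hc' : c' = 0
  · subst hc'
    rw [norm_zero, sub_zero, abs_of_nonneg (norm_nonneg y)] at h1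
    linarith
  · have hc'pos : 0 < ‖c'‖ := norm_pos_iff.mpr hc'
    set c'' : X i := (‖y‖ / ‖c'‖) • c' with hc''
    have hypos : 0 < ‖y‖ := by linarith
    have hn'' : ‖c''‖ = ‖y‖ := by
      rw [hc'', norm_smul, Real.norm_eq_abs, abs_of_pos (by positivity)]
      field_simp
    have h2 : ‖Gc g i c'' - Gc g i c'‖ = |‖y‖ - ‖c'‖| := by
      rw [hc'', hg.Gc_smul]
      have : (‖y‖ / ‖c'‖) • Gc g i c' - Gc g i c' = ((‖y‖ - ‖c'‖) / ‖c'‖) • Gc g i c' := by
        have : (‖y‖ - ‖c'‖) / ‖c'‖ = ‖y‖ / ‖c'‖ - 1 := by field_simp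
        rw [this]; module
      rw [this, norm_smul, hg.norm_Gc, Real.norm_eq_abs, abs_div, abs_of_pos hc'pos]
      field_simp
    have h3 : ‖y - Gc g i c''‖ = ‖z i - c''‖ + ‖w‖ := by
      have h := hg.hext_dist (x := z) (x' := PiLp.single 1 i c'')
        (by rw [PiLp.norm_single, hn'', hynorm])
      rw [hz, hg.hext_single, norm_sub_single] at h
      rw [h, hwn]
    have h4 : ‖y - Gc g i c''‖ ≤ ‖y - Gc g i c'‖ + ‖Gc g i c'' - Gc g i c'‖ := by
      have : y - Gc g i c'' = (y - Gc g i c') - (Gc g i c'' - Gc g i c') := by abel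
      rw [this]; exact norm_sub_le _ _
    linarith [norm_nonneg (z i - c'')]

/-- If every surjective isometry from the unit sphere of `X i` onto the unit sphere of a closed
subspace of `Y` is linear, then `Gc g i` is additive. -/
lemma SphIso.Gc_additive {g : PiLp 1 X → Y} (hg : SphIso g) (i : ι)
    (hM : ∀ (Z : Submodule ℝ Y), IsClosed (Z : Set Y) → ∀ k : X i → Z,
      (∀ a, ‖a‖ = 1 → ‖k a‖ = 1) → (∀ a b, ‖a‖ = 1 → ‖b‖ = 1 → ‖k a - k b‖ = ‖a - b‖) →
      (∀ w : Z, ‖w‖ = 1 → ∃ a, ‖a‖ = 1 ∧ k a = w) →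
      ∃ T : X i ≃ₗᵢ[ℝ] Z, ∀ a, ‖a‖ = 1 → T a = k a) (a b : X i) :
    Gc g i (a + b) = Gc g i a + Gc g i b := by
  refine additive_of_eqsum (G := Gc g i) (hg.Gc_smul i) (hg.norm_Gc i) (hg.isClosed_range_Gc i)
    (fun a b h => hg.Gc_add_of_norm_eq i h) ?_ hM a b
  intro a b ha hb
  rw [Gc_of_norm_one g i ha, Gc_of_norm_one g i hb,
    hg.dist_map _ _ (by rw [PiLp.norm_single, ha]) (by rw [PiLp.norm_single, hb]),
    ← PiLp.single_sub, PiLp.norm_single]

/-- Core theorem for finite `ℓ¹`-sums of strictly convex spaces. -/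
theorem SphIso.exists_linearIsometryEquiv_pi {g : PiLp 1 X → Y} (hg : SphIso g)
    (hM : ∀ (i : ι) (Z : Submodule ℝ Y), IsClosed (Z : Set Y) → ∀ k : X i → Z,
      (∀ a, ‖a‖ = 1 → ‖k a‖ = 1) → (∀ a b, ‖a‖ = 1 → ‖b‖ = 1 → ‖k a - k b‖ = ‖a - b‖) →
      (∀ w : Z, ‖w‖ = 1 → ∃ a, ‖a‖ = 1 ∧ k a = w) →
      ∃ T : X i ≃ₗᵢ[ℝ] Z, ∀ a, ‖a‖ = 1 → T a = k a) :
    ∃ T : PiLp 1 X ≃ₗᵢ[ℝ] Y, ∀ x : PiLp 1 X, ‖x‖ = 1 → T x = g x := by
  have hadd : ∀ (i : ι) (a b : X i), Gc g i (a + b) = Gc g i a + Gc g i b :=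
    fun i => hg.Gc_additive i (hM i)
  have hΦadd : ∀ x x' : PiLp 1 X, hext g (x + x') = hext g x + hext g x' := by
    intro x x'
    rw [hg.hext_eq_sum, hg.hext_eq_sum, hg.hext_eq_sum, ← Finset.sum_add_distrib]
    apply Finset.sum_congr rfl
    intro i _
    rw [PiLp.add_apply, hadd]
  have hΦsub : ∀ x x' : PiLp 1 X, hext g x - hext g x' = hext g (x - x') := by
    intro x x'
    have := hΦadd (x - x') x'
    rw [sub_add_cancel] at this
    rw [this]; abel
  have hiso : Isometry (hext g) := Isometry.of_dist_eq fun x x' => by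
    rw [dist_eq_norm, dist_eq_norm, hΦsub, norm_hext hg.norm_map]
  have hsurj : Function.Surjective (hext g) := hg.hext_surj
  let e : PiLp 1 X ≃ᵢ Y := IsometryEquiv.mk' (hext g) (Function.surjInv hsurj)
    (Function.surjInv_eq hsurj) hiso
  have he0 : e 0 = 0 := hext_zero g
  refine ⟨e.toRealLinearIsometryEquivOfMapZero he0, fun x hx => ?_⟩
  rw [IsometryEquiv.coe_toRealLinearIsometryEquivOfMapZero]
  exact hext_of_norm_one g hx

end PiSC

end Vale.Agent.H23
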