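import Vale.Agent.H23.Cyl
import Vale.Agent.H23.L1Sum

/-!
# Sphere isometries of an `ℓ^∞`-sum `X ⊕_∞ H` with `H` strictly convex

Function-level study of surjective isometries from the unit sphere of `X ⊕_∞ H` (points `(x, z)`
with norm `max ‖x‖ ‖z‖`) onto the unit sphere of a real normed space `Y`, where `X` is an
arbitrary real normed space and `H` is strictly convex. This file treats the caps
`{(x, b) : ‖x‖ ≤ 1}` for unit vectors `b` of `H`.
-/

namespace Vale.Agent.H23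

variable {X H Y : Type*} [NormedAddCommGroup X] [NormedSpace ℝ X]
  [NormedAddCommGroup H] [NormedSpace ℝ H]
  [NormedAddCommGroup Y] [NormedSpace ℝ Y]

/-- A surjective isometry from the unit sphere of `X ⊕_∞ H` onto the unit sphere of `Y`, in
function form. -/
structure MIso (g : X → H → Y) : Prop where
  norm_map : ∀ x z, max ‖x‖ ‖z‖ = 1 → ‖g x z‖ = 1
  dist_map : ∀ x z x' z', max ‖x‖ ‖z‖ = 1 → max ‖x'‖ ‖z'‖ = 1 →
    ‖g x z - g x' z'‖ = max ‖x - x'‖ ‖z - z'‖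
  surj : ∀ w : Y, ‖w‖ = 1 → ∃ x z, max ‖x‖ ‖z‖ = 1 ∧ g x z = w

lemma msum_cap {x : X} {b : H} (hx : ‖x‖ ≤ 1) (hb : ‖b‖ = 1) : max ‖x‖ ‖b‖ = 1 := by
  rw [hb]; exact max_eq_right hx

lemma msum_cap_neg {x : X} {b : H} (hx : ‖x‖ ≤ 1) (hb : ‖b‖ = 1) : max ‖x‖ ‖-b‖ = 1 := by
  rw [norm_neg]; exact msum_cap hx hb

lemma msum_side {a : X} {z : H} (ha : ‖a‖ = 1) (hz : ‖z‖ ≤ 1) : max ‖a‖ ‖z‖ = 1 := by
  rw [ha]; exact max_eq_left hz

lemma msum_le_left {x : X} {z : H} (h : max ‖x‖ ‖z‖ = 1) : ‖x‖ ≤ 1 := by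
  rw [← h]; exact le_max_left _ _

lemma msum_le_right {x : X} {z : H} (h : max ‖x‖ ‖z‖ = 1) : ‖z‖ ≤ 1 := by
  rw [← h]; exact le_max_right _ _

lemma msum_left_eq {x : X} {z : H} (h : max ‖x‖ ‖z‖ = 1) (hz : ‖z‖ < 1) : ‖x‖ = 1 := by
  rcases max_choice ‖x‖ ‖z‖ with h1 | h1
  · rw [← h1]; exact h
  · rw [h1] at h; linarith

lemma msum_right_eq {x : X} {z : H} (h : max ‖x‖ ‖z‖ = 1) (hx : ‖x‖ < 1) : ‖z‖ = 1 := by
  rcases max_choice ‖x‖ ‖z‖ with h1 | h1
  · rw [h1] at h; linarith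
  · rw [← h1]; exact h

lemma norm_sub_neg_self {b : H} (hb : ‖b‖ = 1) : ‖b - -b‖ = 2 := by
  have e : b - -b = (2 : ℝ) • b := by rw [two_smul]; abel
  rw [e, norm_smul, hb]; norm_num

/-- In a strictly convex space, a vector of the unit ball whose sum with a unit vector has norm
`2` is that unit vector. -/
lemma eq_of_two_le_norm_add [StrictConvexSpace ℝ H] {z b : H} (hz : ‖z‖ ≤ 1) (hb : ‖b‖ = 1)
    (h : 2 ≤ ‖z + b‖) : z = b := by
  have h1 := norm_add_le z b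
  have hz1 : ‖z‖ = 1 := le_antisymm hz (by linarith)
  apply eq_of_norm_eq_of_norm_add_eq (by rw [hz1, hb])
  rw [hz1, hb]
  exact le_antisymm (by rw [hz1, hb] at h1; exact h1) (by linarith)

/-- Two unit vectors with the same truncated distances to every unit vector coincide. -/
lemma eq_of_max_dist_sphere {a a' : X} (ha : ‖a‖ = 1) (ha' : ‖a'‖ = 1) {μ : ℝ} (hμ0 : 0 ≤ μ)
    (hμ1 : μ ≤ 1) (h : ∀ x : X, ‖x‖ = 1 → max ‖a' - x‖ μ = max ‖a - x‖ μ) : a' = a := by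
  by_contra hne
  obtain ⟨η, hηdef⟩ : ∃ η : ℝ, η = ‖a' - a‖ := ⟨_, rfl⟩
  have hη : 0 < η := by rw [hηdef]; exact norm_pos_iff.mpr (sub_ne_zero.mpr hne)
  have hημ : η ≤ μ := by
    have h1 := h a ha
    rw [sub_self, norm_zero, max_eq_right hμ0] at h1
    rw [hηdef, ← h1]; exact le_max_left _ _
  have hη1 : η ≤ 1 := le_trans hημ hμ1
  obtain ⟨d, hd⟩ : ∃ d : X, d = η⁻¹ • (a' - a) := ⟨_, rfl⟩
  have hd1 : ‖d‖ = 1 := by
    rw [hd, norm_smul, norm_inv, Real.norm_eq_abs, abs_of_pos hη, ← hηdef,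
      inv_mul_cancel₀ hη.ne']
  have ha'd : a' = a + η • d := by
    rw [hd, smul_smul, mul_inv_cancel₀ hη.ne', one_smul]; abel
  have hnd : ‖-d‖ = 1 := by rw [norm_neg]; exact hd1
  have ha'n : ‖a + η • d‖ = 1 := by rw [← ha'd]; exact ha'
  have F1 : 1 ≤ ‖a + (1 + η) • d‖ := by
    have e : (1 + η) • (a + η • d) = a + η • (a + (1 + η) • d) := by module
    have h1 : ‖(1 + η) • (a + η • d)‖ ≤ ‖a‖ + ‖η • (a + (1 + η) • d)‖ := by
      rw [e]; exact norm_add_le _ _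
    rw [norm_smul, norm_smul, ha'n, ha, Real.norm_eq_abs, Real.norm_eq_abs,
      abs_of_pos (by linarith), abs_of_pos hη] at h1
    nlinarith
  have F2 : 1 ≤ ‖a + d‖ := by
    have e : a + η • d = (1 - η) • a + η • (a + d) := by module
    have h1 : ‖a + η • d‖ ≤ ‖(1 - η) • a‖ + ‖η • (a + d)‖ := by
      rw [e]; exact norm_add_le _ _
    rw [norm_smul, norm_smul, ha'n, ha, Real.norm_eq_abs, Real.norm_eq_abs,
      abs_of_nonneg (by linarith), abs_of_pos hη] at h1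
    nlinarith
  have F3 : 1 ≤ ‖a - d‖ := by
    have e : (1 + η) • a = η • (a - d) + (a + η • d) := by module
    have h1 : ‖(1 + η) • a‖ ≤ ‖η • (a - d)‖ + ‖a + η • d‖ := by
      rw [e]; exact norm_add_le _ _
    rw [norm_smul, norm_smul, ha'n, ha, Real.norm_eq_abs, Real.norm_eq_abs,
      abs_of_pos (by linarith), abs_of_pos hη] at h1
    nlinarith
  have F4 : 1 ≤ ‖a + (η - 1) • d‖ := by
    have e : a = η • (a + (η - 1) • d) + (1 - η) • (a + η • d) := by module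
    have h1 : ‖a‖ ≤ ‖η • (a + (η - 1) • d)‖ + ‖(1 - η) • (a + η • d)‖ := by
      nth_rewrite 1 [e]; exact norm_add_le _ _
    rw [norm_smul, norm_smul, ha'n, ha, Real.norm_eq_abs, Real.norm_eq_abs,
      abs_of_pos hη, abs_of_nonneg (by linarith : (0 : ℝ) ≤ 1 - η)] at h1
    nlinarith
  have T1 : ‖a + (1 + η) • d‖ = ‖a + d‖ := by
    have h1 := h (-d) hnd
    have e1 : a' - -d = a + (1 + η) • d := by rw [ha'd]; module
    have e2 : a - -d = a + d := by abel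
    rw [e1, e2, max_eq_left (le_trans hμ1 F1), max_eq_left (le_trans hμ1 F2)] at h1
    exact h1
  have T2 : ‖a + (η - 1) • d‖ = ‖a - d‖ := by
    have h1 := h d hd1
    have e1 : a' - d = a + (η - 1) • d := by rw [ha'd]; module
    rw [e1, max_eq_left (le_trans hμ1 F4), max_eq_left (le_trans hμ1 F3)] at h1
    exact h1
  have F5 : ‖a + d‖ ≤ 1 := by
    have e : (1 + η) • (a + d) = η • a + (a + (1 + η) • d) := by module
    have h1 : ‖(1 + η) • (a + d)‖ ≤ ‖η • a‖ + ‖a + (1 + η) • d‖ := by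
      rw [e]; exact norm_add_le _ _
    rw [norm_smul, norm_smul, ha, T1, Real.norm_eq_abs, Real.norm_eq_abs,
      abs_of_pos (by linarith), abs_of_pos hη] at h1
    nlinarith
  have F6 : ‖a + (η - 1) • d‖ ≤ 1 := by
    have e : (1 + η) • (a + (η - 1) • d) = (a - d) + η • (a + η • d) := by module
    have h1 : ‖(1 + η) • (a + (η - 1) • d)‖ ≤ ‖a - d‖ + ‖η • (a + η • d)‖ := by
      rw [e]; exact norm_add_le _ _
    rw [norm_smul, norm_smul, ha'n, ← T2, Real.norm_eq_abs, Real.norm_eq_abs,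
      abs_of_pos (by linarith), abs_of_pos hη] at h1
    nlinarith
  have e : (2 + η) • d = (a + (1 + η) • d) - (a - d) := by module
  have h1 : ‖(2 + η) • d‖ ≤ ‖a + (1 + η) • d‖ + ‖a - d‖ := by
    rw [e]; exact norm_sub_le _ _
  rw [norm_smul, hd1, Real.norm_eq_abs, abs_of_pos (by linarith), T1, ← T2] at h1
  linarith

namespace MIso

variable [StrictConvexSpace ℝ H] {g : X → H → Y}

/-- The antipodal set of a point `(x, -b)` with `‖x‖ < 1` is the cap over `b`. -/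
lemma eq_of_dist_two (hg : MIso g) {x : X} (hx : ‖x‖ < 1) {b : H} (hb : ‖b‖ = 1) {x' : X}
    {z' : H} (h' : max ‖x'‖ ‖z'‖ = 1) (hd : ‖g x' z' - g x (-b)‖ = 2) : z' = b := by
  rw [hg.dist_map x' z' x (-b) h' (msum_cap_neg hx.le hb)] at hd
  have h1 : ‖x' - x‖ < 2 := by
    have := norm_sub_le x' x
    have := msum_le_left h'
    linarith
  have h2 : ‖z' - -b‖ = 2 := by
    rcases max_choice ‖x' - x‖ ‖z' - -b‖ with h3 | h3
    · rw [h3] at hd; linarith
    · rw [h3] at hd; exact hd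
  rw [sub_neg_eq_add] at h2
  exact eq_of_two_le_norm_add (msum_le_right h') hb h2.ge

/-- A point of the sphere approximated by points of the cap over `b` lies in that cap. -/
lemma eq_of_approx (hg : MIso g) {b : H} (hb : ‖b‖ = 1) {y : X} {z : H}
    (h : max ‖y‖ ‖z‖ = 1)
    (happ : ∀ t : ℝ, 0 ≤ t → t < 1 → ∃ w : X, ‖w‖ ≤ 1 ∧ ‖g y z - g w b‖ ≤ 1 - t) : z = b := by
  by_contra hne
  have hpos : 0 < ‖z - b‖ := norm_pos_iff.mpr (sub_ne_zero.mpr hne)
  have hle2 : ‖z - b‖ ≤ 2 := by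
    have := norm_sub_le z b
    have := msum_le_right h
    linarith
  obtain ⟨w, hw, hle⟩ := happ (1 - ‖z - b‖ / 2) (by linarith) (by linarith)
  rw [hg.dist_map y z w b h (msum_cap hw hb)] at hle
  have h1 : ‖z - b‖ ≤ 1 - (1 - ‖z - b‖ / 2) := le_trans (le_max_right _ _) hle
  linarith

lemma exists_neg_bot_open (hg : MIso g) {b : H} (hb : ‖b‖ = 1) {x : X} (hx : ‖x‖ < 1) :
    ∃ x' : X, ‖x'‖ ≤ 1 ∧ g x' b = - g x (-b) := by
  have h1 : ‖- g x (-b)‖ = 1 := by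
    rw [norm_neg]; exact hg.norm_map x (-b) (msum_cap_neg hx.le hb)
  obtain ⟨x', z', h', hx'⟩ := hg.surj _ h1
  have h2 : ‖g x' z' - g x (-b)‖ = 2 := by
    have e : - g x (-b) - g x (-b) = -((2 : ℝ) • g x (-b)) := by rw [two_smul]; abel
    rw [hx', e, norm_neg, norm_smul, hg.norm_map x (-b) (msum_cap_neg hx.le hb)]
    norm_num
  have h3 := hg.eq_of_dist_two hx hb h' h2
  subst h3
  exact ⟨x', msum_le_left h', hx'⟩

/-- The negative of a point of the cap over `-b` is a point of the cap over `b`. -/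
lemma exists_neg_bot (hg : MIso g) {b : H} (hb : ‖b‖ = 1) {x : X} (hx : ‖x‖ ≤ 1) :
    ∃ x' : X, ‖x'‖ ≤ 1 ∧ g x' b = - g x (-b) := by
  have h1 : ‖- g x (-b)‖ = 1 := by
    rw [norm_neg]; exact hg.norm_map x (-b) (msum_cap_neg hx hb)
  obtain ⟨x', z', h', hx'⟩ := hg.surj _ h1
  have h3 : z' = b := by
    refine hg.eq_of_approx hb h' fun t ht0 ht1 => ?_
    have htx : ‖t • x‖ < 1 := by
      rw [norm_smul, Real.norm_eq_abs, abs_of_nonneg ht0]
      nlinarith [norm_nonneg x]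
    obtain ⟨w, hw, hgw⟩ := hg.exists_neg_bot_open hb htx
    refine ⟨w, hw, ?_⟩
    rw [hx', hgw, neg_sub_neg, hg.dist_map _ _ _ _ (msum_cap_neg htx.le hb)
      (msum_cap_neg hx hb), sub_self, norm_zero]
    have e : t • x - x = (t - 1) • x := by rw [sub_smul, one_smul]
    rw [e, norm_smul, Real.norm_eq_abs, abs_of_nonpos (by linarith)]
    have := norm_nonneg x
    rw [max_eq_left (by nlinarith)]
    nlinarith
  subst h3
  exact ⟨x', msum_le_left h', hx'⟩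

omit [StrictConvexSpace ℝ H] in
/-- Injectivity on a cap. -/
lemma top_inj (hg : MIso g) {b : H} (hb : ‖b‖ = 1) {x x' : X} (hx : ‖x‖ ≤ 1) (hx' : ‖x'‖ ≤ 1)
    (h : g x b = g x' b) : x = x' := by
  have h1 := hg.dist_map x b x' b (msum_cap hx hb) (msum_cap hx' hb)
  rw [h, sub_self, norm_zero, sub_self, norm_zero] at h1
  have h2 : ‖x - x'‖ ≤ 0 := by rw [h1]; exact le_max_left _ _
  exact sub_eq_zero.mp (norm_le_zero_iff.mp h2)

/-- The antipodal correspondence between the caps over `-b` and `b` is given by a linear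
isometry of `X`. -/
lemma exists_antipode (hg : MIso g) {b : H} (hb : ‖b‖ = 1) :
    ∃ Lt : X ≃ₗᵢ[ℝ] X, ∀ x : X, ‖x‖ ≤ 1 → g (Lt x) b = - g x (-b) := by
  have hex : ∀ x : X, ∃ x' : X, ‖x‖ ≤ 1 → ‖x'‖ ≤ 1 ∧ g x' b = - g x (-b) := by
    intro x
    by_cases hx : ‖x‖ ≤ 1
    · obtain ⟨x', h1, h2⟩ := hg.exists_neg_bot hb hx
      exact ⟨x', fun _ => ⟨h1, h2⟩⟩
    · exact ⟨0, fun h => absurd h hx⟩
  choose L hL using hex
  have hdist : ∀ c c' : X, ‖c‖ ≤ 1 → ‖c'‖ ≤ 1 → ‖L c - L c'‖ = ‖c - c'‖ := by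
    intro c c' hc hc'
    have h1 := hg.dist_map (L c) b (L c') b (msum_cap (hL c hc).1 hb) (msum_cap (hL c' hc').1 hb)
    rw [(hL c hc).2, (hL c' hc').2, sub_self, norm_zero, max_eq_left (norm_nonneg _)] at h1
    rw [← h1, neg_sub_neg, hg.dist_map _ _ _ _ (msum_cap_neg hc' hb) (msum_cap_neg hc hb),
      sub_self, norm_zero, max_eq_left (norm_nonneg _), norm_sub_rev]
  have hsurj : ∀ w : X, ‖w‖ ≤ 1 → ∃ c : X, ‖c‖ ≤ 1 ∧ L c = w := by
    intro w hw
    have hnb : ‖-b‖ = 1 := by rw [norm_neg]; exact hb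
    obtain ⟨x, hx, hgx⟩ := hg.exists_neg_bot hnb hw
    rw [neg_neg] at hgx
    refine ⟨x, hx, hg.top_inj hb (hL x hx).1 hw ?_⟩
    rw [(hL x hx).2, hgx, neg_neg]
  have h0 : L 0 = 0 := by
    apply CylIso.eq_zero_of_forall_dist_le
    intro x hx
    obtain ⟨c, hc, hLc⟩ := hsurj x hx
    rw [← hLc, hdist 0 c (by simp) hc, zero_sub, norm_neg]
    exact hc
  obtain ⟨Lt, hLt⟩ := exists_linearIsometryEquiv_of_ball_isometry hdist h0 hsurj
  exact ⟨Lt, fun x hx => by rw [hLt x hx]; exact (hL x hx).2⟩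

/-- Two points of the image of a cap have sum of norm `2`. -/
lemma norm_top_add_top (hg : MIso g) {b : H} (hb : ‖b‖ = 1) {x y : X} (hx : ‖x‖ ≤ 1)
    (hy : ‖y‖ ≤ 1) : ‖g y b + g x b‖ = 2 := by
  obtain ⟨Lt, hLt⟩ := hg.exists_antipode hb
  have hx0 : ‖Lt.symm x‖ ≤ 1 := by rw [LinearIsometryEquiv.norm_map]; exact hx
  have h1 := hLt (Lt.symm x) hx0
  rw [LinearIsometryEquiv.apply_symm_apply] at h1
  rw [h1, ← sub_eq_add_neg, hg.dist_map _ _ _ _ (msum_cap hy hb) (msum_cap_neg hx0 hb)]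
  have h2 : ‖y - Lt.symm x‖ ≤ 2 := by have := norm_sub_le y (Lt.symm x); linarith
  rw [norm_sub_neg_self hb]
  exact max_eq_right h2

/-- A unit vector whose sum with an interior point of the image of the cap over `b` has norm
`2` lies in the image of that cap. -/
lemma top_of_norm_add (hg : MIso g) {b : H} (hb : ‖b‖ = 1) {x : X} (hx : ‖x‖ < 1) {w : Y}
    (hw : ‖w‖ = 1) (h : ‖w + g x b‖ = 2) : ∃ y : X, ‖y‖ ≤ 1 ∧ g y b = w := by
  obtain ⟨Lt, hLt⟩ := hg.exists_antipode hb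
  have hx0 : ‖Lt.symm x‖ < 1 := by rw [LinearIsometryEquiv.norm_map]; exact hx
  have h1 := hLt (Lt.symm x) hx0.le
  rw [LinearIsometryEquiv.apply_symm_apply] at h1
  obtain ⟨y, z, hyz, hgy⟩ := hg.surj w hw
  rw [h1, ← sub_eq_add_neg, ← hgy] at h
  have hz := hg.eq_of_dist_two hx0 hb hyz h
  subst hz
  exact ⟨y, msum_le_left hyz, hgy⟩

lemma top_convex_open (hg : MIso g) {b : H} (hb : ‖b‖ = 1) {y₁ y₂ : X} (h₁ : ‖y₁‖ ≤ 1)
    (h₂ : ‖y₂‖ < 1) {l : ℝ} (hl0 : 0 ≤ l) (hl1 : l ≤ 1) :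
    ∃ y : X, ‖y‖ ≤ 1 ∧ g y b = l • g y₁ b + (1 - l) • g y₂ b := by
  have hu := hg.norm_map y₁ b (msum_cap h₁ hb)
  have hv := hg.norm_map y₂ b (msum_cap h₂.le hb)
  have huv := hg.norm_top_add_top hb h₂.le h₁
  have hm : ‖l • g y₁ b + (1 - l) • g y₂ b‖ = 1 := by
    rw [norm_nonneg_combo hu hv huv hl0 (by linarith)]; ring
  have hm2 : ‖l • g y₁ b + (1 - l) • g y₂ b + g y₂ b‖ = 2 := by
    have e : l • g y₁ b + (1 - l) • g y₂ b + g y₂ b = l • g y₁ b + (2 - l) • g y₂ b := by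
      rw [sub_smul, sub_smul, one_smul, two_smul]; abel
    rw [e, norm_nonneg_combo hu hv huv hl0 (by linarith)]; ring
  exact hg.top_of_norm_add hb h₂ hm hm2

/-- The image of a cap is convex. -/
lemma top_convex (hg : MIso g) {b : H} (hb : ‖b‖ = 1) {y₁ y₂ : X} (h₁ : ‖y₁‖ ≤ 1)
    (h₂ : ‖y₂‖ ≤ 1) {l : ℝ} (hl0 : 0 ≤ l) (hl1 : l ≤ 1) :
    ∃ y : X, ‖y‖ ≤ 1 ∧ g y b = l • g y₁ b + (1 - l) • g y₂ b := by
  have hu := hg.norm_map y₁ b (msum_cap h₁ hb)
  have hv := hg.norm_map y₂ b (msum_cap h₂ hb)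
  have huv := hg.norm_top_add_top hb h₂ h₁
  have hm : ‖l • g y₁ b + (1 - l) • g y₂ b‖ = 1 := by
    rw [norm_nonneg_combo hu hv huv hl0 (by linarith)]; ring
  obtain ⟨y, z, hyz, hgy⟩ := hg.surj _ hm
  have hz : z = b := by
    refine hg.eq_of_approx hb hyz fun t ht0 ht1 => ?_
    have htx : ‖t • y₂‖ < 1 := by
      rw [norm_smul, Real.norm_eq_abs, abs_of_nonneg ht0]
      nlinarith [norm_nonneg y₂]
    obtain ⟨w, hw, hgw⟩ := hg.top_convex_open hb h₁ htx hl0 hl1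
    refine ⟨w, hw, ?_⟩
    rw [hgy, hgw]
    have e : l • g y₁ b + (1 - l) • g y₂ b - (l • g y₁ b + (1 - l) • g (t • y₂) b) =
        (1 - l) • (g y₂ b - g (t • y₂) b) := by
      rw [smul_sub]; abel
    rw [e, norm_smul, Real.norm_eq_abs, abs_of_nonneg (by linarith),
      hg.dist_map _ _ _ _ (msum_cap h₂ hb) (msum_cap htx.le hb), sub_self, norm_zero]
    have e2 : y₂ - t • y₂ = (1 - t) • y₂ := by rw [sub_smul, one_smul]
    have h4 : 0 ≤ (1 - t) * ‖y₂‖ := mul_nonneg (by linarith) (norm_nonneg _)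
    rw [e2, norm_smul, Real.norm_eq_abs, abs_of_nonneg (by linarith), max_eq_left h4]
    have h3 : (1 - t) * ‖y₂‖ ≤ 1 - t := by nlinarith [norm_nonneg y₂]
    nlinarith
  subst hz
  exact ⟨y, msum_le_left hyz, hgy⟩

/-- A functional dominated by the norm and equal to `1` on the image of the cap over `b`. -/
lemma exists_height (hg : MIso g) {b : H} (hb : ‖b‖ = 1) :
    ∃ ψ : Y →L[ℝ] ℝ, (∀ y, ψ y ≤ ‖y‖) ∧ ∀ x : X, ‖x‖ ≤ 1 → ψ (g x b) = 1 := by
  obtain ⟨N, hN⟩ : ∃ N : Set Y, N = {w | ∃ x : X, ‖x‖ ≤ 1 ∧ g x b = w} := ⟨_, rfl⟩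
  have hconv : Convex ℝ N := by
    intro w₁ hw₁ w₂ hw₂ a c ha hc hac
    rw [hN] at hw₁ hw₂ ⊢
    obtain ⟨y₁, h₁, rfl⟩ := hw₁
    obtain ⟨y₂, h₂, rfl⟩ := hw₂
    have hc' : c = 1 - a := by linarith
    rw [hc']
    obtain ⟨y, hy, hgy⟩ := hg.top_convex hb h₁ h₂ ha (by linarith)
    exact ⟨y, hy, hgy⟩
  have hdisj : Disjoint (Metric.ball (0 : Y) 1) N := by
    rw [Set.disjoint_left]
    intro w hw hwN
    rw [hN] at hwN
    obtain ⟨x, hx, rfl⟩ := hwN
    rw [mem_ball_zero_iff, hg.norm_map x b (msum_cap hx hb)] at hw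
    exact lt_irrefl _ hw
  obtain ⟨f, u, hfu, huf⟩ :=
    geometric_hahn_banach_open (convex_ball (0 : Y) 1) Metric.isOpen_ball hconv hdisj
  have hu : 0 < u := by
    have := hfu 0 (by simp)
    rwa [map_zero] at this
  have hle : ∀ y : Y, f y ≤ u * ‖y‖ := by
    intro y
    by_contra hlt
    rw [not_le] at hlt
    have hy0 : 0 < ‖y‖ := by
      by_contra h0
      have h00 : ‖y‖ = 0 := le_antisymm (not_lt.mp h0) (norm_nonneg _)
      have hy : y = 0 := norm_eq_zero.mp h00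
      rw [hy, map_zero, norm_zero, mul_zero] at hlt
      exact lt_irrefl _ hlt
    have hfy : 0 < f y := lt_trans (mul_pos hu hy0) hlt
    have hz : ‖(u / f y) • y‖ < 1 := by
      rw [norm_smul, Real.norm_eq_abs, abs_of_pos (div_pos hu hfy), div_mul_eq_mul_div,
        div_lt_one hfy]
      exact hlt
    have h1 := hfu ((u / f y) • y) (by rwa [mem_ball_zero_iff])
    rw [map_smul, smul_eq_mul, div_mul_cancel₀ _ hfy.ne'] at h1
    exact lt_irrefl _ h1
  refine ⟨u⁻¹ • f, fun y => ?_, fun x hx => ?_⟩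
  · rw [ContinuousLinearMap.smul_apply, smul_eq_mul, inv_mul_le_iff₀ hu]
    exact hle y
  · have h1 : u ≤ f (g x b) := huf _ (by rw [hN]; exact ⟨x, hx, rfl⟩)
    have h2 := hle (g x b)
    rw [hg.norm_map x b (msum_cap hx hb), mul_one] at h2
    rw [ContinuousLinearMap.smul_apply, smul_eq_mul, le_antisymm h2 h1, inv_mul_cancel₀ hu.ne']

/-- Bounds for the height functional of the cap over `b`. -/
lemma height_bounds (hg : MIso g) {b : H} (hb : ‖b‖ = 1) {ψ : Y →L[ℝ] ℝ}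
    (hle : ∀ y, ψ y ≤ ‖y‖) (htop : ∀ x : X, ‖x‖ ≤ 1 → ψ (g x b) = 1) {x : X} {z : H}
    (hxz : max ‖x‖ ‖z‖ = 1) : 1 - ‖z - b‖ ≤ ψ (g x z) ∧ ψ (g x z) ≤ ‖z + b‖ - 1 := by
  obtain ⟨Lt, hLt⟩ := hg.exists_antipode hb
  have hx := msum_le_left hxz
  have hbot : ψ (g x (-b)) = -1 := by
    have h1 := hLt x hx
    have h2 := htop (Lt x) (by rw [LinearIsometryEquiv.norm_map]; exact hx)
    rw [h1, map_neg] at h2
    linarith
  have h1 := hle (g x b - g x z)
  rw [hg.dist_map _ _ _ _ (msum_cap hx hb) hxz, sub_self, norm_zero, map_sub, htop x hx,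
    max_eq_right (norm_nonneg _), norm_sub_rev] at h1
  have h2 := hle (g x z - g x (-b))
  rw [hg.dist_map _ _ _ _ hxz (msum_cap_neg hx hb), sub_self, norm_zero, map_sub, hbot,
    max_eq_right (norm_nonneg _), show z - -b = z + b from sub_neg_eq_add z b] at h2
  constructor <;> linarith

/-- A sphere point whose image has height `1` over `b` lies in the cap over `b`. -/
lemma eq_of_height_one (hg : MIso g) {b : H} (hb : ‖b‖ = 1) {ψ : Y →L[ℝ] ℝ}
    (hle : ∀ y, ψ y ≤ ‖y‖) (htop : ∀ x : X, ‖x‖ ≤ 1 → ψ (g x b) = 1) {x : X} {z : H}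
    (hxz : max ‖x‖ ‖z‖ = 1) (h1 : ψ (g x z) = 1) : z = b := by
  have h2 := (hg.height_bounds hb hle htop hxz).2
  exact eq_of_two_le_norm_add (msum_le_right hxz) hb (by linarith)

omit [StrictConvexSpace ℝ H] in
/-- Any two points of the sphere are at distance at most `2`. -/
lemma dist_le_two (hg : MIso g) {x x' : X} {z z' : H} (h : max ‖x‖ ‖z‖ = 1)
    (h' : max ‖x'‖ ‖z'‖ = 1) : max ‖x - x'‖ ‖z - z'‖ ≤ 2 := by
  rw [← hg.dist_map x z x' z' h h']
  have := norm_sub_le (g x z) (g x' z')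
  rw [hg.norm_map x z h, hg.norm_map x' z' h'] at this
  linarith

/-- Key estimate: the inverse of the antipodal isometry of `X` moves every unit vector to
distance `2`. -/
lemma norm_sub_antipode_symm (hg : MIso g) {b : H} (hb : ‖b‖ = 1) {Lt : X ≃ₗᵢ[ℝ] X}
    (hLt : ∀ x : X, ‖x‖ ≤ 1 → g (Lt x) b = - g x (-b)) {a : X} (ha : ‖a‖ = 1) :
    ‖a - Lt.symm a‖ = 2 := by
  have hq : ‖-Lt.symm a‖ = 1 := by rw [norm_neg, LinearIsometryEquiv.norm_map]; exact ha
  have hna : ‖-a‖ = 1 := by rw [norm_neg]; exact ha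
  have hQ : g (-a) b = - g (-Lt.symm a) (-b) := by
    have h1 := hLt (-Lt.symm a) hq.le
    rwa [map_neg, LinearIsometryEquiv.apply_symm_apply] at h1
  have hPQ : ‖g a b - g (-Lt.symm a) (-b)‖ = 2 := by
    rw [hg.dist_map _ _ _ _ (msum_cap ha.le hb) (msum_cap_neg hq.le hb), norm_sub_neg_self hb]
    refine max_eq_right ?_
    have h1 := norm_sub_le a (-Lt.symm a)
    rw [hq, ha] at h1
    linarith
  have hsum : ‖g a b + g (-Lt.symm a) (-b)‖ = 2 := by
    have e : g a b + g (-Lt.symm a) (-b) = g a b - g (-a) b := by rw [hQ]; abel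
    rw [e, hg.dist_map _ _ _ _ (msum_cap ha.le hb) (msum_cap hna.le hb), sub_self, norm_zero,
      max_eq_left (norm_nonneg _)]
    have e2 : a - -a = (2 : ℝ) • a := by rw [two_smul]; abel
    rw [e2, norm_smul, ha]; norm_num
  obtain ⟨v, hv⟩ : ∃ v : Y, v = (1 / 2 : ℝ) • (g a b + g (-Lt.symm a) (-b)) := ⟨_, rfl⟩
  have hv1 : ‖v‖ = 1 := by rw [hv, norm_smul, hsum]; norm_num
  obtain ⟨a'', z'', has, hga⟩ := hg.surj v hv1
  have hvP : ‖v - g a b‖ = 1 := by
    have e : v - g a b = (-(1 / 2 : ℝ)) • (g a b - g (-Lt.symm a) (-b)) := by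
      rw [hv]; module
    rw [e, norm_smul, hPQ]; norm_num
  have hvQ : ‖v - g (-Lt.symm a) (-b)‖ = 1 := by
    have e : v - g (-Lt.symm a) (-b) = (1 / 2 : ℝ) • (g a b - g (-Lt.symm a) (-b)) := by
      rw [hv]; module
    rw [e, norm_smul, hPQ]; norm_num
  have hz1 : ‖z'' - b‖ ≤ 1 := by
    rw [← hga, hg.dist_map _ _ _ _ has (msum_cap ha.le hb)] at hvP
    rw [← hvP]; exact le_max_right _ _
  have hz2 : ‖z'' + b‖ ≤ 1 := by
    rw [← hga, hg.dist_map _ _ _ _ has (msum_cap_neg hq.le hb)] at hvQ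
    rw [← hvQ, ← sub_neg_eq_add]; exact le_max_right _ _
  have hz0 : z'' = 0 := by
    have h2b : ‖(b - z'') + (b + z'')‖ = 2 := by
      have e : (b - z'') + (b + z'') = (2 : ℝ) • b := by rw [two_smul]; abel
      rw [e, norm_smul, hb]; norm_num
    have h3 := norm_add_le (b - z'') (b + z'')
    have h4 : ‖b - z''‖ ≤ 1 := by rw [norm_sub_rev]; exact hz1
    have h5 : ‖b + z''‖ ≤ 1 := by rw [add_comm]; exact hz2
    have h6 : ‖b - z''‖ = 1 := by linarith
    have h7 : ‖b + z''‖ = 1 := by linarith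
    have h8 : b - z'' = b + z'' :=
      eq_of_norm_eq_of_norm_add_eq (by rw [h6, h7]) (by rw [h2b, h6, h7]; norm_num)
    have h9 : (2 : ℝ) • z'' = 0 := by
      have h10 : b + z'' - (b - z'') = 0 := by rw [h8]; abel
      rw [two_smul, ← h10]; abel
    simpa using h9
  rw [hz0] at has hga
  have ha'' : ‖a''‖ = 1 := msum_left_eq has (by simp)
  have hna'' : ‖-a''‖ = 1 := by rw [norm_neg]; exact ha''
  have h0 : ‖(0 : H)‖ ≤ 1 := by simp
  have htest : ∀ w : Y, ‖v - w‖ ≤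
      (1 / 2) * ‖g a b - w‖ + (1 / 2) * ‖g (-Lt.symm a) (-b) - w‖ := by
    intro w
    have e : v - w = (1 / 2 : ℝ) • (g a b - w) + (1 / 2 : ℝ) • (g (-Lt.symm a) (-b) - w) := by
      rw [hv]; module
    rw [e]
    refine (norm_add_le _ _).trans ?_
    rw [norm_smul, norm_smul]
    norm_num
  -- first test point
  have d1 : ‖v - g (-a'') 0‖ = 2 := by
    rw [← hga, hg.dist_map _ _ _ _ has (msum_side hna'' h0), sub_self, norm_zero,
      max_eq_left (norm_nonneg _)]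
    have e3 : a'' - -a'' = (2 : ℝ) • a'' := by rw [two_smul]; abel
    rw [e3, norm_smul, ha'']; norm_num
  have d2 : ‖g a b - g (-a'') 0‖ = max ‖a - -a''‖ 1 := by
    rw [hg.dist_map _ _ _ _ (msum_cap ha.le hb) (msum_side hna'' h0), sub_zero, hb]
  have d3 : ‖g (-Lt.symm a) (-b) - g (-a'') 0‖ ≤ 2 := by
    rw [hg.dist_map _ _ _ _ (msum_cap_neg hq.le hb) (msum_side hna'' h0)]
    exact hg.dist_le_two (msum_cap_neg hq.le hb) (msum_side hna'' h0)
  have ht1 := htest (g (-a'') 0)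
  rw [d1, d2] at ht1
  have h5 : 2 ≤ max ‖a - -a''‖ 1 := by linarith
  have h6 : 2 ≤ ‖a - -a''‖ := by
    rcases le_max_iff.mp h5 with h7 | h7
    · exact h7
    · norm_num at h7
  -- second test point
  have d4 : ‖v - g (-a) 0‖ = ‖a'' - -a‖ := by
    rw [← hga, hg.dist_map _ _ _ _ has (msum_side hna h0), sub_self, norm_zero,
      max_eq_left (norm_nonneg _)]
  have d5 : ‖g a b - g (-a) 0‖ ≤ 2 := by
    rw [hg.dist_map _ _ _ _ (msum_cap ha.le hb) (msum_side hna h0)]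
    exact hg.dist_le_two (msum_cap ha.le hb) (msum_side hna h0)
  have d6 : ‖g (-Lt.symm a) (-b) - g (-a) 0‖ = max ‖-Lt.symm a - -a‖ 1 := by
    rw [hg.dist_map _ _ _ _ (msum_cap_neg hq.le hb) (msum_side hna h0), sub_zero, norm_neg, hb]
  have ht2 := htest (g (-a) 0)
  rw [d4, d6] at ht2
  have e5 : a'' - -a = a - -a'' := by abel
  rw [e5] at ht2
  have h9 : 2 ≤ max ‖-Lt.symm a - -a‖ 1 := by linarith
  have h10 : 2 ≤ ‖-Lt.symm a - -a‖ := by
    rcases le_max_iff.mp h9 with h7 | h7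
    · exact h7
    · norm_num at h7
  have e6 : -Lt.symm a - -a = a - Lt.symm a := by abel
  rw [e6] at h10
  have h11 := norm_sub_le a (Lt.symm a)
  rw [LinearIsometryEquiv.norm_map, ha] at h11
  linarith

/-- The antipodal map of the sphere sends `(x, -b)` to `(-x, b)`. -/
lemma top_neg (hg : MIso g) {b : H} (hb : ‖b‖ = 1) {x : X} (hx : ‖x‖ ≤ 1) :
    g (-x) b = - g x (-b) := by
  obtain ⟨Lt, hLt⟩ := hg.exists_antipode hb
  obtain ⟨S, hSdef⟩ : ∃ S : X →ₗᵢ[ℝ] X,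
      S = (Lt.symm.trans (LinearIsometryEquiv.neg ℝ)).toLinearIsometry := ⟨_, rfl⟩
  have hSx : ∀ y, S y = - Lt.symm y := by intro y; rw [hSdef]; rfl
  have hS : ∀ y, ‖y + S y‖ = 2 * ‖y‖ := by
    intro y
    rw [hSx, ← sub_eq_add_neg]
    rcases eq_or_ne y 0 with rfl | hy
    · simp
    · have hpos : 0 < ‖y‖ := norm_pos_iff.mpr hy
      have hu : ‖‖y‖⁻¹ • y‖ = 1 := by
        rw [norm_smul, norm_inv, norm_norm, inv_mul_cancel₀ hpos.ne']
      have h1 := hg.norm_sub_antipode_symm hb hLt hu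
      rw [map_smul, ← smul_sub, norm_smul, norm_inv, norm_norm,
        inv_mul_eq_iff_eq_mul₀ hpos.ne'] at h1
      linarith
  have h1 := CylIso.eq_self_of_norm_add_eq S hS (-x)
  rw [hSx] at h1
  have h2 : Lt.symm (-x) = x := by rw [← neg_neg (Lt.symm (-x)), h1, neg_neg]
  have h3 : Lt x = -x := by rw [← h2, LinearIsometryEquiv.apply_symm_apply, h2]
  rw [← h3]
  exact hLt x hx

/-- The antipodal property at the poles. -/
lemma pole_neg (hg : MIso g) {b : H} (hb : ‖b‖ = 1) : g (0 : X) (-b) = - g 0 b := by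
  have h1 := hg.top_neg hb (x := (0 : X)) (by simp)
  rw [neg_zero] at h1
  rw [h1, neg_neg]

end MIso

/-- The equator subspace of `Y`: the common kernel of all height functionals of caps. -/
def eqSub (g : X → H → Y) : Submodule ℝ Y where
  carrier := {y | ∀ (b : H) (ψ : Y →L[ℝ] ℝ), ‖b‖ = 1 → (∀ w, ψ w ≤ ‖w‖) →
    (∀ x : X, ‖x‖ ≤ 1 → ψ (g x b) = 1) → ψ y = 0}
  add_mem' := by
    intro y y' hy hy' b ψ hb hle htop
    rw [map_add, hy b ψ hb hle htop, hy' b ψ hb hle htop, add_zero]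
  zero_mem' := by
    intro b ψ _ _ _
    exact map_zero ψ
  smul_mem' := by
    intro c y hy b ψ hb hle htop
    rw [map_smul, hy b ψ hb hle htop, smul_zero]

lemma mem_eqSub {g : X → H → Y} {y : Y} : y ∈ eqSub g ↔
    ∀ (b : H) (ψ : Y →L[ℝ] ℝ), ‖b‖ = 1 → (∀ w, ψ w ≤ ‖w‖) →
      (∀ x : X, ‖x‖ ≤ 1 → ψ (g x b) = 1) → ψ y = 0 := Iff.rfl

namespace MIso

variable [StrictConvexSpace ℝ H] {g : X → H → Y}

/-- Images of equator points lie in the equator subspace. -/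
lemma equator_mem (hg : MIso g) {a : X} (ha : ‖a‖ = 1) : g a 0 ∈ eqSub g := by
  intro b ψ hb hle htop
  have h := hg.height_bounds hb hle htop (msum_side ha (by simp : ‖(0 : H)‖ ≤ 1))
  rw [zero_sub, norm_neg, zero_add, hb] at h
  linarith [h.1, h.2]

/-- Unit vectors of the equator subspace are images of equator points. -/
lemma exists_equator_of_mem (hg : MIso g) {y : Y} (hy : y ∈ eqSub g) (hy1 : ‖y‖ = 1) :
    ∃ a : X, ‖a‖ = 1 ∧ g a 0 = y := by
  obtain ⟨x, z, hxz, hgxz⟩ := hg.surj y hy1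
  have hz : z = 0 := by
    by_contra hne
    have hpos : 0 < ‖z‖ := norm_pos_iff.mpr hne
    have hb : ‖‖z‖⁻¹ • z‖ = 1 := norm_inv_smul_self hne
    obtain ⟨ψ, hle, htop⟩ := hg.exists_height hb
    have h1 := (hg.height_bounds hb hle htop hxz).1
    rw [hgxz, hy _ ψ hb hle htop] at h1
    have e : z - ‖z‖⁻¹ • z = (1 - ‖z‖⁻¹) • z := by rw [sub_smul, one_smul]
    have hz1 := msum_le_right hxz
    have hinv : 1 ≤ ‖z‖⁻¹ := (one_le_inv₀ hpos).mpr hz1
    rw [e, norm_smul, Real.norm_eq_abs, abs_of_nonpos (by linarith)] at h1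
    have e2 : -(1 - ‖z‖⁻¹) * ‖z‖ = 1 - ‖z‖ := by field_simp; ring
    linarith
  rw [hz] at hxz hgxz
  exact ⟨x, msum_left_eq hxz (by simp), hgxz⟩

/-- Translating the pole `g 0 b` by a vector of norm at most `1` of the equator subspace gives
a unit vector. -/
lemma norm_pole_add (hg : MIso g) {b : H} (hb : ‖b‖ = 1) {e : Y} (he : e ∈ eqSub g)
    (hen : ‖e‖ ≤ 1) : ‖g 0 b + e‖ = 1 := by
  obtain ⟨ψ, hle, htop⟩ := hg.exists_height hb
  have hc : ‖g (0 : X) b‖ = 1 := hg.norm_map 0 b (msum_cap (by simp) hb)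
  have hge : 1 ≤ ‖g 0 b + e‖ := by
    have h1 := hle (g 0 b + e)
    rwa [map_add, htop 0 (by simp), he b ψ hb hle htop, add_zero] at h1
  refine le_antisymm ?_ hge
  rcases eq_or_ne e 0 with rfl | hne
  · rw [add_zero, hc]
  have hpos : 0 < ‖e‖ := norm_pos_iff.mpr hne
  have hu : ‖‖e‖⁻¹ • e‖ = 1 := norm_inv_smul_self hne
  obtain ⟨a, ha, hga⟩ := hg.exists_equator_of_mem ((eqSub g).smul_mem _ he) hu
  have h1 : ‖g 0 b + ‖e‖⁻¹ • e‖ = 1 := by
    rw [← hga]
    have e1 : g 0 b + g a 0 = g a 0 - g 0 (-b) := by rw [hg.pole_neg hb]; abel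
    rw [e1, hg.dist_map _ _ _ _ (msum_side ha (by simp)) (msum_cap_neg (by simp) hb), sub_zero,
      ha, zero_sub, neg_neg, hb]
    exact max_self 1
  have e2 : g 0 b + e = (1 - ‖e‖) • g (0 : X) b + ‖e‖ • (g 0 b + ‖e‖⁻¹ • e) := by
    rw [smul_add, smul_smul, mul_inv_cancel₀ hpos.ne', one_smul, sub_smul, one_smul]; abel
  rw [e2]
  refine (norm_add_le _ _).trans ?_
  rw [norm_smul, norm_smul, h1, hc, Real.norm_eq_abs, abs_of_nonneg (by linarith), norm_norm]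
  linarith

/-- The norm of `Y` on the sum of the equator subspace and the line through a pole. -/
lemma norm_eq_add_smul (hg : MIso g) {b : H} (hb : ‖b‖ = 1) {e : Y} (he : e ∈ eqSub g)
    (r : ℝ) : ‖e + r • g 0 b‖ = max ‖e‖ |r| := by
  rcases le_total ‖e‖ |r| with hcase | hcase
  · rw [max_eq_right hcase]
    rcases eq_or_ne r 0 with rfl | hr
    · rw [abs_zero] at hcase
      have he0 : e = 0 := norm_le_zero_iff.mp hcase
      rw [he0]; simp
    · have hrpos : 0 < |r| := abs_pos.mpr hr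
      have e1 : e + r • g 0 b = r • (g 0 b + r⁻¹ • e) := by
        rw [smul_add, smul_smul, mul_inv_cancel₀ hr, one_smul, add_comm]
      have h1 : ‖r⁻¹ • e‖ ≤ 1 := by
        rw [norm_smul, norm_inv, Real.norm_eq_abs, inv_mul_le_iff₀ hrpos, mul_one]; exact hcase
      rw [e1, norm_smul, hg.norm_pole_add hb ((eqSub g).smul_mem _ he) h1, mul_one,
        Real.norm_eq_abs]
  · rw [max_eq_left hcase]
    rcases eq_or_ne e 0 with rfl | hne
    · rw [norm_zero] at hcase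
      have hr0 : r = 0 := abs_eq_zero.mp (le_antisymm hcase (abs_nonneg _))
      rw [hr0]; simp
    · have hpos : 0 < ‖e‖ := norm_pos_iff.mpr hne
      obtain ⟨eh, heh⟩ : ∃ eh : Y, eh = ‖e‖⁻¹ • e := ⟨_, rfl⟩
      have hu : ‖eh‖ = 1 := by rw [heh]; exact norm_inv_smul_self hne
      have hu0 : eh ∈ eqSub g := by rw [heh]; exact (eqSub g).smul_mem _ he
      have hnu0 : -eh ∈ eqSub g := (eqSub g).neg_mem hu0
      have hρ : |r / ‖e‖| ≤ 1 := by rw [abs_div, abs_norm, div_le_one hpos]; exact hcase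
      have hρ' := abs_le.mp hρ
      have hU : ‖g 0 b + eh‖ = 1 := hg.norm_pole_add hb hu0 hu.le
      have hV : ‖eh - g 0 b‖ = 1 := by
        have h1 := hg.norm_pole_add hb hnu0 (by rw [norm_neg]; exact hu.le)
        rw [← norm_neg] at h1
        have e3 : -(g 0 b + -eh) = eh - g 0 b := by abel
        rwa [e3] at h1
      have hUV : ‖(g 0 b + eh) + (eh - g 0 b)‖ = 2 := by
        have e4 : (g 0 b + eh) + (eh - g 0 b) = (2 : ℝ) • eh := by rw [two_smul]; abel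
        rw [e4, norm_smul, hu]; norm_num
      have h3 := norm_nonneg_combo hU hV hUV (α := (1 + r / ‖e‖) / 2)
        (β := (1 - r / ‖e‖) / 2) (by linarith) (by linarith)
      have e5 : e + r • g 0 b = ‖e‖ • (((1 + r / ‖e‖) / 2) • (g 0 b + eh) +
          ((1 - r / ‖e‖) / 2) • (eh - g 0 b)) := by
        have e6 : ((1 + r / ‖e‖) / 2) • (g 0 b + eh) + ((1 - r / ‖e‖) / 2) • (eh - g 0 b) =
            eh + (r / ‖e‖) • g 0 b := by
          module
        rw [e6, smul_add, smul_smul, heh, smul_smul, mul_inv_cancel₀ hpos.ne', one_smul,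
          mul_div_cancel₀ _ hpos.ne']
      rw [e5, norm_smul, h3, norm_norm]; ring

/-- The corner formula. -/
lemma corner (hg : MIso g) {a : X} (ha : ‖a‖ = 1) {b : H} (hb : ‖b‖ = 1) :
    g a b = g a 0 + g 0 b := by
  obtain ⟨ψ, hle, htop⟩ := hg.exists_height hb
  have h0 : ‖(0 : H)‖ ≤ 1 := by simp
  have hmem := hg.equator_mem ha
  have hna : ‖g a 0‖ = 1 := hg.norm_map a 0 (msum_side ha h0)
  have hw : ‖g 0 b + g a 0‖ = 1 := hg.norm_pole_add hb hmem hna.le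
  obtain ⟨x', z', h', hgx'⟩ := hg.surj _ hw
  have hz' : z' = b := hg.eq_of_height_one hb hle htop h'
    (by rw [hgx', map_add, htop 0 (by simp), hmem b ψ hb hle htop, add_zero])
  rw [hz'] at h' hgx'
  have hx'1 : ‖x'‖ = 1 := by
    have h1 := hg.dist_map x' b 0 b h' (msum_cap (by simp) hb)
    rw [hgx', add_sub_cancel_left, hna, sub_zero, sub_self, norm_zero,
      max_eq_left (norm_nonneg _)] at h1
    exact h1.symm
  have hRa : x' = a := by
    refine eq_of_max_dist_sphere ha hx'1 zero_le_one le_rfl fun a' ha' => ?_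
    have h1 := hg.dist_map x' b a' 0 h' (msum_side ha' h0)
    rw [hgx', sub_zero, hb] at h1
    rw [← h1]
    have e : g 0 b + g a 0 - g a' 0 = (g a 0 - g a' 0) + (1 : ℝ) • g 0 b := by
      rw [one_smul]; abel
    rw [e, hg.norm_eq_add_smul hb ((eqSub g).sub_mem hmem (hg.equator_mem ha')) 1,
      hg.dist_map _ _ _ _ (msum_side ha h0) (msum_side ha' h0), sub_self, norm_zero,
      max_eq_left (norm_nonneg _), abs_one]
  rw [hRa] at hgx'
  rw [hgx', add_comm]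

/-- The antipodal property on the equator. -/
lemma equator_neg (hg : MIso g) {a : X} (ha : ‖a‖ = 1) {b : H} (hb : ‖b‖ = 1) :
    g (-a) 0 = - g a 0 := by
  have hna : ‖-a‖ = 1 := by rw [norm_neg]; exact ha
  have hnb : ‖-b‖ = 1 := by rw [norm_neg]; exact hb
  have h1 := hg.corner hna hb
  have h2 := hg.top_neg hb ha.le
  have h3 := hg.corner ha hnb
  rw [h2, h3, hg.pole_neg hb] at h1
  have h4 : g (-a) 0 = -(g a 0 + -g 0 b) - g 0 b := by rw [h1]; abel
  rw [h4]; abel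

end MIso

end Vale.Agent.H23
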