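import Vale.Agent.H23.Clique
import Vale.Agent.H23.MSum

/-!
# Sphere isometries of an arbitrary `ℓ^∞`-sum `X ⊕_∞ H`

Function-level study of surjective isometries from the unit sphere of `X ⊕_∞ H` (points `(x, z)`
with norm `max ‖x‖ ‖z‖`) onto the unit sphere of a real normed space `Y`, where `X` and `H` are
arbitrary real normed spaces. This file constructs the two subspaces of `Y` spanned by the
images of the two summands, proves that the norm of `Y` is the maximum norm on their sum, and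
proves the corner formula `g a b = g a 0 + g 0 b`.
-/

namespace Vale.Agent.H23

open scoped ENNReal

variable {X H Y : Type*} [NormedAddCommGroup X] [NormedSpace ℝ X]
  [NormedAddCommGroup H] [NormedSpace ℝ H]
  [NormedAddCommGroup Y] [NormedSpace ℝ Y]

/-- The subspace of `Y` attached to the first summand: the common kernel of all height
functionals of the caps `{(x, b) : ‖x‖ ≤ 1}` and `{(x, -b) : ‖x‖ ≤ 1}`. -/
def eqSub2 (g : X → H → Y) : Submodule ℝ Y where
  carrier := {y | ∀ (b : H) (ψ : Y →L[ℝ] ℝ), ‖b‖ = 1 → (∀ w, ψ w ≤ ‖w‖) →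
    (∀ x : X, ‖x‖ ≤ 1 → ψ (g x b) = 1) → (∀ x : X, ‖x‖ ≤ 1 → ψ (g x (-b)) = -1) → ψ y = 0}
  add_mem' := by
    intro y y' hy hy' b ψ hb hle htop hbot
    rw [map_add, hy b ψ hb hle htop hbot, hy' b ψ hb hle htop hbot, add_zero]
  zero_mem' := by
    intro b ψ _ _ _ _
    exact map_zero ψ
  smul_mem' := by
    intro c y hy b ψ hb hle htop hbot
    rw [map_smul, hy b ψ hb hle htop hbot, smul_zero]

lemma isClosed_eqSub2 (g : X → H → Y) : IsClosed (eqSub2 g : Set Y) := by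
  have h : (eqSub2 g : Set Y) = ⋂ (b : H) (ψ : Y →L[ℝ] ℝ) (_ : ‖b‖ = 1)
      (_ : ∀ w, ψ w ≤ ‖w‖) (_ : ∀ x : X, ‖x‖ ≤ 1 → ψ (g x b) = 1)
      (_ : ∀ x : X, ‖x‖ ≤ 1 → ψ (g x (-b)) = -1), {y | ψ y = 0} := by
    ext y
    simp only [Set.mem_iInter, Set.mem_ofPred_eq]
    exact Iff.rfl
  rw [h]
  refine isClosed_iInter fun b => isClosed_iInter fun ψ => isClosed_iInter fun _ =>
    isClosed_iInter fun _ => isClosed_iInter fun _ => isClosed_iInter fun _ => ?_
  exact isClosed_eq ψ.continuous continuous_const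

/-- If unit vectors of two subspaces always have a sum of norm `1`, then the norm of the sum of
a vector of the first and a shorter vector of the second is the norm of the first. -/
lemma norm_add_of_unit_cross {A B : Submodule ℝ Y}
    (h : ∀ e ∈ A, ∀ q ∈ B, ‖e‖ = 1 → ‖q‖ = 1 → ‖e + q‖ = 1) {e q : Y} (he : e ∈ A) (hq : q ∈ B)
    (hle : ‖q‖ ≤ ‖e‖) : ‖e + q‖ = ‖e‖ := by
  rcases eq_or_ne e 0 with rfl | hne
  · rw [norm_zero] at hle
    have hq0 : q = 0 := norm_le_zero_iff.mp hle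
    rw [hq0, add_zero]
  rcases eq_or_ne q 0 with rfl | hqne
  · rw [add_zero]
  have hpos : 0 < ‖e‖ := norm_pos_iff.mpr hne
  have hqpos : 0 < ‖q‖ := norm_pos_iff.mpr hqne
  obtain ⟨eh, heh⟩ : ∃ eh : Y, eh = ‖e‖⁻¹ • e := ⟨_, rfl⟩
  obtain ⟨qh, hqh⟩ : ∃ qh : Y, qh = ‖q‖⁻¹ • q := ⟨_, rfl⟩
  have hu : ‖eh‖ = 1 := by rw [heh]; exact norm_inv_smul_self hne
  have hv : ‖qh‖ = 1 := by rw [hqh]; exact norm_inv_smul_self hqne
  have heA : eh ∈ A := by rw [heh]; exact A.smul_mem _ he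
  have hqB : qh ∈ B := by rw [hqh]; exact B.smul_mem _ hq
  have hU : ‖eh + qh‖ = 1 := h eh heA qh hqB hu hv
  have hV : ‖eh + -qh‖ = 1 := h eh heA (-qh) (B.neg_mem hqB) hu (by rw [norm_neg]; exact hv)
  have hUV : ‖(eh + qh) + (eh + -qh)‖ = 2 := by
    have e4 : (eh + qh) + (eh + -qh) = (2 : ℝ) • eh := by rw [two_smul]; abel
    rw [e4, norm_smul, hu]; norm_num
  have hρ : ‖q‖ / ‖e‖ ≤ 1 := (div_le_one hpos).mpr hle
  have hρ0 : 0 ≤ ‖q‖ / ‖e‖ := by positivity
  have h3 := norm_nonneg_combo hU hV hUV (α := (1 + ‖q‖ / ‖e‖) / 2)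
    (β := (1 - ‖q‖ / ‖e‖) / 2) (by linarith) (by linarith)
  have e5 : e + q = ‖e‖ • (((1 + ‖q‖ / ‖e‖) / 2) • (eh + qh) +
      ((1 - ‖q‖ / ‖e‖) / 2) • (eh + -qh)) := by
    have e6 : ((1 + ‖q‖ / ‖e‖) / 2) • (eh + qh) + ((1 - ‖q‖ / ‖e‖) / 2) • (eh + -qh) =
        eh + (‖q‖ / ‖e‖) • qh := by
      module
    rw [e6, smul_add, smul_smul, heh, hqh, smul_smul, mul_inv_cancel₀ hpos.ne', one_smul,
      smul_smul, mul_div_cancel₀ _ hpos.ne', mul_inv_cancel₀ hqpos.ne', one_smul]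
  rw [e5, norm_smul, h3, norm_norm]; ring

namespace MIso

variable {g : X → H → Y}

/-- Exchanging the two summands. -/
lemma swap (hg : MIso g) : MIso (fun (z : H) (x : X) => g x z) := by
  refine ⟨fun z x h => hg.norm_map x z (by rwa [max_comm]), fun z x z' x' h h' => ?_,
    fun w hw => ?_⟩
  · rw [hg.dist_map x z x' z' (by rwa [max_comm]) (by rwa [max_comm]), max_comm]
  · obtain ⟨x, z, h, hgw⟩ := hg.surj w hw
    exact ⟨z, x, by rwa [max_comm], hgw⟩

/-- The associated map on the `ℓ^∞`-sum is a surjective isometry between unit spheres. -/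
lemma sIso (hg : MIso g) : SIso (fun u : WithLp ∞ (X × H) => g u.fst u.snd) := by
  refine ⟨fun u hu => hg.norm_map _ _ ?_, fun u v hu hv => ?_, fun w hw => ?_⟩
  · rw [← hu, WithLp.prod_norm_eq_sup]
  · rw [hg.dist_map _ _ _ _ (by rw [← hu, WithLp.prod_norm_eq_sup])
      (by rw [← hv, WithLp.prod_norm_eq_sup]), WithLp.prod_norm_eq_sup]
    rfl
  · obtain ⟨x, z, h, hgw⟩ := hg.surj w hw
    refine ⟨WithLp.toLp ∞ (x, z), ?_, hgw⟩
    rw [WithLp.prod_norm_eq_sup]
    exact h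

/-- Sphere isometries of `X ⊕_∞ H` preserve and reflect the relation `‖u + c‖ = 2`. -/
lemma norm_add_eq_two_iff (hg : MIso g) {x x' : X} {z z' : H} (h : max ‖x‖ ‖z‖ = 1)
    (h' : max ‖x'‖ ‖z'‖ = 1) : ‖g x z + g x' z'‖ = 2 ↔ max ‖x + x'‖ ‖z + z'‖ = 2 := by
  have hn : ∀ (a : X) (c : H),
      ‖(WithLp.toLp ∞ (a, c) : WithLp ∞ (X × H))‖ = max ‖a‖ ‖c‖ := by
    intro a c
    rw [WithLp.prod_norm_eq_sup]
    rfl
  have key := hg.sIso.norm_add_eq_two_iff (u := WithLp.toLp ∞ (x, z))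
    (c := WithLp.toLp ∞ (x', z')) (by rw [hn, h]) (by rw [hn, h'])
  have e : (WithLp.toLp ∞ (x, z) : WithLp ∞ (X × H)) + WithLp.toLp ∞ (x', z') =
      WithLp.toLp ∞ (x + x', z + z') := rfl
  rw [e, hn] at key
  exact key

/-- Height functionals: a functional dominated by the norm, equal to `1` on the image of the
cap over `b` and to `-1` on the image of the cap over `-b`. -/
lemma exists_height2 (hg : MIso g) {b : H} (hb : ‖b‖ = 1) :
    ∃ ψ : Y →L[ℝ] ℝ, (∀ y, ψ y ≤ ‖y‖) ∧ (∀ x : X, ‖x‖ ≤ 1 → ψ (g x b) = 1) ∧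
      ∀ x : X, ‖x‖ ≤ 1 → ψ (g x (-b)) = -1 := by
  have h0 : ‖(0 : X)‖ ≤ 1 := by simp
  have hp₀ : ‖g (0 : X) b‖ = 1 := hg.norm_map 0 b (msum_cap h0 hb)
  obtain ⟨P, hPdef⟩ : ∃ P : Set Y,
      P = {w | ∃ x : X, ‖x‖ ≤ 1 ∧ (w = g x b ∨ w = - g x (-b))} := ⟨_, rfl⟩
  have hP : ∀ p ∈ P, ‖p‖ = 1 ∧ ∀ w : Y, ‖w‖ = 1 → ‖w + g 0 b‖ = 2 → ‖w + p‖ = 2 := by
    intro p hp
    rw [hPdef] at hp
    obtain ⟨x, hx, hpx⟩ := hp
    have hcap := msum_cap hx hb
    have hcapn := msum_cap_neg hx hb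
    constructor
    · rcases hpx with rfl | rfl
      · exact hg.norm_map x b hcap
      · rw [norm_neg]; exact hg.norm_map x (-b) hcapn
    · intro w hw hw2
      obtain ⟨x', z', h', rfl⟩ := hg.surj w hw
      have h1 := (hg.norm_add_eq_two_iff h' (msum_cap h0 hb)).mp hw2
      rw [add_zero] at h1
      have hx' := msum_le_left h'
      have hz : ‖z' + b‖ = 2 := by
        rcases max_choice ‖x'‖ ‖z' + b‖ with h3 | h3
        · rw [h3] at h1; linarith
        · rw [h3] at h1; exact h1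
      rcases hpx with rfl | rfl
      · rw [hg.norm_add_eq_two_iff h' hcap, hz]
        apply max_eq_right
        have := norm_add_le x' x
        linarith
      · rw [← sub_eq_add_neg, hg.dist_map _ _ _ _ h' hcapn, sub_neg_eq_add, hz]
        apply max_eq_right
        have := norm_sub_le x' x
        linarith
  obtain ⟨ψ, hle, hψ⟩ := exists_functional_of_aligned hp₀ hP
  refine ⟨ψ, hle, fun x hx => hψ _ (by rw [hPdef]; exact ⟨x, hx, Or.inl rfl⟩), fun x hx => ?_⟩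
  have h1 := hψ (- g x (-b)) (by rw [hPdef]; exact ⟨x, hx, Or.inr rfl⟩)
  rw [map_neg] at h1
  linarith

/-- Bounds for a height functional. -/
lemma height_bounds2 (hg : MIso g) {b : H} (hb : ‖b‖ = 1) {ψ : Y →L[ℝ] ℝ}
    (hle : ∀ y, ψ y ≤ ‖y‖) (htop : ∀ x : X, ‖x‖ ≤ 1 → ψ (g x b) = 1)
    (hbot : ∀ x : X, ‖x‖ ≤ 1 → ψ (g x (-b)) = -1) {x : X} {z : H}
    (hxz : max ‖x‖ ‖z‖ = 1) : 1 - ‖z - b‖ ≤ ψ (g x z) ∧ ψ (g x z) ≤ ‖z + b‖ - 1 := by
  have hx := msum_le_left hxz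
  have h1 := hle (g x b - g x z)
  rw [hg.dist_map _ _ _ _ (msum_cap hx hb) hxz, sub_self, norm_zero, map_sub, htop x hx,
    max_eq_right (norm_nonneg _), norm_sub_rev] at h1
  have h2 := hle (g x z - g x (-b))
  rw [hg.dist_map _ _ _ _ hxz (msum_cap_neg hx hb), sub_self, norm_zero, map_sub, hbot x hx,
    max_eq_right (norm_nonneg _), show z - -b = z + b from sub_neg_eq_add z b] at h2
  constructor <;> linarith

/-- Images of equator points lie in the first subspace. -/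
lemma equator_mem2 (hg : MIso g) {a : X} (ha : ‖a‖ = 1) : g a 0 ∈ eqSub2 g := by
  intro b ψ hb hle htop hbot
  have h := hg.height_bounds2 hb hle htop hbot (msum_side ha (by simp : ‖(0 : H)‖ ≤ 1))
  rw [zero_sub, norm_neg, zero_add, hb] at h
  linarith [h.1, h.2]

/-- Unit vectors of the first subspace are images of equator points. -/
lemma exists_equator_of_mem2 (hg : MIso g) {y : Y} (hy : y ∈ eqSub2 g) (hy1 : ‖y‖ = 1) :
    ∃ a : X, ‖a‖ = 1 ∧ g a 0 = y := by
  obtain ⟨x, z, hxz, hgxz⟩ := hg.surj y hy1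
  have hz : z = 0 := by
    by_contra hne
    have hpos : 0 < ‖z‖ := norm_pos_iff.mpr hne
    have hb : ‖‖z‖⁻¹ • z‖ = 1 := norm_inv_smul_self hne
    obtain ⟨ψ, hle, htop, hbot⟩ := hg.exists_height2 hb
    have h1 := (hg.height_bounds2 hb hle htop hbot hxz).1
    rw [hgxz, hy _ ψ hb hle htop hbot] at h1
    have e : z - ‖z‖⁻¹ • z = (1 - ‖z‖⁻¹) • z := by rw [sub_smul, one_smul]
    have hz1 := msum_le_right hxz
    have hinv : 1 ≤ ‖z‖⁻¹ := (one_le_inv₀ hpos).mpr hz1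
    rw [e, norm_smul, Real.norm_eq_abs, abs_of_nonpos (by linarith)] at h1
    have e2 : -(1 - ‖z‖⁻¹) * ‖z‖ = 1 - ‖z‖ := by field_simp; ring
    linarith
  rw [hz] at hxz hgxz
  exact ⟨x, msum_left_eq hxz (by simp), hgxz⟩

/-- Images of poles lie in the second subspace. -/
lemma pole_mem2 (hg : MIso g) {b : H} (hb : ‖b‖ = 1) :
    g 0 b ∈ eqSub2 (fun (z : H) (x : X) => g x z) :=
  hg.swap.equator_mem2 hb

/-- Unit vectors of the second subspace are images of poles. -/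
lemma exists_pole_of_mem2 (hg : MIso g) {y : Y}
    (hy : y ∈ eqSub2 (fun (z : H) (x : X) => g x z)) (hy1 : ‖y‖ = 1) :
    ∃ b : H, ‖b‖ = 1 ∧ g 0 b = y :=
  hg.swap.exists_equator_of_mem2 hy hy1

/-- The norm of `Y` on the sum of the two subspaces is the maximum norm. -/
lemma norm_add_eq_max (hg : MIso g) {e q : Y} (he : e ∈ eqSub2 g)
    (hq : q ∈ eqSub2 (fun (z : H) (x : X) => g x z)) : ‖e + q‖ = max ‖e‖ ‖q‖ := by
  have hunit : ∀ e ∈ eqSub2 g, ∀ q ∈ eqSub2 (fun (z : H) (x : X) => g x z),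
      ‖e‖ = 1 → ‖q‖ = 1 → ‖e + q‖ = 1 := by
    intro e he q hq he1 hq1
    obtain ⟨a, ha, hga⟩ := hg.exists_equator_of_mem2 he he1
    obtain ⟨b, hb, hgb⟩ := hg.exists_pole_of_mem2 ((eqSub2 _).neg_mem hq)
      (by rw [norm_neg]; exact hq1)
    have e1 : e + q = g a 0 - g 0 b := by rw [hga, hgb]; abel
    rw [e1, hg.dist_map _ _ _ _ (msum_side ha (by simp)) (msum_cap (by simp) hb), sub_zero,
      zero_sub, norm_neg, ha, hb]
    exact max_self 1
  rcases le_total ‖q‖ ‖e‖ with hcase | hcase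
  · rw [max_eq_left hcase]
    exact norm_add_of_unit_cross hunit he hq hcase
  · rw [max_eq_right hcase, add_comm]
    refine norm_add_of_unit_cross ?_ hq he hcase
    intro q hq e he hq1 he1
    rw [add_comm]
    exact hunit e he q hq he1 hq1

/-- First half of the corner formula. -/
lemma corner_aux (hg : MIso g) {a : X} (ha : ‖a‖ = 1) {b : H} (hb : ‖b‖ = 1) {x' : X}
    {z' : H} (h' : max ‖x'‖ ‖z'‖ = 1) (hw : g x' z' = g a 0 + g 0 b) : x' = a := by
  have h0 : ‖(0 : H)‖ ≤ 1 := by simp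
  have hz' := msum_le_right h'
  have hx' := msum_le_left h'
  have hstar : ∀ a' : X, ‖a'‖ = 1 → max ‖x' - a'‖ ‖z'‖ = max ‖a - a'‖ 1 := by
    intro a' ha'
    have h1 := hg.dist_map x' z' a' 0 h' (msum_side ha' h0)
    rw [sub_zero] at h1
    rw [← h1, hw]
    have e : g a 0 + g 0 b - g a' 0 = (g a 0 - g a' 0) + g 0 b := by abel
    rw [e, hg.norm_add_eq_max ((eqSub2 g).sub_mem (hg.equator_mem2 ha) (hg.equator_mem2 ha'))
      (hg.pole_mem2 hb), hg.dist_map _ _ _ _ (msum_side ha h0) (msum_side ha' h0), sub_self,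
      norm_zero, max_eq_left (norm_nonneg _), hg.norm_map 0 b (msum_cap (by simp) hb)]
  have hx'1 : ‖x'‖ = 1 := by
    have h1 := hstar (-a) (by rw [norm_neg]; exact ha)
    rw [sub_neg_eq_add] at h1
    have e : a - -a = (2 : ℝ) • a := by rw [two_smul]; abel
    rw [e, norm_smul, ha] at h1
    norm_num at h1
    have h2 : ‖x' + a‖ = 2 := by
      rcases max_choice ‖x' + a‖ ‖z'‖ with h3 | h3
      · rw [h3] at h1; exact h1
      · rw [h3] at h1; linarith
    have h3 := norm_add_le x' a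
    linarith
  refine eq_of_max_dist_sphere ha hx'1 zero_le_one le_rfl fun a' ha' => ?_
  have h1 := hstar a' ha'
  have h2 : max (max ‖x' - a'‖ ‖z'‖) 1 = max ‖x' - a'‖ 1 := by
    rw [max_assoc, max_eq_right hz']
  rw [← h2, h1, max_assoc, max_self]

/-- The corner formula. -/
lemma corner2 (hg : MIso g) {a : X} (ha : ‖a‖ = 1) {b : H} (hb : ‖b‖ = 1) :
    g a b = g a 0 + g 0 b := by
  have hw : ‖g a 0 + g 0 b‖ = 1 := by
    rw [hg.norm_add_eq_max (hg.equator_mem2 ha) (hg.pole_mem2 hb),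
      hg.norm_map a 0 (msum_side ha (by simp)), hg.norm_map 0 b (msum_cap (by simp) hb)]
    exact max_self 1
  obtain ⟨x', z', h', hgx'⟩ := hg.surj _ hw
  have h1 : x' = a := hg.corner_aux ha hb h' hgx'
  have h2 : z' = b := hg.swap.corner_aux hb ha (x' := z') (z' := x') (by rwa [max_comm])
    (by
      show g x' z' = g 0 b + g a 0
      rw [hgx', add_comm])
  rw [← hgx', h1, h2]

/-- The pole over `b` translated by a vector of norm at most `1` of the first subspace is the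
image of a point of the cap over `b`. -/
lemma exists_cap_of_mem2 (hg : MIso g) {b : H} (hb : ‖b‖ = 1) {e : Y} (he : e ∈ eqSub2 g)
    (hen : ‖e‖ ≤ 1) : ∃ x : X, ‖x‖ ≤ 1 ∧ g x b = g 0 b + e := by
  have h0 : ‖(0 : X)‖ ≤ 1 := by simp
  have hpole : ‖g (0 : X) b‖ = 1 := hg.norm_map 0 b (msum_cap h0 hb)
  have hw : ‖g 0 b + e‖ = 1 := by
    rw [add_comm, hg.norm_add_eq_max he (hg.pole_mem2 hb), hpole]
    exact max_eq_right hen
  obtain ⟨x', z', h', hgx'⟩ := hg.surj _ hw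
  have hz' := msum_le_right h'
  have hx' := msum_le_left h'
  have hstar : ∀ b' : H, ‖b'‖ = 1 → max ‖x'‖ ‖z' - b'‖ = max ‖e‖ ‖b - b'‖ := by
    intro b' hb'
    have h1 := hg.dist_map x' z' 0 b' h' (msum_cap h0 hb')
    rw [sub_zero] at h1
    rw [← h1, hgx']
    have e1 : g 0 b + e - g 0 b' = e + (g 0 b - g 0 b') := by abel
    rw [e1, hg.norm_add_eq_max he
      ((eqSub2 _).sub_mem (hg.pole_mem2 hb) (hg.pole_mem2 hb')),
      hg.dist_map _ _ _ _ (msum_cap h0 hb) (msum_cap h0 hb'), sub_self, norm_zero,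
      max_eq_right (norm_nonneg _)]
  have hz'1 : ‖z'‖ = 1 := by
    have h1 := hstar (-b) (by rw [norm_neg]; exact hb)
    rw [sub_neg_eq_add] at h1
    have e1 : b - -b = (2 : ℝ) • b := by rw [two_smul]; abel
    rw [e1, norm_smul, hb] at h1
    norm_num at h1
    have h4 : max ‖e‖ 2 = 2 := max_eq_right (by linarith)
    rw [h4] at h1
    have h2 : ‖z' + b‖ = 2 := by
      rcases max_choice ‖x'‖ ‖z' + b‖ with h3 | h3
      · rw [h3] at h1; linarith
      · rw [h3] at h1; exact h1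
    have h3 := norm_add_le z' b
    linarith
  have hxe : ‖x'‖ = ‖e‖ := by
    apply le_antisymm
    · have h1 := hstar b hb
      rw [sub_self, norm_zero, max_eq_left (norm_nonneg _)] at h1
      rw [← h1]
      exact le_max_left _ _
    · have h1 := hstar z' hz'1
      rw [sub_self, norm_zero, max_eq_left (norm_nonneg _)] at h1
      rw [h1]
      exact le_max_left _ _
  have hzb : z' = b := by
    refine eq_of_max_dist_sphere hb hz'1 (norm_nonneg e) hen fun b' hb' => ?_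
    have h1 := hstar b' hb'
    rw [hxe] at h1
    rw [max_comm, h1, max_comm]
  rw [hzb] at hgx'
  exact ⟨x', hx', hgx'⟩

end MIso

end Vale.Agent.H23
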