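import Vale.Agent.H23.MGen
import Vale.Agent.H23.L1Main

/-!
# Tingley's problem for arbitrary `ℓ^∞`-sums `X ⊕_∞ H`

For all nonzero real normed spaces `X` and `H` and every real Banach space `Y`, every surjective
isometry from the unit sphere of `X ⊕_∞ H` onto the unit sphere of `Y` is the restriction of a
surjective real-linear isometry.
-/

namespace Vale.Agent.H23

open scoped ENNReal

variable {X H Y : Type*} [NormedAddCommGroup X] [NormedSpace ℝ X]
  [NormedAddCommGroup H] [NormedSpace ℝ H]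
  [NormedAddCommGroup Y] [NormedSpace ℝ Y]

namespace MIso

variable {g : X → H → Y}

/-- The image of a side point is within distance `1/2` of the sum of the two subspaces. -/
lemma exists_near_side (hg : MIso g) {x : X} {z : H} (hx : ‖x‖ = 1) (hz : ‖z‖ ≤ 1) :
    ∃ e ∈ eqSub2 g, ∃ q ∈ eqSub2 (fun (z : H) (x : X) => g x z),
      ‖g x z - (e + q)‖ ≤ 1 / 2 := by
  have h0 : ‖(0 : H)‖ ≤ 1 := by simp
  rcases le_total ‖z‖ (1 / 2) with hhalf | hhalf
  · refine ⟨g x 0, hg.equator_mem2 hx, 0, Submodule.zero_mem _, ?_⟩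
    rw [add_zero, hg.dist_map _ _ _ _ (msum_side hx hz) (msum_side hx h0), sub_self, norm_zero,
      sub_zero, max_eq_right (norm_nonneg _)]
    exact hhalf
  · have hz0 : z ≠ 0 := by
      intro h
      rw [h, norm_zero] at hhalf
      linarith
    have hb := norm_inv_smul_self hz0
    refine ⟨g x 0, hg.equator_mem2 hx, g 0 (‖z‖⁻¹ • z), hg.pole_mem2 hb, ?_⟩
    rw [← hg.corner2 hx hb, hg.dist_map _ _ _ _ (msum_side hx hz) (msum_side hx hb.le),
      sub_self, norm_zero, max_eq_right (norm_nonneg _)]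
    have e : z - ‖z‖⁻¹ • z = (1 - ‖z‖⁻¹) • z := by rw [sub_smul, one_smul]
    have hpos : 0 < ‖z‖ := norm_pos_iff.mpr hz0
    have hinv : 1 ≤ ‖z‖⁻¹ := (one_le_inv₀ hpos).mpr hz
    rw [e, norm_smul, Real.norm_eq_abs, abs_of_nonpos (by linarith)]
    have e2 : -(1 - ‖z‖⁻¹) * ‖z‖ = 1 - ‖z‖ := by field_simp; ring
    rw [e2]
    linarith

/-- Every unit vector of `Y` is within distance `1/2` of the sum of the two subspaces. -/
lemma exists_near2 (hg : MIso g) {u : Y} (hu : ‖u‖ = 1) :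
    ∃ e ∈ eqSub2 g, ∃ q ∈ eqSub2 (fun (z : H) (x : X) => g x z), ‖u - (e + q)‖ ≤ 1 / 2 := by
  obtain ⟨x, z, hxz, hgxz⟩ := hg.surj u hu
  rcases eq_or_lt_of_le (msum_le_left hxz) with hx1 | hxlt
  · rw [← hgxz]
    exact hg.exists_near_side hx1 (msum_le_right hxz)
  · have hz1 : ‖z‖ = 1 := msum_right_eq hxz hxlt
    obtain ⟨q, hq, e, he, hqe⟩ := hg.swap.exists_near_side hz1 hxlt.le
    refine ⟨e, he, q, hq, ?_⟩
    rw [← hgxz, add_comm]
    exact hqe

/-- If `Y` is complete, every vector of `Y` is the sum of a vector of the first subspace and a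
vector of the second subspace. -/
lemma exists_decomp [CompleteSpace Y] (hg : MIso g) (y : Y) :
    ∃ e ∈ eqSub2 g, ∃ q ∈ eqSub2 (fun (z : H) (x : X) => g x z), y = e + q := by
  obtain ⟨A, hA⟩ : ∃ A : Submodule ℝ Y, A = eqSub2 g := ⟨_, rfl⟩
  obtain ⟨B, hB⟩ : ∃ B : Submodule ℝ Y, B = eqSub2 (fun (z : H) (x : X) => g x z) := ⟨_, rfl⟩
  have hAc : IsClosed (A : Set Y) := by rw [hA]; exact isClosed_eqSub2 g
  have hBc : IsClosed (B : Set Y) := by rw [hB]; exact isClosed_eqSub2 _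
  have : CompleteSpace A := hAc.completeSpace_coe
  have : CompleteSpace B := hBc.completeSpace_coe
  obtain ⟨L, hL⟩ : ∃ L : A × B → Y, L = fun p => (p.1 : Y) + (p.2 : Y) := ⟨_, rfl⟩
  have hLiso : Isometry L := by
    refine Isometry.of_dist_eq fun p p' => ?_
    rw [hL, dist_eq_norm, Prod.dist_eq, dist_eq_norm, dist_eq_norm]
    have e : (p.1 : Y) + (p.2 : Y) - ((p'.1 : Y) + (p'.2 : Y)) =
        ((p.1 - p'.1 : A) : Y) + ((p.2 - p'.2 : B) : Y) := by
      rw [Submodule.coe_sub, Submodule.coe_sub]; abel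
    rw [e]
    have h1 := hg.norm_add_eq_max (e := ((p.1 - p'.1 : A) : Y)) (q := ((p.2 - p'.2 : B) : Y))
      (by rw [← hA]; exact (p.1 - p'.1).2) (by rw [← hB]; exact (p.2 - p'.2).2)
    rw [h1]
    rfl
  have hrange : IsClosed (Set.range L) := hLiso.isClosedEmbedding.isClosed_range
  have hsup : ((A ⊔ B : Submodule ℝ Y) : Set Y) = Set.range L := by
    ext w
    constructor
    · intro hw
      obtain ⟨e, he, q, hq, hsum⟩ := Submodule.mem_sup.mp hw
      exact ⟨(⟨e, he⟩, ⟨q, hq⟩), by rw [hL]; exact hsum⟩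
    · rintro ⟨p, rfl⟩
      rw [hL]
      exact Submodule.add_mem _ (Submodule.mem_sup_left p.1.2) (Submodule.mem_sup_right p.2.2)
  have hFc : IsClosed ((A ⊔ B : Submodule ℝ Y) : Set Y) := by rw [hsup]; exact hrange
  have hFtop : ∀ x : Y, x ∈ A ⊔ B := by
    by_contra hcon
    have hex : ∃ x : Y, x ∉ A ⊔ B := not_forall.mp hcon
    obtain ⟨x₀, hx₀, hx₀F⟩ := riesz_lemma (F := A ⊔ B) hFc hex (r := 3 / 4) (by norm_num)
    have hx₀ne : x₀ ≠ 0 := fun h => hx₀ (h ▸ (A ⊔ B).zero_mem)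
    have hpos : 0 < ‖x₀‖ := norm_pos_iff.mpr hx₀ne
    obtain ⟨e, he, q, hq, heq⟩ := hg.exists_near2 (norm_inv_smul_self hx₀ne)
    have hmemF : ‖x₀‖ • (e + q) ∈ A ⊔ B := by
      apply Submodule.smul_mem
      exact Submodule.add_mem _ (Submodule.mem_sup_left (by rw [hA]; exact he))
        (Submodule.mem_sup_right (by rw [hB]; exact hq))
    have h1 := hx₀F _ hmemF
    have e1 : x₀ - ‖x₀‖ • (e + q) = ‖x₀‖ • (‖x₀‖⁻¹ • x₀ - (e + q)) := by
      rw [smul_sub, norm_smul_inv_smul_self]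
    rw [e1, norm_smul, norm_norm] at h1
    nlinarith
  obtain ⟨e, he, q, hq, hsum⟩ := Submodule.mem_sup.mp (hFtop y)
  exact ⟨e, by rw [← hA]; exact he, q, by rw [← hB]; exact hq, hsum.symm⟩

/-- Cap points minus the pole lie in the first subspace. -/
lemma cap_mem2 [CompleteSpace Y] (hg : MIso g) {b : H} (hb : ‖b‖ = 1) {x : X}
    (hx : ‖x‖ ≤ 1) : g x b - g 0 b ∈ eqSub2 g := by
  rcases eq_or_lt_of_le hx with hx1 | hxlt
  · rw [hg.corner2 hx1 hb, add_sub_cancel_right]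
    exact hg.equator_mem2 hx1
  obtain ⟨e, he, q, hq, hsum⟩ := hg.exists_decomp (g x b)
  have hny : ‖g x b‖ = 1 := hg.norm_map x b (msum_cap hx hb)
  have hmax : max ‖e‖ ‖q‖ = 1 := by
    rw [← hg.norm_add_eq_max he hq, ← hsum]
    exact hny
  rcases eq_or_lt_of_le (msum_le_right hmax) with hq1 | hqlt
  · obtain ⟨b₁, hb₁, hgb₁⟩ := hg.exists_pole_of_mem2 hq hq1
    obtain ⟨x₁, hx₁, hgx₁⟩ := hg.exists_cap_of_mem2 hb₁ he (msum_le_left hmax)
    have h1 := hg.dist_map x b x₁ b₁ (msum_cap hx hb) (msum_cap hx₁ hb₁)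
    rw [hgx₁, hgb₁, hsum, add_comm q e, sub_self, norm_zero] at h1
    have h2 : ‖b - b₁‖ ≤ 0 := by rw [h1]; exact le_max_right _ _
    have h3 : b = b₁ := sub_eq_zero.mp (norm_le_zero_iff.mp h2)
    rw [hsum, h3, hgb₁, add_sub_cancel_right]
    exact he
  · have he1 : ‖e‖ = 1 := msum_left_eq hmax hqlt
    obtain ⟨a₁, ha₁, hga₁⟩ := hg.exists_equator_of_mem2 he he1
    obtain ⟨z₁, hz₁, hgz₁⟩ := hg.swap.exists_cap_of_mem2 ha₁ hq hqlt.le
    have hgz₁' : g a₁ z₁ = g a₁ 0 + q := hgz₁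
    have h1 := hg.dist_map x b a₁ z₁ (msum_cap hx hb) (msum_side ha₁ hz₁)
    rw [hgz₁', hga₁, hsum, sub_self, norm_zero] at h1
    have h2 : ‖x - a₁‖ ≤ 0 := by rw [h1]; exact le_max_left _ _
    have h3 : x = a₁ := sub_eq_zero.mp (norm_le_zero_iff.mp h2)
    rw [h3, ha₁] at hxlt
    exact absurd hxlt (lt_irrefl _)

/-- On the cap over `b`, `g` is the translate by the pole of a linear isometry of `X` onto the
first subspace. -/
lemma exists_cap_linear2 [CompleteSpace Y] (hg : MIso g) {b : H} (hb : ‖b‖ = 1) :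
    ∃ B : X ≃ₗᵢ[ℝ] eqSub2 g, ∀ x : X, ‖x‖ ≤ 1 → g x b = (B x : Y) + g 0 b := by
  have hex : ∀ x : X, ∃ k : eqSub2 g, ‖x‖ ≤ 1 → (k : Y) = g x b - g 0 b := by
    intro x
    by_cases hx : ‖x‖ ≤ 1
    · exact ⟨⟨_, hg.cap_mem2 hb hx⟩, fun _ => rfl⟩
    · exact ⟨0, fun h => absurd h hx⟩
  choose κ hκ using hex
  have hdist : ∀ c c' : X, ‖c‖ ≤ 1 → ‖c'‖ ≤ 1 → ‖κ c - κ c'‖ = ‖c - c'‖ := by
    intro c c' hc hc'
    have e : ‖κ c - κ c'‖ = ‖(κ c : Y) - (κ c' : Y)‖ := rfl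
    rw [e, hκ c hc, hκ c' hc', sub_sub_sub_cancel_right,
      hg.dist_map _ _ _ _ (msum_cap hc hb) (msum_cap hc' hb), sub_self, norm_zero,
      max_eq_left (norm_nonneg _)]
  have h0 : κ 0 = 0 := by
    apply Subtype.ext
    rw [hκ 0 (by simp), sub_self]; rfl
  have hsurj : ∀ w : eqSub2 g, ‖w‖ ≤ 1 → ∃ c : X, ‖c‖ ≤ 1 ∧ κ c = w := by
    intro w hw
    obtain ⟨x₁, hx₁, hgx₁⟩ := hg.exists_cap_of_mem2 hb w.2 hw
    refine ⟨x₁, hx₁, Subtype.ext ?_⟩
    rw [hκ x₁ hx₁, hgx₁, add_sub_cancel_left]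
  obtain ⟨B, hB⟩ := exists_linearIsometryEquiv_of_ball_isometry hdist h0 hsurj
  refine ⟨B, fun x hx => ?_⟩
  rw [hB x hx, hκ x hx]; abel

/-- A single linear isometry of `X` onto the first subspace describes `g` on all caps. -/
lemma exists_cap_formula [CompleteSpace Y] [Nontrivial H] (hg : MIso g) :
    ∃ B : X ≃ₗᵢ[ℝ] eqSub2 g, (∀ a : X, ‖a‖ = 1 → (B a : Y) = g a 0) ∧
      ∀ (x : X) (b : H), ‖x‖ ≤ 1 → ‖b‖ = 1 → g x b = (B x : Y) + g 0 b := by
  obtain ⟨b₀, hb₀⟩ : ∃ b₀ : H, ‖b₀‖ = 1 := by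
    obtain ⟨v, hv⟩ := exists_ne (0 : H)
    exact ⟨‖v‖⁻¹ • v, norm_inv_smul_self hv⟩
  obtain ⟨B₀, hB₀⟩ := hg.exists_cap_linear2 hb₀
  have hBa : ∀ a : X, ‖a‖ = 1 → (B₀ a : Y) = g a 0 := by
    intro a ha
    have h1 := hB₀ a ha.le
    rw [hg.corner2 ha hb₀] at h1
    exact (add_right_cancel h1).symm
  refine ⟨B₀, hBa, ?_⟩
  intro x b hx hb
  obtain ⟨B₁, hB₁⟩ := hg.exists_cap_linear2 hb
  have hB₁a : ∀ a : X, ‖a‖ = 1 → (B₁ a : Y) = g a 0 := by
    intro a ha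
    have h1 := hB₁ a ha.le
    rw [hg.corner2 ha hb] at h1
    exact (add_right_cancel h1).symm
  have heq : (B₁ x : Y) = (B₀ x : Y) := by
    rcases eq_or_ne x 0 with rfl | hx0
    · rw [map_zero, map_zero]
    · have ha := norm_inv_smul_self hx0
      have e1 : (B₁ x : Y) = ‖x‖ • (B₁ (‖x‖⁻¹ • x) : Y) := by
        rw [← Submodule.coe_smul, ← map_smul, norm_smul_inv_smul_self]
      have e0 : (B₀ x : Y) = ‖x‖ • (B₀ (‖x‖⁻¹ • x) : Y) := by
        rw [← Submodule.coe_smul, ← map_smul, norm_smul_inv_smul_self]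
      rw [e1, e0, hB₁a _ ha, hBa _ ha]
  rw [hB₁ x hx, heq]

/-- Main theorem in function form: a sphere isometry of `X ⊕_∞ H` onto the unit sphere of a
Banach space agrees on the sphere with `(x, z) ↦ B x + C z` for linear maps `B`, `C` with
`‖B x + C z‖ = max ‖x‖ ‖z‖` such that every vector of `Y` has this form. -/
theorem exists_linear2 [CompleteSpace Y] [Nontrivial X] [Nontrivial H] (hg : MIso g) :
    ∃ (B : X →ₗ[ℝ] Y) (C : H →ₗ[ℝ] Y), (∀ (x : X) (z : H), ‖B x + C z‖ = max ‖x‖ ‖z‖) ∧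
      (∀ y : Y, ∃ (x : X) (z : H), B x + C z = y) ∧
      ∀ (x : X) (z : H), max ‖x‖ ‖z‖ = 1 → g x z = B x + C z := by
  obtain ⟨B₀, hBa, hcap⟩ := hg.exists_cap_formula
  obtain ⟨C₀, hCb, hside⟩ := hg.swap.exists_cap_formula
  have hsph : ∀ (x : X) (z : H), max ‖x‖ ‖z‖ = 1 → g x z = (B₀ x : Y) + (C₀ z : Y) := by
    intro x z hxz
    rcases eq_or_lt_of_le (msum_le_left hxz) with hx1 | hxlt
    · have h1 : g x z = (C₀ z : Y) + g x 0 := hside z x (msum_le_right hxz) hx1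
      rw [h1, hBa x hx1, add_comm]
    · have hz1 : ‖z‖ = 1 := msum_right_eq hxz hxlt
      have h2 : (C₀ z : Y) = g 0 z := hCb z hz1
      rw [hcap x z hxlt.le hz1, h2]
  refine ⟨(eqSub2 g).subtype.comp B₀.toLinearEquiv.toLinearMap,
    (eqSub2 (fun (z : H) (x : X) => g x z)).subtype.comp C₀.toLinearEquiv.toLinearMap,
    ?_, ?_, hsph⟩
  · intro x z
    show ‖(B₀ x : Y) + (C₀ z : Y)‖ = max ‖x‖ ‖z‖
    rw [hg.norm_add_eq_max (B₀ x).2 (C₀ z).2]
    show max ‖B₀ x‖ ‖C₀ z‖ = max ‖x‖ ‖z‖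
    rw [LinearIsometryEquiv.norm_map, LinearIsometryEquiv.norm_map]
  · intro y
    rcases eq_or_ne y 0 with rfl | hy
    · exact ⟨0, 0, by simp⟩
    · obtain ⟨x, z, hxz, hgxz⟩ := hg.surj _ (norm_inv_smul_self hy)
      refine ⟨‖y‖ • x, ‖y‖ • z, ?_⟩
      show (B₀ (‖y‖ • x) : Y) + (C₀ (‖y‖ • z) : Y) = y
      rw [map_smul, map_smul, Submodule.coe_smul, Submodule.coe_smul, ← smul_add,
        ← hsph x z hxz, hgxz, norm_smul_inv_smul_self]

end MIso

section WrapperGen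

/-- From a map of the unit sphere of `X ⊕_∞ H` to a function of two variables. -/
lemma exists_mIso_of_sphere_map_gen
    (f : Metric.sphere (0 : WithLp ∞ (X × H)) 1 → Metric.sphere (0 : Y) 1)
    (hf : Isometry f) (hsurj : Function.Surjective f) :
    ∃ g : X → H → Y, MIso g ∧
      ∀ p : Metric.sphere (0 : WithLp ∞ (X × H)) 1,
        g (p : WithLp ∞ (X × H)).fst (p : WithLp ∞ (X × H)).snd = (f p : Y) := by
  obtain ⟨g₀, h1, h2, h3, h4⟩ := exists_fun_of_sphere_map f hf hsurj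
  have hnorm : ∀ (a : X) (z : H),
      ‖(WithLp.toLp ∞ (a, z) : WithLp ∞ (X × H))‖ = max ‖a‖ ‖z‖ := by
    intro a z
    rw [WithLp.prod_norm_eq_sup]
    rfl
  refine ⟨fun a z => g₀ (WithLp.toLp ∞ (a, z)), ⟨?_, ?_, ?_⟩, fun p => ?_⟩
  · intro a z haz
    exact h1 _ (by rw [hnorm, haz])
  · intro a z a' z' haz haz'
    show ‖g₀ _ - g₀ _‖ = _
    rw [h2 _ _ (by rw [hnorm, haz]) (by rw [hnorm, haz']), WithLp.prod_norm_eq_sup]
    rfl
  · intro w hw
    obtain ⟨p, hp, hgp⟩ := h3 w hw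
    refine ⟨p.fst, p.snd, ?_, hgp⟩
    rw [← hp, WithLp.prod_norm_eq_sup]
  · rw [← h4 p]
    rfl

/-- Every surjective isometry from the unit sphere of the `ℓ^∞`-sum `X ⊕_∞ H` of two arbitrary
nonzero real normed spaces onto the unit sphere of a real Banach space is the restriction of a
surjective real-linear isometry. -/
theorem exists_linearIsometryEquiv_msum_gen [CompleteSpace Y] [Nontrivial X] [Nontrivial H]
    (f : Metric.sphere (0 : WithLp ∞ (X × H)) 1 → Metric.sphere (0 : Y) 1)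
    (hf : Isometry f) (hsurj : Function.Surjective f) :
    ∃ T : WithLp ∞ (X × H) ≃ₗᵢ[ℝ] Y,
      ∀ p : Metric.sphere (0 : WithLp ∞ (X × H)) 1, T (p : WithLp ∞ (X × H)) = (f p : Y) := by
  obtain ⟨g, hg, hgf⟩ := exists_mIso_of_sphere_map_gen f hf hsurj
  obtain ⟨B, C, hnorm, hall, hside⟩ := hg.exists_linear2
  let T₀ : WithLp ∞ (X × H) →ₗᵢ[ℝ] Y :=
    { toFun := fun p => B p.fst + C p.snd
      map_add' := by
        intro p q
        simp only [WithLp.add_fst, WithLp.add_snd, map_add]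
        abel
      map_smul' := by
        intro r p
        simp only [WithLp.smul_fst, WithLp.smul_snd, map_smul, smul_add, RingHom.id_apply]
      norm_map' := by
        intro p
        show ‖B p.fst + C p.snd‖ = ‖p‖
        rw [hnorm, WithLp.prod_norm_eq_sup] }
  have hT₀ : Function.Surjective T₀ := by
    intro y
    obtain ⟨x, z, hxz⟩ := hall y
    exact ⟨WithLp.toLp ∞ (x, z), hxz⟩
  refine ⟨LinearIsometryEquiv.ofSurjective T₀ hT₀, fun p => ?_⟩
  have hp1 : ‖(p : WithLp ∞ (X × H))‖ = 1 := mem_sphere_zero_iff_norm.mp p.2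
  have hp2 : max ‖(p : WithLp ∞ (X × H)).fst‖ ‖(p : WithLp ∞ (X × H)).snd‖ = 1 := by
    have h5 := hp1
    rw [WithLp.prod_norm_eq_sup] at h5
    exact h5
  rw [← hgf p, hside _ _ hp2]
  rfl

end WrapperGen

end Vale.Agent.H23
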