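import Vale.Agent.H23.CylMain
import Vale.Agent.H23.LSummand

/-!
# Spaces with a one-dimensional M-summand, and Schreier-type sequence spaces

If the norm of a real normed space `E` satisfies `‖x‖ = max |φ x| ‖x - φ x • e‖` for a linear
functional `φ` and a vector `e` with `φ e = 1`, then `E` is linearly isometric to
`ker φ ⊕_∞ ℝ`, so every surjective isometry from the unit sphere of `E` onto the unit sphere of a
real normed space is the restriction of a linear isometry. This applies to sequence spaces whose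
norm is `sup_{F ∈ S} (∑_{i ∈ F} |x i| ^ p) ^ (1 / p)` for a family `S` of finite sets in which
one index `i₀` lies in no member other than `{i₀}`, in particular to Schreier spaces and their
`p`-convexifications.
-/

namespace Vale.Agent.H23

open scoped ENNReal

section MLine

variable {E Y : Type*} [NormedAddCommGroup E] [NormedSpace ℝ E]
  [NormedAddCommGroup Y] [NormedSpace ℝ Y]

/-- A space whose norm is `max |φ x| ‖x - φ x • e‖` is linearly isometric to the `ℓ^∞`-sum of
the kernel of `φ` and the real line. -/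
noncomputable def mlineEquiv (φ : E →ₗ[ℝ] ℝ) (e : E) (he : φ e = 1)
    (hM : ∀ x, ‖x‖ = max |φ x| ‖x - φ x • e‖) :
    E ≃ₗᵢ[ℝ] WithLp ∞ (LinearMap.ker φ × ℝ) where
  toFun x := WithLp.toLp ∞ (⟨x - φ x • e, by
    rw [LinearMap.mem_ker, map_sub, map_smul, he, smul_eq_mul, mul_one, sub_self]⟩, φ x)
  map_add' x y := by
    rw [← WithLp.toLp_add]
    congr 1
    refine Prod.ext (Subtype.ext ?_) ?_
    · simp only [map_add, Prod.mk_add_mk, AddMemClass.mk_add_mk, add_smul]
      abel
    · simp
  map_smul' c x := by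
    rw [← WithLp.toLp_smul]
    congr 1
    refine Prod.ext (Subtype.ext ?_) ?_
    · simp [smul_sub, mul_smul]
    · simp
  invFun z := (z.fst : E) + z.snd • e
  left_inv x := by simp
  right_inv z := by
    have h1 : φ (z.fst : E) = 0 := LinearMap.mem_ker.mp z.fst.2
    have h3 : φ ((z.fst : E) + z.snd • e) = z.snd := by
      rw [map_add, h1, map_smul, he, smul_eq_mul, mul_one, zero_add]
    apply WithLp.ofLp_injective ∞
    refine Prod.ext (Subtype.ext ?_) ?_
    · show (z.fst : E) + z.snd • e - φ ((z.fst : E) + z.snd • e) • e = z.fst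
      rw [h3, add_sub_cancel_right]
    · exact h3
  norm_map' x := by
    rw [LinearEquiv.coe_mk, LinearMap.coe_mk, AddHom.coe_mk, WithLp.prod_norm_eq_sup, hM x,
      max_comm]
    rfl

/-- Every surjective isometry from the unit sphere of a real normed space with a one-dimensional
M-summand onto the unit sphere of a real normed space is the restriction of a surjective
real-linear isometry. -/
theorem exists_linearIsometryEquiv_of_mLine (φ : E →ₗ[ℝ] ℝ) (e : E) (he : φ e = 1)
    (hM : ∀ x, ‖x‖ = max |φ x| ‖x - φ x • e‖)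
    (f : Metric.sphere (0 : E) 1 → Metric.sphere (0 : Y) 1) (hf : Isometry f)
    (hsurj : Function.Surjective f) :
    ∃ T : E ≃ₗᵢ[ℝ] Y, ∀ x : Metric.sphere (0 : E) 1, T (x : E) = (f x : Y) :=
  exists_linearIsometryEquiv_of_equiv (mlineEquiv φ e he hM)
    (fun f' hf' hs' => exists_linearIsometryEquiv_cylinder f' hf' hs') f hf hsurj

end MLine

section Combinatorial

variable {E Y : Type*} [NormedAddCommGroup E] [NormedSpace ℝ E]
  [NormedAddCommGroup Y] [NormedSpace ℝ Y] {ι : Type*} [DecidableEq ι]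

/-- Sequence spaces with a combinatorial norm `sup_{F ∈ S} (∑_{i ∈ F} |x i| ^ p) ^ (1 / p)`, for
a family `S` of finite sets containing `{i₀}` and such that no other member contains `i₀`. -/
theorem exists_linearIsometryEquiv_of_combinatorial_norm
    (S : Set (Finset ι)) (i₀ : ι) (hS0 : {i₀} ∈ S) (hS1 : ∀ F ∈ S, i₀ ∈ F → F = {i₀})
    (p : ℝ) (hp : 1 ≤ p) (coord : E →ₗ[ℝ] (ι → ℝ))
    (hnorm : ∀ x : E,
      IsLUB {r : ℝ | ∃ F ∈ S, r = (∑ i ∈ F, |coord x i| ^ p) ^ (1 / p)} ‖x‖)
    (e : E) (he : ∀ i, coord e i = if i = i₀ then 1 else 0)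
    (f : Metric.sphere (0 : E) 1 → Metric.sphere (0 : Y) 1) (hf : Isometry f)
    (hsurj : Function.Surjective f) :
    ∃ T : E ≃ₗᵢ[ℝ] Y, ∀ x : Metric.sphere (0 : E) 1, T (x : E) = (f x : Y) := by
  have hp0 : 0 < p := by linarith
  have hpinv : 0 ≤ 1 / p := by positivity
  have hval0 : ∀ t : ℝ, 0 ≤ t → (t ^ p) ^ (1 / p) = t := by
    intro t ht
    rw [one_div, Real.rpow_rpow_inv ht hp0.ne']
  have hsingle : ∀ x : E, (∑ i ∈ ({i₀} : Finset ι), |coord x i| ^ p) ^ (1 / p) = |coord x i₀| := by
    intro x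
    rw [Finset.sum_singleton, hval0 _ (abs_nonneg _)]
  have hup : ∀ x : E, ∀ F ∈ S, (∑ i ∈ F, |coord x i| ^ p) ^ (1 / p) ≤ ‖x‖ :=
    fun x F hF => (hnorm x).1 ⟨F, hF, rfl⟩
  have hcoordy : ∀ (x : E) (i : ι), i ≠ i₀ → coord (x - coord x i₀ • e) i = coord x i := by
    intro x i hi
    rw [map_sub, map_smul, Pi.sub_apply, Pi.smul_apply, he i, if_neg hi, smul_zero, sub_zero]
  have hcoordy0 : ∀ x : E, coord (x - coord x i₀ • e) i₀ = 0 := by
    intro x
    rw [map_sub, map_smul, Pi.sub_apply, Pi.smul_apply, he i₀, if_pos rfl, smul_eq_mul, mul_one,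
      sub_self]
  have hM : ∀ x : E, ‖x‖ = max |coord x i₀| ‖x - coord x i₀ • e‖ := by
    intro x
    apply le_antisymm
    · refine (hnorm x).2 ?_
      rintro r ⟨F, hF, rfl⟩
      by_cases h0 : i₀ ∈ F
      · rw [hS1 F hF h0, hsingle]
        exact le_max_left _ _
      · refine le_trans ?_ (le_max_right _ _)
        refine le_trans (le_of_eq ?_) (hup (x - coord x i₀ • e) F hF)
        congr 1
        refine Finset.sum_congr rfl fun i hi => ?_
        rw [hcoordy x i (fun h => h0 (h ▸ hi))]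
    · refine max_le ?_ ?_
      · rw [← hsingle x]
        exact hup x _ hS0
      · refine (hnorm (x - coord x i₀ • e)).2 ?_
        rintro r ⟨F, hF, rfl⟩
        refine le_trans ?_ (hup x F hF)
        refine Real.rpow_le_rpow (Finset.sum_nonneg fun i _ => Real.rpow_nonneg (abs_nonneg _) _)
          (Finset.sum_le_sum fun i _ => ?_) hpinv
        refine Real.rpow_le_rpow (abs_nonneg _) ?_ hp0.le
        by_cases hi : i = i₀
        · rw [hi, hcoordy0, abs_zero]; exact abs_nonneg _
        · rw [hcoordy x i hi]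
  refine exists_linearIsometryEquiv_of_mLine ((LinearMap.proj i₀).comp coord) e ?_ hM f hf hsurj
  show coord e i₀ = 1
  rw [he i₀, if_pos rfl]

/-- Schreier-type sequence spaces indexed by the positive integers: the norm is
`sup (∑_{i ∈ F} |x i| ^ p) ^ (1 / p)` over the finite sets `F` of positive integers with
`card F ≤ min F`. -/
theorem exists_linearIsometryEquiv_of_schreier_norm
    (p : ℝ) (hp : 1 ≤ p) (coord : E →ₗ[ℝ] (ℕ+ → ℝ))
    (hnorm : ∀ x : E,
      IsLUB {r : ℝ | ∃ F : Finset ℕ+, (∀ i ∈ F, F.card ≤ (i : ℕ)) ∧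
        r = (∑ i ∈ F, |coord x i| ^ p) ^ (1 / p)} ‖x‖)
    (e : E) (he : ∀ i, coord e i = if i = 1 then 1 else 0)
    (f : Metric.sphere (0 : E) 1 → Metric.sphere (0 : Y) 1) (hf : Isometry f)
    (hsurj : Function.Surjective f) :
    ∃ T : E ≃ₗᵢ[ℝ] Y, ∀ x : Metric.sphere (0 : E) 1, T (x : E) = (f x : Y) := by
  refine exists_linearIsometryEquiv_of_combinatorial_norm
    {F : Finset ℕ+ | ∀ i ∈ F, F.card ≤ (i : ℕ)} 1 ?_ ?_ p hp coord hnorm e he f hf hsurj
  · intro i hi
    rw [Finset.mem_singleton] at hi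
    rw [hi, Finset.card_singleton]
    rfl
  · intro F hF h1
    have hcard : F.card ≤ 1 := hF 1 h1
    rw [Finset.eq_singleton_iff_unique_mem]
    exact ⟨h1, fun i hi => Finset.card_le_one.mp hcard i hi 1 h1⟩

end Combinatorial

end Vale.Agent.H23
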