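import Vale.Agent.H23.MSumMain
import Vale.Agent.H23.LSummand
import Vale.Agent.H23.HilbertMU

/-!
# Real or complex sequence spaces with a Schreier-type norm

Let `𝕜` be `ℝ` or `ℂ` and let `E` be a normed space over `𝕜`, regarded as a real normed space.
If the norm of `E` satisfies `‖x‖ = max ‖φ x‖ ‖x - φ x • e‖` for a `𝕜`-linear functional `φ` and a
vector `e` with `φ e = 1`, then `E` is real-linearly isometric to `ker φ ⊕_∞ 𝕜`, and `𝕜` is a
strictly convex real normed space. Hence, if `ker φ` is nonzero, every surjective isometry from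
the unit sphere of `E` onto the unit sphere of a real normed space is the restriction of a
real-linear isometry. This applies to sequence spaces over `𝕜` whose norm is
`sup_{F ∈ S} (∑_{i ∈ F} ‖x i‖ ^ p) ^ (1 / p)` for a family `S` of finite sets in which one index
`i₀` lies in no member other than `{i₀}`: Schreier spaces and their `p`-convexifications.
-/

namespace Vale.Agent.H23

open scoped ENNReal

section MLineRC

variable {𝕜 : Type*} [RCLike 𝕜] {E Y : Type*} [NormedAddCommGroup E] [NormedSpace ℝ E]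
  [NormedSpace 𝕜 E] [IsScalarTower ℝ 𝕜 E] [NormedAddCommGroup Y] [NormedSpace ℝ Y]

/-- A space over `𝕜` whose norm is `max ‖φ x‖ ‖x - φ x • e‖` is real-linearly isometric to the
`ℓ^∞`-sum of the kernel of `φ` and `𝕜`. -/
noncomputable def mlineEquivRC (φ : E →ₗ[𝕜] 𝕜) (e : E) (he : φ e = 1)
    (hM : ∀ x, ‖x‖ = max ‖φ x‖ ‖x - φ x • e‖) :
    E ≃ₗᵢ[ℝ] WithLp ∞ ((LinearMap.ker φ).restrictScalars ℝ × 𝕜) where
  toFun x := WithLp.toLp ∞ (⟨x - φ x • e, by
    rw [Submodule.restrictScalars_mem, LinearMap.mem_ker, map_sub, map_smul, he, smul_eq_mul,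
      mul_one, sub_self]⟩, φ x)
  map_add' x y := by
    rw [← WithLp.toLp_add]
    congr 1
    refine Prod.ext (Subtype.ext ?_) ?_
    · simp only [map_add, Prod.mk_add_mk, AddMemClass.mk_add_mk, add_smul]
      abel
    · simp
  map_smul' c x := by
    rw [← WithLp.toLp_smul]
    congr 1
    have h1 : φ (c • x) = c • φ x := LinearMap.map_smul_of_tower φ c x
    refine Prod.ext (Subtype.ext ?_) ?_
    · show c • x - φ (c • x) • e = c • (x - φ x • e)
      rw [h1, smul_sub, smul_assoc]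
    · exact h1
  invFun z := (z.fst : E) + z.snd • e
  left_inv x := by simp
  right_inv z := by
    have h1 : φ (z.fst : E) = 0 := LinearMap.mem_ker.mp z.fst.2
    have h3 : φ ((z.fst : E) + z.snd • e) = z.snd := by
      rw [map_add, h1, map_smul, he, smul_eq_mul, mul_one, zero_add]
    apply WithLp.ofLp_injective ∞
    refine Prod.ext (Subtype.ext ?_) ?_
    · show (z.fst : E) + z.snd • e - φ ((z.fst : E) + z.snd • e) • e = z.fst
      rw [h3, add_sub_cancel_right]
    · exact h3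
  norm_map' x := by
    rw [LinearEquiv.coe_mk, LinearMap.coe_mk, AddHom.coe_mk, WithLp.prod_norm_eq_sup, hM x,
      max_comm]
    rfl

/-- Every surjective isometry from the unit sphere of a normed space over `𝕜 = ℝ` or `ℂ` with a
one-dimensional M-summand and a nonzero complement onto the unit sphere of a real normed space is
the restriction of a surjective real-linear isometry. -/
theorem exists_linearIsometryEquiv_of_mLineRC (φ : E →ₗ[𝕜] 𝕜) (e : E) (he : φ e = 1)
    (hM : ∀ x, ‖x‖ = max ‖φ x‖ ‖x - φ x • e‖) (e' : E) (he' : e' ≠ 0) (he'0 : φ e' = 0)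
    (f : Metric.sphere (0 : E) 1 → Metric.sphere (0 : Y) 1) (hf : Isometry f)
    (hsurj : Function.Surjective f) :
    ∃ T : E ≃ₗᵢ[ℝ] Y, ∀ x : Metric.sphere (0 : E) 1, T (x : E) = (f x : Y) := by
  have hn : Nontrivial ((LinearMap.ker φ).restrictScalars ℝ) :=
    ⟨⟨⟨e', by rw [Submodule.restrictScalars_mem, LinearMap.mem_ker]; exact he'0⟩, 0,
      fun h => he' (congrArg Subtype.val h)⟩⟩
  exact exists_linearIsometryEquiv_of_equiv (mlineEquivRC φ e he hM)
    (fun f' hf' hs' => exists_linearIsometryEquiv_msum f' hf' hs') f hf hsurj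

/-- If the kernel of `φ` is zero, the space is real-linearly isometric to `𝕜`. -/
noncomputable def mlineEquivRCLine (φ : E →ₗ[𝕜] 𝕜) (e : E) (he : φ e = 1)
    (hM : ∀ x, ‖x‖ = max ‖φ x‖ ‖x - φ x • e‖) (h0 : ∀ x : E, φ x = 0 → x = 0) :
    E ≃ₗᵢ[ℝ] 𝕜 where
  toFun x := φ x
  map_add' x y := map_add φ x y
  map_smul' c x := LinearMap.map_smul_of_tower φ c x
  invFun c := c • e
  left_inv x := by
    have h1 : φ (x - φ x • e) = 0 := by
      rw [map_sub, map_smul, he, smul_eq_mul, mul_one, sub_self]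
    have h2 := h0 _ h1
    exact (sub_eq_zero.mp h2).symm
  right_inv c := by
    show φ (c • e) = c
    rw [map_smul, he, smul_eq_mul, mul_one]
  norm_map' x := by
    have h1 : φ (x - φ x • e) = 0 := by
      rw [map_sub, map_smul, he, smul_eq_mul, mul_one, sub_self]
    have h2 := h0 _ h1
    rw [LinearEquiv.coe_mk, LinearMap.coe_mk, AddHom.coe_mk, hM x, h2, norm_zero]
    exact (max_eq_left (norm_nonneg _)).symm

/-- Every surjective isometry from the unit sphere of a normed space over `𝕜 = ℝ` or `ℂ` with a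
one-dimensional M-summand onto the unit sphere of a real normed space is the restriction of a
surjective real-linear isometry. -/
theorem exists_linearIsometryEquiv_of_mLineRC_all (φ : E →ₗ[𝕜] 𝕜) (e : E) (he : φ e = 1)
    (hM : ∀ x, ‖x‖ = max ‖φ x‖ ‖x - φ x • e‖)
    (f : Metric.sphere (0 : E) 1 → Metric.sphere (0 : Y) 1) (hf : Isometry f)
    (hsurj : Function.Surjective f) :
    ∃ T : E ≃ₗᵢ[ℝ] Y, ∀ x : Metric.sphere (0 : E) 1, T (x : E) = (f x : Y) := by
  by_cases h : ∃ e' : E, e' ≠ 0 ∧ φ e' = 0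
  · obtain ⟨e', he', he'0⟩ := h
    exact exists_linearIsometryEquiv_of_mLineRC φ e he hM e' he' he'0 f hf hsurj
  · have h0 : ∀ x : E, φ x = 0 → x = 0 := by
      intro x hx
      by_contra hne
      exact h ⟨x, hne, hx⟩
    exact exists_linearIsometryEquiv_of_equiv (mlineEquivRCLine φ e he hM h0)
      (fun f' hf' hs' => sphere_extension_of_inner_source f' hf' hs') f hf hsurj

end MLineRC

section CombinatorialRC

variable {𝕜 : Type*} [RCLike 𝕜] {E Y : Type*} [NormedAddCommGroup E] [NormedSpace ℝ E]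
  [NormedSpace 𝕜 E] [IsScalarTower ℝ 𝕜 E] [NormedAddCommGroup Y] [NormedSpace ℝ Y]
  {ι : Type*} [DecidableEq ι]

/-- Sequence spaces over `𝕜 = ℝ` or `ℂ` with a combinatorial norm
`sup_{F ∈ S} (∑_{i ∈ F} ‖x i‖ ^ p) ^ (1 / p)`, for a family `S` of finite sets containing `{i₀}`
and such that no other member contains `i₀`. -/
theorem exists_linearIsometryEquiv_of_combinatorial_norm_rc
    (S : Set (Finset ι)) (i₀ : ι) (hS0 : {i₀} ∈ S) (hS1 : ∀ F ∈ S, i₀ ∈ F → F = {i₀})
    (p : ℝ) (hp : 1 ≤ p) (coord : E →ₗ[𝕜] (ι → 𝕜))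
    (hnorm : ∀ x : E,
      IsLUB {r : ℝ | ∃ F ∈ S, r = (∑ i ∈ F, ‖coord x i‖ ^ p) ^ (1 / p)} ‖x‖)
    (e : E) (he : ∀ i, coord e i = if i = i₀ then 1 else 0)
    (e' : E) (he' : e' ≠ 0) (he'0 : coord e' i₀ = 0)
    (f : Metric.sphere (0 : E) 1 → Metric.sphere (0 : Y) 1) (hf : Isometry f)
    (hsurj : Function.Surjective f) :
    ∃ T : E ≃ₗᵢ[ℝ] Y, ∀ x : Metric.sphere (0 : E) 1, T (x : E) = (f x : Y) := by
  have hp0 : 0 < p := by linarith
  have hpinv : 0 ≤ 1 / p := by positivity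
  have hval0 : ∀ t : ℝ, 0 ≤ t → (t ^ p) ^ (1 / p) = t := by
    intro t ht
    rw [one_div, Real.rpow_rpow_inv ht hp0.ne']
  have hsingle : ∀ x : E,
      (∑ i ∈ ({i₀} : Finset ι), ‖coord x i‖ ^ p) ^ (1 / p) = ‖coord x i₀‖ := by
    intro x
    rw [Finset.sum_singleton, hval0 _ (norm_nonneg _)]
  have hup : ∀ x : E, ∀ F ∈ S, (∑ i ∈ F, ‖coord x i‖ ^ p) ^ (1 / p) ≤ ‖x‖ :=
    fun x F hF => (hnorm x).1 ⟨F, hF, rfl⟩
  have hcoordy : ∀ (x : E) (i : ι), i ≠ i₀ → coord (x - coord x i₀ • e) i = coord x i := by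
    intro x i hi
    rw [map_sub, map_smul, Pi.sub_apply, Pi.smul_apply, he i, if_neg hi, smul_zero, sub_zero]
  have hcoordy0 : ∀ x : E, coord (x - coord x i₀ • e) i₀ = 0 := by
    intro x
    rw [map_sub, map_smul, Pi.sub_apply, Pi.smul_apply, he i₀, if_pos rfl, smul_eq_mul, mul_one,
      sub_self]
  have hM : ∀ x : E, ‖x‖ = max ‖coord x i₀‖ ‖x - coord x i₀ • e‖ := by
    intro x
    apply le_antisymm
    · refine (hnorm x).2 ?_
      rintro r ⟨F, hF, rfl⟩
      by_cases h0 : i₀ ∈ F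
      · rw [hS1 F hF h0, hsingle]
        exact le_max_left _ _
      · refine le_trans ?_ (le_max_right _ _)
        refine le_trans (le_of_eq ?_) (hup (x - coord x i₀ • e) F hF)
        congr 1
        refine Finset.sum_congr rfl fun i hi => ?_
        rw [hcoordy x i (fun h => h0 (h ▸ hi))]
    · refine max_le ?_ ?_
      · rw [← hsingle x]
        exact hup x _ hS0
      · refine (hnorm (x - coord x i₀ • e)).2 ?_
        rintro r ⟨F, hF, rfl⟩
        refine le_trans ?_ (hup x F hF)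
        refine Real.rpow_le_rpow (Finset.sum_nonneg fun i _ => Real.rpow_nonneg (norm_nonneg _) _)
          (Finset.sum_le_sum fun i _ => ?_) hpinv
        refine Real.rpow_le_rpow (norm_nonneg _) ?_ hp0.le
        by_cases hi : i = i₀
        · rw [hi, hcoordy0, norm_zero]; exact norm_nonneg _
        · rw [hcoordy x i hi]
  refine exists_linearIsometryEquiv_of_mLineRC ((LinearMap.proj i₀).comp coord) e ?_ hM e' he'
    he'0 f hf hsurj
  show coord e i₀ = 1
  rw [he i₀, if_pos rfl]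

/-- Sequence spaces over `𝕜 = ℝ` or `ℂ` with a combinatorial norm
`sup_{F ∈ S} (∑_{i ∈ F} ‖x i‖ ^ p) ^ (1 / p)`, for a family `S` of finite sets containing `{i₀}`
and such that no other member contains `i₀`; no assumption on the dimension. -/
theorem exists_linearIsometryEquiv_of_combinatorial_norm_rc_all
    (S : Set (Finset ι)) (i₀ : ι) (hS0 : {i₀} ∈ S) (hS1 : ∀ F ∈ S, i₀ ∈ F → F = {i₀})
    (p : ℝ) (hp : 1 ≤ p) (coord : E →ₗ[𝕜] (ι → 𝕜))
    (hnorm : ∀ x : E,
      IsLUB {r : ℝ | ∃ F ∈ S, r = (∑ i ∈ F, ‖coord x i‖ ^ p) ^ (1 / p)} ‖x‖)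
    (e : E) (he : ∀ i, coord e i = if i = i₀ then 1 else 0)
    (f : Metric.sphere (0 : E) 1 → Metric.sphere (0 : Y) 1) (hf : Isometry f)
    (hsurj : Function.Surjective f) :
    ∃ T : E ≃ₗᵢ[ℝ] Y, ∀ x : Metric.sphere (0 : E) 1, T (x : E) = (f x : Y) := by
  have hp0 : 0 < p := by linarith
  have hpinv : 0 ≤ 1 / p := by positivity
  have hval0 : ∀ t : ℝ, 0 ≤ t → (t ^ p) ^ (1 / p) = t := by
    intro t ht
    rw [one_div, Real.rpow_rpow_inv ht hp0.ne']
  have hsingle : ∀ x : E,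
      (∑ i ∈ ({i₀} : Finset ι), ‖coord x i‖ ^ p) ^ (1 / p) = ‖coord x i₀‖ := by
    intro x
    rw [Finset.sum_singleton, hval0 _ (norm_nonneg _)]
  have hup : ∀ x : E, ∀ F ∈ S, (∑ i ∈ F, ‖coord x i‖ ^ p) ^ (1 / p) ≤ ‖x‖ :=
    fun x F hF => (hnorm x).1 ⟨F, hF, rfl⟩
  have hcoordy : ∀ (x : E) (i : ι), i ≠ i₀ → coord (x - coord x i₀ • e) i = coord x i := by
    intro x i hi
    rw [map_sub, map_smul, Pi.sub_apply, Pi.smul_apply, he i, if_neg hi, smul_zero, sub_zero]
  have hcoordy0 : ∀ x : E, coord (x - coord x i₀ • e) i₀ = 0 := by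
    intro x
    rw [map_sub, map_smul, Pi.sub_apply, Pi.smul_apply, he i₀, if_pos rfl, smul_eq_mul, mul_one,
      sub_self]
  have hM : ∀ x : E, ‖x‖ = max ‖coord x i₀‖ ‖x - coord x i₀ • e‖ := by
    intro x
    apply le_antisymm
    · refine (hnorm x).2 ?_
      rintro r ⟨F, hF, rfl⟩
      by_cases h0 : i₀ ∈ F
      · rw [hS1 F hF h0, hsingle]
        exact le_max_left _ _
      · refine le_trans ?_ (le_max_right _ _)
        refine le_trans (le_of_eq ?_) (hup (x - coord x i₀ • e) F hF)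
        congr 1
        refine Finset.sum_congr rfl fun i hi => ?_
        rw [hcoordy x i (fun h => h0 (h ▸ hi))]
    · refine max_le ?_ ?_
      · rw [← hsingle x]
        exact hup x _ hS0
      · refine (hnorm (x - coord x i₀ • e)).2 ?_
        rintro r ⟨F, hF, rfl⟩
        refine le_trans ?_ (hup x F hF)
        refine Real.rpow_le_rpow (Finset.sum_nonneg fun i _ => Real.rpow_nonneg (norm_nonneg _) _)
          (Finset.sum_le_sum fun i _ => ?_) hpinv
        refine Real.rpow_le_rpow (norm_nonneg _) ?_ hp0.le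
        by_cases hi : i = i₀
        · rw [hi, hcoordy0, norm_zero]; exact norm_nonneg _
        · rw [hcoordy x i hi]
  refine exists_linearIsometryEquiv_of_mLineRC_all ((LinearMap.proj i₀).comp coord) e ?_ hM
    f hf hsurj
  show coord e i₀ = 1
  rw [he i₀, if_pos rfl]

/-- Schreier-type sequence spaces over `𝕜 = ℝ` or `ℂ` indexed by the positive integers: the norm
is `sup (∑_{i ∈ F} ‖x i‖ ^ p) ^ (1 / p)` over the finite sets `F` of positive integers with
`card F ≤ min F`. -/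
theorem exists_linearIsometryEquiv_of_schreier_norm_rc
    (p : ℝ) (hp : 1 ≤ p) (coord : E →ₗ[𝕜] (ℕ+ → 𝕜))
    (hnorm : ∀ x : E,
      IsLUB {r : ℝ | ∃ F : Finset ℕ+, (∀ i ∈ F, F.card ≤ (i : ℕ)) ∧
        r = (∑ i ∈ F, ‖coord x i‖ ^ p) ^ (1 / p)} ‖x‖)
    (e₁ : E) (he₁ : ∀ i, coord e₁ i = if i = 1 then 1 else 0)
    (e₂ : E) (he₂ : ∀ i, coord e₂ i = if i = 2 then 1 else 0)
    (f : Metric.sphere (0 : E) 1 → Metric.sphere (0 : Y) 1) (hf : Isometry f)
    (hsurj : Function.Surjective f) :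
    ∃ T : E ≃ₗᵢ[ℝ] Y, ∀ x : Metric.sphere (0 : E) 1, T (x : E) = (f x : Y) := by
  have he₂ne : e₂ ≠ 0 := by
    intro h
    have h1 := he₂ 2
    rw [h, map_zero, if_pos rfl] at h1
    exact zero_ne_one h1
  have he₂0 : coord e₂ 1 = 0 := by
    rw [he₂ 1, if_neg (by decide)]
  refine exists_linearIsometryEquiv_of_combinatorial_norm_rc
    {F : Finset ℕ+ | ∀ i ∈ F, F.card ≤ (i : ℕ)} 1 ?_ ?_ p hp coord hnorm e₁ he₁ e₂ he₂ne he₂0
    f hf hsurj
  · intro i hi
    rw [Finset.mem_singleton] at hi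
    rw [hi, Finset.card_singleton]
    rfl
  · intro F hF h1
    have hcard : F.card ≤ 1 := hF 1 h1
    rw [Finset.eq_singleton_iff_unique_mem]
    exact ⟨h1, fun i hi => Finset.card_le_one.mp hcard i hi 1 h1⟩

end CombinatorialRC

end Vale.Agent.H23
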