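import Vale.Agent.H23.MSumSide
import Vale.Agent.H23.L1Main

/-!
# The Mazur-Ulam property of `X ⊕_∞ H` with `H` strictly convex

For every nonzero real normed space `X` and every nonzero strictly convex real normed space `H`,
every surjective isometry from the unit sphere of the `ℓ^∞`-sum `X ⊕_∞ H` onto the unit sphere of
a real normed space `Y` is the restriction of a surjective real-linear isometry.
-/

namespace Vale.Agent.H23

open scoped ENNReal

variable {X H Y : Type*} [NormedAddCommGroup X] [NormedSpace ℝ X]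
  [NormedAddCommGroup H] [NormedSpace ℝ H]
  [NormedAddCommGroup Y] [NormedSpace ℝ Y]

namespace MIso

variable [StrictConvexSpace ℝ H] {g : X → H → Y}

/-- Every unit vector of `Y` is within distance `1/2` of the sum of the equator subspace and the
range of the pole map. -/
lemma exists_near (hg : MIso g) {u : Y} (hu : ‖u‖ = 1) :
    ∃ e ∈ eqSub g, ∃ z : H, ‖u - (e + poleMap g z)‖ ≤ 1 / 2 := by
  obtain ⟨x, z, hxz, hgxz⟩ := hg.surj u hu
  rcases eq_or_lt_of_le (msum_le_left hxz) with hx1 | hxlt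
  · refine ⟨g x 0, hg.equator_mem hx1, z, ?_⟩
    rw [← hgxz, hg.side hx1 (msum_le_right hxz), sub_self, norm_zero]; norm_num
  · have hz1 : ‖z‖ = 1 := msum_right_eq hxz hxlt
    rcases le_total ‖x‖ (1 / 2) with hhalf | hhalf
    · refine ⟨0, (eqSub g).zero_mem, z, ?_⟩
      rw [zero_add, poleMap_unit g hz1, ← hgxz,
        hg.dist_map _ _ _ _ hxz (msum_cap (by simp) hz1), sub_zero, sub_self, norm_zero,
        max_eq_left (norm_nonneg _)]
      exact hhalf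
    · have hx0 : x ≠ 0 := by
        intro h; rw [h, norm_zero] at hhalf; linarith
      have ha := norm_inv_smul_self hx0
      refine ⟨g (‖x‖⁻¹ • x) 0, hg.equator_mem ha, z, ?_⟩
      rw [poleMap_unit g hz1, ← hg.corner ha hz1, ← hgxz,
        hg.dist_map _ _ _ _ hxz (msum_cap ha.le hz1), sub_self, norm_zero,
        max_eq_left (norm_nonneg _)]
      have e : x - ‖x‖⁻¹ • x = (1 - ‖x‖⁻¹) • x := by rw [sub_smul, one_smul]
      have hpos : 0 < ‖x‖ := norm_pos_iff.mpr hx0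
      have hinv : 1 ≤ ‖x‖⁻¹ := (one_le_inv₀ hpos).mpr hxlt.le
      rw [e, norm_smul, Real.norm_eq_abs, abs_of_nonpos (by linarith)]
      have e2 : -(1 - ‖x‖⁻¹) * ‖x‖ = 1 - ‖x‖ := by field_simp; ring
      rw [e2]; linarith

/-- The sum of the equator subspace and the range of the pole map is dense in `Y`. -/
lemma dense_sum (hg : MIso g) {a₀ : X} (ha₀ : ‖a₀‖ = 1) (y : Y) {ε : ℝ} (hε : 0 < ε) :
    ∃ e ∈ eqSub g, ∃ z : H, ‖y - (e + poleMap g z)‖ < ε := by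
  obtain ⟨C, hC⟩ : ∃ C : H →ₗ[ℝ] Y, ∀ z, C z = poleMap g z :=
    ⟨{ toFun := poleMap g
       map_add' := hg.poleMap_add ha₀
       map_smul' := fun t z => hg.poleMap_smul t z }, fun _ => rfl⟩
  obtain ⟨F, hF⟩ : ∃ F : Submodule ℝ Y,
      F = (eqSub g ⊔ LinearMap.range C).topologicalClosure := ⟨_, rfl⟩
  have hFtop : ∀ x : Y, x ∈ F := by
    by_contra hcon
    have hex : ∃ x : Y, x ∉ F := not_forall.mp hcon
    obtain ⟨x₀, hx₀, hx₀F⟩ := riesz_lemma (F := F)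
      (by rw [hF]; exact Submodule.isClosed_topologicalClosure _) hex
      (r := 3 / 4) (by norm_num)
    have hx₀ne : x₀ ≠ 0 := fun h => hx₀ (h ▸ F.zero_mem)
    have hpos : 0 < ‖x₀‖ := norm_pos_iff.mpr hx₀ne
    obtain ⟨e, he, z, hez⟩ := hg.exists_near (norm_inv_smul_self hx₀ne)
    have hmemF : ‖x₀‖ • (e + poleMap g z) ∈ F := by
      rw [hF]
      apply Submodule.le_topologicalClosure
      apply Submodule.smul_mem
      exact Submodule.add_mem _ (Submodule.mem_sup_left he)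
        (Submodule.mem_sup_right ⟨z, hC z⟩)
    have h1 := hx₀F _ hmemF
    have e1 : x₀ - ‖x₀‖ • (e + poleMap g z) =
        ‖x₀‖ • (‖x₀‖⁻¹ • x₀ - (e + poleMap g z)) := by
      rw [smul_sub, norm_smul_inv_smul_self]
    rw [e1, norm_smul, norm_norm] at h1
    nlinarith
  have hy : y ∈ closure ((eqSub g ⊔ LinearMap.range C : Submodule ℝ Y) : Set Y) := by
    have h1 := hFtop y
    rw [hF] at h1
    rw [← Submodule.topologicalClosure_coe]
    exact h1
  obtain ⟨y', hy', hdist⟩ := Metric.mem_closure_iff.mp hy ε hε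
  obtain ⟨e, he, w, ⟨z, hz⟩, hsum⟩ := Submodule.mem_sup.mp hy'
  refine ⟨e, he, z, ?_⟩
  rw [← hC z, hz, hsum, ← dist_eq_norm]
  exact hdist

/-- Cap points minus the pole lie in the equator subspace. -/
lemma cap_mem (hg : MIso g) {a₀ : X} (ha₀ : ‖a₀‖ = 1) {b : H} (hb : ‖b‖ = 1) {x : X}
    (hx : ‖x‖ ≤ 1) : g x b - g 0 b ∈ eqSub g := by
  rcases eq_or_lt_of_le hx with hx1 | hxlt
  · rw [hg.corner hx1 hb, add_sub_cancel_right]; exact hg.equator_mem hx1
  intro b' ψ hb' hle htop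
  have hψabs : ∀ w : Y, |ψ w| ≤ ‖w‖ := by
    intro w
    rw [abs_le]
    constructor
    · have h1 := hle (-w)
      rw [map_neg, norm_neg] at h1; linarith
    · exact hle w
  have hny : ‖g x b‖ = 1 := hg.norm_map x b (msum_cap hx hb)
  have key : ∀ ε : ℝ, 0 < ε → ε ≤ 1 / 2 → |ψ (g x b - g 0 b)| ≤ 4 * ε := by
    intro ε hε hε1
    obtain ⟨e, he, z, hez⟩ := hg.dense_sum ha₀ (g x b) hε
    obtain ⟨y', hy'⟩ : ∃ y' : Y, y' = e + poleMap g z := ⟨_, rfl⟩
    rw [← hy'] at hez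
    have hy'lo : 1 - ε < ‖y'‖ := by
      have h1 := norm_sub_norm_le (g x b) y'
      linarith
    have hy'hi : ‖y'‖ < 1 + ε := by
      have h1 := norm_sub_norm_le y' (g x b)
      rw [norm_sub_rev] at h1; linarith
    have hy'pos : 0 < ‖y'‖ := by linarith
    have hy'ne : y' ≠ 0 := norm_pos_iff.mp hy'pos
    obtain ⟨e₁, he₁def⟩ : ∃ e₁ : Y, e₁ = ‖y'‖⁻¹ • e := ⟨_, rfl⟩
    obtain ⟨z₁, hz₁def⟩ : ∃ z₁ : H, z₁ = ‖y'‖⁻¹ • z := ⟨_, rfl⟩
    have he₁ : e₁ ∈ eqSub g := by rw [he₁def]; exact (eqSub g).smul_mem _ he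
    have hu : ‖y'‖⁻¹ • y' = e₁ + poleMap g z₁ := by
      rw [he₁def, hz₁def, hg.poleMap_smul, ← smul_add, ← hy']
    have hu1 : ‖e₁ + poleMap g z₁‖ = 1 := by
      rw [← hu]; exact norm_inv_smul_self hy'ne
    have hmax : max ‖e₁‖ ‖z₁‖ = 1 := by
      rw [← hg.norm_eq_add_pole he₁ z₁]; exact hu1
    have hclose : ‖g x b - (e₁ + poleMap g z₁)‖ < 2 * ε := by
      rw [← hu]
      have h1 : ‖y' - ‖y'‖⁻¹ • y'‖ < ε := by
        have e3 : y' - ‖y'‖⁻¹ • y' = (1 - ‖y'‖⁻¹) • y' := by rw [sub_smul, one_smul]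
        rw [e3, norm_smul, Real.norm_eq_abs, ← abs_norm y', ← abs_mul, abs_norm, sub_mul,
          one_mul, inv_mul_cancel₀ hy'pos.ne', abs_lt]
        constructor <;> linarith
      have h2 : g x b - ‖y'‖⁻¹ • y' = (g x b - y') + (y' - ‖y'‖⁻¹ • y') := by abel
      rw [h2]
      exact lt_of_le_of_lt (norm_add_le _ _) (by linarith)
    obtain ⟨x₁, hx₁z₁, hgx₁⟩ : ∃ x₁ : X, max ‖x₁‖ ‖z₁‖ = 1 ∧
        g x₁ z₁ = e₁ + poleMap g z₁ := by
      rcases eq_or_lt_of_le (msum_le_right hmax) with hz1 | hzlt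
      · obtain ⟨ψ₁, hle₁, htop₁⟩ := hg.exists_height hz1
        have hn : ‖g 0 z₁ + e₁‖ = 1 := hg.norm_pole_add hz1 he₁ (msum_le_left hmax)
        obtain ⟨x₁, z₂, h₁, hg₁⟩ := hg.surj _ hn
        have hz₂ : z₂ = z₁ := hg.eq_of_height_one hz1 hle₁ htop₁ h₁
          (by rw [hg₁, map_add, htop₁ 0 (by simp), he₁ z₁ ψ₁ hz1 hle₁ htop₁, add_zero])
        rw [hz₂] at h₁ hg₁
        exact ⟨x₁, h₁, by rw [hg₁, poleMap_unit g hz1, add_comm]⟩
      · have he₁1 : ‖e₁‖ = 1 := msum_left_eq hmax hzlt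
        obtain ⟨a, ha, hga⟩ := hg.exists_equator_of_mem he₁ he₁1
        exact ⟨a, msum_side ha hzlt.le, by rw [hg.side ha hzlt.le, hga]⟩
    have hzb : ‖z₁ - b‖ < 2 * ε := by
      rw [← hgx₁, hg.dist_map _ _ _ _ (msum_cap hx hb) hx₁z₁] at hclose
      calc ‖z₁ - b‖ = ‖b - z₁‖ := norm_sub_rev _ _
        _ ≤ max ‖x - x₁‖ ‖b - z₁‖ := le_max_right _ _
        _ < 2 * ε := hclose
    have e3 : g x b - g 0 b = (g x b - (e₁ + poleMap g z₁)) + e₁ + poleMap g (z₁ - b) := by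
      rw [hg.poleMap_sub ha₀, poleMap_unit g hb]; abel
    rw [e3, map_add, map_add, he₁ b' ψ hb' hle htop, add_zero]
    calc |ψ (g x b - (e₁ + poleMap g z₁)) + ψ (poleMap g (z₁ - b))|
        ≤ |ψ (g x b - (e₁ + poleMap g z₁))| + |ψ (poleMap g (z₁ - b))| := abs_add_le _ _
      _ ≤ ‖g x b - (e₁ + poleMap g z₁)‖ + ‖poleMap g (z₁ - b)‖ :=
          add_le_add (hψabs _) (hψabs _)
      _ ≤ 4 * ε := by rw [hg.norm_poleMap]; linarith
  by_contra hne
  have hpos : 0 < |ψ (g x b - g 0 b)| := abs_pos.mpr hne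
  have h1 := key (min (1 / 2) (|ψ (g x b - g 0 b)| / 8)) (lt_min (by norm_num) (by linarith))
    (min_le_left _ _)
  have h2 : min (1 / 2) (|ψ (g x b - g 0 b)| / 8) ≤ |ψ (g x b - g 0 b)| / 8 := min_le_right _ _
  linarith

/-- On the cap over `b`, `g` is the translate by the pole of a linear isometry of `X` onto the
equator subspace. -/
lemma exists_cap_linear (hg : MIso g) {a₀ : X} (ha₀ : ‖a₀‖ = 1) {b : H} (hb : ‖b‖ = 1) :
    ∃ B : X ≃ₗᵢ[ℝ] eqSub g, ∀ x : X, ‖x‖ ≤ 1 → g x b = (B x : Y) + g 0 b := by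
  have hex : ∀ x : X, ∃ k : eqSub g, ‖x‖ ≤ 1 → (k : Y) = g x b - g 0 b := by
    intro x
    by_cases hx : ‖x‖ ≤ 1
    · exact ⟨⟨_, hg.cap_mem ha₀ hb hx⟩, fun _ => rfl⟩
    · exact ⟨0, fun h => absurd h hx⟩
  choose κ hκ using hex
  have hdist : ∀ c c' : X, ‖c‖ ≤ 1 → ‖c'‖ ≤ 1 → ‖κ c - κ c'‖ = ‖c - c'‖ := by
    intro c c' hc hc'
    have e : ‖κ c - κ c'‖ = ‖(κ c : Y) - (κ c' : Y)‖ := rfl
    rw [e, hκ c hc, hκ c' hc', sub_sub_sub_cancel_right,
      hg.dist_map _ _ _ _ (msum_cap hc hb) (msum_cap hc' hb), sub_self, norm_zero,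
      max_eq_left (norm_nonneg _)]
  have h0 : κ 0 = 0 := by
    apply Subtype.ext
    rw [hκ 0 (by simp), sub_self]; rfl
  have hsurj : ∀ w : eqSub g, ‖w‖ ≤ 1 → ∃ c : X, ‖c‖ ≤ 1 ∧ κ c = w := by
    intro w hw
    obtain ⟨ψ, hle, htop⟩ := hg.exists_height hb
    have hn : ‖g 0 b + (w : Y)‖ = 1 := hg.norm_pole_add hb w.2 hw
    obtain ⟨x₁, z₂, h₁, hg₁⟩ := hg.surj _ hn
    have hz₂ : z₂ = b := hg.eq_of_height_one hb hle htop h₁
      (by rw [hg₁, map_add, htop 0 (by simp), w.2 b ψ hb hle htop, add_zero])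
    rw [hz₂] at h₁ hg₁
    refine ⟨x₁, msum_le_left h₁, Subtype.ext ?_⟩
    rw [hκ x₁ (msum_le_left h₁), hg₁, add_sub_cancel_left]
  obtain ⟨B, hB⟩ := exists_linearIsometryEquiv_of_ball_isometry hdist h0 hsurj
  refine ⟨B, fun x hx => ?_⟩
  rw [hB x hx, hκ x hx]; abel

/-- Main theorem in function form: a sphere isometry of `X ⊕_∞ H` agrees on the sphere with
`(x, z) ↦ B x + C z` for linear maps `B`, `C` with `‖B x + C z‖ = max ‖x‖ ‖z‖` such that every
vector of `Y` has this form. -/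
theorem exists_linear [Nontrivial X] [Nontrivial H] (hg : MIso g) :
    ∃ (B : X →ₗ[ℝ] Y) (C : H →ₗ[ℝ] Y), (∀ (x : X) (z : H), ‖B x + C z‖ = max ‖x‖ ‖z‖) ∧
      (∀ y : Y, ∃ (x : X) (z : H), B x + C z = y) ∧
      ∀ (x : X) (z : H), max ‖x‖ ‖z‖ = 1 → g x z = B x + C z := by
  obtain ⟨a₀, ha₀⟩ : ∃ a₀ : X, ‖a₀‖ = 1 := by
    obtain ⟨v, hv⟩ := exists_ne (0 : X)
    exact ⟨‖v‖⁻¹ • v, norm_inv_smul_self hv⟩
  obtain ⟨b₀, hb₀⟩ : ∃ b₀ : H, ‖b₀‖ = 1 := by
    obtain ⟨v, hv⟩ := exists_ne (0 : H)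
    exact ⟨‖v‖⁻¹ • v, norm_inv_smul_self hv⟩
  obtain ⟨C, hC⟩ : ∃ C : H →ₗ[ℝ] Y, ∀ z, C z = poleMap g z :=
    ⟨{ toFun := poleMap g
       map_add' := hg.poleMap_add ha₀
       map_smul' := fun t z => hg.poleMap_smul t z }, fun _ => rfl⟩
  obtain ⟨B₀, hB₀⟩ := hg.exists_cap_linear ha₀ hb₀
  have h0 : ‖(0 : H)‖ ≤ 1 := by simp
  have hBa : ∀ a : X, ‖a‖ = 1 → (B₀ a : Y) = g a 0 := by
    intro a ha
    have h1 := hB₀ a ha.le
    rw [hg.corner ha hb₀] at h1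
    exact (add_right_cancel h1).symm
  have hcap : ∀ (x : X) (b : H), ‖x‖ ≤ 1 → ‖b‖ = 1 → g x b = (B₀ x : Y) + g 0 b := by
    intro x b hx hb
    obtain ⟨B₁, hB₁⟩ := hg.exists_cap_linear ha₀ hb
    have hB₁a : ∀ a : X, ‖a‖ = 1 → (B₁ a : Y) = g a 0 := by
      intro a ha
      have h1 := hB₁ a ha.le
      rw [hg.corner ha hb] at h1
      exact (add_right_cancel h1).symm
    have heq : (B₁ x : Y) = (B₀ x : Y) := by
      rcases eq_or_ne x 0 with rfl | hx0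
      · rw [map_zero, map_zero]
      · have ha := norm_inv_smul_self hx0
        have e1 : (B₁ x : Y) = ‖x‖ • (B₁ (‖x‖⁻¹ • x) : Y) := by
          rw [← Submodule.coe_smul, ← map_smul, norm_smul_inv_smul_self]
        have e0 : (B₀ x : Y) = ‖x‖ • (B₀ (‖x‖⁻¹ • x) : Y) := by
          rw [← Submodule.coe_smul, ← map_smul, norm_smul_inv_smul_self]
        rw [e1, e0, hB₁a _ ha, hBa _ ha]
    rw [hB₁ x hx, heq]
  refine ⟨(eqSub g).subtype.comp B₀.toLinearEquiv.toLinearMap, C, ?_, ?_, ?_⟩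
  · intro x z
    show ‖(B₀ x : Y) + C z‖ = max ‖x‖ ‖z‖
    rw [hC z, hg.norm_eq_add_pole (B₀ x).2 z]
    show max ‖B₀ x‖ ‖z‖ = max ‖x‖ ‖z‖
    rw [LinearIsometryEquiv.norm_map]
  · have hsph : ∀ (x : X) (z : H), max ‖x‖ ‖z‖ = 1 → g x z = (B₀ x : Y) + C z := by
      intro x z hxz
      rcases eq_or_lt_of_le (msum_le_left hxz) with hx1 | hxlt
      · rw [hg.side hx1 (msum_le_right hxz), hBa x hx1, hC z]
      · have hz1 : ‖z‖ = 1 := msum_right_eq hxz hxlt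
        rw [hcap x z hxlt.le hz1, hC z, poleMap_unit g hz1]
    intro y
    rcases eq_or_ne y 0 with rfl | hy
    · exact ⟨0, 0, by simp⟩
    · obtain ⟨x, z, hxz, hgxz⟩ := hg.surj _ (norm_inv_smul_self hy)
      refine ⟨‖y‖ • x, ‖y‖ • z, ?_⟩
      show (B₀ (‖y‖ • x) : Y) + C (‖y‖ • z) = y
      rw [map_smul, map_smul, Submodule.coe_smul, ← smul_add, ← hsph x z hxz, hgxz,
        norm_smul_inv_smul_self]
  · intro x z hxz
    show g x z = (B₀ x : Y) + C z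
    rcases eq_or_lt_of_le (msum_le_left hxz) with hx1 | hxlt
    · rw [hg.side hx1 (msum_le_right hxz), hBa x hx1, hC z]
    · have hz1 : ‖z‖ = 1 := msum_right_eq hxz hxlt
      rw [hcap x z hxlt.le hz1, hC z, poleMap_unit g hz1]

end MIso

section Wrapper

variable [StrictConvexSpace ℝ H] [Nontrivial X] [Nontrivial H]

/-- From a map of the unit sphere of `X ⊕_∞ H` to a function of two variables. -/
lemma exists_mIso_of_sphere_map
    (f : Metric.sphere (0 : WithLp ∞ (X × H)) 1 → Metric.sphere (0 : Y) 1)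
    (hf : Isometry f) (hsurj : Function.Surjective f) :
    ∃ g : X → H → Y, MIso g ∧
      ∀ p : Metric.sphere (0 : WithLp ∞ (X × H)) 1,
        g (p : WithLp ∞ (X × H)).fst (p : WithLp ∞ (X × H)).snd = (f p : Y) := by
  obtain ⟨g₀, h1, h2, h3, h4⟩ := exists_fun_of_sphere_map f hf hsurj
  have hnorm : ∀ (a : X) (z : H),
      ‖(WithLp.toLp ∞ (a, z) : WithLp ∞ (X × H))‖ = max ‖a‖ ‖z‖ := by
    intro a z
    rw [WithLp.prod_norm_eq_sup]
    rfl
  refine ⟨fun a z => g₀ (WithLp.toLp ∞ (a, z)), ⟨?_, ?_, ?_⟩, fun p => ?_⟩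
  · intro a z haz
    exact h1 _ (by rw [hnorm, haz])
  · intro a z a' z' haz haz'
    show ‖g₀ _ - g₀ _‖ = _
    rw [h2 _ _ (by rw [hnorm, haz]) (by rw [hnorm, haz']), WithLp.prod_norm_eq_sup]
    rfl
  · intro w hw
    obtain ⟨p, hp, hgp⟩ := h3 w hw
    refine ⟨p.fst, p.snd, ?_, hgp⟩
    rw [← hp, WithLp.prod_norm_eq_sup]
  · rw [← h4 p]
    rfl

/-- Every surjective isometry from the unit sphere of `X ⊕_∞ H`, with `X` an arbitrary nonzero
real normed space and `H` a nonzero strictly convex real normed space, onto the unit sphere of a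
real normed space is the restriction of a surjective real-linear isometry. -/
theorem exists_linearIsometryEquiv_msum
    (f : Metric.sphere (0 : WithLp ∞ (X × H)) 1 → Metric.sphere (0 : Y) 1)
    (hf : Isometry f) (hsurj : Function.Surjective f) :
    ∃ T : WithLp ∞ (X × H) ≃ₗᵢ[ℝ] Y,
      ∀ p : Metric.sphere (0 : WithLp ∞ (X × H)) 1, T (p : WithLp ∞ (X × H)) = (f p : Y) := by
  obtain ⟨g, hg, hgf⟩ := exists_mIso_of_sphere_map f hf hsurj
  obtain ⟨B, C, hnorm, hall, hside⟩ := hg.exists_linear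
  let T₀ : WithLp ∞ (X × H) →ₗᵢ[ℝ] Y :=
    { toFun := fun p => B p.fst + C p.snd
      map_add' := by
        intro p q
        simp only [WithLp.add_fst, WithLp.add_snd, map_add]
        abel
      map_smul' := by
        intro r p
        simp only [WithLp.smul_fst, WithLp.smul_snd, map_smul, smul_add, RingHom.id_apply]
      norm_map' := by
        intro p
        show ‖B p.fst + C p.snd‖ = ‖p‖
        rw [hnorm, WithLp.prod_norm_eq_sup] }
  have hT₀ : Function.Surjective T₀ := by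
    intro y
    obtain ⟨x, z, hxz⟩ := hall y
    exact ⟨WithLp.toLp ∞ (x, z), hxz⟩
  refine ⟨LinearIsometryEquiv.ofSurjective T₀ hT₀, fun p => ?_⟩
  have hp1 : ‖(p : WithLp ∞ (X × H))‖ = 1 := mem_sphere_zero_iff_norm.mp p.2
  have hp2 : max ‖(p : WithLp ∞ (X × H)).fst‖ ‖(p : WithLp ∞ (X × H)).snd‖ = 1 := by
    have h5 := hp1
    rw [WithLp.prod_norm_eq_sup] at h5
    exact h5
  rw [← hgf p, hside _ _ hp2]
  rfl

end Wrapper

end Vale.Agent.H23
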