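import Vale.Agent.H23.MSum

/-!
# Sphere isometries of `X ⊕_∞ H` with `H` strictly convex: the side and the pole map

The side formula `g a z = g a 0 + poleMap g z` for unit vectors `a` of `X`, and additivity of
the positively homogeneous extension `poleMap g` of the pole map `b ↦ g 0 b`.
-/

namespace Vale.Agent.H23

variable {X H Y : Type*} [NormedAddCommGroup X] [NormedSpace ℝ X]
  [NormedAddCommGroup H] [NormedSpace ℝ H]
  [NormedAddCommGroup Y] [NormedSpace ℝ Y]

/-- The positively homogeneous extension of the pole map `b ↦ g 0 b`. -/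
noncomputable def poleMap (g : X → H → Y) (z : H) : Y := hext (fun b => g (0 : X) b) z

lemma poleMap_zero (g : X → H → Y) : poleMap g 0 = 0 := hext_zero _

lemma poleMap_unit (g : X → H → Y) {b : H} (hb : ‖b‖ = 1) : poleMap g b = g 0 b :=
  hext_of_norm_one _ hb

namespace MIso

variable [StrictConvexSpace ℝ H] {g : X → H → Y}

lemma poleMap_smul (hg : MIso g) (t : ℝ) (z : H) : poleMap g (t • z) = t • poleMap g z :=
  hext_smul (fun _ hb => hg.pole_neg hb) t z

lemma poleMap_neg (hg : MIso g) (z : H) : poleMap g (-z) = - poleMap g z := by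
  have h := hg.poleMap_smul (-1) z
  rwa [neg_one_smul, neg_one_smul] at h

lemma norm_poleMap (hg : MIso g) (z : H) : ‖poleMap g z‖ = ‖z‖ :=
  norm_hext (fun b hb => hg.norm_map 0 b (msum_cap (by simp) hb)) z

/-- The norm of `Y` on the sum of the equator subspace and the range of the pole map. -/
lemma norm_eq_add_pole (hg : MIso g) {e : Y} (he : e ∈ eqSub g) (z : H) :
    ‖e + poleMap g z‖ = max ‖e‖ ‖z‖ := by
  rcases eq_or_ne z 0 with rfl | hne
  · rw [poleMap_zero, add_zero, norm_zero, max_eq_left (norm_nonneg _)]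
  · have hb := norm_inv_smul_self hne
    have h1 := hg.norm_eq_add_smul hb he ‖z‖
    rw [abs_norm] at h1
    exact h1

/-- The side formula along the segment between two opposite poles. -/
lemma side_smul (hg : MIso g) {a : X} (ha : ‖a‖ = 1) {b : H} (hb : ‖b‖ = 1) {t : ℝ}
    (ht : |t| ≤ 1) : g a (t • b) = g a 0 + t • g 0 b := by
  have h0 : ‖(0 : H)‖ ≤ 1 := by simp
  have hmem := hg.equator_mem ha
  have hna : ‖g a 0‖ = 1 := hg.norm_map a 0 (msum_side ha h0)
  have hnb : ‖-b‖ = 1 := by rw [norm_neg]; exact hb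
  have ht' := abs_le.mp ht
  rcases eq_or_lt_of_le ht with hteq | htlt
  · rcases (abs_eq (by norm_num : (0 : ℝ) ≤ 1)).mp hteq with h1 | h1
    · rw [h1, one_smul, one_smul]; exact hg.corner ha hb
    · rw [h1, neg_one_smul, neg_one_smul, ← hg.pole_neg hb]; exact hg.corner ha hnb
  have htlt' := abs_lt.mp htlt
  have hw : ‖g a 0 + t • g 0 b‖ = 1 := by
    rw [hg.norm_eq_add_smul hb hmem t, hna]; exact max_eq_left ht
  obtain ⟨x', z', h', hgx'⟩ := hg.surj _ hw
  have test1 : ∀ a' : X, ‖a'‖ = 1 → max ‖x' - a'‖ ‖z' - b‖ = max ‖a - a'‖ (1 - t) := by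
    intro a' ha'
    rw [← hg.dist_map x' z' a' b h' (msum_cap ha'.le hb), hgx', hg.corner ha' hb]
    have e : g a 0 + t • g 0 b - (g a' 0 + g 0 b) = (g a 0 - g a' 0) + (t - 1) • g 0 b := by
      module
    rw [e, hg.norm_eq_add_smul hb ((eqSub g).sub_mem hmem (hg.equator_mem ha')) (t - 1),
      hg.dist_map _ _ _ _ (msum_side ha h0) (msum_side ha' h0), sub_self, norm_zero,
      max_eq_left (norm_nonneg _), abs_of_nonpos (by linarith), neg_sub]
  have test2 : ∀ a' : X, ‖a'‖ = 1 → max ‖x' - a'‖ ‖z' + b‖ = max ‖a - a'‖ (1 + t) := by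
    intro a' ha'
    rw [← sub_neg_eq_add z' b, ← hg.dist_map x' z' a' (-b) h' (msum_cap_neg ha'.le hb), hgx',
      hg.corner ha' hnb, hg.pole_neg hb]
    have e : g a 0 + t • g 0 b - (g a' 0 + -g 0 b) = (g a 0 - g a' 0) + (1 + t) • g 0 b := by
      module
    rw [e, hg.norm_eq_add_smul hb ((eqSub g).sub_mem hmem (hg.equator_mem ha')) (1 + t),
      hg.dist_map _ _ _ _ (msum_side ha h0) (msum_side ha' h0), sub_self, norm_zero,
      max_eq_left (norm_nonneg _), abs_of_nonneg (by linarith)]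
  have hzb1 : ‖z' - b‖ ≤ 1 - t := by
    have h1 := test1 a ha
    rw [sub_self, norm_zero, max_eq_right (by linarith : (0 : ℝ) ≤ 1 - t)] at h1
    rw [← h1]; exact le_max_right _ _
  have hzb2 : ‖z' + b‖ ≤ 1 + t := by
    have h1 := test2 a ha
    rw [sub_self, norm_zero, max_eq_right (by linarith : (0 : ℝ) ≤ 1 + t)] at h1
    rw [← h1]; exact le_max_right _ _
  have hz' : z' = t • b := by
    have h2b : ‖(b - z') + (b + z')‖ = 2 := by
      have e : (b - z') + (b + z') = (2 : ℝ) • b := by rw [two_smul]; abel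
      rw [e, norm_smul, hb]; norm_num
    have h3 := norm_add_le (b - z') (b + z')
    have h4 : ‖b - z'‖ ≤ 1 - t := by rw [norm_sub_rev]; exact hzb1
    have h5 : ‖b + z'‖ ≤ 1 + t := by rw [add_comm]; exact hzb2
    have h6 : ‖b - z'‖ = 1 - t := by linarith
    have h7 : ‖b + z'‖ = 1 + t := by linarith
    have hray : SameRay ℝ (b - z') (b + z') :=
      sameRay_iff_norm_add.mpr (by rw [h2b, h6, h7]; ring)
    have h8 := hray.norm_smul_eq
    rw [h6, h7] at h8
    have h9 : (2 : ℝ) • z' = (2 : ℝ) • (t • b) := by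
      have h10 : (1 - t) • (b + z') - (1 + t) • (b - z') = 0 := by rw [h8, sub_self]
      have e : (2 : ℝ) • z' - (2 : ℝ) • (t • b) = (1 - t) • (b + z') - (1 + t) • (b - z') := by
        module
      exact sub_eq_zero.mp (by rw [e, h10])
    exact smul_right_injective H (by norm_num : (2 : ℝ) ≠ 0) h9
  have hz'n : ‖z'‖ < 1 := by
    rw [hz', norm_smul, hb, mul_one, Real.norm_eq_abs]; exact htlt
  have hx'1 : ‖x'‖ = 1 := msum_left_eq h' hz'n
  have hzb : ‖z' - b‖ = 1 - t := by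
    have e : z' - b = (t - 1) • b := by rw [hz']; module
    rw [e, norm_smul, hb, mul_one, Real.norm_eq_abs, abs_of_nonpos (by linarith), neg_sub]
  have hzb' : ‖z' + b‖ = 1 + t := by
    have e : z' + b = (1 + t) • b := by rw [hz']; module
    rw [e, norm_smul, hb, mul_one, Real.norm_eq_abs, abs_of_nonneg (by linarith)]
  have hx'a : x' = a := by
    rcases le_total 0 t with h0t | h0t
    · refine eq_of_max_dist_sphere ha hx'1 (by linarith : (0 : ℝ) ≤ 1 - t) (by linarith)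
        fun a' ha' => ?_
      have h1 := test1 a' ha'
      rwa [hzb] at h1
    · refine eq_of_max_dist_sphere ha hx'1 (by linarith : (0 : ℝ) ≤ 1 + t) (by linarith)
        fun a' ha' => ?_
      have h1 := test2 a' ha'
      rwa [hzb'] at h1
  rw [← hgx', hx'a, hz']

/-- The side formula. -/
lemma side (hg : MIso g) {a : X} (ha : ‖a‖ = 1) {z : H} (hz : ‖z‖ ≤ 1) :
    g a z = g a 0 + poleMap g z := by
  rcases eq_or_ne z 0 with rfl | hne
  · rw [poleMap_zero, add_zero]
  · have hb := norm_inv_smul_self hne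
    have h1 := hg.side_smul ha hb (t := ‖z‖) (by rw [abs_norm]; exact hz)
    rw [norm_smul_inv_smul_self] at h1
    rw [h1]; rfl

/-- The pole map preserves midpoints of points of the unit ball. -/
lemma poleMap_mid (hg : MIso g) {a₀ : X} (ha₀ : ‖a₀‖ = 1) {z z' : H} (hz : ‖z‖ ≤ 1)
    (hz' : ‖z'‖ ≤ 1) :
    poleMap g ((1 / 2 : ℝ) • (z + z')) = (1 / 2 : ℝ) • (poleMap g z + poleMap g z') := by
  rcases eq_or_ne z z' with rfl | hne
  · have e : (1 / 2 : ℝ) • (z + z) = z := by module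
    rw [e]; module
  have h0 : ‖(0 : H)‖ ≤ 1 := by simp
  have hb₀ : ‖‖z - z'‖⁻¹ • (z - z')‖ = 1 := norm_inv_smul_self (sub_ne_zero.mpr hne)
  have key : ∀ a : X, ‖a‖ = 1 → ∃ x' : X, ‖x'‖ = 1 ∧ g a 0 - g x' 0 =
      poleMap g ((1 / 2 : ℝ) • (z + z')) - (1 / 2 : ℝ) • (poleMap g z + poleMap g z') := by
    intro a ha
    have hna : ‖-a‖ = 1 := by rw [norm_neg]; exact ha
    have hnz' : ‖-z'‖ ≤ 1 := by rw [norm_neg]; exact hz'
    have hsum : ‖g a z + g a z'‖ = 2 := by
      have e : g a z + g a z' = g a z - g (-a) (-z') := by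
        rw [hg.side ha hz', hg.side hna hnz', hg.equator_neg ha hb₀, hg.poleMap_neg]; abel
      rw [e, hg.dist_map _ _ _ _ (msum_side ha hz) (msum_side hna hnz')]
      have e2 : a - -a = (2 : ℝ) • a := by rw [two_smul]; abel
      have h1 : ‖z - -z'‖ ≤ 2 := by
        have h2 := norm_sub_le z (-z')
        rw [norm_neg] at h2; linarith
      have h3 : ‖a - -a‖ = 2 := by rw [e2, norm_smul, ha]; norm_num
      rw [h3]; exact max_eq_left h1
    obtain ⟨w, hwdef⟩ : ∃ w : Y, w = (1 / 2 : ℝ) • (g a z + g a z') := ⟨_, rfl⟩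
    have hw1 : ‖w‖ = 1 := by rw [hwdef, norm_smul, hsum]; norm_num
    obtain ⟨x', z'', h', hgx'⟩ := hg.surj w hw1
    have hd1 : ‖w - g a z‖ = ‖z - z'‖ / 2 := by
      have e : w - g a z = (1 / 2 : ℝ) • (g a z' - g a z) := by rw [hwdef]; module
      rw [e, norm_smul, hg.dist_map _ _ _ _ (msum_side ha hz') (msum_side ha hz), sub_self,
        norm_zero, max_eq_right (norm_nonneg _), Real.norm_eq_abs,
        abs_of_pos (by norm_num : (0 : ℝ) < 1 / 2), norm_sub_rev]
      ring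
    have hd2 : ‖w - g a z'‖ = ‖z - z'‖ / 2 := by
      have e : w - g a z' = (1 / 2 : ℝ) • (g a z - g a z') := by rw [hwdef]; module
      rw [e, norm_smul, hg.dist_map _ _ _ _ (msum_side ha hz) (msum_side ha hz'), sub_self,
        norm_zero, max_eq_right (norm_nonneg _), Real.norm_eq_abs,
        abs_of_pos (by norm_num : (0 : ℝ) < 1 / 2)]
      ring
    have h1 : ‖z'' - z‖ ≤ ‖z - z'‖ / 2 := by
      rw [← hgx', hg.dist_map _ _ _ _ h' (msum_side ha hz)] at hd1
      rw [← hd1]; exact le_max_right _ _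
    have h2 : ‖z'' - z'‖ ≤ ‖z - z'‖ / 2 := by
      rw [← hgx', hg.dist_map _ _ _ _ h' (msum_side ha hz')] at hd2
      rw [← hd2]; exact le_max_right _ _
    have hmid : z'' = (1 / 2 : ℝ) • (z + z') := by
      have h3 : ‖(z'' - z') + (z - z'')‖ = ‖z - z'‖ := by congr 1; abel
      have h4 := norm_add_le (z'' - z') (z - z'')
      have h5 : ‖z - z''‖ ≤ ‖z - z'‖ / 2 := by rw [norm_sub_rev]; exact h1
      have h6 : ‖z'' - z'‖ = ‖z - z'‖ / 2 := by linarith
      have h7 : ‖z - z''‖ = ‖z - z'‖ / 2 := by linarith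
      have h8 : z'' - z' = z - z'' :=
        eq_of_norm_eq_of_norm_add_eq (by rw [h6, h7]) (by rw [h3, h6, h7]; ring)
      have h9 : (2 : ℝ) • z'' = z + z' := by
        have h10 : (z'' - z') - (z - z'') = 0 := by rw [h8, sub_self]
        have e : (2 : ℝ) • z'' - (z + z') = (z'' - z') - (z - z'') := by module
        exact sub_eq_zero.mp (by rw [e, h10])
      rw [← h9, smul_smul]; norm_num
    have hz''lt : ‖z''‖ < 1 := by
      rw [hmid, smul_add]
      exact norm_combo_lt_of_ne hz hz' hne (by norm_num) (by norm_num) (by norm_num)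
    have hx'1 : ‖x'‖ = 1 := msum_left_eq h' hz''lt
    refine ⟨x', hx'1, ?_⟩
    have h10 := hg.side hx'1 hz''lt.le
    rw [hgx', hwdef, hg.side ha hz, hg.side ha hz', hmid] at h10
    have e : g a 0 = (1 / 2 : ℝ) • (g a 0 + poleMap g z + (g a 0 + poleMap g z')) -
        (1 / 2 : ℝ) • (poleMap g z + poleMap g z') := by module
    rw [e, h10]; abel
  obtain ⟨δ, hδ⟩ : ∃ δ : Y, δ = poleMap g ((1 / 2 : ℝ) • (z + z')) -
      (1 / 2 : ℝ) • (poleMap g z + poleMap g z') := ⟨_, rfl⟩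
  rw [← hδ] at key
  suffices hδ0 : δ = 0 by
    rw [hδ] at hδ0; exact sub_eq_zero.mp hδ0
  by_contra hne0
  obtain ⟨x₀, hx₀, hk₀⟩ := key a₀ ha₀
  have hmem : δ ∈ eqSub g := by
    rw [← hk₀]; exact (eqSub g).sub_mem (hg.equator_mem ha₀) (hg.equator_mem hx₀)
  have hpos : 0 < ‖δ‖ := norm_pos_iff.mpr hne0
  have hu : ‖-(‖δ‖⁻¹ • δ)‖ = 1 := by rw [norm_neg]; exact norm_inv_smul_self hne0
  obtain ⟨a₁, ha₁, hga₁⟩ :=
    hg.exists_equator_of_mem ((eqSub g).neg_mem ((eqSub g).smul_mem _ hmem)) hu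
  obtain ⟨x₁, hx₁, hk₁⟩ := key a₁ ha₁
  have h1 : ‖g a₁ 0 - δ‖ = 1 := by
    have e : g a₁ 0 - δ = g x₁ 0 := by rw [← hk₁]; abel
    rw [e]; exact hg.norm_map x₁ 0 (msum_side hx₁ h0)
  have e : g a₁ 0 - δ = (-(‖δ‖⁻¹ + 1)) • δ := by rw [hga₁]; module
  rw [e, norm_smul, Real.norm_eq_abs, abs_neg, abs_of_pos (by positivity), add_mul,
    inv_mul_cancel₀ hpos.ne', one_mul] at h1
  linarith

/-- The pole map is additive. -/
lemma poleMap_add (hg : MIso g) {a₀ : X} (ha₀ : ‖a₀‖ = 1) (z z' : H) :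
    poleMap g (z + z') = poleMap g z + poleMap g z' := by
  obtain ⟨M, hM⟩ : ∃ M : ℝ, M = ‖z‖ + ‖z'‖ + 1 := ⟨_, rfl⟩
  have hMpos : 0 < M := by rw [hM]; positivity
  have hu : ‖M⁻¹ • z‖ ≤ 1 := by
    rw [norm_smul, norm_inv, Real.norm_eq_abs, abs_of_pos hMpos, inv_mul_le_iff₀ hMpos, mul_one,
      hM]
    linarith [norm_nonneg z']
  have hu' : ‖M⁻¹ • z'‖ ≤ 1 := by
    rw [norm_smul, norm_inv, Real.norm_eq_abs, abs_of_pos hMpos, inv_mul_le_iff₀ hMpos, mul_one,
      hM]
    linarith [norm_nonneg z]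
  have h1 := hg.poleMap_mid ha₀ hu hu'
  have e : (1 / 2 : ℝ) • (M⁻¹ • z + M⁻¹ • z') = (M⁻¹ / 2) • (z + z') := by module
  rw [e, hg.poleMap_smul, hg.poleMap_smul, hg.poleMap_smul] at h1
  have h2 : (M⁻¹ / 2) • poleMap g (z + z') = (M⁻¹ / 2) • (poleMap g z + poleMap g z') := by
    rw [h1]; module
  exact smul_right_injective Y (by positivity : M⁻¹ / 2 ≠ 0) h2

lemma poleMap_sub (hg : MIso g) {a₀ : X} (ha₀ : ‖a₀‖ = 1) (z z' : H) :
    poleMap g (z - z') = poleMap g z - poleMap g z' := by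
  rw [sub_eq_add_neg, hg.poleMap_add ha₀, hg.poleMap_neg, ← sub_eq_add_neg]

end MIso

end Vale.Agent.H23
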