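import Vale.Agent.H23.L1Core
import Vale.Agent.H23.Chain

/-!
# The general `ℓ¹`-sum theorem

Let `g : X₁ → X₂ → Y` restrict to a surjective isometry from the unit sphere of `X₁ ⊕₁ X₂` onto
the unit sphere of `Y` (`X₁`, `X₂` arbitrary nontrivial real normed spaces). For every pole
`(0, b)` and every `t`, the points of the straight segments from the images of the poles `(a, 0)`
to the image of `(0, b)` at parameter `t` are the images of points `(c, d)` whose second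
coordinate `d` does not depend on `a`. This gives the key norm identity
`‖G₁ a + G₁ a' - s • g 0 b‖ = ‖a + a'‖ + s` for `‖a‖ = ‖a'‖`, hence the image of the first summand
is a closed subspace.
-/

namespace Vale.Agent.H23

section Weak

variable {X₁ X₂ Y : Type*} [NormedAddCommGroup X₁] [NormedSpace ℝ X₁]
  [NormedAddCommGroup X₂] [NormedSpace ℝ X₂] [NormedAddCommGroup Y] [NormedSpace ℝ Y]
  [Nontrivial X₁] [Nontrivial X₂] {g : X₁ → X₂ → Y}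

/-- The preimage of a point of the straight segment from `g a 0` to `g 0 b`. -/
lemma L1Iso.exists_preimage_seg (hg : L1Iso g) {a : X₁} (ha : ‖a‖ = 1) {b : X₂} (hb : ‖b‖ = 1)
    {t : ℝ} (ht0 : 0 < t) (ht1 : t < 1) :
    ∃ (c : X₁) (d : X₂), ‖c‖ = 1 - t ∧ ‖d‖ = t ∧ ‖c - a‖ = t ∧ ‖d - b‖ = 1 - t ∧
      g c d = (1 - t) • g a 0 + t • g 0 b := by
  have h1t : 0 < 1 - t := by linarith
  have hu : ‖g a 0‖ = 1 := hg.norm_map a 0 (by simp [ha])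
  have hv : ‖g 0 b‖ = 1 := hg.norm_map 0 b (by simp [hb])
  have hn : ‖(1 - t) • g a 0 + t • g 0 b‖ = 1 := by
    rw [norm_nonneg_combo hu hv (hg.norm_pole_add ha hb) h1t.le ht0.le]; ring
  obtain ⟨c, d, hcd, hgcd⟩ := hg.surj _ hn
  have huv : ‖g 0 b - g a 0‖ = 2 := by
    rw [hg.dist_map 0 b a 0 (by simp [hb]) (by simp [ha]), zero_sub, norm_neg, sub_zero, ha,
      hb]; norm_num
  have hd1 : ‖c - a‖ + ‖d‖ = 2 * t := by
    have h := hg.dist_map c d a 0 hcd (by simp [ha])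
    rw [hgcd, sub_zero] at h
    rw [← h]
    have e : (1 - t) • g a 0 + t • g 0 b - g a 0 = t • (g 0 b - g a 0) := by module
    rw [e, norm_smul, huv, Real.norm_eq_abs, abs_of_pos ht0]; ring
  have hd2 : ‖c‖ + ‖d - b‖ = 2 * (1 - t) := by
    have h := hg.dist_map c d 0 b hcd (by simp [hb])
    rw [hgcd, sub_zero] at h
    rw [← h]
    have e : (1 - t) • g a 0 + t • g 0 b - g 0 b = (-(1 - t)) • (g 0 b - g a 0) := by module
    rw [e, norm_smul, huv, Real.norm_eq_abs, abs_neg, abs_of_pos h1t]; ring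
  have e1 : 1 - ‖c‖ ≤ ‖c - a‖ := by
    have := norm_sub_norm_le a c
    rw [ha, norm_sub_rev] at this
    exact this
  have e2 : 1 - ‖d‖ ≤ ‖d - b‖ := by
    have := norm_sub_norm_le b d
    rw [hb, norm_sub_rev] at this
    exact this
  exact ⟨c, d, by linarith, by linarith, by linarith, by linarith, hgcd⟩

/-- The weak pole property: for every pole `(0, b)` and every `t`, the preimages of the points at
parameter `t` of the straight segments from `g a 0` to `g 0 b` have a common second coordinate. -/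
lemma L1Iso.wpole (hg : L1Iso g) {b : X₂} (hb : ‖b‖ = 1) {t : ℝ} (ht0 : 0 < t) (ht1 : t < 1) :
    ∃ d : X₂, ‖d‖ = t ∧ ‖d - b‖ = 1 - t ∧ ∀ a : X₁, ‖a‖ = 1 → ∃ c : X₁, ‖c‖ = 1 - t ∧
      ‖c - a‖ = t ∧ g c d = (1 - t) • g a 0 + t • g 0 b := by
  have h1t : 0 < 1 - t := by linarith
  have hex : ∀ a : X₁, ‖a‖ = 1 → ∃ (d : X₂) (c : X₁), ‖c‖ = 1 - t ∧ ‖d‖ = t ∧ ‖c - a‖ = t ∧
      ‖d - b‖ = 1 - t ∧ g c d = (1 - t) • g a 0 + t • g 0 b := by
    intro a ha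
    obtain ⟨c, d, h⟩ := hg.exists_preimage_seg ha hb ht0 ht1
    exact ⟨d, c, h⟩
  choose! D C hC1 hD1 hC2 hD2 hgCD using hex
  have hbound : ∀ a a' : X₁, ‖a‖ = 1 → ‖a'‖ = 1 → ‖D a - D a'‖ ≤ t * (2 - ‖a - a'‖) := by
    intro a a' ha ha'
    have h := hg.dist_map (C a) (D a) (C a') (D a') (by rw [hC1 a ha, hD1 a ha]; ring)
      (by rw [hC1 a' ha', hD1 a' ha']; ring)
    rw [hgCD a ha, hgCD a' ha'] at h
    have e : (1 - t) • g a 0 + t • g 0 b - ((1 - t) • g a' 0 + t • g 0 b)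
        = (1 - t) • (g a 0 - g a' 0) := by module
    rw [e, norm_smul, hg.dist_map a 0 a' 0 (by simp [ha]) (by simp [ha']), sub_self, norm_zero,
      add_zero, Real.norm_eq_abs, abs_of_pos h1t] at h
    have h3 : ‖a - a'‖ ≤ ‖a - C a‖ + ‖C a - C a'‖ + ‖C a' - a'‖ := by
      have e3 : a - a' = (a - C a) + (C a - C a') + (C a' - a') := by abel
      rw [e3]
      exact (norm_add_le _ _).trans (add_le_add_left (norm_add_le _ _) _)
    rw [norm_sub_rev a (C a), hC2 a ha, hC2 a' ha'] at h3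
    nlinarith
  have heven : ∀ a : X₁, ‖a‖ = 1 → D (-a) = D a := by
    intro a ha
    have h := hbound (-a) a (by rw [norm_neg]; exact ha) ha
    have e : -a - a = (-2 : ℝ) • a := by module
    rw [e, norm_smul, ha, Real.norm_eq_abs] at h
    have e2 : |(-2 : ℝ)| = 2 := by norm_num
    rw [e2] at h
    have h0 : ‖D (-a) - D a‖ ≤ 0 := by linarith
    exact sub_eq_zero.mp (norm_eq_zero.mp (le_antisymm h0 (norm_nonneg _)))
  obtain ⟨D', hD'⟩ : ∃ D' : X₁ → X₂, D' = fun a => D a := ⟨_, rfl⟩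
  have hgap : ∀ x y : X₁, ‖x‖ = 1 → ‖y‖ = 1 → ‖D x - D y‖ ≤ t * (2 - ‖x + y‖) := by
    intro x y hx hy
    have h := hbound x (-y) hx (by rw [norm_neg]; exact hy)
    rw [heven y hy, sub_neg_eq_add] at h
    exact h
  obtain ⟨a₀, ha₀⟩ : ∃ a₀ : X₁, ‖a₀‖ = 1 := by
    obtain ⟨e, he⟩ := exists_ne (0 : X₁)
    exact ⟨‖e‖⁻¹ • e, norm_inv_smul_self he⟩
  refine ⟨D a₀, hD1 a₀ ha₀, hD2 a₀ ha₀, fun a ha => ?_⟩
  have hDa : D a = D a₀ := by
    by_cases hne : a + a₀ = 0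
    · have : a = -a₀ := eq_neg_of_add_eq_zero_left hne
      rw [this, heven a₀ ha₀]
    · exact eq_of_gap_bound D ht0.le hgap ha ha₀ hne
  exact ⟨C a, hC1 a ha, hC2 a ha, by rw [← hDa]; exact hgCD a ha⟩

/-- The key estimate, for every pole of the second summand. -/
lemma L1Iso.norm_G₁_add_sub' (hg : L1Iso g) {a a' : X₁} (haa : ‖a‖ = ‖a'‖) {b : X₂}
    (hb : ‖b‖ = 1) {s : ℝ} (hs : 0 ≤ s) :
    ‖G₁ g a + G₁ g a' - s • g 0 b‖ = ‖a + a'‖ + s := by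
  have hv : ‖g 0 b‖ = 1 := hg.norm_map 0 b (by simp [hb])
  by_cases ha : a = 0
  · have ha' : a' = 0 := by
      rw [ha, norm_zero] at haa
      exact norm_eq_zero.mp haa.symm
    rw [ha, ha', G₁_map_zero, add_zero, zero_sub, norm_neg, norm_smul, hv, mul_one,
      Real.norm_eq_abs, abs_of_nonneg hs, add_zero, norm_zero, zero_add]
  have ha' : a' ≠ 0 := by
    intro h0
    rw [h0, norm_zero] at haa
    exact ha (norm_eq_zero.mp haa)
  have hapos : 0 < ‖a‖ := norm_pos_iff.mpr ha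
  obtain ⟨â, hâ⟩ : ∃ â : X₁, â = ‖a‖⁻¹ • a := ⟨_, rfl⟩
  obtain ⟨â', hâ'⟩ : ∃ â' : X₁, â' = ‖a'‖⁻¹ • a' := ⟨_, rfl⟩
  have hâ1 : ‖â‖ = 1 := by rw [hâ]; exact norm_inv_smul_self ha
  have hâ'1 : ‖â'‖ = 1 := by rw [hâ']; exact norm_inv_smul_self ha'
  have hnâ1 : ‖-â‖ = 1 := by rw [norm_neg]; exact hâ1
  have hnâ'1 : ‖-â'‖ = 1 := by rw [norm_neg]; exact hâ'1
  have hG : G₁ g a = ‖a‖ • g â 0 := by rw [hâ]; rfl
  have hG' : G₁ g a' = ‖a‖ • g â' 0 := by rw [hâ', haa]; rfl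
  have hsum : ‖a‖ • (â + â') = a + a' := by
    rw [hâ, hâ', ← haa, smul_add, norm_smul_inv_smul_self]
    congr 1
    rw [haa, norm_smul_inv_smul_self]
  rcases eq_or_lt_of_le hs with hs0 | hspos
  · rw [← hs0, zero_smul, sub_zero, add_zero, hG, hG', ← smul_add, norm_smul, norm_norm]
    have h := hg.dist_map â 0 (-â') 0 (by simp [hâ1]) (by simp [hâ'1])
    rw [hg.neg_fst hâ'1, sub_neg_eq_add, sub_neg_eq_add, sub_self, norm_zero, add_zero] at h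
    rw [h, ← hsum, norm_smul, norm_norm]
  obtain ⟨ρ, hρ⟩ : ∃ ρ : ℝ, ρ = ‖a‖ + s / 2 := ⟨_, rfl⟩
  have hρpos : 0 < ρ := by rw [hρ]; linarith
  obtain ⟨τ, hτ⟩ : ∃ τ : ℝ, τ = s / 2 / ρ := ⟨_, rfl⟩
  have hτ0 : 0 < τ := by rw [hτ]; positivity
  have hτ1 : τ < 1 := by
    rw [hτ, div_lt_one hρpos, hρ]; linarith
  have hρτ : ρ * τ = s / 2 := by rw [hτ]; field_simp
  have hρ1τ : ρ * (1 - τ) = ‖a‖ := by rw [mul_sub, hρτ, hρ]; ring
  obtain ⟨d, hd1, -, hd⟩ := hg.wpole hb hτ0 hτ1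
  obtain ⟨c₁, hc₁n, -, hc₁⟩ := hd (-â) hnâ1
  obtain ⟨c₂, hc₂n, -, hc₂⟩ := hd (-â') hnâ'1
  obtain ⟨c₃, hc₃n, -, hc₃⟩ := hd â hâ1
  rw [hg.neg_fst hâ1] at hc₁
  rw [hg.neg_fst hâ'1] at hc₂
  have hs1 : ‖c₁‖ + ‖d‖ = 1 := by rw [hc₁n, hd1]; ring
  have hs2 : ‖c₂‖ + ‖d‖ = 1 := by rw [hc₂n, hd1]; ring
  have hs3 : ‖c₃‖ + ‖d‖ = 1 := by rw [hc₃n, hd1]; ring
  have hs1' : ‖-c₁‖ + ‖-d‖ = 1 := by rw [norm_neg, norm_neg]; exact hs1
  have hneg := hg.map_neg_neg hs1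
  -- `c₃ = -c₁`
  have hc31 : c₃ = -c₁ := by
    have h := hg.dist_map c₃ d (-c₁) (-d) hs3 hs1'
    rw [hc₃, hneg, hc₁] at h
    have e : (1 - τ) • g â 0 + τ • g 0 b - -((1 - τ) • -g â 0 + τ • g 0 b)
        = (2 * τ) • g 0 b := by module
    have e2 : d - -d = (2 : ℝ) • d := by module
    rw [e, norm_smul, hv, e2, norm_smul, hd1, Real.norm_eq_abs, Real.norm_eq_abs,
      abs_of_pos (by linarith : (0 : ℝ) < 2 * τ), abs_of_pos (by norm_num : (0 : ℝ) < 2),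
      sub_neg_eq_add] at h
    have h0 : ‖c₃ + c₁‖ = 0 := by linarith
    exact eq_neg_of_add_eq_zero_left (norm_eq_zero.mp h0)
  -- `‖c₁ + c₂‖`
  have hc12 : ‖c₁ + c₂‖ = (1 - τ) * ‖â + â'‖ := by
    have h := hg.dist_map c₂ d c₃ d hs2 hs3
    rw [hc₂, hc₃, sub_self, norm_zero, add_zero] at h
    have e : (1 - τ) • -g â' 0 + τ • g 0 b - ((1 - τ) • g â 0 + τ • g 0 b)
        = (1 - τ) • (g (-â') 0 - g â 0) := by rw [hg.neg_fst hâ'1]; module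
    rw [e, norm_smul, hg.dist_map (-â') 0 â 0 (by simp [hâ'1]) (by simp [hâ1]), sub_self,
      norm_zero, add_zero, Real.norm_eq_abs, abs_of_pos (by linarith : (0 : ℝ) < 1 - τ),
      hc31] at h
    have e3 : c₂ - -c₁ = c₁ + c₂ := by abel
    have e4 : -â' - â = -(â + â') := by abel
    rw [e3, e4, norm_neg] at h
    exact h.symm
  have hd := hg.dist_map (-c₁) (-d) c₂ d hs1' hs2
  rw [hneg, hc₁, hc₂] at hd
  have e1 : G₁ g a + G₁ g a' - s • g 0 b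
      = ρ • (-((1 - τ) • -g â 0 + τ • g 0 b) - ((1 - τ) • -g â' 0 + τ • g 0 b)) := by
    rw [hG, hG', ← hρ1τ]
    have hs2 : s = 2 * (ρ * τ) := by rw [hρτ]; ring
    nth_rewrite 1 [hs2]
    module
  have e5 : -c₁ - c₂ = -(c₁ + c₂) := by abel
  have e6 : -d - d = (-2 : ℝ) • d := by module
  rw [e1, norm_smul, hd, e5, norm_neg, hc12, e6, norm_smul, hd1, Real.norm_eq_abs,
    Real.norm_eq_abs, abs_of_pos hρpos]
  have e7 : |(-2 : ℝ)| = 2 := by norm_num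
  rw [e7]
  have e8 : ρ * ((1 - τ) * ‖â + â'‖ + 2 * τ) = (ρ * (1 - τ)) * ‖â + â'‖ + 2 * (ρ * τ) := by ring
  rw [e8, hρ1τ, hρτ, ← hsum, norm_smul, norm_norm]
  ring

/-- Sums of two elements of the same norm of the image of the first summand stay in it. -/
lemma L1Iso.G₁_add_mem' (hg : L1Iso g) {a a' : X₁} (haa : ‖a‖ = ‖a'‖) :
    ∃ c, G₁ g a + G₁ g a' = G₁ g c := by
  by_cases hw : G₁ g a + G₁ g a' = 0
  · exact ⟨0, by rw [hw, G₁_map_zero]⟩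
  obtain ⟨σ, hσ⟩ : ∃ σ : ℝ, σ = ‖G₁ g a + G₁ g a'‖ := ⟨_, rfl⟩
  have hσpos : 0 < σ := by rw [hσ]; exact norm_pos_iff.mpr hw
  have hunit : ‖σ⁻¹ • (G₁ g a + G₁ g a')‖ = 1 := by
    rw [hσ]; exact norm_inv_smul_self hw
  obtain ⟨c, d, hcd, hgcd⟩ := hg.surj _ hunit
  have hd : d = 0 := by
    by_contra hd0
    have hb1 : ‖‖d‖⁻¹ • d‖ = 1 := norm_inv_smul_self hd0
    have hkey := hg.norm_G₁_add_sub' haa hb1 hσpos.le
    have hkey0 := hg.norm_G₁_add_sub' haa hb1 (le_refl (0 : ℝ))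
    rw [zero_smul, sub_zero, add_zero, ← hσ] at hkey0
    have h1 := hg.dist_map c d 0 (‖d‖⁻¹ • d) hcd (by simp [hb1])
    rw [hgcd, sub_zero] at h1
    have e : σ⁻¹ • (G₁ g a + G₁ g a') - g 0 (‖d‖⁻¹ • d)
        = σ⁻¹ • (G₁ g a + G₁ g a' - σ • g 0 (‖d‖⁻¹ • d)) := by
      rw [smul_sub, smul_smul, inv_mul_cancel₀ hσpos.ne', one_smul]
    rw [e, norm_smul, hkey, ← hkey0, Real.norm_eq_abs, abs_of_pos (inv_pos.mpr hσpos)] at h1
    have e2 : σ⁻¹ * (σ + σ) = 2 := by field_simp; ring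
    rw [e2, norm_sub_inv_smul_self hd0 (by linarith [norm_nonneg c])] at h1
    have hdpos : 0 < ‖d‖ := norm_pos_iff.mpr hd0
    linarith
  subst hd
  have hc1 : ‖c‖ = 1 := by simpa using hcd
  refine ⟨σ • c, ?_⟩
  rw [hg.G₁_hom, G₁_unit g hc1, hgcd, smul_smul, mul_inv_cancel₀ hσpos.ne', one_smul]

/-- Additivity of the homogeneous extension of `g` on the first summand, when the first summand
has the Mazur-Ulam property for closed subspaces of `Y` as targets. -/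
lemma L1Iso.G₁_add' (hg : L1Iso g)
    (hM : ∀ (Z : Submodule ℝ Y), IsClosed (Z : Set Y) → ∀ k : X₁ → Z,
      (∀ a, ‖a‖ = 1 → ‖k a‖ = 1) → (∀ a b, ‖a‖ = 1 → ‖b‖ = 1 → ‖k a - k b‖ = ‖a - b‖) →
      (∀ w : Z, ‖w‖ = 1 → ∃ a, ‖a‖ = 1 ∧ k a = w) →
      ∃ T : X₁ ≃ₗᵢ[ℝ] Z, ∀ a, ‖a‖ = 1 → T a = k a) (a a' : X₁) :
    G₁ g (a + a') = G₁ g a + G₁ g a' := by
  refine additive_of_eqsum hg.G₁_hom hg.G₁_nrm hg.isClosed_range_G₁_gen
    (fun a a' haa => hg.G₁_add_mem' haa) ?_ hM a a'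
  intro a b ha hb
  rw [G₁_unit g ha, G₁_unit g hb, hg.dist_map a 0 b 0 (by simp [ha]) (by simp [hb])]
  simp

/-- If the homogeneous extensions of `g` on both summands are additive, then `g` is the
restriction of a linear isometry. -/
theorem L1Iso.exists_linearIsometryEquiv_of_add (hg : L1Iso g)
    (hadd₁ : ∀ a a', G₁ g (a + a') = G₁ g a + G₁ g a')
    (hadd₂ : ∀ b b', G₂ g (b + b') = G₂ g b + G₂ g b') :
    ∃ T : WithLp 1 (X₁ × X₂) ≃ₗᵢ[ℝ] Y,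
      ∀ x : WithLp 1 (X₁ × X₂), ‖x‖ = 1 → T x = g x.fst x.snd := by
  have hsub₁ : ∀ a a', G₁ g (a - a') = G₁ g a - G₁ g a' := by
    intro a a'
    have := hadd₁ (a - a') a'
    rw [sub_add_cancel] at this
    rw [this]; abel
  have hsub₂ : ∀ b b', G₂ g (b - b') = G₂ g b - G₂ g b' := by
    intro b b'
    have := hadd₂ (b - b') b'
    rw [sub_add_cancel] at this
    rw [this]; abel
  have hsph : ∀ (c : X₁) (d : X₂), ‖c‖ + ‖d‖ = 1 → G₁ g c + G₂ g d = g c d := by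
    intro c d hcd
    have hn : ‖G₁ g c + G₂ g d‖ = 1 := by rw [hg.norm_G_add, hcd]
    obtain ⟨c', d', hcd', hg'⟩ := hg.surj _ hn
    have key := eq_of_dist_poles hcd hcd' ?_ ?_
    · rw [← hg', key.1, key.2]
    · intro a ha
      have h1 := hg.dist_map c' d' a 0 hcd' (by simp [ha])
      rw [hg', sub_zero] at h1
      have e : G₁ g c + G₂ g d - g a 0 = G₁ g (c - a) + G₂ g d := by
        rw [hsub₁, G₁_unit g ha]; abel
      rw [e, hg.norm_G_add] at h1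
      linarith
    · intro b hb
      have h1 := hg.dist_map c' d' 0 b hcd' (by simp [hb])
      rw [hg', sub_zero] at h1
      have e : G₁ g c + G₂ g d - g 0 b = G₁ g c + G₂ g (d - b) := by
        rw [hsub₂, G₂_unit g hb]; abel
      rw [e, hg.norm_G_add] at h1
      linarith
  let Ψ : WithLp 1 (X₁ × X₂) → Y := fun x => G₁ g x.fst + G₂ g x.snd
  have hΨ : ∀ x x', ‖Ψ x - Ψ x'‖ = ‖x - x'‖ := by
    intro x x'
    have e : Ψ x - Ψ x' = G₁ g (x - x').fst + G₂ g (x - x').snd := by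
      simp only [Ψ, WithLp.sub_fst, WithLp.sub_snd]
      rw [hsub₁, hsub₂]; abel
    rw [e, hg.norm_G_add, WithLp.prod_norm_eq_of_L1]
  have hiso : Isometry Ψ :=
    Isometry.of_dist_eq fun x x' => by rw [dist_eq_norm, dist_eq_norm]; exact hΨ x x'
  have hsurj : Function.Surjective Ψ := by
    intro w
    by_cases hw : w = 0
    · refine ⟨0, ?_⟩
      show G₁ g (0 : WithLp 1 (X₁ × X₂)).fst + G₂ g (0 : WithLp 1 (X₁ × X₂)).snd = w
      simp [G₁_map_zero, G₂_map_zero, hw]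
    · obtain ⟨c, d, hcd, hgcd⟩ := hg.surj _ (norm_inv_smul_self hw)
      refine ⟨WithLp.toLp 1 (‖w‖ • c, ‖w‖ • d), ?_⟩
      show G₁ g (‖w‖ • c) + G₂ g (‖w‖ • d) = w
      rw [hg.G₁_hom, hg.G₂_hom, ← smul_add, hsph c d hcd, hgcd, norm_smul_inv_smul_self]
  let e : WithLp 1 (X₁ × X₂) ≃ᵢ Y := IsometryEquiv.mk' Ψ (Function.surjInv hsurj)
    (Function.surjInv_eq hsurj) hiso
  have he0 : e 0 = 0 := by
    show G₁ g (0 : WithLp 1 (X₁ × X₂)).fst + G₂ g (0 : WithLp 1 (X₁ × X₂)).snd = 0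
    simp [G₁_map_zero, G₂_map_zero]
  refine ⟨e.toRealLinearIsometryEquivOfMapZero he0, fun x hx => ?_⟩
  rw [IsometryEquiv.coe_toRealLinearIsometryEquivOfMapZero]
  show G₁ g x.fst + G₂ g x.snd = g x.fst x.snd
  rw [WithLp.prod_norm_eq_of_L1] at hx
  exact hsph _ _ hx

/-- The general `ℓ¹`-sum theorem, function form: if both summands have the Mazur-Ulam property
for closed subspaces of `Y` as targets, then `g` is the restriction of a linear isometry. -/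
theorem L1Iso.exists_linearIsometryEquiv_gen (hg : L1Iso g)
    (hM₁ : ∀ (Z : Submodule ℝ Y), IsClosed (Z : Set Y) → ∀ k : X₁ → Z,
      (∀ a, ‖a‖ = 1 → ‖k a‖ = 1) → (∀ a b, ‖a‖ = 1 → ‖b‖ = 1 → ‖k a - k b‖ = ‖a - b‖) →
      (∀ w : Z, ‖w‖ = 1 → ∃ a, ‖a‖ = 1 ∧ k a = w) →
      ∃ T : X₁ ≃ₗᵢ[ℝ] Z, ∀ a, ‖a‖ = 1 → T a = k a)
    (hM₂ : ∀ (Z : Submodule ℝ Y), IsClosed (Z : Set Y) → ∀ k : X₂ → Z,
      (∀ a, ‖a‖ = 1 → ‖k a‖ = 1) → (∀ a b, ‖a‖ = 1 → ‖b‖ = 1 → ‖k a - k b‖ = ‖a - b‖) →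
      (∀ w : Z, ‖w‖ = 1 → ∃ a, ‖a‖ = 1 ∧ k a = w) →
      ∃ T : X₂ ≃ₗᵢ[ℝ] Z, ∀ a, ‖a‖ = 1 → T a = k a) :
    ∃ T : WithLp 1 (X₁ × X₂) ≃ₗᵢ[ℝ] Y,
      ∀ x : WithLp 1 (X₁ × X₂), ‖x‖ = 1 → T x = g x.fst x.snd :=
  hg.exists_linearIsometryEquiv_of_add (hg.G₁_add' hM₁) (hg.flip.G₁_add' hM₂)

end Weak

end Vale.Agent.H23
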